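import Crest.Agent.R106.A.KerB

/-! Pointwise sizes of the pair kernels (helper37). `a = dd z V`, `b = dd z W`, `R = ‖z‖`. -/

set_option autoImplicit false

namespace Crest.Agent.R106.A
open Crest.AnalysisR.VecCalc3 Crest.AnalysisR.PDE.RVM
open scoped RealInnerProductSpace

theorem bnda_sq {z : R3} (hz : z ≠ 0) (W : R3) :
    0 < Real.sqrt (dd z W) ∧ Real.sqrt (dd z W) ^ 2 = dd z W ∧ Real.sqrt 2 * Real.sqrt (dd z W) ≤ 2 := by
  have h := dd_pos hz W
  refine ⟨Real.sqrt_pos.2 h, Real.sq_sqrt h.le, ?_⟩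
  rw [← Real.sqrt_mul (by norm_num)]
  apply Real.sqrt_le_iff.2
  refine ⟨by norm_num, ?_⟩
  have := dd_le_two hz W
  linarith

theorem bnda_inner {z : R3} (hz : z ≠ 0) (V W : R3) :
    ⟪relVel V, dir z - relVel W⟫ = dd z W - dd z V * dd z W - ⟪pp z V, pp z W⟫ := by
  have h := cc_eq hz V W
  have h1 := inner_dir_relVel z V
  have h2 : cc V W = 1 - ⟪relVel V, relVel W⟫ := rfl
  rw [inner_sub_right, real_inner_comm, h1]
  linarith

/-- Bnd-a -/
theorem norm_Gam_le {z : R3} (hz : z ≠ 0) (V W : R3) :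
    ‖Gam z V W‖ ≤ 8 / (Real.sqrt (dd z V) * Real.sqrt (dd z W) * ‖z‖) := by
  obtain ⟨hx, hx2, hx3⟩ := bnda_sq hz V
  obtain ⟨hy, hy2, hy3⟩ := bnda_sq hz W
  have hR : 0 < ‖z‖ := norm_pos_iff.2 hz
  have ha := dd_pos hz V
  have hb := dd_pos hz W
  have hs := abs_inner_pp_le hz V W
  have hpV := norm_pp_le hz V
  have hpW := norm_pp_le hz W
  have hG : Gam z V W = (dd z V * dd z W * ‖z‖)⁻¹ •
      ((dd z V * dd z W - ⟪pp z V, pp z W⟫) • dir z - dd z V • pp z W - dd z W • pp z V) := by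
    unfold Gam
    rw [cc_eq hz, relVel_decomp z V, relVel_decomp z W]
    generalize ⟪pp z V, pp z W⟫ = s
    generalize pp z V = p
    generalize pp z W = q
    generalize dir z = n at *
    match_scalars <;> field_simp <;> ring
  have hN : ‖(dd z V * dd z W - ⟪pp z V, pp z W⟫) • dir z - dd z V • pp z W - dd z W • pp z V‖ ≤
      8 * (Real.sqrt (dd z V) * Real.sqrt (dd z W)) := by
    refine (norm_sub_le _ _).trans ?_
    refine (add_le_add (norm_sub_le _ _) le_rfl).trans ?_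
    rw [norm_smul, norm_smul, norm_smul, norm_dir hz, mul_one, Real.norm_eq_abs, Real.norm_eq_abs, Real.norm_eq_abs,
      abs_of_pos ha, abs_of_pos hb]
    have h1 : |dd z V * dd z W - ⟪pp z V, pp z W⟫| ≤ dd z V * dd z W + |⟪pp z V, pp z W⟫| := by
      refine (abs_sub _ _).trans ?_
      rw [abs_of_pos (mul_pos ha hb)]
    have h2 := mul_le_mul_of_nonneg_left hpW ha.le
    have h3 := mul_le_mul_of_nonneg_left hpV hb.le
    have h22 : Real.sqrt 2 ^ 2 = 2 := Real.sq_sqrt (by norm_num)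
    have h20 : 0 < Real.sqrt 2 := Real.sqrt_pos.2 (by norm_num)
    generalize |dd z V * dd z W - ⟪pp z V, pp z W⟫| = t at *
    generalize |⟪pp z V, pp z W⟫| = s at *
    generalize Real.sqrt (dd z V) = x at *
    generalize Real.sqrt (dd z W) = y at *
    generalize Real.sqrt 2 = r at *
    clear hG
    generalize dd z V = a at *
    generalize dd z W = b at *
    subst hx2 hy2
    have hxy : 0 < x * y := mul_pos hx hy
    have h4 : x * y ≤ 2 := by
      have := mul_le_mul hx3 hy3 (by positivity) (by norm_num)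
      nlinarith
    have h5 := mul_le_mul_of_nonneg_left h4 hxy.le
    have h6 := mul_le_mul_of_nonneg_left hx3 hxy.le
    have h7 := mul_le_mul_of_nonneg_left hy3 hxy.le
    nlinarith
  rw [hG, norm_smul, Real.norm_eq_abs, abs_of_pos (by positivity)]
  refine (mul_le_mul_of_nonneg_left hN (by positivity)).trans (le_of_eq ?_)
  generalize Real.sqrt (dd z V) = x at *
  generalize Real.sqrt (dd z W) = y at *
  rw [← hx2, ← hy2]
  field_simp

/-- Bnd-a: the `T` force. -/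
theorem norm_lor_ET_le {z : R3} (hz : z ≠ 0) (V W : R3) :
    ‖lor z V (ET z W)‖ ≤ 4 * (Real.sqrt (dd z V) + Real.sqrt (dd z W)) * Real.sqrt (dd z W)
      / (en W ^ 2 * dd z W ^ 3 * ‖z‖ ^ 2) := by
  obtain ⟨hx, hx2, hx3⟩ := bnda_sq hz V
  obtain ⟨hy, hy2, hy3⟩ := bnda_sq hz W
  have hR : 0 < ‖z‖ := norm_pos_iff.2 hz
  have ha := dd_pos hz V
  have hb := dd_pos hz W
  have hM := en_pos W
  have hs := abs_inner_pp_le hz V W
  have hpW := norm_pp_le hz W
  have hG : lor z V (ET z W) = (en W ^ 2 * dd z W ^ 3 * ‖z‖ ^ 2)⁻¹ •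
      ((dd z W - ⟪pp z V, pp z W⟫) • dir z - dd z V • pp z W) := by
    have hE : ET z W = (en W ^ 2 * dd z W ^ 3 * ‖z‖ ^ 2)⁻¹ • (dir z - relVel W) := rfl
    unfold lor
    rw [hE, inner_smul_right, bnda_inner hz, relVel_decomp z W]
    generalize ⟪pp z V, pp z W⟫ = s
    generalize pp z W = q
    generalize (en W ^ 2 * dd z W ^ 3 * ‖z‖ ^ 2)⁻¹ = k
    generalize dd z V = a
    generalize dd z W = b
    generalize dir z = n
    match_scalars <;> ring
  have hN : ‖(dd z W - ⟪pp z V, pp z W⟫) • dir z - dd z V • pp z W‖ ≤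
      4 * (Real.sqrt (dd z V) + Real.sqrt (dd z W)) * Real.sqrt (dd z W) := by
    refine (norm_sub_le _ _).trans ?_
    rw [norm_smul, norm_smul, norm_dir hz, mul_one, Real.norm_eq_abs, Real.norm_eq_abs, abs_of_pos ha]
    have h1 : |dd z W - ⟪pp z V, pp z W⟫| ≤ dd z W + |⟪pp z V, pp z W⟫| := by
      refine (abs_sub _ _).trans ?_
      rw [abs_of_pos hb]
    have h2 := mul_le_mul_of_nonneg_left hpW ha.le
    generalize |dd z W - ⟪pp z V, pp z W⟫| = t at *
    generalize |⟪pp z V, pp z W⟫| = s at *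
    generalize Real.sqrt (dd z V) = x at *
    generalize Real.sqrt (dd z W) = y at *
    generalize Real.sqrt 2 = r at *
    clear hG
    generalize dd z V = a at *
    generalize dd z W = b at *
    subst hx2 hy2
    have hxy : 0 < x * y := mul_pos hx hy
    have h6 := mul_le_mul_of_nonneg_left hx3 hxy.le
    nlinarith
  rw [hG, norm_smul, Real.norm_eq_abs, abs_of_pos (by positivity), div_eq_inv_mul]
  exact mul_le_mul_of_nonneg_left hN (by positivity)

/-- Bnd-a: the bending produced by the `T` force has an extra `α`. -/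
theorem norm_acc_lor_ET_le {z : R3} (hz : z ≠ 0) (V W : R3) :
    en V * ‖acc V (lor z V (ET z W))‖ ≤
      8 * Real.sqrt (dd z V) * (Real.sqrt (dd z V) + Real.sqrt (dd z W)) * Real.sqrt (dd z W)
      / (en W ^ 2 * dd z W ^ 3 * ‖z‖ ^ 2) := by
  obtain ⟨hx, hx2, hx3⟩ := bnda_sq hz V
  obtain ⟨hy, hy2, hy3⟩ := bnda_sq hz W
  have hR : 0 < ‖z‖ := norm_pos_iff.2 hz
  have ha := dd_pos hz V
  have ha2 := dd_le_two hz V
  have hb := dd_pos hz W
  have hM := en_pos W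
  have hMV := en_pos V
  have hs := abs_inner_pp_le hz V W
  have hnV := norm_dir_sub_le hz V
  have hnW := norm_dir_sub_le hz W
  have hacc : ∀ E : R3, acc V (lor z V E) = (en V)⁻¹ • (dd z V • E + ⟪relVel V, E⟫ • (dir z - relVel V)) := by
    intro E
    unfold acc lor
    rw [inner_add_right, inner_smul_right, inner_smul_right, real_inner_comm (dir z) (relVel V), inner_dir_relVel]
    generalize ⟪relVel V, E⟫ = s
    generalize relVel V = u
    generalize dd z V = a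
    generalize dir z = n
    match_scalars <;> ring
  have hG : acc V (lor z V (ET z W)) = (en V)⁻¹ • (en W ^ 2 * dd z W ^ 3 * ‖z‖ ^ 2)⁻¹ •
      (dd z V • (dir z - relVel W) + (dd z W - dd z V * dd z W - ⟪pp z V, pp z W⟫) • (dir z - relVel V)) := by
    have hE : ET z W = (en W ^ 2 * dd z W ^ 3 * ‖z‖ ^ 2)⁻¹ • (dir z - relVel W) := rfl
    rw [hacc, hE, inner_smul_right, bnda_inner hz]
    congr 1
    generalize (dd z W - dd z V * dd z W - ⟪pp z V, pp z W⟫) = s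
    generalize (en W ^ 2 * dd z W ^ 3 * ‖z‖ ^ 2)⁻¹ = k
    generalize dir z - relVel W = p
    generalize dir z - relVel V = q
    generalize dd z V = a
    match_scalars <;> ring
  have hN : ‖dd z V • (dir z - relVel W) + (dd z W - dd z V * dd z W - ⟪pp z V, pp z W⟫) • (dir z - relVel V)‖ ≤
      8 * Real.sqrt (dd z V) * (Real.sqrt (dd z V) + Real.sqrt (dd z W)) * Real.sqrt (dd z W) := by
    refine (norm_add_le _ _).trans ?_
    rw [norm_smul, norm_smul, Real.norm_eq_abs, Real.norm_eq_abs, abs_of_pos ha]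
    have h1 : |dd z W - dd z V * dd z W - ⟪pp z V, pp z W⟫| ≤ dd z W + |⟪pp z V, pp z W⟫| := by
      refine (abs_sub _ _).trans ?_
      have : |dd z W - dd z V * dd z W| ≤ dd z W := by
        rw [abs_le]; constructor <;> nlinarith
      linarith
    have h2 := mul_le_mul_of_nonneg_left hnW ha.le
    have h3 := mul_le_mul (h1.trans (add_le_add le_rfl hs)) hnV (norm_nonneg _) (by positivity)
    have h22 : Real.sqrt 2 ≤ 2 := by
      apply Real.sqrt_le_iff.2; norm_num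
    have h20 : 0 < Real.sqrt 2 := Real.sqrt_pos.2 (by norm_num)
    generalize |dd z W - dd z V * dd z W - ⟪pp z V, pp z W⟫| = t at *
    generalize |⟪pp z V, pp z W⟫| = s at *
    generalize Real.sqrt (dd z V) = x at *
    generalize Real.sqrt (dd z W) = y at *
    generalize Real.sqrt 2 = r at *
    clear hG
    generalize dd z V = a at *
    generalize dd z W = b at *
    subst hx2 hy2
    have hxy : 0 < x * y := mul_pos hx hy
    have h6 := mul_le_mul_of_nonneg_left h22 (show 0 ≤ x * y * (3 * x + y) by positivity)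
    have h7 : 0 ≤ x * y * x := by positivity
    have h8 : 0 ≤ x * y * y := by positivity
    nlinarith
  rw [hG, norm_smul, norm_smul, Real.norm_eq_abs, Real.norm_eq_abs, abs_of_pos (by positivity),
    abs_of_pos (by positivity), ← mul_assoc, mul_inv_cancel₀ hMV.ne', one_mul, div_eq_inv_mul]
  exact mul_le_mul_of_nonneg_left hN (by positivity)

theorem bndb_q {z : R3} (hz : z ≠ 0) (V : R3) {E : R3} (hE : ⟪dir z, E⟫ = 0) :
    |⟪relVel V, E⟫| ≤ Real.sqrt 2 * Real.sqrt (dd z V) * ‖E‖ := by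
  rw [relVel_decomp z V, inner_add_left, real_inner_smul_left, hE, mul_zero, zero_add]
  exact (abs_real_inner_le_norm _ _).trans (mul_le_mul_of_nonneg_right (norm_pp_le hz V) (norm_nonneg _))

theorem bndb_lor {z : R3} (hz : z ≠ 0) (V : R3) {E : R3} (hE : ⟪dir z, E⟫ = 0) :
    ‖lor z V E‖ ≤ 2 * Real.sqrt 2 * Real.sqrt (dd z V) * ‖E‖ := by
  have h1 := bndb_q hz V hE
  have h2 : dd z V ≤ Real.sqrt 2 * Real.sqrt (dd z V) := by
    nth_rw 1 [← Real.mul_self_sqrt (dd_pos hz V).le]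
    exact mul_le_mul_of_nonneg_right (Real.sqrt_le_sqrt (dd_le_two hz V)) (Real.sqrt_nonneg _)
  have h3 := mul_le_mul_of_nonneg_right h2 (norm_nonneg E)
  refine (norm_add_le _ _).trans ?_
  rw [norm_smul, norm_smul, norm_dir hz, Real.norm_eq_abs, Real.norm_eq_abs, abs_of_pos (dd_pos hz V)]
  linarith

theorem bndb_acc {z : R3} (hz : z ≠ 0) (V : R3) {E : R3} (hE : ⟪dir z, E⟫ = 0) :
    en V * ‖acc V (lor z V E)‖ ≤ 3 * dd z V * ‖E‖ := by
  have h0 : ⟪relVel V, lor z V E⟫ = ⟪relVel V, E⟫ := by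
    rw [lor, inner_add_right, real_inner_smul_right, real_inner_smul_right, real_inner_comm (dir z), inner_dir_relVel]; ring
  have e : lor z V E - ⟪relVel V, lor z V E⟫ • relVel V = dd z V • E + ⟪relVel V, E⟫ • (dir z - relVel V) := by
    rw [h0, lor, smul_sub]; abel
  have h1 := mul_le_mul (bndb_q hz V hE) (norm_dir_sub_le hz V) (norm_nonneg _) (by positivity)
  have h2 : Real.sqrt 2 * Real.sqrt (dd z V) * ‖E‖ * (Real.sqrt 2 * Real.sqrt (dd z V)) = 2 * dd z V * ‖E‖ := by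
    have a1 := Real.mul_self_sqrt (dd_pos hz V).le
    have a2 := Real.mul_self_sqrt (show (0 : ℝ) ≤ 2 by norm_num)
    calc _ = (Real.sqrt 2 * Real.sqrt 2) * (Real.sqrt (dd z V) * Real.sqrt (dd z V)) * ‖E‖ := by ring
      _ = _ := by rw [a1, a2]
  rw [acc, norm_smul, norm_inv, Real.norm_eq_abs, abs_of_pos (en_pos V), mul_inv_cancel_left₀ (en_pos V).ne', e]
  refine (norm_add_le _ _).trans ?_
  rw [norm_smul, norm_smul, Real.norm_eq_abs, Real.norm_eq_abs, abs_of_pos (dd_pos hz V)]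
  linarith

/-- Bnd-b: the acceleration field. -/
theorem norm_ES_le {z : R3} (hz : z ≠ 0) (W G : R3) :
    ‖ES z W G‖ ≤ Real.sqrt 2 * effB z W G / (dd z W ^ 2 * ‖z‖) := by
  have hb := dd_pos hz W
  have hR := norm_pos_iff.2 hz
  have hs := Real.sqrt_pos.2 hb
  have e : ⟪dir z, acc W G⟫ • (dir z - relVel W) - dd z W • acc W G =
      -(⟪dir z, acc W G⟫ • pp z W + dd z W • (acc W G - ⟪dir z, acc W G⟫ • dir z)) := by
    nth_rw 1 [relVel_decomp z W]
    module
  have h1 : ‖⟪dir z, acc W G⟫ • (dir z - relVel W) - dd z W • acc W G‖ ≤ Real.sqrt 2 * effB z W G * dd z W := by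
    rw [e, norm_neg]
    refine (norm_add_le _ _).trans ?_
    rw [norm_smul, norm_smul, Real.norm_eq_abs, Real.norm_eq_abs, abs_of_pos hb, effB]
    have h2 := mul_le_mul_of_nonneg_left (norm_pp_le hz W) (abs_nonneg ⟪dir z, acc W G⟫)
    have h3 : |⟪dir z, acc W G⟫| / Real.sqrt (dd z W) * dd z W = |⟪dir z, acc W G⟫| * Real.sqrt (dd z W) := by
      rw [div_mul_eq_mul_div, mul_div_assoc, Real.div_sqrt]
    have h4 : 1 ≤ Real.sqrt 2 := Real.one_le_sqrt.2 one_le_two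
    have h5 := mul_le_mul_of_nonneg_right h4 (mul_nonneg hb.le (norm_nonneg (acc W G - ⟪dir z, acc W G⟫ • dir z)))
    rw [mul_assoc, add_mul, h3]
    linarith
  rw [ES, norm_smul, norm_inv, Real.norm_eq_abs, abs_of_pos (by positivity)]
  refine (mul_le_mul_of_nonneg_left h1 (by positivity)).trans_eq ?_
  change (dd z W ^ 3 * ‖z‖)⁻¹ * _ = _
  field_simp

/-- Bnd-b -/
theorem inner_dir_ES {z : R3} (hz : z ≠ 0) (W G : R3) : ⟪dir z, ES z W G⟫ = 0 := by
  rw [ES, real_inner_smul_right, inner_sub_right, real_inner_smul_right, real_inner_smul_right, inner_sub_right, inner_dir_self hz,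
    inner_dir_relVel]
  ring

/-- Bnd-b: the `S` force. -/
theorem norm_lor_ES_le {z : R3} (hz : z ≠ 0) (V W G : R3) :
    ‖lor z V (ES z W G)‖ ≤ 4 * Real.sqrt (dd z V) * effB z W G / (dd z W ^ 2 * ‖z‖) := by
  refine (bndb_lor hz V (inner_dir_ES hz W G)).trans
    ((mul_le_mul_of_nonneg_left (norm_ES_le hz W G) (by positivity)).trans_eq ?_)
  have a2 := Real.mul_self_sqrt (show (0 : ℝ) ≤ 2 by norm_num)
  calc _ = 2 * (Real.sqrt 2 * Real.sqrt 2) * Real.sqrt (dd z V) * effB z W G / (dd z W ^ 2 * ‖z‖) := by ring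
    _ = _ := by rw [a2]; ring

/-- Bnd-b: the bending produced by the `S` force has an extra `α`. -/
theorem norm_acc_lor_ES_le {z : R3} (hz : z ≠ 0) (V W G : R3) :
    en V * ‖acc V (lor z V (ES z W G))‖ ≤ 5 * dd z V * effB z W G / (dd z W ^ 2 * ‖z‖) := by
  have ha := dd_pos hz V
  have h0 : 0 ≤ effB z W G := by unfold effB; positivity
  have h1 : Real.sqrt 2 ≤ 5 / 3 := Real.sqrt_le_iff.2 ⟨by norm_num, by norm_num⟩
  refine (bndb_acc hz V (inner_dir_ES hz W G)).trans ((mul_le_mul_of_nonneg_left (norm_ES_le hz W G) (by positivity)).trans ?_)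
  rw [← mul_div_assoc]
  refine div_le_div_of_nonneg_right ?_ (by positivity)
  nlinarith [mul_le_mul_of_nonneg_left h1 (mul_nonneg ha.le h0)]

/-- Bnd-b: velocity field alone. -/
theorem norm_ET_le {z : R3} (hz : z ≠ 0) (W : R3) :
    ‖ET z W‖ ≤ Real.sqrt 2 * Real.sqrt (dd z W) / (en W ^ 2 * dd z W ^ 3 * ‖z‖ ^ 2) := by
  have hb := dd_pos hz W
  have hR := norm_pos_iff.2 hz
  have he := en_pos W
  rw [ET, norm_smul, norm_inv, Real.norm_eq_abs, abs_of_pos (by positivity), div_eq_inv_mul]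
  exact mul_le_mul_of_nonneg_left (norm_dir_sub_le hz W) (by positivity)

theorem bndc_proj {n : R3} (hn : ‖n‖ = 1) (x : R3) : ‖x - ⟪n, x⟫ • n‖ ≤ ‖x‖ := by
  have h : ‖x - ⟪n, x⟫ • n‖ ^ 2 = ‖x‖ ^ 2 - ⟪n, x⟫ ^ 2 := by
    rw [norm_sub_sq_real, real_inner_smul_right, norm_smul, hn, real_inner_comm x n, Real.norm_eq_abs, mul_one,
      sq_abs]
    ring
  exact (pow_le_pow_iff_left₀ (norm_nonneg _) (norm_nonneg _) two_ne_zero).1 (by rw [h]; nlinarith [sq_nonneg ⟪n, x⟫])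

theorem bndc_inner (V F : R3) : ⟪relVel V, acc V F⟫ = (en V)⁻¹ * (⟪relVel V, F⟫ * (en V ^ 2)⁻¹) := by
  rw [acc, real_inner_smul_right, inner_sub_right, real_inner_smul_right, inner_relVel_self]
  ring

/-- Bnd-c: size of the test acceleration seen in direction `n`. -/
theorem effB_le_test {z : R3} (hz : z ≠ 0) (V F : R3) :
    effB z V F ≤ 3 * ‖acc V F‖ + 2 * ‖F‖ / en V ^ 2 := by
  have hn := norm_dir hz
  have ha := dd_pos hz V
  have hs : 0 < Real.sqrt (dd z V) := Real.sqrt_pos.2 ha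
  have he := en_pos V
  have h2 : Real.sqrt 2 ≤ 2 := by
    rw [Real.sqrt_le_left (by norm_num)]; norm_num
  have h20 : 0 ≤ Real.sqrt 2 := Real.sqrt_nonneg _
  have hinv : (en V)⁻¹ ≤ Real.sqrt 2 * Real.sqrt (dd z V) := by
    rw [← Real.sqrt_mul (by norm_num)]
    apply Real.le_sqrt_of_sq_le
    rw [inv_pow]
    exact inv_en_sq_le hz V
  have hF : |⟪relVel V, F⟫| ≤ ‖F‖ := by
    refine (abs_real_inner_le_norm _ _).trans ?_
    have := (norm_relVel_lt_one V).le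
    nlinarith [norm_nonneg F, norm_nonneg (relVel V)]
  have h1 : |⟪dir z - relVel V, acc V F⟫| ≤ 2 * Real.sqrt (dd z V) * ‖acc V F‖ := by
    refine (abs_real_inner_le_norm _ _).trans ?_
    refine mul_le_mul_of_nonneg_right ((norm_dir_sub_le hz V).trans ?_) (norm_nonneg _)
    exact mul_le_mul_of_nonneg_right h2 hs.le
  have h3 : |⟪relVel V, acc V F⟫| ≤ 2 * Real.sqrt (dd z V) * (‖F‖ / en V ^ 2) := by
    rw [bndc_inner, abs_mul, abs_mul, abs_of_pos (inv_pos.2 he), abs_of_pos (inv_pos.2 (pow_pos he 2)),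
      div_eq_mul_inv]
    refine mul_le_mul (hinv.trans (mul_le_mul_of_nonneg_right h2 hs.le))
      (mul_le_mul_of_nonneg_right hF (by positivity)) (by positivity) (by positivity)
  have h4 : |⟪dir z, acc V F⟫| ≤ (2 * ‖acc V F‖ + 2 * ‖F‖ / en V ^ 2) * Real.sqrt (dd z V) := by
    have : ⟪dir z, acc V F⟫ = ⟪dir z - relVel V, acc V F⟫ + ⟪relVel V, acc V F⟫ := by
      rw [inner_sub_left]; ring
    rw [this]
    refine (abs_add_le _ _).trans ((add_le_add h1 h3).trans (le_of_eq ?_))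
    ring
  have h5 := (div_le_iff₀ hs).2 h4
  have h6 := bndc_proj hn (acc V F)
  unfold effB
  linarith

/-- Bnd-c -/
theorem norm_acc_le (V F : R3) : ‖acc V F‖ ≤ ‖F‖ / en V := by
  have he := en_pos V
  have h : ‖F - ⟪relVel V, F⟫ • relVel V‖ ≤ ‖F‖ := by
    refine (pow_le_pow_iff_left₀ (norm_nonneg _) (norm_nonneg _) two_ne_zero).1 ?_
    rw [norm_sub_sq_real, real_inner_smul_right, norm_smul, real_inner_comm (relVel V) F, Real.norm_eq_abs,
      mul_pow, sq_abs]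
    have h1 : ‖relVel V‖ ^ 2 ≤ 1 := by
      have := (norm_relVel_lt_one V).le
      nlinarith [norm_nonneg (relVel V)]
    nlinarith [sq_nonneg ⟪relVel V, F⟫, mul_le_mul_of_nonneg_left h1 (sq_nonneg ⟪relVel V, F⟫)]
  rw [acc, norm_smul, Real.norm_eq_abs, abs_of_pos (inv_pos.2 he), div_eq_inv_mul]
  exact mul_le_mul_of_nonneg_left h (inv_pos.2 he).le

/-- Bnd-c -/
theorem effB_nonneg (z W F : R3) : 0 ≤ effB z W F := by
  unfold effB
  positivity

/-- Bnd-c -/
theorem effB_le_effA (z W F : R3) : effB z W F ≤ effA z W F := by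
  have he := en_pos W
  unfold effA
  have : 0 ≤ Real.sqrt (dd z W) * |⟪relVel W, F⟫| / en W := by positivity
  linarith

theorem bd_in (a b : R3) : ⟪a, b⟫ = a 0 * b 0 + a 1 * b 1 + a 2 * b 2 := by
  simp [PiLp.inner_apply, Fin.sum_univ_three]; ring

theorem bd_nsq (a : R3) : ‖a‖ ^ 2 = a 0 ^ 2 + a 1 ^ 2 + a 2 ^ 2 := by
  rw [← real_inner_self_eq_norm_sq, bd_in]; ring

theorem bd_c0 (a b : R3) : cross3 a b 0 = a 1 * b 2 - a 2 * b 1 := by simp [cross3]
theorem bd_c1 (a b : R3) : cross3 a b 1 = a 2 * b 0 - a 0 * b 2 := by simp [cross3]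
theorem bd_c2 (a b : R3) : cross3 a b 2 = a 0 * b 1 - a 1 * b 0 := by simp [cross3]

theorem bd_cross_le (a b : R3) : ‖cross3 a b‖ ≤ ‖a‖ * ‖b‖ := by
  have h : ‖cross3 a b‖ ^ 2 ≤ (‖a‖ * ‖b‖) ^ 2 := by
    rw [mul_pow, bd_nsq, bd_nsq, bd_nsq, bd_c0, bd_c1, bd_c2]
    nlinarith [sq_nonneg (a 0 * b 0 + a 1 * b 1 + a 2 * b 2)]
  exact (pow_le_pow_iff_left₀ (norm_nonneg _) (by positivity) two_ne_zero).1 h

/-- Bnd-d: the flux density is a sum of squares. -/
theorem gd_eq {n : R3} (hn : ‖n‖ = 1) (E B : R3) :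
    gd n E B = (‖E + cross3 n B‖ ^ 2 + ⟪n, B⟫ ^ 2) / 2 := by
  have h1 : n 0 ^ 2 + n 1 ^ 2 + n 2 ^ 2 = 1 := by rw [← bd_nsq, hn]; norm_num
  unfold gd
  simp only [bd_nsq, bd_in, bd_c0, bd_c1, bd_c2, PiLp.add_apply]
  linear_combination (-(B 0 ^ 2 + B 1 ^ 2 + B 2 ^ 2) / 2) * h1

theorem bd_id1 (n p E B : R3) (b : ℝ) :
    ⟪(1 - b) • n + p, E + cross3 ((1 - b) • n + p) B⟫ = (1 - b) * ⟪n, E + cross3 n B⟫ + ⟪p, E⟫ := by
  simp only [bd_in, bd_c0, bd_c1, bd_c2, PiLp.add_apply, PiLp.smul_apply, smul_eq_mul]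
  ring

theorem bd_id2 (n p E B : R3) (b k : ℝ) (hn : ⟪n, n⟫ = 1) (hp : ⟪n, p⟫ = 0) :
    ⟪n, (E + cross3 ((1 - b) • n + p) B) - k • ((1 - b) • n + p)⟫ =
      ⟪n, E + cross3 n B⟫ + ⟪p, E⟫ - ⟪p, E + cross3 n B⟫ - k * (1 - b) := by
  simp only [bd_in, bd_c0, bd_c1, bd_c2, PiLp.add_apply, PiLp.sub_apply, PiLp.smul_apply, smul_eq_mul] at hn hp ⊢
  linear_combination (-k * (1 - b)) * hn - k * hp

theorem bd_id3 (n p E B : R3) (b k : ℝ) (hn : ⟪n, n⟫ = 1) (hp : ⟪n, p⟫ = 0) :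
    ((E + cross3 ((1 - b) • n + p) B) - k • ((1 - b) • n + p)) -
      ⟪n, (E + cross3 ((1 - b) • n + p) B) - k • ((1 - b) • n + p)⟫ • n =
      (E + cross3 n B) - ⟪n, E + cross3 n B⟫ • n - b • cross3 n B + ⟪n, B⟫ • cross3 p n - k • p := by
  rw [bd_id2 n p E B b k hn hp]
  simp only [bd_in, bd_c0, bd_c1, bd_c2, PiLp.add_apply, PiLp.sub_apply, PiLp.smul_apply, smul_eq_mul] at hn hp ⊢
  ext i
  fin_cases i
  · simp only [Fin.zero_eta, bd_c0, bd_c1, bd_c2, PiLp.add_apply, PiLp.sub_apply, PiLp.smul_apply, smul_eq_mul]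
    linear_combination (-(p 1 * B 2 - p 2 * B 1)) * hn + (n 1 * B 2 - n 2 * B 1) * hp
  · simp only [Fin.mk_one, bd_c0, bd_c1, bd_c2, PiLp.add_apply, PiLp.sub_apply, PiLp.smul_apply, smul_eq_mul]
    linear_combination (-(p 2 * B 0 - p 0 * B 2)) * hn + (n 2 * B 0 - n 0 * B 2) * hp
  · simp only [Fin.reduceFinMk, bd_c0, bd_c1, bd_c2, PiLp.add_apply, PiLp.sub_apply, PiLp.smul_apply, smul_eq_mul]
    linear_combination (-(p 0 * B 1 - p 1 * B 0)) * hn + (n 0 * B 1 - n 1 * B 0) * hp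

theorem bd_num {s G e m P : ℝ} (hs : 0 < s) (hs2 : s ^ 2 ≤ 2) (hG : 0 ≤ G) (he : 0 ≤ e) (hm : 0 ≤ m)
    {ng pE pg k A x : ℝ} (hng : |ng| ≤ 3 / 2 * G) (hP : 0 ≤ P) (hP2 : P ≤ 3 / 2 * s) (hpE : |pE| ≤ P * e)
    (hpg : |pg| ≤ P * (3 / 2 * G)) (hk : k = (1 - s ^ 2) * ng + pE)
    (hA : A ≤ 3 / 2 * G + 3 / 2 * G + s ^ 2 * m + 3 / 2 * G * P + |k| * P)
    (hx : x = ng + pE - pg - k * (1 - s ^ 2)) :
    A + |x| / s + s * |k| ≤ 20 * (G + s ^ 2 * (e + m)) := by
  have hs' : s ≤ 3 / 2 := by nlinarith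
  have h1 : |1 - s ^ 2| ≤ 1 := abs_le.2 ⟨by nlinarith, by nlinarith⟩
  have hsG : s * G ≤ 3 / 2 * G := mul_le_mul_of_nonneg_right hs' hG
  have hsG0 : 0 ≤ s * G := by positivity
  have hpE' : |pE| ≤ 3 / 2 * s * e := hpE.trans (mul_le_mul_of_nonneg_right hP2 he)
  have hpg' : |pg| ≤ 9 / 4 * (s * G) :=
    hpg.trans ((mul_le_mul_of_nonneg_right hP2 (by positivity)).trans (le_of_eq (by ring)))
  have hk' : |k| ≤ 3 / 2 * G + 3 / 2 * s * e := by
    rw [hk]
    refine (abs_add_le _ _).trans (add_le_add ?_ hpE')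
    rw [abs_mul]
    calc |1 - s ^ 2| * |ng| ≤ 1 * (3 / 2 * G) := mul_le_mul h1 hng (abs_nonneg _) zero_le_one
      _ = _ := one_mul _
  have hx' : |x| ≤ s * (27 / 4 * G + 3 / 2 * (s ^ 2 * e)) := by
    have : x = (s ^ 2 * (2 - s ^ 2)) * ng + s ^ 2 * pE - pg := by rw [hx, hk]; ring
    rw [this]
    have a1 : |(s ^ 2 * (2 - s ^ 2)) * ng| ≤ 9 / 2 * (s * G) := by
      rw [abs_mul, abs_of_nonneg (mul_nonneg (sq_nonneg s) (by linarith) : 0 ≤ s ^ 2 * (2 - s ^ 2))]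
      have : s ^ 2 * (2 - s ^ 2) ≤ 3 * s := by nlinarith [sq_nonneg s, sq_nonneg (s ^ 2)]
      calc _ ≤ (3 * s) * (3 / 2 * G) := mul_le_mul this hng (abs_nonneg _) (by positivity)
        _ = _ := by ring
    have a2 : |s ^ 2 * pE| ≤ 3 / 2 * (s * (s ^ 2 * e)) := by
      rw [abs_mul, abs_of_nonneg (sq_nonneg s)]
      calc _ ≤ s ^ 2 * (3 / 2 * s * e) := mul_le_mul_of_nonneg_left hpE' (sq_nonneg s)
        _ = _ := by ring
    have := abs_sub ((s ^ 2 * (2 - s ^ 2)) * ng + s ^ 2 * pE) pg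
    have := abs_add_le ((s ^ 2 * (2 - s ^ 2)) * ng) (s ^ 2 * pE)
    linarith
  have hx2 : |x| / s ≤ 27 / 4 * G + 3 / 2 * (s ^ 2 * e) := by rw [div_le_iff₀ hs]; linarith
  have hy2 : s * |k| ≤ 9 / 4 * G + 3 / 2 * (s ^ 2 * e) := by
    have := mul_le_mul_of_nonneg_left hk' hs.le
    linarith
  have hkP : |k| * P ≤ 27 / 8 * G + 9 / 4 * (s ^ 2 * e) := by
    have := mul_le_mul hk' hP2 hP (by positivity)
    linarith
  have hGP : 3 / 2 * G * P ≤ 27 / 8 * G := by
    have := mul_le_mul_of_nonneg_left hP2 hG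
    linarith
  have := mul_nonneg (sq_nonneg s) he
  have := mul_nonneg (sq_nonneg s) hm
  linarith

/-- Bnd-d: NULL STRUCTURE of the source acceleration. -/
theorem effA_force_le {z : R3} (hz : z ≠ 0) (W E B : R3) :
    effA z W (force E B W) ≤
      20 * (Real.sqrt (gd (dir z) E B) + dd z W * (‖E‖ + ‖B‖)) / en W := by
  have hn := norm_dir hz
  have hnn := inner_dir_self hz
  have hp := inner_dir_pp hz W
  have hb := dd_pos hz W
  have hb2 := dd_le_two hz W
  have hM := en_pos W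
  have hpp := norm_pp_sq_le hz W
  have hgd := gd_eq hn E B
  have hβ := relVel_decomp z W
  unfold effA effB acc force
  rw [hβ]
  generalize pp z W = p at *
  generalize dd z W = b at *
  generalize dir z = n at *
  generalize en W = M at *
  clear hβ
  set g := E + cross3 n B with hg
  set k := ⟪(1 - b) • n + p, E + cross3 ((1 - b) • n + p) B⟫ with hk
  have hgd0 : 0 ≤ gd n E B := by rw [hgd]; positivity
  set G := Real.sqrt (gd n E B) with hG
  have hG0 : 0 ≤ G := Real.sqrt_nonneg _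
  have hG2 : G ^ 2 = gd n E B := Real.sq_sqrt hgd0
  set s := Real.sqrt b with hs
  have hs0 : 0 < s := Real.sqrt_pos.2 hb
  have hs2 : s ^ 2 = b := Real.sq_sqrt hb.le
  have hgn : ‖g‖ ≤ 3 / 2 * G := by
    refine (pow_le_pow_iff_left₀ (norm_nonneg _) (by positivity) two_ne_zero).1 ?_
    nlinarith [sq_nonneg ⟪n, B⟫, sq_nonneg ‖g‖]
  have hnB : |⟪n, B⟫| ≤ 3 / 2 * G := by
    refine (pow_le_pow_iff_left₀ (abs_nonneg _) (by positivity) two_ne_zero).1 ?_
    rw [sq_abs]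
    nlinarith [sq_nonneg ⟪n, B⟫, sq_nonneg ‖g‖]
  have hP : ‖p‖ ≤ 3 / 2 * s := by
    refine (pow_le_pow_iff_left₀ (norm_nonneg _) (by positivity) two_ne_zero).1 ?_
    nlinarith
  have hng : |⟪n, g⟫| ≤ 3 / 2 * G := by
    have := abs_real_inner_le_norm n g
    rw [hn, one_mul] at this; exact this.trans hgn
  have hpE : |⟪p, E⟫| ≤ ‖p‖ * ‖E‖ := abs_real_inner_le_norm p E
  have hpg : |⟪p, g⟫| ≤ ‖p‖ * (3 / 2 * G) :=
    (abs_real_inner_le_norm p g).trans (mul_le_mul_of_nonneg_left hgn (norm_nonneg _))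
  have hk1 : k = (1 - s ^ 2) * ⟪n, g⟫ + ⟪p, E⟫ := by rw [hs2]; exact bd_id1 n p E B b
  have h2 := bd_id2 n p E B b k hnn hp
  have h3 := bd_id3 n p E B b k hnn hp
  set u := E + cross3 ((1 - b) • n + p) B - k • ((1 - b) • n + p) with hu
  have hA : ‖u - ⟪n, u⟫ • n‖ ≤ 3 / 2 * G + 3 / 2 * G + s ^ 2 * ‖B‖ + 3 / 2 * G * ‖p‖ + |k| * ‖p‖ := by
    rw [h3]
    refine (norm_sub_le _ _).trans (add_le_add ((norm_add_le _ _).trans (add_le_add ((norm_sub_le _ _).trans
      (add_le_add ((norm_sub_le _ _).trans (add_le_add hgn ?_)) ?_)) ?_)) ?_)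
    · rw [norm_smul, hn, mul_one]; exact hng
    · rw [norm_smul, Real.norm_eq_abs, abs_of_pos hb, hs2]
      refine mul_le_mul_of_nonneg_left ?_ hb.le
      simpa [hn] using bd_cross_le n B
    · rw [norm_smul, Real.norm_eq_abs]
      refine mul_le_mul hnB ?_ (norm_nonneg _) (by positivity)
      simpa [hn] using bd_cross_le p n
    · rw [norm_smul, Real.norm_eq_abs]
  have hfin := bd_num hs0 (by rw [hs2]; exact hb2) hG0 (norm_nonneg E) (norm_nonneg B) hng (norm_nonneg p) hP hpE hpg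
    hk1 hA (x := ⟪n, u⟫) (by rw [hs2]; exact h2)
  rw [hs2] at hfin
  have e1 : M⁻¹ • u - ⟪n, M⁻¹ • u⟫ • n = M⁻¹ • (u - ⟪n, u⟫ • n) := by
    rw [inner_smul_right, smul_sub M⁻¹ u, smul_smul]
  rw [e1, norm_smul, inner_smul_right, abs_mul, Real.norm_eq_abs, abs_of_pos (inv_pos.2 hM), le_div_iff₀ hM]
  refine le_trans (le_of_eq ?_) hfin
  field_simp

end Crest.Agent.R106.A
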