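import Crest.Agent.R106.A.Defs

/-! # R106/A: the bootstrap hypothesis and the statement IMPROVE (helper62; FROZEN). -/

set_option autoImplicit false

open Set Crest.AnalysisR.VecCalc3

noncomputable section
namespace Crest.Agent.R106.A

/-- the time scale of the level `g` -/
def lev (e P g : ℝ) : ℝ := e ^ 2 * min (g ^ 2 / P ^ 2) (g / (P * Real.log P))

namespace Sys
variable {Ω : Type} [MeasurableSpace Ω] {C : ℝ} (S : Sys Ω C)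

/-- on `[s₀, s₁]` the momentum of `o` has variation `≤ ε g` up to the error `2 g ^ 0.47` -/
def Var (ε g : ℝ) (o : Ω) (s₀ s₁ : ℝ) : Prop :=
  ∃ v : ℝ → ℝ, Monotone v ∧ v s₁ - v s₀ ≤ ε * g ∧
    ∀ s s', s₀ ≤ s → s ≤ s' → s' ≤ s₁ → ‖S.W s' o - S.W s o‖ ≤ v s' - v s + 2 * g ^ (47 / 100 : ℝ)

/-- the bootstrap hypothesis on `[0, t]` -/
def Hyp (e P ε t : ℝ) : Prop :=
  ∀ (o : Ω) (s₀ s₁ : ℝ), 0 ≤ s₀ → s₀ ≤ s₁ → s₁ ≤ t → P ^ (56 / 100 : ℝ) ≤ en (S.W s₀ o) →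
    s₁ - s₀ ≤ lev e P (en (S.W s₀ o)) → S.Var ε (en (S.W s₀ o)) o s₀ s₁

end Sys

/-- IMPROVE: the hypothesis with `2 / 1000` implies the hypothesis with `1 / 1000`. -/
def S_IMP : Prop :=
  ∀ C : ℝ, ∃ e P₀ : ℝ, 0 < e ∧ e ≤ 1 ∧ ∀ (Ω : Type) [MeasurableSpace Ω] (S : Sys Ω C) (P t : ℝ), P₀ ≤ P →
    (∀ s ω, s ≤ S.T → en (S.W s ω) ≤ P) → 0 ≤ t → t ≤ S.T → S.Hyp e P (2 / 1000) t → S.Hyp e P (1 / 1000) t

end Crest.Agent.R106.A
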