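import Mathlib
import Crest.Agent.R106.A.Hyp

/-! # R106/A: the non-quantitative Lipschitz bound (helper38). -/

set_option autoImplicit false

open Set Crest.AnalysisR.VecCalc3 Crest.AnalysisR.PDE.RVM
open scoped RealInnerProductSpace

noncomputable section
namespace Crest.Agent.R106.A

theorem boota_relVel (v : R3) : ‖relVel v‖ ≤ 1 := by
  have h0 : 0 < Real.sqrt (1 + ‖v‖ ^ 2) := Real.sqrt_pos.2 (by positivity)
  have h1 : ‖v‖ ≤ Real.sqrt (1 + ‖v‖ ^ 2) := Real.le_sqrt_of_sq_le (by linarith)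
  rw [relVel, norm_smul, Real.norm_eq_abs, abs_of_pos (inv_pos.2 h0), inv_mul_le_iff₀ h0, mul_one]
  exact h1

theorem boota_cross (a b : R3) : ‖cross3 a b‖ ≤ ‖a‖ * ‖b‖ := by
  have h : ‖cross3 a b‖ ^ 2 ≤ (‖a‖ * ‖b‖) ^ 2 := by
    rw [mul_pow, EuclideanSpace.real_norm_sq_eq, EuclideanSpace.real_norm_sq_eq,
      EuclideanSpace.real_norm_sq_eq]
    simp only [cross3, Fin.sum_univ_three, Matrix.cons_val_zero, Matrix.cons_val_one,
      Matrix.cons_val_two, Matrix.head_cons, Matrix.tail_cons]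
    nlinarith [sq_nonneg (a 0 * b 0 + a 1 * b 1 + a 2 * b 2)]
  exact abs_le_of_sq_le_sq' h (by positivity) |>.2

theorem boota_force (E B v : R3) : ‖force E B v‖ ≤ ‖E‖ + ‖B‖ := by
  refine (norm_add_le _ _).trans (add_le_add le_rfl ((boota_cross _ _).trans ?_))
  exact mul_le_of_le_one_left (norm_nonneg _) (boota_relVel v)

/-- the mean value inequality with derivatives in the interior only -/
theorem boota_mvt {f f' : ℝ → R3} {a b K : ℝ} (hab : a ≤ b) (hK : 0 ≤ K) (hc : ContinuousOn f (Icc a b))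
    (hd : ∀ s ∈ Ioo a b, HasDerivAt f (f' s) s) (hb : ∀ s ∈ Ioo a b, ‖f' s‖ ≤ K) : ‖f b - f a‖ ≤ K * (b - a) := by
  set u := f b - f a with hu
  have hd' : ∀ s ∈ Ioo a b, HasDerivAt (fun s => ⟪u, f s⟫) ⟪u, f' s⟫ s := fun s hs => by
    simpa using (hasDerivAt_const s u).inner ℝ (hd s hs)
  have h := (convex_Icc a b).image_sub_le_mul_sub_of_deriv_le (f := fun s => ⟪u, f s⟫) (C := ‖u‖ * K)
    (continuousOn_const.inner hc)
    (by
      rw [interior_Icc]
      exact fun s hs => (hd' s hs).differentiableAt.differentiableWithinAt)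
    (by
      rw [interior_Icc]
      intro s hs
      rw [(hd' s hs).deriv]
      exact (real_inner_le_norm _ _).trans (mul_le_mul_of_nonneg_left (hb s hs) (norm_nonneg _)))
    a (left_mem_Icc.2 hab) b (right_mem_Icc.2 hab) hab
  rw [← inner_sub_right, ← hu, real_inner_self_eq_norm_sq] at h
  rcases (norm_nonneg u).eq_or_lt with h0 | h0
  · rw [← h0]; exact mul_nonneg hK (sub_nonneg.2 hab)
  · refine le_of_mul_le_mul_left ?_ h0
    nlinarith

namespace Sys
variable {Ω : Type} [MeasurableSpace Ω] {C : ℝ} (S : Sys Ω C)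

theorem boota_Y (ω : Ω) (t : ℝ) (h0 : 0 ≤ t) (ht : t ≤ S.T) : ‖S.Y t ω‖ ≤ C + S.T := by
  have h := boota_mvt (f := fun t => S.Y t ω) (f' := fun t => relVel (S.W t ω)) (K := 1) h0 zero_le_one
    (fun s hs => (S.dY ω s (hs.2.trans ht)).continuousAt.continuousWithinAt)
    (fun s hs => S.dY ω s (hs.2.le.trans ht)) (fun s _ => boota_relVel _)
  have h1 := S.Y0 ω
  have h2 := norm_add_le (S.Y 0 ω) (S.Y t ω - S.Y 0 ω)
  rw [add_sub_cancel] at h2
  linarith

theorem boota_lip : ∃ K : ℝ, 0 < K ∧ ∀ (ω : Ω) (s s' : ℝ), 0 ≤ s → s ≤ s' → s' ≤ S.T →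
    ‖S.W s' ω - S.W s ω‖ ≤ K * (s' - s) := by
  have hK : IsCompact (Icc 0 S.T ×ˢ Metric.closedBall (0 : R3) (C + S.T)) :=
    isCompact_Icc.prod (isCompact_closedBall _ _)
  obtain ⟨M, hM⟩ := hK.exists_bound_of_continuousOn
    (f := fun p : ℝ × R3 => ‖S.E p.1 p.2‖ + ‖S.B p.1 p.2‖) (S.cE.norm.add S.cB.norm).continuousOn
  refine ⟨|M| + 1, by positivity, fun ω s s' h0 hs hT => ?_⟩
  refine boota_mvt (f := fun t => S.W t ω)
    (f' := fun t => force (S.E t (S.Y t ω)) (S.B t (S.Y t ω)) (S.W t ω)) hs (by positivity)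
    ((S.cW ω).mono fun r hr => hr.2.trans hT)
    (fun r hr => S.dW ω r (h0.trans_lt hr.1) (hr.2.le.trans hT)) fun r hr => ?_
  have hr0 : 0 ≤ r := h0.trans hr.1.le
  have hrT : r ≤ S.T := hr.2.le.trans hT
  have h := hM (r, S.Y r ω) ⟨⟨hr0, hrT⟩, mem_closedBall_zero_iff.2 (S.boota_Y ω r hr0 hrT)⟩
  have h1 := boota_force (S.E r (S.Y r ω)) (S.B r (S.Y r ω)) (S.W r ω)
  have h2 := le_abs_self M
  have h3 := le_abs_self (‖S.E r (S.Y r ω)‖ + ‖S.B r (S.Y r ω)‖)
  rw [Real.norm_eq_abs] at h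
  simp only at h
  linarith

end Sys

end Crest.Agent.R106.A
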