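import Mathlib
import Crest.Agent.R106.A.Hyp
import Crest.Agent.R106.A.Boota

/-! # R106/A: from IMPROVE to the a priori bound (helper62). -/

set_option autoImplicit false

open Set Crest.AnalysisR.VecCalc3 Crest.AnalysisR.PDE.RVM

noncomputable section
namespace Crest.Agent.R106.A

namespace Sys
variable {Ω : Type} [MeasurableSpace Ω] {C : ℝ} (S : Sys Ω C)

/-- the same system on a shorter interval -/
def restrict (T' : ℝ) (h0 : 0 ≤ T') (h : T' ≤ S.T) : Sys Ω C where
  T := T'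
  μ := S.μ
  Y := S.Y
  W := S.W
  E := S.E
  B := S.B
  τ := S.τ
  one_le := S.one_le
  T_nonneg := h0
  T_le := h.trans S.T_le
  fin := S.fin
  mY := S.mY
  mW := S.mW
  mτ := S.mτ
  cE := S.cE
  cB := S.cB
  Y0 := S.Y0
  W0 := S.W0
  bdd := by
    obtain ⟨P, hP⟩ := S.bdd
    exact ⟨P, fun t ω ht => hP t ω (ht.trans h)⟩
  dY := fun ω t ht => S.dY ω t (ht.trans h)
  dW := fun ω t h0 ht => S.dW ω t h0 (ht.trans h)
  cW := fun ω => (S.cW ω).mono (Iic_subset_Iic.2 h)
  Wneg := S.Wneg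
  ret := fun s x ω hs => S.ret s x ω (hs.trans h)
  vol := fun s hs => S.vol s ⟨hs.1, hs.2.trans h⟩
  coneP := fun s hs => S.coneP s ⟨hs.1, hs.2.trans h⟩
  coneF := fun s hs => S.coneF s ⟨hs.1, hs.2.trans h⟩
  enP := fun s hs => S.enP s ⟨hs.1, hs.2.trans h⟩
  enF := fun s hs => S.enF s ⟨hs.1, hs.2.trans h⟩
  lwInt := fun s hs => S.lwInt s ⟨hs.1, hs.2.trans h⟩
  lwE := fun s hs => S.lwE s ⟨hs.1, hs.2.trans h⟩
  lwB := fun s hs => S.lwB s ⟨hs.1, hs.2.trans h⟩

/-- Boot-a: a non-quantitative Lipschitz bound for all momenta.  Recipe: `‖Y t ω‖ ≤ C + T` on `[0, T]` (`‖relVel‖ ≤ 1`, mean value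
inequality), `E, B` are bounded on the compact set `[0, T] × closedBall 0 (C + T)`, `‖force E B v‖ ≤ ‖E‖ + 3 ‖B‖` (any constant), and
the mean value inequality for `W` on `[s, s']` (`cW` on the closed interval, `dW` in the interior, e.g.
`norm_image_sub_le_of_norm_deriv_right_le_segment` on `[s + η, s']` and `η → 0`, or
`image_norm_le_of_norm_deriv_right_le_deriv_boundary`, or test against a unit vector and use `monotoneOn_of_deriv_nonneg`). -/
theorem lip : ∃ K : ℝ, 0 < K ∧ ∀ (ω : Ω) (s s' : ℝ), 0 ≤ s → s ≤ s' → s' ≤ S.T →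
    ‖S.W s' ω - S.W s ω‖ ≤ K * (s' - s) := S.boota_lip

/-- Boot-b: the crude step.  Recipe: if `s₁ ≤ t` use the hypothesis; if `t ≤ s₀` take `v s = K * s`; otherwise take `v` from the
hypothesis on `[s₀, t]` and `v' s = v (min s t) + K * max s t`.  (`1 ≤ en _`, `0 ≤ 2 g ^ _`.) -/
theorem hyp_step {K e P ε t h : ℝ} (hK : 0 < K)
    (hL : ∀ (ω : Ω) (s s' : ℝ), 0 ≤ s → s ≤ s' → s' ≤ S.T → ‖S.W s' ω - S.W s ω‖ ≤ K * (s' - s))
    (hε : 0 < ε) (ht : 0 ≤ t) (hh : 0 ≤ h) (hKh : K * h ≤ ε) (hT : t + h ≤ S.T) (H : S.Hyp e P ε t) :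
    S.Hyp e P (2 * ε) (t + h) := by
  intro o s₀ s₁ h0 h01 h1 hP hl
  have hg : 1 ≤ en (S.W s₀ o) := Real.le_sqrt_of_sq_le (by nlinarith [sq_nonneg ‖S.W s₀ o‖])
  have hr : 0 ≤ en (S.W s₀ o) ^ (47 / 100 : ℝ) := Real.rpow_nonneg (by linarith) _
  have hεg : ε ≤ ε * en (S.W s₀ o) := le_mul_of_one_le_right hε.le hg
  rcases le_total s₁ t with h2 | h2
  · obtain ⟨v, hv, h3, h4⟩ := H o s₀ s₁ h0 h01 h2 hP hl
    exact ⟨v, hv, by linarith, h4⟩
  rcases le_total t s₀ with h3 | h3
  · refine ⟨fun s => K * s, fun a b hab => mul_le_mul_of_nonneg_left hab hK.le, ?_, fun s s' a b c => ?_⟩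
    · have := mul_le_mul_of_nonneg_left (show s₁ - s₀ ≤ h by linarith) hK.le
      simp only
      linarith
    · have := hL o s s' (h0.trans a) b (by linarith)
      simp only
      linarith
  obtain ⟨v, hv, h4, h5⟩ := H o s₀ t h0 h3 le_rfl hP (by linarith)
  refine ⟨fun s => v (min s t) + K * max s t, fun a b hab => add_le_add (hv (min_le_min_right t hab))
    (mul_le_mul_of_nonneg_left (max_le_max_right t hab) hK.le), ?_, fun s s' a b c => ?_⟩
  · have := mul_le_mul_of_nonneg_left (show s₁ - t ≤ h by linarith) hK.le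
    simp only [min_eq_right h2, max_eq_left h2, min_eq_left h3, max_eq_right h3]
    linarith
  rcases le_total s' t with d | d
  · have := h5 s s' a b d
    simp only [min_eq_left d, max_eq_right d, min_eq_left (b.trans d), max_eq_right (b.trans d)]
    linarith
  rcases le_total t s with d' | d'
  · have := hL o s s' (h0.trans a) b (by linarith)
    simp only [min_eq_right d, max_eq_left d, min_eq_right d', max_eq_left d']
    linarith
  · have e1 := hL o t s' ht d (by linarith)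
    have e2 := h5 s t a d' le_rfl
    have e3 := norm_sub_le_norm_sub_add_norm_sub (S.W s' o) (S.W t o) (S.W s o)
    simp only [min_eq_right d, max_eq_left d, min_eq_left d', max_eq_right d']
    linarith

/-- Boot-c: the continuity argument.  Recipe: `Hyp ε 0` is trivial (`s₀ = s₁ = 0`, `v = 0`); with `h = ε / K` prove
`Hyp ε (min (n h) T)` by induction on `n` (`hyp_step` with step `min ((n+1) h) T - min (n h) T`), then take `n h ≥ T`. -/
theorem hyp_all {e P ε : ℝ} (hε : 0 < ε)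
    (imp : ∀ t, 0 ≤ t → t ≤ S.T → S.Hyp e P (2 * ε) t → S.Hyp e P ε t) : S.Hyp e P ε S.T := by
  obtain ⟨K, hK, hL⟩ := S.lip
  have hT := S.T_nonneg
  have hh : 0 < ε / K := div_pos hε hK
  have h0 : S.Hyp e P ε 0 := by
    intro o s₀ s₁ a b c _ _
    have hen : 0 ≤ en (S.W s₀ o) := Real.sqrt_nonneg _
    refine ⟨fun _ => 0, monotone_const, by simpa using mul_nonneg hε.le hen, fun s s' h1 h2 h3 => ?_⟩
    have : s' = s := by linarith
    rw [this, sub_self, norm_zero, sub_self, zero_add]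
    positivity
  have key : ∀ n : ℕ, S.Hyp e P ε (min (n * (ε / K)) S.T) := by
    intro n
    induction n with
    | zero => simpa [min_eq_left hT] using h0
    | succ n ih =>
      have hn : (0 : ℝ) ≤ n * (ε / K) := by positivity
      have h1 : 0 ≤ min (n * (ε / K)) S.T := le_min hn hT
      have e1 : ((n + 1 : ℕ) : ℝ) * (ε / K) = n * (ε / K) + ε / K := by push_cast; ring
      have h2 : min (n * (ε / K)) S.T ≤ min (((n + 1 : ℕ) : ℝ) * (ε / K)) S.T :=
        min_le_min_right _ (by rw [e1]; linarith)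
      have h3 : min (((n + 1 : ℕ) : ℝ) * (ε / K)) S.T - min (n * (ε / K)) S.T ≤ ε / K := by
        rw [e1]
        rcases le_total (n * (ε / K)) S.T with h | h
        · rw [min_eq_left h]
          linarith [min_le_left (n * (ε / K) + ε / K) S.T]
        · rw [min_eq_right h]
          linarith [min_le_right (n * (ε / K) + ε / K) S.T]
      have h4 : K * (min (((n + 1 : ℕ) : ℝ) * (ε / K)) S.T - min (n * (ε / K)) S.T) ≤ ε := by
        calc _ ≤ K * (ε / K) := mul_le_mul_of_nonneg_left h3 hK.le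
          _ = ε := by field_simp
      have h5 := S.hyp_step hK hL hε h1 (sub_nonneg.2 h2) h4 (by rw [add_sub_cancel]; exact min_le_right _ _) ih
      rw [add_sub_cancel] at h5
      exact imp _ (h1.trans h2) (min_le_right _ _) h5
  obtain ⟨n, hn⟩ := exists_nat_ge (S.T / (ε / K))
  have h6 := key n
  rwa [min_eq_right ((div_le_iff₀ hh).1 hn)] at h6

theorem bootd_lip (v w : R3) : en w ≤ en v + ‖w - v‖ := by
  have h1 : ‖w‖ ≤ ‖v‖ + ‖w - v‖ := norm_le_insert' w v
  have h2 : ‖v‖ ≤ en v := Real.le_sqrt_of_sq_le (by linarith)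
  have h3 : en v ^ 2 = 1 + ‖v‖ ^ 2 := Real.sq_sqrt (by positivity)
  have h4 := norm_nonneg v
  have h5 := norm_nonneg w
  have h6 := norm_nonneg (w - v)
  refine Real.sqrt_le_iff.2 ⟨by linarith, ?_⟩
  have h7 : ‖w‖ ^ 2 ≤ (‖v‖ + ‖w - v‖) ^ 2 := pow_le_pow_left₀ h5 h1 2
  nlinarith [mul_le_mul_of_nonneg_left h2 h6]

theorem bootd_pow {P : ℝ} (hP : 10 ^ 6 ≤ P) : P ^ (56 / 100 : ℝ) ≤ P / 100 := by
  have hP0 : 0 < P := by linarith
  have h1 : (100 : ℝ) ≤ P ^ (44 / 100 : ℝ) := by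
    calc (100 : ℝ) = ((100 : ℝ) ^ (3 : ℕ)) ^ ((3 : ℕ) : ℝ)⁻¹ := (Real.pow_rpow_inv_natCast (by norm_num) (by norm_num)).symm
      _ ≤ P ^ ((3 : ℕ) : ℝ)⁻¹ := Real.rpow_le_rpow (by positivity) (by linarith) (by positivity)
      _ ≤ P ^ (44 / 100 : ℝ) := Real.rpow_le_rpow_of_exponent_le (by linarith) (by norm_num)
  have h2 : P ^ (56 / 100 : ℝ) * P ^ (44 / 100 : ℝ) = P := by
    rw [← Real.rpow_add hP0]; norm_num
  have h3 : 0 < P ^ (56 / 100 : ℝ) := Real.rpow_pos_of_pos hP0 _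
  rw [le_div_iff₀ (by norm_num)]
  nlinarith [mul_le_mul_of_nonneg_left h1 h3.le]

/-- Boot-d: doubling takes time.  Recipe: put `l = e ^ 2 / (16 log P) ≤ lev e P (P / 4)`.  If `en (W s' o) ≤ P / 4` for some
`s' ∈ [0, t]` with `t - s' ≤ l`, the intermediate value theorem (`cW`) gives `s₀ ∈ [s', t]` with `en (W s₀ o) = P / 4`; `Hyp` on
`[s₀, t]` gives `‖W t - W s₀‖ ≤ P / 4000 + 2 (P / 4) ^ 0.47 ≤ P / 8`, and `en` is `1`-Lipschitz: contradiction.  Apply it with
`s' = 0` (`en (W 0 o) ≤ 1 + C`; for `t ≤ 0` use `Wneg`) and with `s' = t - l`. -/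
theorem doubling {e P t : ℝ} {o : Ω} (he : 0 < e) (hP : 10 ^ 6 ≤ P) (hC : 4 * (1 + C) ≤ P)
    (H : S.Hyp e P (1 / 1000) S.T) (ht : t ≤ S.T) (h : P / 2 < en (S.W t o)) :
    e ^ 2 / (16 * Real.log P) ≤ t ∧ P / 4 < en (S.W (t - e ^ 2 / (16 * Real.log P)) o) := by
  have hP0 : 0 < P := by linarith
  have hlog : 1 ≤ Real.log P := by
    rw [Real.le_log_iff_exp_le hP0]
    linarith [Real.exp_one_lt_d9]
  set l := e ^ 2 / (16 * Real.log P) with hl
  have hl0 : 0 < l := by positivity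
  have hlev : l ≤ lev e P (P / 4) := by
    rw [lev, hl, div_eq_mul_inv]
    refine mul_le_mul_of_nonneg_left (le_min ?_ ?_) (by positivity)
    · rw [show (P / 4) ^ 2 / P ^ 2 = (16 : ℝ)⁻¹ by field_simp; norm_num]
      exact inv_anti₀ (by norm_num) (by linarith)
    · rw [show P / 4 / (P * Real.log P) = (4 * Real.log P)⁻¹ by field_simp]
      exact inv_anti₀ (by positivity) (by linarith)
  have hpow := bootd_pow hP
  have key : ∀ s', 0 ≤ s' → s' ≤ t → t - s' ≤ l → P / 4 < en (S.W s' o) := by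
    intro s' h0 h1 h2
    by_contra hcon
    push Not at hcon
    have hc : ContinuousOn (fun s => en (S.W s o)) (Icc s' t) := by
      have h3 : Continuous en := by unfold en; fun_prop
      exact h3.comp_continuousOn ((S.cW o).mono fun s hs => hs.2.trans ht)
    obtain ⟨s₀, hs₀, he₀⟩ := intermediate_value_Icc h1 hc (show P / 4 ∈ Icc (en (S.W s' o)) (en (S.W t o)) from
      ⟨hcon, by linarith⟩)
    have he₀' : en (S.W s₀ o) = P / 4 := he₀
    obtain ⟨v, -, hv1, hv2⟩ := H o s₀ t (h0.trans hs₀.1) hs₀.2 ht (by rw [he₀']; linarith)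
      (by rw [he₀']; linarith [hs₀.1])
    have h4 := hv2 s₀ t le_rfl hs₀.2 le_rfl
    rw [he₀'] at hv1 h4
    have h5 : (P / 4) ^ (47 / 100 : ℝ) ≤ P ^ (56 / 100 : ℝ) :=
      (Real.rpow_le_rpow (by positivity) (by linarith) (by norm_num)).trans
        (Real.rpow_le_rpow_of_exponent_le (by linarith) (by norm_num))
    have h6 := bootd_lip (S.W s₀ o) (S.W t o)
    linarith
  have h00 : en (S.W 0 o) ≤ P / 4 := by
    have h1 := bootd_lip 0 (S.W 0 o)
    have h2 : en 0 = 1 := by simp [en]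
    rw [sub_zero, h2] at h1
    linarith [S.W0 o]
  have hlt : l ≤ t := by
    by_contra hcon
    push Not at hcon
    rcases le_total t 0 with h1 | h1
    · rw [S.Wneg o t h1] at h; linarith
    · linarith [key 0 le_rfl h1 (by linarith)]
  exact ⟨hlt, key _ (by linarith) (by linarith) (by linarith)⟩

end Sys

theorem boote_mono {x y : ℝ} (hx : 1 < x) (h : x ≤ y) : Real.log (Real.log x) ≤ Real.log (Real.log y) :=
  Real.log_le_log (Real.log_pos hx) (Real.log_le_log (by linarith) h)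

theorem boote_key {x : ℝ} (hx : 16 ≤ x) :
    Real.log (Real.log x) ≤ Real.log (Real.log (x / 4)) + 2 * Real.log 4 / Real.log x := by
  have hl : 0 < Real.log 4 := Real.log_pos (by norm_num)
  have h16 : 2 * Real.log 4 ≤ Real.log x := by
    have : Real.log 16 = 2 * Real.log 4 := by
      rw [show (16 : ℝ) = 4 ^ 2 by norm_num, Real.log_pow]; norm_num
    rw [← this]; exact Real.log_le_log (by norm_num) hx
  rw [Real.log_div (by linarith) (by norm_num)]
  generalize Real.log x = y at *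
  generalize Real.log 4 = l at *
  have hy : 0 < y := by linarith
  have hyl : 0 < y - l := by linarith
  have h1 := Real.log_le_sub_one_of_pos (div_pos hy hyl)
  rw [Real.log_div hy.ne' hyl.ne'] at h1
  have h2 : y / (y - l) - 1 ≤ 2 * l / y := by
    rw [div_sub_one hyl.ne', div_le_div_iff₀ hyl hy]
    nlinarith
  linarith

/-- Boot-e: `log log` grows at most linearly.  Recipe: `κ = 3 / c`; for `x ≥ 16`, `log log (x / 4) ≥ log log x - 3 / log x`; prove
`log log (m t) ≤ log log P₀ + κ t` whenever `P₀ ≤ m t`, by induction on `n` with `t ≤ n * (c / log (m T))` (for `P₀ ≤ m T`; every step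
is `≥ c / log (m T)` by monotonicity; if `m (t - step) < P₀` then `m t / 4 < P₀`, so use `4 P₀` as base value).  The bound is
`exp (exp (log log (4 P₀) + κ T₀))`. -/
theorem loglog_bound (c P₀ T₀ : ℝ) (hc : 0 < c) (hP : 16 ≤ P₀) : ∃ P : ℝ, ∀ (m : ℝ → ℝ) (T : ℝ), 0 ≤ T → T ≤ T₀ → MonotoneOn m (Icc 0 T) →
    (∀ t ∈ Icc 0 T, P₀ ≤ m t → c / Real.log (m t) ≤ t ∧ m t / 4 ≤ m (t - c / Real.log (m t))) → m T ≤ P := by
  have hl : 0 < Real.log 4 := Real.log_pos (by norm_num)
  set κ : ℝ := 2 * Real.log 4 / c with hκ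
  have hκ0 : 0 < κ := by positivity
  refine ⟨max P₀ (Real.exp (Real.exp (Real.log (Real.log (4 * P₀)) + κ * T₀))), fun m T h0 hT hm H => ?_⟩
  by_cases hmT : m T < P₀
  · exact hmT.le.trans (le_max_left _ _)
  push Not at hmT
  refine le_trans ?_ (le_max_right _ _)
  have hlT : 0 < Real.log (m T) := Real.log_pos (by linarith)
  set δ : ℝ := c / Real.log (m T) with hδ
  have hδ0 : 0 < δ := by positivity
  have key : ∀ n : ℕ, ∀ t ∈ Icc 0 T, t ≤ n * δ → P₀ ≤ m t →
      Real.log (Real.log (m t)) ≤ Real.log (Real.log (4 * P₀)) + κ * t := by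
    intro n
    induction n with
    | zero =>
      intro t ht htn hmt
      have h1 := (H t ht hmt).1
      have h2 : 0 < c / Real.log (m t) := div_pos hc (Real.log_pos (by linarith))
      simp at htn
      linarith
    | succ n ih =>
      intro t ht htn hmt
      obtain ⟨h1, h2⟩ := H t ht hmt
      have hlt : 0 < Real.log (m t) := Real.log_pos (by linarith)
      have hs : δ ≤ c / Real.log (m t) := by
        apply div_le_div_of_nonneg_left hc.le hlt
        exact Real.log_le_log (by linarith) (hm ht ⟨h0, le_rfl⟩ ht.2)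
      have hκt : 0 ≤ κ * t := mul_nonneg hκ0.le ht.1
      by_cases h3 : m (t - c / Real.log (m t)) < P₀
      · have := boote_mono (x := m t) (y := 4 * P₀) (by linarith) (by linarith)
        linarith
      · push Not at h3
        have h4 := ih (t - c / Real.log (m t)) ⟨by linarith, by linarith [ht.2]⟩ (by push_cast at htn; linarith) h3
        have h5 := boote_key (x := m t) (by linarith)
        have h6 := boote_mono (x := m t / 4) (by linarith) h2
        have h7 : κ * (t - c / Real.log (m t)) = κ * t - 2 * Real.log 4 / Real.log (m t) := by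
          rw [hκ]; field_simp
        linarith
  obtain ⟨n, hn⟩ := exists_nat_ge (T / δ)
  rw [div_le_iff₀ hδ0] at hn
  have h1 := key n T ⟨h0, le_rfl⟩ hn hmT
  have h2 : κ * T ≤ κ * T₀ := mul_le_mul_of_nonneg_left hT hκ0.le
  calc m T = Real.exp (Real.exp (Real.log (Real.log (m T)))) := by
        rw [Real.exp_log hlT, Real.exp_log (by linarith)]
    _ ≤ _ := Real.exp_le_exp.2 (Real.exp_le_exp.2 (by linarith))

/-- Boot-f -/
theorem s_apl_of_imp (h : S_IMP) : S_APL := by
  intro C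
  obtain ⟨e, P₀, he, -, himp⟩ := h C
  obtain ⟨P, hP⟩ := loglog_bound (e ^ 2 / 16) (max (max P₀ (10 ^ 6)) (4 * (1 + C))) C (by positivity)
    (le_max_of_le_left (le_max_of_le_right (by norm_num)))
  refine ⟨P, fun Ω _ S t ω ht => ?_⟩
  obtain ⟨Q, hQ⟩ := S.bdd
  set A : ℝ → Set ℝ := fun r => {x | ∃ s ω', s ≤ r ∧ x = en (S.W s ω')} with hA
  have hne : ∀ r, (A r).Nonempty := fun r => ⟨_, r, ω, le_rfl, rfl⟩
  have hbd : ∀ r, r ≤ S.T → BddAbove (A r) := by
    intro r hr
    refine ⟨1 + |Q|, ?_⟩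
    rintro x ⟨s, ω', hs, rfl⟩
    have h1 := hQ s ω' (hs.trans hr)
    have h2 := norm_nonneg (S.W s ω')
    have h3 := le_abs_self Q
    refine Real.sqrt_le_iff.2 ⟨by positivity, ?_⟩
    nlinarith [abs_nonneg Q]
  have hle : ∀ r, r ≤ S.T → ∀ s ω', s ≤ r → en (S.W s ω') ≤ sSup (A r) := fun r hr s ω' hs =>
    le_csSup (hbd r hr) ⟨s, ω', hs, rfl⟩
  have hT := hP (fun r => sSup (A r)) S.T S.T_nonneg S.T_le ?_ ?_
  · have h1 := hle S.T le_rfl t ω ht
    have h2 : ‖S.W t ω‖ ≤ en (S.W t ω) := Real.le_sqrt_of_sq_le (by linarith)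
    exact h2.trans (h1.trans hT)
  · intro r _ r' hr' hrr
    refine csSup_le_csSup (hbd r' hr'.2) (hne r) ?_
    rintro x ⟨s, ω', hs, rfl⟩
    exact ⟨s, ω', hs.trans hrr, rfl⟩
  · intro r hr hm
    have hm1 : P₀ ≤ sSup (A r) := ((le_max_left _ _).trans (le_max_left _ _)).trans hm
    have hm2 : (10 : ℝ) ^ 6 ≤ sSup (A r) := ((le_max_right _ _).trans (le_max_left _ _)).trans hm
    have hm3 : 4 * (1 + C) ≤ sSup (A r) := (le_max_right _ _).trans hm
    have H : (S.restrict r hr.1 hr.2).Hyp e (sSup (A r)) (1 / 1000) (S.restrict r hr.1 hr.2).T := by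
      refine Sys.hyp_all _ (by norm_num) fun t' h0 h1 h2 => ?_
      refine himp Ω (S.restrict r hr.1 hr.2) _ t' hm1 (fun s ω' hs => hle r hr.2 s ω' hs) h0 h1 ?_
      rwa [show (2 * (1 / 1000) : ℝ) = 2 / 1000 by norm_num] at h2
    obtain ⟨x, ⟨s, o, hs, rfl⟩, hx⟩ := exists_lt_of_lt_csSup (hne r) (show sSup (A r) / 2 < sSup (A r) by linarith)
    obtain ⟨h1, h2⟩ := (S.restrict r hr.1 hr.2).doubling he hm2 hm3 H hs hx
    have e1 : e ^ 2 / 16 / Real.log (sSup (A r)) = e ^ 2 / (16 * Real.log (sSup (A r))) := by rw [div_div]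
    have hl : 0 ≤ e ^ 2 / (16 * Real.log (sSup (A r))) := by
      have : 0 ≤ Real.log (sSup (A r)) := Real.log_nonneg (by linarith)
      positivity
    simp only [e1]
    refine ⟨h1.trans hs, h2.le.trans ?_⟩
    exact hle _ (by linarith [hr.2]) _ o (by linarith)

end Crest.Agent.R106.A
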