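import Crest.Agent.R106.A.Meas

/-! # R106/A/Box (helper44): volume, cone flux and energy bounds of `I`, Cauchy–Schwarz for the acceleration terms. -/

set_option autoImplicit false

open MeasureTheory Set Crest.AnalysisR.VecCalc3 Crest.AnalysisR.PDE.RVM
open scoped ENNReal RealInnerProductSpace

noncomputable section
namespace Crest.Agent.R106.A

/-- Box-a: cover by the balls of radius `2 ρ` around `p + (k ρ) • n`, `k ≤ ⌊L / ρ⌋₊` (`EuclideanSpace.volume_closedBall_fin_three`) -/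
theorem vol_tube {n : R3} (hn : ‖n‖ ≤ 1) (p : R3) {L ρ : ℝ} (hρ : 0 < ρ) (hL : 0 ≤ L) :
    volume {v : R3 | ∃ t ∈ Icc 0 L, ‖v - (p + t • n)‖ ≤ ρ} ≤ ENNReal.ofReal (40 * (L + ρ) * ρ ^ 2) := by
  have hsub : {v : R3 | ∃ t ∈ Icc 0 L, ‖v - (p + t • n)‖ ≤ ρ} ⊆
      ⋃ k ∈ Finset.range (⌊L / ρ⌋₊ + 1), Metric.closedBall (p + ((k : ℝ) * ρ) • n) (2 * ρ) := by
    rintro v ⟨t, ⟨h0, h1⟩, hv⟩
    simp only [mem_iUnion, Finset.mem_range, Metric.mem_closedBall, dist_eq_norm]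
    refine ⟨⌊t / ρ⌋₊, Nat.lt_succ_of_le (Nat.floor_mono (by gcongr)), ?_⟩
    have e1 : (⌊t / ρ⌋₊ : ℝ) * ρ ≤ t := by
      rw [← le_div_iff₀ hρ]; exact Nat.floor_le (by positivity)
    have e2 : t < ((⌊t / ρ⌋₊ : ℝ) + 1) * ρ := by
      rw [← div_lt_iff₀ hρ]; exact Nat.lt_floor_add_one _
    have e : v - (p + ((⌊t / ρ⌋₊ : ℝ) * ρ) • n) = (v - (p + t • n)) + (t - (⌊t / ρ⌋₊ : ℝ) * ρ) • n := by
      rw [sub_smul]; abel
    rw [e]
    refine (norm_add_le _ _).trans ?_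
    rw [norm_smul, Real.norm_eq_abs, abs_of_nonneg (by linarith)]
    nlinarith [mul_le_mul_of_nonneg_left hn (sub_nonneg.2 e1)]
  refine (measure_mono hsub).trans ((measure_biUnion_finset_le _ _).trans ?_)
  simp only [EuclideanSpace.volume_closedBall_fin_three, Finset.sum_const, Finset.card_range, nsmul_eq_mul]
  rw [← ENNReal.ofReal_pow (by positivity), ← ENNReal.ofReal_mul (by positivity), ← ENNReal.ofReal_natCast,
    ← ENNReal.ofReal_mul (by positivity)]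
  refine ENNReal.ofReal_le_ofReal ?_
  have e1 : (⌊L / ρ⌋₊ : ℝ) * ρ ≤ L := by
    rw [← le_div_iff₀ hρ]; exact Nat.floor_le (by positivity)
  have hpi := Real.pi_lt_d2
  push_cast
  calc ((⌊L / ρ⌋₊ : ℝ) + 1) * ((2 * ρ) ^ 3 * (Real.pi * 4 / 3))
      = (Real.pi * 32 / 3) * ((⌊L / ρ⌋₊ : ℝ) * ρ + ρ) * ρ ^ 2 := by ring
    _ ≤ 40 * (L + ρ) * ρ ^ 2 := by gcongr; linarith

theorem boxa_sub_le {n : R3} (hn : ‖n‖ ≤ 1) (v : R3) {B : ℝ} (h : ang n v ≤ 2 * B) : ‖n - relVel v‖ ≤ 2 * √B := by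
  have h1 := norm_relVel_lt_one v
  have h2 : ‖n - relVel v‖ ^ 2 ≤ 4 * B := by
    rw [norm_sub_sq_real]
    unfold ang at h
    nlinarith [norm_nonneg n, norm_nonneg (relVel v)]
  have h3 : (2 : ℝ) * √B = √(4 * B) := by
    rw [Real.sqrt_mul (by norm_num), show (4 : ℝ) = 2 ^ 2 by norm_num, Real.sqrt_sq (by norm_num)]
  rw [h3]
  exact Real.le_sqrt_of_sq_le h2

theorem boxa_num {M B : ℝ} (hM : 0 < M) (hB : 0 < B) (hB2 : B ≤ 2) :
    40 * (2 * M + 4 * M * √B) * (4 * M * √B) ^ 2 ≤ 6000 * M ^ 3 * B := by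
  have h1 : √B ≤ 3 / 2 := Real.sqrt_le_iff.2 ⟨by norm_num, by linarith⟩
  have h2 : √B ^ 2 = B := Real.sq_sqrt hB.le
  calc 40 * (2 * M + 4 * M * √B) * (4 * M * √B) ^ 2 = (640 * (2 + 4 * √B)) * M ^ 3 * √B ^ 2 := by ring
    _ ≤ 6000 * M ^ 3 * B := by rw [h2]; gcongr; linarith

/-- Box-a: `‖v̂ - n‖ ^ 2 ≤ 2 ang n v ≤ 4 B`, `v = en v • v̂`; tube with `L = 2 M`, `ρ = 4 M √B` -/
theorem vol_v {n : R3} (hn : ‖n‖ ≤ 1) {M B : ℝ} (hM : 0 < M) (hB : 0 < B) (hB2 : B ≤ 2) :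
    volume {v : R3 | en v ≤ 2 * M ∧ ang n v ≤ 2 * B} ≤ ENNReal.ofReal (6000 * M ^ 3 * B) := by
  have hs : 0 < √B := Real.sqrt_pos.2 hB
  refine le_trans (measure_mono ?_) ((vol_tube hn 0 (L := 2 * M) (ρ := 4 * M * √B) (by positivity) (by positivity)).trans
    (ENNReal.ofReal_le_ofReal (boxa_num hM hB hB2)))
  rintro v ⟨h1, h2⟩
  have hp := en_pos v
  refine ⟨en v, ⟨hp.le, h1⟩, ?_⟩
  have e : v - (0 + en v • n) = -(en v • (n - relVel v)) := by
    rw [relVel_eq, smul_sub, smul_smul, mul_inv_cancel₀ hp.ne', one_smul]; abel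
  rw [e, norm_neg, norm_smul, Real.norm_eq_abs, abs_of_pos hp]
  calc en v * ‖n - relVel v‖ ≤ (2 * M) * (2 * √B) := by gcongr; exact boxa_sub_le hn v h2
    _ = 4 * M * √B := by ring

/-- Box-a: `‖dir z - V̂‖ ≤ 2 √A`, `z = ‖z‖ • dir z`; tube around `x + t • (-V̂)`, `L = 2 R`, `ρ = 4 R √A` -/
theorem vol_y (x V : R3) {R A : ℝ} (hR : 0 < R) (hA : 0 < A) (hA2 : A ≤ 2) :
    volume {y : R3 | ‖x - y‖ ≤ 2 * R ∧ ang (dir (x - y)) V ≤ 2 * A} ≤ ENNReal.ofReal (6000 * R ^ 3 * A) := by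
  have hs : 0 < √A := Real.sqrt_pos.2 hA
  have hn : ‖-relVel V‖ ≤ 1 := by rw [norm_neg]; exact (norm_relVel_lt_one V).le
  refine le_trans (measure_mono ?_) ((vol_tube hn x (L := 2 * R) (ρ := 4 * R * √A) (by positivity) (by positivity)).trans
    (ENNReal.ofReal_le_ofReal (boxa_num hR hA hA2)))
  rintro y ⟨h1, h2⟩
  refine ⟨‖x - y‖, ⟨norm_nonneg _, h1⟩, ?_⟩
  have hd : ‖dir (x - y)‖ ≤ 1 := by
    by_cases hz : x - y = 0
    · simp [hz, dir]
    · exact (norm_dir hz).le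
  have e : y - (x + ‖x - y‖ • -relVel V) = -(‖x - y‖ • (dir (x - y) - relVel V)) := by
    rw [smul_sub, norm_smul_dir, smul_neg]; abel
  rw [e, norm_neg, norm_smul, norm_norm]
  calc ‖x - y‖ * ‖dir (x - y) - relVel V‖ ≤ (2 * R) * (2 * √A) := by gcongr; exact boxa_sub_le hd V h2
    _ = 4 * R * √A := by ring

/-- Box-b -/
theorem meas_en : Measurable en := by
  have h : Continuous fun v : R3 => en v := by unfold en; fun_prop
  exact h.measurable
/-- Box-b -/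
theorem meas_dir : Measurable dir := by
  exact measurable_norm.inv.smul measurable_id
/-- Box-b -/
theorem meas_relVel : Measurable relVel := by
  exact Sys.rc2_relVel.measurable
/-- Box-b -/
theorem meas_ang : Measurable fun p : R3 × R3 => ang p.1 p.2 := by
  exact measurable_const.sub (measurable_fst.inner (meas_relVel.comp measurable_snd))
/-- Box-b -/
theorem meas_gd : Measurable fun p : R3 × R3 × R3 => gd p.1 p.2.1 p.2.2 := by
  have h : Continuous fun p : R3 × R3 × R3 => gd p.1 p.2.1 p.2.2 :=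
    (((continuous_snd.fst.norm.pow 2).add (continuous_snd.snd.norm.pow 2)).div_const 2).sub
      (continuous_fst.inner (Sys.rc2_cross.comp continuous_snd))
  exact h.measurable
/-- Box-b: `‖dir z‖ ≤ 1`, `‖E × B‖ ≤ ‖E‖ ‖B‖` (or `gd_eq`) -/
theorem gd_nonneg (z E B : R3) : 0 ≤ gd (dir z) E B := by
  by_cases hz : z = 0
  · subst hz
    simp only [gd, dir, smul_zero, inner_zero_left, sub_zero]
    positivity
  · rw [gd_eq (norm_dir hz)]
    positivity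
/-- Box-b -/
theorem ang_pos {n : R3} (hn : ‖n‖ ≤ 1) (v : R3) : 0 < ang n v := by
  have h := abs_real_inner_le_norm n (relVel v)
  have h1 := norm_relVel_lt_one v
  have h2 := le_abs_self ⟪n, relVel v⟫
  unfold ang
  nlinarith [norm_nonneg n, norm_nonneg (relVel v)]

namespace Sys
variable {Ω : Type} [MeasurableSpace Ω] {C : ℝ} (S : Sys Ω C)

theorem boxb_W (o : Ω) : Measurable fun p : ℝ × Ω => S.W p.1 o :=
  S.mW.comp (f := fun p : ℝ × Ω => (p.1, o)) (measurable_fst.prodMk measurable_const)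

theorem boxb_src (o : Ω) : Measurable fun p : ℝ × Ω => (S.rt o p.1 p.2, S.Y (S.rt o p.1 p.2) p.2) :=
  (S.meas_rt o).prodMk (S.mY.comp (f := fun p : ℝ × Ω => (S.rt o p.1 p.2, p.2)) ((S.meas_rt o).prodMk measurable_snd))

/-- Box-b -/
theorem meas_Es (o : Ω) : Measurable fun p : ℝ × Ω => S.Es o p.1 p.2 := by
  exact S.cE.measurable.comp (S.boxb_src o)
/-- Box-b -/
theorem meas_Bs (o : Ω) : Measurable fun p : ℝ × Ω => S.Bs o p.1 p.2 := by
  exact S.cB.measurable.comp (S.boxb_src o)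
/-- Box-b -/
theorem meas_box₂ (o : Ω) (A Bb Cc R M : ℝ) : MeasurableSet {p : ℝ × Ω | p.2 ∈ S.box o A Bb Cc R M p.1} := by
  exact (measurableSet_le measurable_const (S.meas_rt o)).inter <| (S.meas_a o measurableSet_Icc).inter <|
    (S.meas_b o measurableSet_Icc).inter <| (S.meas_c o measurableSet_Icc).inter <|
    ((S.meas_z o).norm measurableSet_Icc).inter ((meas_en.comp (S.meas_w o)) measurableSet_Icc)
/-- Box-b -/
theorem meas_box (o : Ω) (A Bb Cc R M s : ℝ) : MeasurableSet (S.box o A Bb Cc R M s) := by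
  exact measurable_prodMk_left (x := s) (S.meas_box₂ o A Bb Cc R M)
/-- Box-b: `Measurable.lintegral_prod_right'` for the indicator (`S.fin`) -/
theorem meas_lbox (o : Ω) (A Bb Cc R M : ℝ) {g : ℝ → Ω → ℝ≥0∞} (hg : Measurable fun p : ℝ × Ω => g p.1 p.2) :
    Measurable fun s => ∫⁻ ω in S.box o A Bb Cc R M s, g s ω ∂S.μ := by
  have := S.fin
  have h := (hg.indicator (S.meas_box₂ o A Bb Cc R M)).lintegral_prod_right' (ν := S.μ)
  convert h using 2 with s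
  rw [← lintegral_indicator (S.meas_box o A Bb Cc R M s)]
  rfl
/-- Box-b -/
theorem meas_Is (o : Ω) (A Bb Cc R M : ℝ) : Measurable (S.Is o A Bb Cc R M) := by
  exact S.meas_lbox o A Bb Cc R M (g := fun s ω => ENNReal.ofReal (S.b o s ω)⁻¹)
    (ENNReal.measurable_ofReal.comp (S.meas_b o).inv)

variable (o : Ω) {A Bb Cc R M s s₀ s₁ : ℝ}

/-- Box-c: `S.vol` with `g (y, v) = h y * indicator {en v ≤ 2 M, ang (dir (x - y)) v ≤ 2 Bb, ang V̂ v ≤ 2 Cc}`, Tonelli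
(`Measure.volume_eq_prod`, `lintegral_prod`), `vol_v` with `n = dir (x - y)` and with `n = V̂` -/
theorem box_le (hs : s ∈ Icc 0 S.T) (hM : 0 < M) (hB : 0 < Bb) (hB2 : Bb ≤ 2) (hC : 0 < Cc) (hC2 : Cc ≤ 2)
    {h : R3 → ℝ≥0∞} (hh : Measurable h) :
    ∫⁻ ω in S.box o A Bb Cc R M s, h (S.Y (S.rt o s ω) ω) * ENNReal.ofReal (S.b o s ω)⁻¹ ∂S.μ ≤
      ENNReal.ofReal (6000 * C * M ^ 3 * min Bb Cc) * ∫⁻ y, h y := by
  have hC0 : 0 ≤ C := zero_le_one.trans S.one_le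
  obtain ⟨x, hx⟩ : ∃ x, x = S.Y s o := ⟨_, rfl⟩
  obtain ⟨V, hV⟩ : ∃ V, V = relVel (S.W s o) := ⟨_, rfl⟩
  obtain ⟨G, hG⟩ : ∃ G : Set (R3 × R3),
      G = {p | en p.2 ≤ 2 * M ∧ ang (dir (x - p.1)) p.2 ≤ 2 * Bb ∧ ang V p.2 ≤ 2 * Cc} := ⟨_, rfl⟩
  have hGm : MeasurableSet G := by
    rw [hG]
    have m1 : Measurable fun p : R3 × R3 => en p.2 := meas_en.comp measurable_snd
    have m2 : Measurable fun p : R3 × R3 => ang (dir (x - p.1)) p.2 :=
      meas_ang.comp (f := fun p : R3 × R3 => (dir (x - p.1), p.2))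
        ((meas_dir.comp (measurable_const.sub measurable_fst)).prodMk measurable_snd)
    have m3 : Measurable fun p : R3 × R3 => ang V p.2 :=
      meas_ang.comp (f := fun p : R3 × R3 => (V, p.2)) (measurable_const.prodMk measurable_snd)
    exact (measurableSet_le m1 measurable_const).inter
      ((measurableSet_le m2 measurable_const).inter (measurableSet_le m3 measurable_const))
  have hg : Measurable fun p : R3 × R3 => h p.1 * G.indicator (fun _ => (1 : ℝ≥0∞)) p :=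
    (hh.comp measurable_fst).mul (measurable_const.indicator hGm)
  have h1 := S.vol s hs x _ hg
  have hin : ∀ y : R3, ∫⁻ v, h y * G.indicator (fun _ => (1 : ℝ≥0∞)) (y, v) ≤
      ENNReal.ofReal (6000 * M ^ 3 * min Bb Cc) * h y := by
    intro y
    have hm : MeasurableSet (Prod.mk y ⁻¹' G) := measurable_prodMk_left hGm
    have e : (fun v => h y * G.indicator (fun _ => (1 : ℝ≥0∞)) (y, v)) =
        (Prod.mk y ⁻¹' G).indicator fun _ => h y := by
      funext v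
      by_cases hv : (y, v) ∈ G
      · rw [indicator_of_mem hv, indicator_of_mem (show v ∈ Prod.mk y ⁻¹' G from hv), mul_one]
      · rw [indicator_of_notMem hv, indicator_of_notMem (show v ∉ Prod.mk y ⁻¹' G from hv), mul_zero]
    rw [e, lintegral_indicator_const hm, mul_comm]
    refine mul_le_mul_left ?_ _
    rcases le_total Bb Cc with hBC | hBC
    · rw [min_eq_left hBC]
      refine (measure_mono ?_).trans (vol_v (norm_dir_le (x - y)) hM hB hB2)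
      intro v hv
      rw [hG] at hv
      exact ⟨hv.1, hv.2.1⟩
    · rw [min_eq_right hBC]
      refine (measure_mono ?_).trans (vol_v (n := V) (hV ▸ (norm_relVel_lt_one _).le) hM hC hC2)
      intro v hv
      rw [hG] at hv
      exact ⟨hv.1, hv.2.2⟩
  have h2 : ∫⁻ p : R3 × R3, h p.1 * G.indicator (fun _ => (1 : ℝ≥0∞)) p ≤
      ENNReal.ofReal (6000 * M ^ 3 * min Bb Cc) * ∫⁻ y, h y := by
    rw [Measure.volume_eq_prod, lintegral_prod _ hg.aemeasurable, ← lintegral_const_mul _ hh]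
    exact lintegral_mono hin
  have h3 : ∫⁻ ω in S.box o A Bb Cc R M s, h (S.Y (S.rt o s ω) ω) * ENNReal.ofReal (S.b o s ω)⁻¹ ∂S.μ ≤
      ∫⁻ ω in {ω | 0 ≤ S.τ s x ω}, h (S.Y (S.τ s x ω) ω) *
        G.indicator (fun _ => (1 : ℝ≥0∞)) (S.Y (S.τ s x ω) ω, S.W (S.τ s x ω) ω) *
        ENNReal.ofReal (ang (dir (x - S.Y (S.τ s x ω) ω)) (S.W (S.τ s x ω) ω))⁻¹ ∂S.μ := by
    refine (setLIntegral_mono' (S.meas_box o A Bb Cc R M s) fun ω hω => ?_).trans
      (lintegral_mono_set fun ω hω => ?_)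
    · have hm : (S.Y (S.τ s x ω) ω, S.W (S.τ s x ω) ω) ∈ G := by
        rw [hG, hx, hV]
        exact ⟨hω.2.2.2.2.2.2, hω.2.2.1.2, hω.2.2.2.1.2⟩
      rw [indicator_of_mem hm, mul_one, hx]
      exact le_rfl
    · rw [hx]; exact hω.1
  refine h3.trans (h1.trans ((mul_le_mul_right h2 _).trans (le_of_eq ?_)))
  rw [← mul_assoc, ← ENNReal.ofReal_mul hC0]
  congr 2
  ring

/-- Box-c (V): `box_le` with the indicator of the set of `vol_y` -/
theorem Is_vol (hs : s ∈ Icc 0 S.T) (hM : 0 < M) (hB : 0 < Bb) (hB2 : Bb ≤ 2) (hC : 0 < Cc) (hC2 : Cc ≤ 2) (hA : 0 < A)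
    (hA2 : A ≤ 2) (hR : 0 < R) :
    S.Is o A Bb Cc R M s ≤ ENNReal.ofReal (36000000 * C * M ^ 3 * min Bb Cc * A * R ^ 3) := by
  obtain ⟨U, hU⟩ : ∃ U : Set R3, U = {y : R3 | ‖S.Y s o - y‖ ≤ 2 * R ∧ ang (dir (S.Y s o - y)) (S.W s o) ≤ 2 * A} :=
    ⟨_, rfl⟩
  have hUm : MeasurableSet U := by
    rw [hU]
    have m1 : Measurable fun y : R3 => ‖S.Y s o - y‖ := (measurable_const.sub measurable_id).norm
    have m2 : Measurable fun y : R3 => ang (dir (S.Y s o - y)) (S.W s o) :=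
      meas_ang.comp (f := fun y : R3 => (dir (S.Y s o - y), S.W s o))
        ((meas_dir.comp (measurable_const.sub measurable_id)).prodMk measurable_const)
    exact (measurableSet_le m1 measurable_const).inter (measurableSet_le m2 measurable_const)
  have h1 := S.box_le o (A := A) (R := R) hs hM hB hB2 hC hC2 (h := U.indicator fun _ => (1 : ℝ≥0∞))
    (measurable_const.indicator hUm)
  rw [lintegral_indicator_const hUm, one_mul] at h1
  have h2 : volume U ≤ ENNReal.ofReal (6000 * R ^ 3 * A) := hU ▸ vol_y (S.Y s o) (S.W s o) hR hA hA2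
  have hC0 : 0 ≤ C := zero_le_one.trans S.one_le
  have hm : 0 < min Bb Cc := lt_min hB hC
  refine le_trans (setLIntegral_mono' (S.meas_box o A Bb Cc R M s) fun ω hω => ?_)
    (h1.trans ((mul_le_mul_right h2 _).trans (le_of_eq ?_)))
  · have hmem : S.Y (S.rt o s ω) ω ∈ U := by
      rw [hU]; exact ⟨hω.2.2.2.2.1.2, hω.2.1.2⟩
    rw [indicator_of_mem hmem, one_mul]
  · rw [← ENNReal.ofReal_mul (by positivity)]
    congr 1
    ring

/-- Box-c (C): on the box `b⁻¹ ≤ en w / (M Bb)`; `S.coneP` -/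
theorem Is_cone (hs : s ∈ Icc 0 S.T) (hM : 0 < M) (hB : 0 < Bb) : S.Is o A Bb Cc R M s ≤ ENNReal.ofReal (C / (M * Bb)) := by
  have h1 := S.coneP s hs (S.Y s o)
  have hMB : 0 < M * Bb := mul_pos hM hB
  have h2 : S.Is o A Bb Cc R M s ≤ ∫⁻ ω in {ω | 0 ≤ S.τ s (S.Y s o) ω},
      ENNReal.ofReal (M * Bb)⁻¹ * ENNReal.ofReal (en (S.W (S.τ s (S.Y s o) ω) ω)) ∂S.μ := by
    refine (setLIntegral_mono' (S.meas_box o A Bb Cc R M s) fun ω hω => ?_).trans
      (lintegral_mono_set fun ω hω => hω.1)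
    rw [← ENNReal.ofReal_mul (by positivity)]
    refine ENNReal.ofReal_le_ofReal ?_
    have hb : Bb ≤ S.b o s ω := hω.2.2.1.1
    have he : M ≤ en (S.W (S.τ s (S.Y s o) ω) ω) := hω.2.2.2.2.2.1
    calc (S.b o s ω)⁻¹ ≤ Bb⁻¹ := inv_anti₀ hB hb
      _ = (M * Bb)⁻¹ * M := by field_simp
      _ ≤ _ := mul_le_mul_of_nonneg_left he (by positivity)
  rw [lintegral_const_mul' _ _ ENNReal.ofReal_ne_top] at h2
  refine h2.trans ((mul_le_mul_right h1 _).trans (le_of_eq ?_))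
  rw [← ENNReal.ofReal_mul (by positivity)]
  congr 1
  field_simp

/-- Box-c -/
theorem I_vol (h0 : 0 ≤ s₀) (h01 : s₀ ≤ s₁) (h1 : s₁ ≤ S.T) (hM : 0 < M) (hB : 0 < Bb) (hB2 : Bb ≤ 2) (hC : 0 < Cc)
    (hC2 : Cc ≤ 2) (hA : 0 < A) (hA2 : A ≤ 2) (hR : 0 < R) :
    S.I o A Bb Cc R M s₀ s₁ ≤ ENNReal.ofReal (36000000 * C * (s₁ - s₀) * M ^ 3 * min Bb Cc * A * R ^ 3) := by
  have hC0 : 0 ≤ C := zero_le_one.trans S.one_le
  have hm : 0 < min Bb Cc := lt_min hB hC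
  refine (setLIntegral_mono' measurableSet_Icc fun s hs =>
    S.Is_vol o ⟨h0.trans hs.1, hs.2.trans h1⟩ hM hB hB2 hC hC2 hA hA2 hR).trans (le_of_eq ?_)
  rw [setLIntegral_const, Real.volume_Icc, ← ENNReal.ofReal_mul (by positivity)]
  congr 1
  ring

/-- Box-c -/
theorem I_cone (h0 : 0 ≤ s₀) (h01 : s₀ ≤ s₁) (h1 : s₁ ≤ S.T) (hM : 0 < M) (hB : 0 < Bb) :
    S.I o A Bb Cc R M s₀ s₁ ≤ ENNReal.ofReal (C * (s₁ - s₀) / (M * Bb)) := by
  have hC0 : 0 ≤ C := zero_le_one.trans S.one_le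
  refine (setLIntegral_mono' measurableSet_Icc fun s hs =>
    S.Is_cone o (A := A) (Cc := Cc) (R := R) ⟨h0.trans hs.1, hs.2.trans h1⟩ hM hB).trans (le_of_eq ?_)
  rw [setLIntegral_const, Real.volume_Icc, ← ENNReal.ofReal_mul (by positivity)]
  congr 1
  ring

/-- Box-d: change of variables `s ↦ rt s` (`lintegral_image_eq_lintegral_abs_deriv_mul` on `U \ {T}`, `rt_deriv`, `rt_strictMonoOn`) -/
theorem cov_rt (ω : Ω) {U : Set ℝ} (hU : MeasurableSet U) (hT : U ⊆ Iic S.T) (hz : ∀ s ∈ U, S.z o s ω ≠ 0) (g : ℝ → ℝ≥0∞) :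
    ∫⁻ s in U, ENNReal.ofReal (S.a o s ω / S.b o s ω) * g (S.rt o s ω) ≤ ∫⁻ t, g t := by
  have hU' : MeasurableSet (U \ {S.T}) := hU.diff (measurableSet_singleton _)
  have h := lintegral_image_eq_lintegral_abs_deriv_mul (f := fun s => S.rt o s ω)
    (f' := fun s => S.a o s ω / S.b o s ω) hU'
    (fun s hs => (S.rt_deriv o ω (lt_of_le_of_ne (hT hs.1) hs.2) (hz s hs.1)).hasDerivWithinAt)
    ((S.rt_strictMonoOn o ω).injOn.mono fun s hs => hT hs.1) g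
  calc ∫⁻ s in U, ENNReal.ofReal (S.a o s ω / S.b o s ω) * g (S.rt o s ω)
      = ∫⁻ s in U \ {S.T}, ENNReal.ofReal (S.a o s ω / S.b o s ω) * g (S.rt o s ω) :=
        (setLIntegral_congr (sdiff_null_ae_eq_self (by simp))).symm
    _ = ∫⁻ s in U \ {S.T}, ENNReal.ofReal |S.a o s ω / S.b o s ω| * g (S.rt o s ω) := by
        refine setLIntegral_congr_fun hU' fun s hs => ?_
        have h1 : 0 < S.a o s ω := dd_pos (hz s hs.1) _
        have h2 : 0 < S.b o s ω := dd_pos (hz s hs.1) _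
        simp only [abs_of_pos (div_pos h1 h2)]
    _ ≤ ∫⁻ t, g t := by rw [← h]; exact setLIntegral_le_lintegral _ _

/-- Box-d (E): Tonelli; on the box `b⁻¹ ≤ A⁻¹ (a / b)`, `rt ∈ Icc (max 0 (s₀ - 2 R)) s₁` (`norm_z`), `1 ≤ en (W rt) / M`; `cov_rt` with
`g t = indicator (Icc ..) (ofReal (en (W t ω)))`, Tonelli again and `S.enP` -/
theorem I_en (h0 : 0 ≤ s₀) (h01 : s₀ ≤ s₁) (h1 : s₁ ≤ S.T) (hM : 0 < M) (hA : 0 < A) (hR : 0 < R) :
    S.I o A Bb Cc R M s₀ s₁ ≤ ENNReal.ofReal (C * (s₁ - s₀ + 2 * R) / (M * A)) := by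
  haveI := S.fin
  have hC0 : 0 ≤ C := zero_le_one.trans S.one_le
  set J : Set ℝ := Icc (max 0 (s₀ - 2 * R)) s₁ with hJ
  have hF : Measurable fun p : ℝ × Ω => {p : ℝ × Ω | p.2 ∈ S.box o A Bb Cc R M p.1}.indicator
      (fun p => ENNReal.ofReal (S.b o p.1 p.2)⁻¹) p :=
    (ENNReal.measurable_ofReal.comp (S.meas_b o).inv).indicator (S.meas_box₂ o A Bb Cc R M)
  have hG : Measurable fun p : ℝ × Ω => ENNReal.ofReal (en (S.W p.1 p.2)) :=
    ENNReal.measurable_ofReal.comp (meas_en.comp S.mW)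
  have h1' : ∀ ω, ∫⁻ s in Icc s₀ s₁, {p : ℝ × Ω | p.2 ∈ S.box o A Bb Cc R M p.1}.indicator
      (fun p => ENNReal.ofReal (S.b o p.1 p.2)⁻¹) (s, ω) ≤
      ENNReal.ofReal (M * A)⁻¹ * ∫⁻ t in J, ENNReal.ofReal (en (S.W t ω)) := by
    intro ω
    have hU : MeasurableSet {s : ℝ | ω ∈ S.box o A Bb Cc R M s} :=
      (S.meas_box₂ o A Bb Cc R M).preimage (f := fun s : ℝ => (s, ω)) measurable_prodMk_right
    have hc := S.cov_rt o ω (U := {s : ℝ | ω ∈ S.box o A Bb Cc R M s} ∩ Icc s₀ s₁) (hU.inter measurableSet_Icc)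
      (fun s hs => hs.2.2.trans h1) (fun s hs => norm_pos_iff.1 (hR.trans_le hs.1.2.2.2.2.1.1))
      (J.indicator fun t => ENNReal.ofReal (en (S.W t ω)))
    rw [lintegral_indicator measurableSet_Icc] at hc
    refine le_trans ?_ (mul_le_mul_right hc _)
    rw [← lintegral_const_mul' _ _ ENNReal.ofReal_ne_top, ← Measure.restrict_restrict hU,
      ← lintegral_indicator hU]
    refine setLIntegral_mono' measurableSet_Icc fun s hs => ?_
    by_cases hb : ω ∈ S.box o A Bb Cc R M s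
    · rw [indicator_of_mem (show (s, ω) ∈ {p : ℝ × Ω | p.2 ∈ S.box o A Bb Cc R M p.1} from hb),
        indicator_of_mem (show s ∈ {s : ℝ | ω ∈ S.box o A Bb Cc R M s} from hb)]
      obtain ⟨hr, ha, -, -, hz, hw⟩ := hb
      have hn := S.norm_z o ω (hs.2.trans h1)
      have hJ' : S.rt o s ω ∈ J :=
        ⟨max_le hr (by linarith [hz.2, hs.1]), (S.rt_le o ω (hs.2.trans h1)).trans hs.2⟩
      have hz0 : S.z o s ω ≠ 0 := norm_pos_iff.1 (hR.trans_le hz.1)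
      have hb0 : 0 < S.b o s ω := dd_pos hz0 _
      have ha0 : 0 < S.a o s ω := hA.trans_le ha.1
      rw [indicator_of_mem hJ', ← ENNReal.ofReal_mul (div_pos ha0 hb0).le,
        ← ENNReal.ofReal_mul (by positivity)]
      refine ENNReal.ofReal_le_ofReal ?_
      have hw1 : M ≤ en (S.W (S.rt o s ω) ω) := hw.1
      have h3 : M * A ≤ S.a o s ω * en (S.W (S.rt o s ω) ω) := by
        rw [mul_comm M]; exact mul_le_mul ha.1 hw1 hM.le ha0.le
      show (S.b o s ω)⁻¹ ≤ _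
      rw [inv_mul_eq_div, le_div_iff₀ (by positivity), div_mul_eq_mul_div, inv_mul_eq_div]
      exact div_le_div_of_nonneg_right h3 hb0.le
    · rw [indicator_of_notMem (show (s, ω) ∉ {p : ℝ × Ω | p.2 ∈ S.box o A Bb Cc R M p.1} from hb)]
      exact zero_le
  calc S.I o A Bb Cc R M s₀ s₁
      = ∫⁻ s in Icc s₀ s₁, ∫⁻ ω, {p : ℝ × Ω | p.2 ∈ S.box o A Bb Cc R M p.1}.indicator
          (fun p => ENNReal.ofReal (S.b o p.1 p.2)⁻¹) (s, ω) ∂S.μ := by
        refine lintegral_congr fun s => ?_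
        unfold Sys.Is
        rw [← lintegral_indicator (S.meas_box o A Bb Cc R M s)]
        rfl
    _ = ∫⁻ ω, (∫⁻ s in Icc s₀ s₁, {p : ℝ × Ω | p.2 ∈ S.box o A Bb Cc R M p.1}.indicator
          (fun p => ENNReal.ofReal (S.b o p.1 p.2)⁻¹) (s, ω)) ∂S.μ :=
        lintegral_lintegral_swap hF.aemeasurable
    _ ≤ ∫⁻ ω, (ENNReal.ofReal (M * A)⁻¹ * ∫⁻ t in J, ENNReal.ofReal (en (S.W t ω))) ∂S.μ := lintegral_mono h1'
    _ = ENNReal.ofReal (M * A)⁻¹ * ∫⁻ t in J, ∫⁻ ω, ENNReal.ofReal (en (S.W t ω)) ∂S.μ := by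
        rw [lintegral_const_mul' _ _ ENNReal.ofReal_ne_top, ← lintegral_lintegral_swap hG.aemeasurable]
    _ ≤ ENNReal.ofReal (M * A)⁻¹ * ∫⁻ _ in J, ENNReal.ofReal C :=
        mul_le_mul_right (setLIntegral_mono' measurableSet_Icc fun t ht =>
          S.enP t ⟨(le_max_left _ _).trans ht.1, ht.2.trans h1⟩) _
    _ ≤ _ := by
        rw [setLIntegral_const, hJ, Real.volume_Icc, ← ENNReal.ofReal_mul hC0, ← ENNReal.ofReal_mul (by positivity)]
        refine ENNReal.ofReal_le_ofReal ?_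
        rw [inv_mul_eq_div]
        refine div_le_div_of_nonneg_right (mul_le_mul_of_nonneg_left ?_ hC0) (by positivity)
        linarith [le_max_right 0 (s₀ - 2 * R)]

/-- Box-e: change of variables `s ↦ s - ‖X s - y‖`, derivative `ang (dir (X s - y)) (W s o)` (`hasDerivAt_norm_of_ne`, `S.dY`), strictly
monotone by `exists_kappa`, `Y_lip` -/
theorem cov_y (y : R3) {U : Set ℝ} (hU : MeasurableSet U) (hT : U ⊆ Iic S.T) (hz : ∀ s ∈ U, S.Y s o ≠ y) (g : ℝ → ℝ≥0∞) :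
    ∫⁻ s in U, ENNReal.ofReal (ang (dir (S.Y s o - y)) (S.W s o)) * g (s - ‖S.Y s o - y‖) ≤ ∫⁻ t, g t := by
  obtain ⟨κ, -, hκ1, hκ⟩ := S.exists_kappa
  have hd : ∀ s ∈ U, HasDerivWithinAt (fun s => s - ‖S.Y s o - y‖) (ang (dir (S.Y s o - y)) (S.W s o)) U s := fun s hs =>
    ((hasDerivAt_id s).sub (hasDerivAt_norm_of_ne (z := fun s => S.Y s o - y) ((S.dY o s (hT hs)).sub_const y)
      (sub_ne_zero.2 (hz s hs)))).hasDerivWithinAt
  have hi : InjOn (fun s => s - ‖S.Y s o - y‖) U := by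
    intro s hs t ht h
    have h1 := S.Y_lip (ω := o) (κ := κ) (hT hs) (hT ht) fun r hr => hκ r o
      (hr.2.trans (max_le (hT hs) (hT ht)))
    have h2 := abs_norm_sub_norm_le (S.Y t o - y) (S.Y s o - y)
    rw [sub_sub_sub_cancel_right] at h2
    have h3 : ‖S.Y t o - y‖ - ‖S.Y s o - y‖ = t - s := by simp only at h; linarith
    rw [h3] at h2
    have h4 : |t - s| ≤ 0 := by nlinarith [abs_nonneg (t - s)]
    linarith [abs_nonpos_iff.1 h4]
  calc _ ≤ ∫⁻ s in U, ENNReal.ofReal |ang (dir (S.Y s o - y)) (S.W s o)| * g (s - ‖S.Y s o - y‖) :=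
        lintegral_mono fun s => mul_le_mul_left (ENNReal.ofReal_le_ofReal (le_abs_self _)) _
    _ = ∫⁻ t in (fun s => s - ‖S.Y s o - y‖) '' U, g t := (lintegral_image_eq_lintegral_abs_deriv_mul hU hd hi g).symm
    _ ≤ _ := setLIntegral_le_lintegral _ _

/-- Box-e: `box_le` with `h y = indicator {R ≤ ‖X s - y‖ ≤ min (2 R) s, A ≤ ang (dir (X s - y)) (W s o)} (‖E‖² + ‖B‖² at (s - ‖X s - y‖, y))`
(`norm_z`), Tonelli in `(s, y)`, `cov_y`, Tonelli in `(t, y)`, `S.enF` on `t ∈ Icc (max 0 (s₀ - 2 R)) s₁` -/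
theorem sq_bad (h0 : 0 ≤ s₀) (h01 : s₀ ≤ s₁) (h1 : s₁ ≤ S.T) (hM : 0 < M) (hB : 0 < Bb) (hB2 : Bb ≤ 2) (hC : 0 < Cc)
    (hC2 : Cc ≤ 2) (hA : 0 < A) (hR : 0 < R) :
    ∫⁻ s in Icc s₀ s₁, ∫⁻ ω in S.box o A Bb Cc R M s,
        ENNReal.ofReal (‖S.Es o s ω‖ ^ 2 + ‖S.Bs o s ω‖ ^ 2) * ENNReal.ofReal (S.b o s ω)⁻¹ ∂S.μ ≤
      ENNReal.ofReal (6000 * C ^ 2 * M ^ 3 * min Bb Cc * (s₁ - s₀ + 2 * R) / A) := by
  have hC0 : 0 < C := lt_of_lt_of_le one_pos S.one_le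
  obtain ⟨e, he⟩ : ∃ e : ℝ × R3 → ℝ≥0∞, ∀ t y, e (t, y) = ENNReal.ofReal (‖S.E t y‖ ^ 2 + ‖S.B t y‖ ^ 2) :=
    ⟨fun p => ENNReal.ofReal (‖S.E p.1 p.2‖ ^ 2 + ‖S.B p.1 p.2‖ ^ 2), fun _ _ => rfl⟩
  have me : Measurable e := by
    rw [show e = fun p => ENNReal.ofReal (‖S.E p.1 p.2‖ ^ 2 + ‖S.B p.1 p.2‖ ^ 2) from funext fun p => he p.1 p.2]
    exact ((S.cE.norm.pow 2).add (S.cB.norm.pow 2)).measurable.ennreal_ofReal
  have mX : Measurable fun p : ℝ × R3 => S.Y p.1 o - p.2 :=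
    (S.mY.comp (f := fun p : ℝ × R3 => (p.1, o)) (measurable_fst.prodMk measurable_const)).sub measurable_snd
  have mA : Measurable fun p : ℝ × R3 => ang (dir (S.Y p.1 o - p.2)) (S.W p.1 o) :=
    meas_ang.comp (f := fun p : ℝ × R3 => (dir (S.Y p.1 o - p.2), S.W p.1 o)) ((meas_dir.comp mX).prodMk
      (S.mW.comp (f := fun p : ℝ × R3 => (p.1, o)) (measurable_fst.prodMk measurable_const)))
  obtain ⟨D, mD, hD⟩ : ∃ D : Set (ℝ × R3), MeasurableSet D ∧ ∀ s y, (s, y) ∈ D ↔ R ≤ ‖S.Y s o - y‖ ∧ ‖S.Y s o - y‖ ≤ 2 * R ∧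
      ‖S.Y s o - y‖ ≤ s ∧ A ≤ ang (dir (S.Y s o - y)) (S.W s o) :=
    ⟨{p | R ≤ ‖S.Y p.1 o - p.2‖ ∧ ‖S.Y p.1 o - p.2‖ ≤ 2 * R ∧ ‖S.Y p.1 o - p.2‖ ≤ p.1 ∧
      A ≤ ang (dir (S.Y p.1 o - p.2)) (S.W p.1 o)}, (measurableSet_le (measurable_const (a := R)) mX.norm).inter
      ((measurableSet_le mX.norm (measurable_const (a := 2 * R))).inter ((measurableSet_le mX.norm measurable_fst).inter
        (measurableSet_le (measurable_const (a := A)) mA))), fun _ _ => Iff.rfl⟩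
  obtain ⟨h, mh, hh⟩ : ∃ h : ℝ × R3 → ℝ≥0∞, Measurable h ∧ ∀ s y, h (s, y) =
      ((fun s => (s, y)) ⁻¹' D).indicator (fun s => e (s - ‖S.Y s o - y‖, y)) s :=
    ⟨D.indicator fun p => e (p.1 - ‖S.Y p.1 o - p.2‖, p.2),
      (me.comp (f := fun p : ℝ × R3 => (p.1 - ‖S.Y p.1 o - p.2‖, p.2))
        ((measurable_fst.sub mX.norm).prodMk measurable_snd)).indicator mD, fun s y => by
      by_cases hs : (s, y) ∈ D
      · rw [indicator_of_mem hs, indicator_of_mem (show s ∈ (fun s => (s, y)) ⁻¹' D from hs)]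
      · rw [indicator_of_notMem hs, indicator_of_notMem (show s ∉ (fun s => (s, y)) ⁻¹' D from hs)]⟩
  obtain ⟨J, hJ⟩ : ∃ J : Set ℝ, J = Icc (max 0 (s₀ - 2 * R)) s₁ := ⟨_, rfl⟩
  have mJ : MeasurableSet J := hJ ▸ measurableSet_Icc
  have step1 : ∀ s ∈ Icc s₀ s₁, ∫⁻ ω in S.box o A Bb Cc R M s,
      ENNReal.ofReal (‖S.Es o s ω‖ ^ 2 + ‖S.Bs o s ω‖ ^ 2) * ENNReal.ofReal (S.b o s ω)⁻¹ ∂S.μ ≤
      ENNReal.ofReal (6000 * C * M ^ 3 * min Bb Cc) * ∫⁻ y, h (s, y) := by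
    intro s hs
    have hsT : s ≤ S.T := hs.2.trans h1
    refine le_trans (setLIntegral_mono' (S.meas_box o A Bb Cc R M s) fun ω hω => ?_)
      (S.box_le o (A := A) (R := R) ⟨h0.trans hs.1, hsT⟩ hM hB hB2 hC hC2 (h := fun y => h (s, y))
        (mh.comp (f := fun y : R3 => (s, y)) measurable_prodMk_left))
    obtain ⟨a1, a2, -, -, a5, -⟩ := hω
    have hn : ‖S.Y s o - S.Y (S.rt o s ω) ω‖ = s - S.rt o s ω := S.norm_z o ω hsT
    have hm : s ∈ (fun s' => (s', S.Y (S.rt o s ω) ω)) ⁻¹' D := (hD _ _).2 ⟨a5.1, a5.2, by rw [hn]; linarith, a2.1⟩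
    refine mul_le_mul_left (le_of_eq ?_) _
    rw [hh, indicator_of_mem hm, he, hn, sub_sub_cancel]
    rfl
  have step3 : ∀ y, ∫⁻ s in Icc s₀ s₁, h (s, y) ≤ ENNReal.ofReal A⁻¹ * ∫⁻ t in J, e (t, y) := by
    intro y
    have mU : MeasurableSet ((fun s => (s, y)) ⁻¹' D) := measurable_prodMk_right mD
    have e1 : ∫⁻ s in Icc s₀ s₁, h (s, y) =
        ∫⁻ s in (fun s => (s, y)) ⁻¹' D ∩ Icc s₀ s₁, e (s - ‖S.Y s o - y‖, y) := by
      rw [← Measure.restrict_restrict mU, ← lintegral_indicator mU]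
      exact lintegral_congr fun s => hh s y
    rw [e1, ← lintegral_indicator mJ]
    refine le_trans ?_ (mul_le_mul_right (S.cov_y o y (mU.inter (measurableSet_Icc (a := s₀))) (fun s hs => hs.2.2.trans h1)
      (fun s hs hy => ?_) (J.indicator fun t => e (t, y))) (ENNReal.ofReal A⁻¹))
    · rw [← lintegral_const_mul' _ _ ENNReal.ofReal_ne_top]
      refine setLIntegral_mono' (mU.inter measurableSet_Icc) fun s hs => ?_
      obtain ⟨a1, a2, a3, a4⟩ := (hD s y).1 hs.1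
      obtain ⟨a5, a6⟩ := hs.2
      have hm : s - ‖S.Y s o - y‖ ∈ J := hJ ▸ ⟨max_le (by linarith) (by linarith), by linarith⟩
      rw [indicator_of_mem hm, ← mul_assoc, ← ENNReal.ofReal_mul (inv_nonneg.2 hA.le)]
      refine le_mul_of_one_le_left' (ENNReal.one_le_ofReal.2 ?_)
      rw [← div_eq_inv_mul, one_le_div hA]
      exact a4
    · have a1 := ((hD s y).1 hs.1).1
      rw [hy, sub_self, norm_zero] at a1
      linarith
  have step4 : ∫⁻ y, ∫⁻ t in J, e (t, y) ≤ ENNReal.ofReal C * ENNReal.ofReal (s₁ - s₀ + 2 * R) := by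
    rw [← lintegral_lintegral_swap (f := fun t y => e (t, y)) me.aemeasurable]
    subst hJ
    refine (setLIntegral_mono' (g := fun _ => ENNReal.ofReal C) measurableSet_Icc fun t ht => ?_).trans ?_
    · simp only [he]
      exact S.enF t ⟨(le_max_left _ _).trans ht.1, ht.2.trans h1⟩
    rw [setLIntegral_const, Real.volume_Icc]
    refine mul_le_mul_right (ENNReal.ofReal_le_ofReal ?_) _
    linarith [le_max_right 0 (s₀ - 2 * R)]
  calc _ ≤ ∫⁻ s in Icc s₀ s₁, ENNReal.ofReal (6000 * C * M ^ 3 * min Bb Cc) * ∫⁻ y, h (s, y) :=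
        setLIntegral_mono' measurableSet_Icc step1
    _ = ENNReal.ofReal (6000 * C * M ^ 3 * min Bb Cc) * ∫⁻ y, ∫⁻ s in Icc s₀ s₁, h (s, y) := by
        rw [lintegral_const_mul' _ _ ENNReal.ofReal_ne_top,
          lintegral_lintegral_swap (f := fun s y => h (s, y)) mh.aemeasurable]
    _ ≤ ENNReal.ofReal (6000 * C * M ^ 3 * min Bb Cc) *
          (ENNReal.ofReal A⁻¹ * (ENNReal.ofReal C * ENNReal.ofReal (s₁ - s₀ + 2 * R))) := by
        refine mul_le_mul_right ((lintegral_mono step3).trans ?_) _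
        rw [lintegral_const_mul' _ _ ENNReal.ofReal_ne_top]
        exact mul_le_mul_right step4 _
    _ = _ := by
        have : 0 < min Bb Cc := lt_min hB hC
        rw [← ENNReal.ofReal_mul hC0.le, ← ENNReal.ofReal_mul (inv_nonneg.2 hA.le), ← ENNReal.ofReal_mul (by positivity)]
        congr 1
        ring

/-- Box-f: `box_le` with `h y = indicator (closedBall (X s) s) (gd ..)` (`norm_z`), `S.coneF` -/
theorem sq_good (h0 : 0 ≤ s₀) (h01 : s₀ ≤ s₁) (h1 : s₁ ≤ S.T) (hM : 0 < M) (hB : 0 < Bb) (hB2 : Bb ≤ 2) (hC : 0 < Cc)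
    (hC2 : Cc ≤ 2) :
    ∫⁻ s in Icc s₀ s₁, ∫⁻ ω in S.box o A Bb Cc R M s,
        ENNReal.ofReal (gd (dir (S.z o s ω)) (S.Es o s ω) (S.Bs o s ω)) * ENNReal.ofReal (S.b o s ω)⁻¹ ∂S.μ ≤
      ENNReal.ofReal (6000 * C ^ 2 * M ^ 3 * min Bb Cc * (s₁ - s₀)) := by
  have hC0 : 0 < C := lt_of_lt_of_le one_pos S.one_le
  have hm : 0 < min Bb Cc := lt_min hB hC
  have key : ∀ s ∈ Icc s₀ s₁, ∫⁻ ω in S.box o A Bb Cc R M s,
      ENNReal.ofReal (gd (dir (S.z o s ω)) (S.Es o s ω) (S.Bs o s ω)) * ENNReal.ofReal (S.b o s ω)⁻¹ ∂S.μ ≤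
      ENNReal.ofReal (6000 * C ^ 2 * M ^ 3 * min Bb Cc) := by
    intro s hs
    have hs' : s ∈ Icc 0 S.T := ⟨h0.trans hs.1, hs.2.trans h1⟩
    obtain ⟨g, hg⟩ : ∃ g : R3 → ℝ≥0∞, g = fun y => ENNReal.ofReal (gd (dir (S.Y s o - y)) (S.E (s - ‖S.Y s o - y‖) y)
      (S.B (s - ‖S.Y s o - y‖) y)) := ⟨_, rfl⟩
    have hgm : Measurable g := by
      have hp : Continuous fun y : R3 => ((s - ‖S.Y s o - y‖, y) : ℝ × R3) := by fun_prop
      have hd : Measurable fun y : R3 => dir (S.Y s o - y) := meas_dir.comp (measurable_const.sub measurable_id)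
      rw [hg]
      exact (meas_gd.comp (hd.prodMk ((S.cE.comp hp).measurable.prodMk (S.cB.comp hp).measurable))).ennreal_ofReal
    have hh : Measurable ((Metric.closedBall (S.Y s o) s).indicator g) := hgm.indicator measurableSet_closedBall
    have h2 := S.box_le o (A := A) (R := R) hs' hM hB hB2 hC hC2 hh
    have h3 : ∫⁻ y, (Metric.closedBall (S.Y s o) s).indicator g y ≤ ENNReal.ofReal C := by
      rw [lintegral_indicator measurableSet_closedBall, hg]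
      exact S.coneF s hs' _
    calc _ = ∫⁻ ω in S.box o A Bb Cc R M s, (Metric.closedBall (S.Y s o) s).indicator g (S.Y (S.rt o s ω) ω) *
            ENNReal.ofReal (S.b o s ω)⁻¹ ∂S.μ := by
          refine setLIntegral_congr_fun (S.meas_box o A Bb Cc R M s) fun ω hω => ?_
          have hz := S.norm_z o ω hs'.2
          have hz' : ‖S.Y s o - S.Y (S.rt o s ω) ω‖ = s - S.rt o s ω := hz
          have hmem : S.Y (S.rt o s ω) ω ∈ Metric.closedBall (S.Y s o) s := by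
            rw [Metric.mem_closedBall, dist_comm, dist_eq_norm, hz']
            linarith [hω.1]
          simp only [indicator_of_mem hmem, hg, hz', sub_sub_cancel]
          rfl
      _ ≤ ENNReal.ofReal (6000 * C * M ^ 3 * min Bb Cc) * ENNReal.ofReal C := h2.trans (by gcongr)
      _ = _ := by
          rw [← ENNReal.ofReal_mul (by positivity)]
          congr 1; ring
  calc _ ≤ ∫⁻ s in Icc s₀ s₁, ENNReal.ofReal (6000 * C ^ 2 * M ^ 3 * min Bb Cc) := setLIntegral_mono' measurableSet_Icc key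
    _ = _ := by
        rw [setLIntegral_const, Real.volume_Icc, ← ENNReal.ofReal_mul (by positivity)]

theorem boxf_half {k : ℝ} (hk : 0 ≤ k) (β : ℝ≥0∞) :
    ENNReal.ofReal k * β = (ENNReal.ofReal (k ^ 2) * β) ^ (1 / 2 : ℝ) * β ^ (1 / 2 : ℝ) := by
  rw [ENNReal.mul_rpow_of_nonneg _ _ (by norm_num), mul_assoc, ← ENNReal.rpow_add_of_nonneg _ _ (by norm_num) (by norm_num),
    ENNReal.ofReal_rpow_of_nonneg (by positivity) (by norm_num), ← Real.sqrt_eq_rpow, Real.sqrt_sq hk]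
  norm_num

/-- Box-f: Cauchy–Schwarz (`ENNReal.lintegral_mul_le_Lp_mul_Lq` with `p = q = 2`, first in `ω`, then in `s`; `meas_lbox`) -/
theorem cs_box {k : ℝ → Ω → ℝ} (hk : Measurable fun p : ℝ × Ω => k p.1 p.2) (hk0 : ∀ s ω, 0 ≤ k s ω) {X I : ℝ} (hX : 0 ≤ X)
    (hI0 : 0 ≤ I)
    (h2 : ∫⁻ s in Icc s₀ s₁, ∫⁻ ω in S.box o A Bb Cc R M s, ENNReal.ofReal (k s ω ^ 2) * ENNReal.ofReal (S.b o s ω)⁻¹ ∂S.μ ≤
      ENNReal.ofReal X) (hI : S.I o A Bb Cc R M s₀ s₁ ≤ ENNReal.ofReal I) :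
    ∫⁻ s in Icc s₀ s₁, ∫⁻ ω in S.box o A Bb Cc R M s, ENNReal.ofReal (k s ω) * ENNReal.ofReal (S.b o s ω)⁻¹ ∂S.μ ≤
      ENNReal.ofReal √(X * I) := by
  have hβ : Measurable fun p : ℝ × Ω => ENNReal.ofReal (S.b o p.1 p.2)⁻¹ := (S.meas_b o).inv.ennreal_ofReal
  have hF : Measurable fun p : ℝ × Ω => ENNReal.ofReal (k p.1 p.2 ^ 2) * ENNReal.ofReal (S.b o p.1 p.2)⁻¹ :=
    (hk.pow_const 2).ennreal_ofReal.mul hβ
  have key : ∀ s, ∫⁻ ω in S.box o A Bb Cc R M s, ENNReal.ofReal (k s ω) * ENNReal.ofReal (S.b o s ω)⁻¹ ∂S.μ ≤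
      (∫⁻ ω in S.box o A Bb Cc R M s, ENNReal.ofReal (k s ω ^ 2) * ENNReal.ofReal (S.b o s ω)⁻¹ ∂S.μ) ^ (1 / 2 : ℝ) *
        S.Is o A Bb Cc R M s ^ (1 / 2 : ℝ) := by
    intro s
    simp only [boxf_half (hk0 s _)]
    exact ENNReal.lintegral_mul_norm_pow_le (hF.comp measurable_prodMk_left).aemeasurable
      (hβ.comp measurable_prodMk_left).aemeasurable (by norm_num) (by norm_num) (by norm_num)
  have hA := S.meas_lbox o A Bb Cc R M (g := fun s ω => ENNReal.ofReal (k s ω ^ 2) * ENNReal.ofReal (S.b o s ω)⁻¹) hF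
  calc _ ≤ ∫⁻ s in Icc s₀ s₁, (∫⁻ ω in S.box o A Bb Cc R M s, ENNReal.ofReal (k s ω ^ 2) *
          ENNReal.ofReal (S.b o s ω)⁻¹ ∂S.μ) ^ (1 / 2 : ℝ) * S.Is o A Bb Cc R M s ^ (1 / 2 : ℝ) := lintegral_mono key
    _ ≤ _ := ENNReal.lintegral_mul_norm_pow_le hA.aemeasurable (S.meas_Is o A Bb Cc R M).aemeasurable (by norm_num)
          (by norm_num) (by norm_num)
    _ ≤ ENNReal.ofReal X ^ (1 / 2 : ℝ) * ENNReal.ofReal I ^ (1 / 2 : ℝ) :=
        mul_le_mul' (ENNReal.rpow_le_rpow h2 (by norm_num)) (ENNReal.rpow_le_rpow hI (by norm_num))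
    _ = _ := by
        rw [← ENNReal.mul_rpow_of_nonneg _ _ (by norm_num), ← ENNReal.ofReal_mul hX,
          ENNReal.ofReal_rpow_of_nonneg (by positivity) (by norm_num), Real.sqrt_eq_rpow]

end Sys
end Crest.Agent.R106.A
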