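import Crest.Agent.R106.A.Id

/-! R106/A (helper9): the retarded time along a test particle. -/

set_option autoImplicit false

open MeasureTheory Set Filter Topology Crest.AnalysisR.VecCalc3 Crest.AnalysisR.PDE.RVM
open scoped ENNReal RealInnerProductSpace

noncomputable section
namespace Crest.Agent.R106.A
namespace Sys
variable {Ω : Type} [MeasurableSpace Ω] {C : ℝ} (S : Sys Ω C)

/-- the force on the source at the retarded time -/
def Fs (o : Ω) (s : ℝ) (ω : Ω) : R3 := S.F (S.rt o s ω) ω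
/-- the active sources -/
def act (o : Ω) (s : ℝ) : Set Ω := {ω | 0 ≤ S.rt o s ω}

/-- Ret-a: all speeds are `≤ κ < 1` (`S.bdd`, `norm_relVel_sq`) -/
theorem exists_kappa : ∃ κ : ℝ, 0 ≤ κ ∧ κ < 1 ∧ ∀ t ω, t ≤ S.T → ‖relVel (S.W t ω)‖ ≤ κ := by
  obtain ⟨P, hP⟩ := S.bdd
  have h1 : 0 < (1 + P ^ 2)⁻¹ := by positivity
  refine ⟨Real.sqrt (1 - (1 + P ^ 2)⁻¹), Real.sqrt_nonneg _, ?_, fun t ω ht => ?_⟩
  · rw [Real.sqrt_lt' one_pos]; linarith
  · apply Real.le_sqrt_of_sq_le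
    rw [norm_relVel_sq, en_sq]
    have h2 : ‖S.W t ω‖ ^ 2 ≤ P ^ 2 := pow_le_pow_left₀ (norm_nonneg _) (hP t ω ht) 2
    have h3 : (1 + P ^ 2)⁻¹ ≤ (1 + ‖S.W t ω‖ ^ 2)⁻¹ := inv_anti₀ (by positivity) (by linarith)
    linarith

/-- Ret-a: mean value inequality on `Iic T` -/
theorem Y_lip {κ : ℝ} {ω : Ω} {s t : ℝ} (hs : s ≤ S.T) (ht : t ≤ S.T)
    (h : ∀ r ∈ uIcc s t, ‖relVel (S.W r ω)‖ ≤ κ) : ‖S.Y t ω - S.Y s ω‖ ≤ κ * |t - s| := by
  have hT : ∀ r ∈ uIcc s t, r ≤ S.T := fun r hr => hr.2.trans (max_le hs ht)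
  exact (convex_uIcc s t).norm_image_sub_le_of_norm_hasDerivWithin_le (f := fun r => S.Y r ω)
    (f' := fun r => relVel (S.W r ω)) (fun r hr => (S.dY ω r (hT r hr)).hasDerivWithinAt) h left_mem_uIcc right_mem_uIcc

/-- Ret-a -/
theorem Y_lip_one (ω : Ω) {s t : ℝ} (hs : s ≤ S.T) (ht : t ≤ S.T) : ‖S.Y t ω - S.Y s ω‖ ≤ |t - s| := by
  simpa using S.Y_lip (κ := 1) (ω := ω) hs ht fun r _ => (norm_relVel_lt_one _).le

/-- Ret-a -/
theorem norm_z (o ω : Ω) {s : ℝ} (hs : s ≤ S.T) : ‖S.z o s ω‖ = s - S.rt o s ω := by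
  exact (S.ret s (S.Y s o) ω hs).symm

/-- Ret-a -/
theorem rt_le (o ω : Ω) {s : ℝ} (hs : s ≤ S.T) : S.rt o s ω ≤ s := by
  have h := S.norm_z o ω hs
  linarith [norm_nonneg (S.z o s ω)]

/-- Ret-a helper: the basic inequality -/
theorem rt_key {κ : ℝ} (hκ : ∀ t ω, t ≤ S.T → ‖relVel (S.W t ω)‖ ≤ κ) (o ω : Ω) {s s' : ℝ} (hs : s ≤ S.T) (hs' : s' ≤ S.T) :
    |(s' - s) - (S.rt o s' ω - S.rt o s ω)| ≤ κ * |s' - s| + κ * |S.rt o s' ω - S.rt o s ω| := by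
  have hl : ∀ (ω : Ω) {a b : ℝ}, a ≤ S.T → b ≤ S.T → ‖S.Y b ω - S.Y a ω‖ ≤ κ * |b - a| := fun ω a b ha hb =>
    S.Y_lip ha hb fun r hr => hκ r ω (hr.2.trans (max_le ha hb))
  have h1 := hl o hs hs'
  have h2 := hl ω ((S.rt_le o ω hs).trans hs) ((S.rt_le o ω hs').trans hs')
  have h3 := abs_norm_sub_norm_le (S.z o s' ω) (S.z o s ω)
  rw [S.norm_z o ω hs, S.norm_z o ω hs'] at h3
  have h4 : S.z o s' ω - S.z o s ω = (S.Y s' o - S.Y s o) - (S.Y (S.rt o s' ω) ω - S.Y (S.rt o s ω) ω) := by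
    unfold Sys.z; abel
  rw [h4] at h3
  have h5 := norm_sub_le (S.Y s' o - S.Y s o) (S.Y (S.rt o s' ω) ω - S.Y (S.rt o s ω) ω)
  have h6 : (s' - s) - (S.rt o s' ω - S.rt o s ω) = s' - S.rt o s' ω - (s - S.rt o s ω) := by ring
  rw [h6]; linarith

/-- Ret-a: `|(s' - s) - (τ' - τ)| ≤ κ |s' - s| + κ |τ' - τ|` -/
theorem rt_strictMonoOn (o ω : Ω) : StrictMonoOn (fun s => S.rt o s ω) (Iic S.T) := by
  obtain ⟨κ, h0, h1, hκ⟩ := S.exists_kappa
  intro s hs s' hs' hss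
  have h := S.rt_key hκ o ω (s := s) (s' := s') hs hs'
  show S.rt o s ω < S.rt o s' ω
  by_contra hc
  push Not at hc
  rw [abs_of_pos (sub_pos.2 hss), abs_of_nonpos (sub_nonpos.2 hc)] at h
  have h2 := le_abs_self ((s' - s) - (S.rt o s' ω - S.rt o s ω))
  nlinarith [mul_nonneg (sub_nonneg.2 h1.le) (sub_nonneg.2 hc), mul_pos (sub_pos.2 h1) (sub_pos.2 hss)]

/-- Ret-a: `(1 - κ) |τ' - τ| ≤ (1 + κ) |s' - s|` -/
theorem rt_lip : ∃ L : ℝ, 0 ≤ L ∧ ∀ o ω s s', s ≤ S.T → s' ≤ S.T → |S.rt o s' ω - S.rt o s ω| ≤ L * |s' - s| := by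
  obtain ⟨κ, h0, h1, hκ⟩ := S.exists_kappa
  have h1' : 0 < 1 - κ := sub_pos.2 h1
  refine ⟨(1 + κ) / (1 - κ), by positivity, fun o ω s s' hs hs' => ?_⟩
  have h := S.rt_key hκ o ω hs hs'
  have h2 : |S.rt o s' ω - S.rt o s ω| ≤ |s' - s| + |(s' - s) - (S.rt o s' ω - S.rt o s ω)| := by
    have := abs_sub (s' - s) ((s' - s) - (S.rt o s' ω - S.rt o s ω))
    rwa [sub_sub_cancel] at this
  rw [div_mul_eq_mul_div, le_div_iff₀ h1']
  nlinarith

/-- Ret-a -/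
theorem rt_cont (o ω : Ω) : ContinuousOn (fun s => S.rt o s ω) (Iic S.T) := by
  obtain ⟨L, hL, h⟩ := S.rt_lip
  refine (LipschitzOnWith.of_dist_le_mul (K := ⟨L, hL⟩) fun s hs s' hs' => ?_).continuousOn
  rw [Real.dist_eq, Real.dist_eq]
  exact h o ω s' s hs' hs

/-- Ret-a -/
theorem z_cont (o ω : Ω) : ContinuousOn (fun s => S.z o s ω) (Iic S.T) := by
  have hY : ∀ ω, ContinuousOn (fun s => S.Y s ω) (Iic S.T) := fun ω s hs =>
    (S.dY ω s hs).continuousAt.continuousWithinAt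
  exact (hY o).sub ((hY ω).comp (S.rt_cont o ω) fun s hs => (S.rt_le o ω hs).trans hs)

/-- Ret-a -/
theorem w_cont (o ω : Ω) : ContinuousOn (fun s => S.w o s ω) (Iic S.T) := by
  exact (S.cW ω).comp (S.rt_cont o ω) fun s hs => (S.rt_le o ω hs).trans hs

/-- Ret-b: `dτ/ds = a / b` -/
theorem rt_deriv (o ω : Ω) {s : ℝ} (hs : s < S.T) (hz : S.z o s ω ≠ 0) :
    HasDerivAt (fun s => S.rt o s ω) (S.a o s ω / S.b o s ω) s := by
  obtain ⟨L, hL0, hL⟩ := S.rt_lip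
  set τ : ℝ → ℝ := fun t => S.rt o t ω with hτ
  have hτs : τ s ≤ S.T := (S.rt_le o ω hs.le).trans hs.le
  have hb : 0 < S.b o s ω := dd_pos hz _
  have hnh : Iic S.T ∈ 𝓝 s := Iic_mem_nhds hs
  -- derivative of `(t, σ) ↦ X t - Y σ`
  have hX : HasFDerivAt (fun p : ℝ × ℝ => S.Y p.1 o)
      ((ContinuousLinearMap.toSpanSingleton ℝ (relVel (S.W s o))).comp (ContinuousLinearMap.fst ℝ ℝ ℝ)) (s, τ s) :=
    HasFDerivAt.comp (s, τ s) (g := fun t => S.Y t o) (f := Prod.fst) (S.dY o s hs.le).hasFDerivAt hasFDerivAt_fst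
  have hY : HasFDerivAt (fun p : ℝ × ℝ => S.Y p.2 ω)
      ((ContinuousLinearMap.toSpanSingleton ℝ (relVel (S.W (τ s) ω))).comp (ContinuousLinearMap.snd ℝ ℝ ℝ)) (s, τ s) :=
    HasFDerivAt.comp (s, τ s) (g := fun t => S.Y t ω) (f := Prod.snd) (S.dY ω (τ s) hτs).hasFDerivAt hasFDerivAt_snd
  have hN0 : HasFDerivAt (fun x : R3 => ‖x‖) (innerSL ℝ (dir (S.z o s ω))) (S.z o s ω) := by
    have h1 : HasFDerivAt (fun x : R3 => ‖x‖ ^ 2) (2 • innerSL ℝ (S.z o s ω)) (S.z o s ω) :=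
      (hasStrictFDerivAt_norm_sq _).hasFDerivAt
    have hp : 0 < ‖S.z o s ω‖ := norm_pos_iff.2 hz
    have h2 := h1.sqrt (by positivity)
    simp only [Real.sqrt_sq (norm_nonneg _)] at h2
    refine h2.congr_fderiv (ContinuousLinearMap.ext fun v => ?_)
    simp only [dir, smul_apply, innerSL_apply_apply, inner_smul_left, conj_trivial, smul_eq_mul,
      nsmul_eq_mul, Nat.cast_ofNat]
    field_simp
  have hN := HasFDerivAt.comp (s, τ s) (g := fun x : R3 => ‖x‖) (f := fun p : ℝ × ℝ => S.Y p.1 o - S.Y p.2 ω)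
    hN0 (hX.sub hY)
  have ht : Tendsto (fun t => (t, τ t)) (𝓝 s) (𝓝 (s, τ s)) :=
    tendsto_id.prodMk_nhds ((S.rt_cont o ω).continuousAt hnh)
  have hO : (fun t => (t, τ t) - (s, τ s)) =O[𝓝 s] fun t => t - s := by
    refine Asymptotics.IsBigO.of_bound (max 1 L) ?_
    filter_upwards [hnh] with t ht
    have h1 := hL o ω s t hs.le ht
    rw [Prod.mk_sub_mk, Prod.norm_def]
    simp only [Real.norm_eq_abs]
    have h2 := abs_nonneg (t - s)
    refine max_le ?_ ?_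
    · nlinarith [le_max_left 1 L]
    · nlinarith [le_max_right 1 L]
  have ho := (hN.isLittleO.comp_tendsto ht).trans_isBigO hO
  rw [hasDerivAt_iff_isLittleO]
  have ho2 := ho.const_mul_left (-(S.b o s ω)⁻¹)
  refine ho2.congr' ?_ EventuallyEq.rfl
  filter_upwards [hnh] with t ht
  have e1 : ‖S.Y t o - S.Y (τ t) ω‖ = t - τ t := S.norm_z o ω ht
  have e2 : ‖S.Y s o - S.Y (τ s) ω‖ = s - τ s := S.norm_z o ω hs.le
  have ea : ⟪dir (S.z o s ω), relVel (S.W s o)⟫ = 1 - S.a o s ω := by unfold a ang; ring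
  have eb : ⟪dir (S.z o s ω), relVel (S.W (τ s) ω)⟫ = 1 - S.b o s ω := by unfold b ang w; ring
  simp only [Function.comp_apply, ContinuousLinearMap.comp_apply, sub_apply,
    ContinuousLinearMap.toSpanSingleton_apply, ContinuousLinearMap.coe_fst', ContinuousLinearMap.coe_snd',
    Prod.mk_sub_mk, innerSL_apply_apply, inner_sub_right, inner_smul_right, e1, e2, ea, eb, smul_eq_mul]
  field_simp
  ring

/-- Ret-b: the pair system -/
theorem pairAt (o ω : Ω) {s : ℝ} (h0 : 0 < s) (hs : s < S.T) (hr : 0 < S.rt o s ω) (hz : S.z o s ω ≠ 0) :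
    PairAt (fun t => S.z o t ω) (fun t => S.W t o) (fun t => S.w o t ω) (S.F s o) (S.Fs o s ω) s := by
  have hτs : S.rt o s ω ≤ S.T := (S.rt_le o ω hs.le).trans hs.le
  have hd := S.rt_deriv o ω hs hz
  refine ⟨hz, ?_, S.dW o s h0 hs.le, ?_⟩
  · exact (S.dY o s hs.le).sub (HasDerivAt.scomp s (g₁ := fun t => S.Y t ω) (S.dY ω _ hτs) hd)
  · exact HasDerivAt.scomp s (g₁ := fun t => S.W t ω) (S.dW ω _ hr hτs) hd

/-- Ret-c -/
theorem meas_rt (o : Ω) : Measurable fun p : ℝ × Ω => S.rt o p.1 p.2 := by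
  exact S.mτ.comp (f := fun p : ℝ × Ω => ((p.1, S.Y p.1 o), p.2))
    ((measurable_fst.prodMk (S.mY.comp (f := fun p : ℝ × Ω => (p.1, o)) (measurable_fst.prodMk measurable_const))).prodMk
      measurable_snd)

/-- Ret-c -/
theorem meas_z (o : Ω) : Measurable fun p : ℝ × Ω => S.z o p.1 p.2 := by
  exact (S.mY.comp (f := fun p : ℝ × Ω => (p.1, o)) (measurable_fst.prodMk measurable_const)).sub
    (S.mY.comp (f := fun p : ℝ × Ω => (S.rt o p.1 p.2, p.2)) ((S.meas_rt o).prodMk measurable_snd))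

/-- Ret-c -/
theorem meas_w (o : Ω) : Measurable fun p : ℝ × Ω => S.w o p.1 p.2 := by
  exact S.mW.comp (f := fun p : ℝ × Ω => (S.rt o p.1 p.2, p.2)) ((S.meas_rt o).prodMk measurable_snd)

omit S in
theorem retc1_force : Continuous fun p : R3 × R3 × R3 => force p.1 p.2.1 p.2.2 := by
  have h1 : Continuous relVel := by
    refine Continuous.smul (Continuous.inv₀ (by unfold en; fun_prop) fun v => (en_pos v).ne') continuous_id
  have h2 : Continuous fun p : R3 × R3 => cross3 p.1 p.2 := by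
    refine (PiLp.continuous_toLp 2 _).comp (continuous_pi fun i => ?_)
    fin_cases i <;> simp <;> fun_prop
  exact continuous_fst.add (h2.comp (f := fun p : R3 × R3 × R3 => (relVel p.2.2, p.2.1))
    ((h1.comp (continuous_snd.comp continuous_snd)).prodMk (continuous_fst.comp continuous_snd)))

/-- Ret-c -/
theorem meas_F : Measurable fun p : ℝ × Ω => S.F p.1 p.2 := by
  have h1 : Measurable fun p : ℝ × Ω => (p.1, S.Y p.1 p.2) := measurable_fst.prodMk S.mY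
  exact retc1_force.measurable.comp (f := fun p : ℝ × Ω => (S.E p.1 (S.Y p.1 p.2), S.B p.1 (S.Y p.1 p.2), S.W p.1 p.2))
    ((S.cE.measurable.comp h1).prodMk ((S.cB.measurable.comp h1).prodMk S.mW))

/-- Ret-c -/
theorem meas_Fs (o : Ω) : Measurable fun p : ℝ × Ω => S.Fs o p.1 p.2 := by
  exact S.meas_F.comp (f := fun p : ℝ × Ω => (S.rt o p.1 p.2, p.2)) ((S.meas_rt o).prodMk measurable_snd)

/-- Ret-c -/
theorem meas_act (o : Ω) (s : ℝ) : MeasurableSet (S.act o s) := by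
  exact measurableSet_le measurable_const ((S.meas_rt o).comp (f := fun ω : Ω => (s, ω)) measurable_prodMk_left)

theorem rc2_relVel : Continuous relVel := by
  have h : Continuous fun v : R3 => en v := by unfold en; fun_prop
  exact (h.inv₀ fun v => (en_pos v).ne').smul continuous_id

theorem rc2_cross : Continuous fun p : R3 × R3 => cross3 p.1 p.2 := by
  have h : ∀ i j, Continuous fun p : R3 × R3 => p.1 i * p.2 j := fun i j => by fun_prop
  refine (PiLp.continuous_toLp 2 _).comp (continuous_pi fun i => ?_)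
  fin_cases i
  · exact (h 1 2).sub (h 2 1)
  · exact (h 2 0).sub (h 0 2)
  · exact (h 0 1).sub (h 1 0)

theorem rc2_Y (o : Ω) {s : ℝ} (hs : s ∈ Icc 0 S.T) : ‖S.Y s o‖ ≤ 2 * C := by
  have h1 := S.Y_lip_one o S.T_nonneg hs.2
  rw [sub_zero, abs_of_nonneg hs.1] at h1
  have h2 := norm_le_norm_add_norm_sub' (S.Y s o) (S.Y 0 o)
  linarith [S.Y0 o, hs.2, S.T_le]

/-- Ret-c -/
theorem F_cont (o : Ω) : ContinuousOn (fun s => S.F s o) (Iic S.T) := by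
  have hY : ContinuousOn (fun s => S.Y s o) (Iic S.T) := fun t ht => (S.dY o t ht).continuousAt.continuousWithinAt
  have hp : ContinuousOn (fun s => ((s, S.Y s o) : ℝ × R3)) (Iic S.T) := continuousOn_id.prodMk hY
  exact (S.cE.comp_continuousOn hp).add (rc2_cross.comp_continuousOn
    ((rc2_relVel.comp_continuousOn (S.cW o)).prodMk (S.cB.comp_continuousOn hp)))

/-- Ret-c: a finite (not quantitative) bound: `‖Y t ω‖ ≤ 2 C` on `[0, T]`, `E, B` continuous on a compact set -/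
theorem F_bdd : ∃ K : ℝ, ∀ t ∈ Icc 0 S.T, ∀ ω, ‖S.F t ω‖ ≤ K := by
  obtain ⟨P, hP⟩ := S.bdd
  have hc : Continuous fun q : (ℝ × R3) × R3 => force (S.E q.1.1 q.1.2) (S.B q.1.1 q.1.2) q.2 :=
    (S.cE.comp continuous_fst).add (rc2_cross.comp
      ((rc2_relVel.comp continuous_snd).prodMk (S.cB.comp continuous_fst)))
  obtain ⟨K, hK⟩ := (((isCompact_Icc (a := (0 : ℝ)) (b := S.T)).prod (isCompact_closedBall (0 : R3) (2 * C))).prod
    (isCompact_closedBall (0 : R3) P)).exists_bound_of_continuousOn hc.continuousOn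
  exact ⟨K, fun t ht ω => hK ((t, S.Y t ω), S.W t ω)
    ⟨⟨ht, mem_closedBall_zero_iff.2 (S.rc2_Y ω ht)⟩, mem_closedBall_zero_iff.2 (hP t ω ht.2)⟩⟩

/-- Ret-c: inactive sources: `R ≤ ‖X(s) - Y(0)‖ + ‖β‖ R`, `‖X(s) - Y(0)‖ ≤ 3 C`, `1 - ‖β‖ ≥ 1 / (2 (1 + C²))` -/
theorem inact (o ω : Ω) {s : ℝ} (hs : s ∈ Icc 0 S.T) (hr : S.rt o s ω ≤ 0) :
    ‖S.z o s ω‖ ≤ 12 * C ^ 3 ∧ ‖S.w o s ω‖ ≤ C := by
  have hw : S.w o s ω = S.W 0 ω := S.Wneg ω _ hr
  refine ⟨?_, hw ▸ S.W0 ω⟩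
  have hC := S.one_le
  have hR := S.norm_z o ω hs.2
  have h1 := S.Y_lip (κ := ‖relVel (S.W 0 ω)‖) (ω := ω) (hr.trans S.T_nonneg) S.T_nonneg (fun r hr' => by
    rw [uIcc_of_le hr] at hr'
    rw [S.Wneg ω r hr'.2])
  rw [zero_sub, abs_neg, abs_of_nonpos hr] at h1
  have h2 : ‖S.z o s ω‖ ≤ ‖S.Y s o‖ + ‖S.Y 0 ω‖ + ‖S.Y 0 ω - S.Y (S.rt o s ω) ω‖ := by
    have : S.z o s ω = (S.Y s o - S.Y 0 ω) + (S.Y 0 ω - S.Y (S.rt o s ω) ω) := by simp [z]
    rw [this]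
    exact (norm_add_le _ _).trans (add_le_add (norm_sub_le _ _) le_rfl)
  have h3 := S.rc2_Y o hs
  have h4 := S.Y0 ω
  set κ := ‖relVel (S.W 0 ω)‖ with hκ
  have k0 : 0 ≤ κ := norm_nonneg _
  have k1 : κ < 1 := norm_relVel_lt_one _
  have k2 : κ ^ 2 = 1 - (en (S.W 0 ω) ^ 2)⁻¹ := norm_relVel_sq _
  have k3 : en (S.W 0 ω) ^ 2 ≤ 2 * C ^ 2 := by
    rw [en_sq]
    nlinarith [pow_le_pow_left₀ (norm_nonneg _) (S.W0 ω) 2]
  have k4 : (2 * C ^ 2)⁻¹ ≤ (en (S.W 0 ω) ^ 2)⁻¹ := inv_anti₀ (pow_pos (en_pos _) 2) k3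
  have k5 : (2 * C ^ 2)⁻¹ ≤ 2 * (1 - κ) := by nlinarith
  have k6 : 1 ≤ 4 * C ^ 2 * (1 - κ) := by
    have hp : 0 < 2 * C ^ 2 := by positivity
    have := mul_le_mul_of_nonneg_left k5 hp.le
    rw [mul_inv_cancel₀ hp.ne'] at this
    linarith
  have k7 : (1 - κ) * ‖S.z o s ω‖ ≤ 3 * C := by
    have : κ * -S.rt o s ω ≤ κ * ‖S.z o s ω‖ := mul_le_mul_of_nonneg_left (by linarith [hs.1]) k0
    linarith
  have k8 := mul_le_mul_of_nonneg_right k6 (norm_nonneg (S.z o s ω))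
  have k9 := mul_le_mul_of_nonneg_left k7 (show 0 ≤ 4 * C ^ 2 by positivity)
  nlinarith

/-- Ret-c: the momentum is the integral of the force -/
theorem W_ftc (o : Ω) {s₀ s₁ : ℝ} (h0 : 0 ≤ s₀) (h01 : s₀ ≤ s₁) (h1 : s₁ ≤ S.T) :
    S.W s₁ o - S.W s₀ o = ∫ s in s₀..s₁, S.F s o := by
  have hsub : Icc s₀ s₁ ⊆ Iic S.T := fun r hr => hr.2.trans h1
  refine (intervalIntegral.integral_eq_sub_of_hasDerivAt_of_le h01 ((S.cW o).mono hsub)
    (fun r hr => S.dW o r (h0.trans_lt hr.1) (hr.2.le.trans h1)) ?_).symm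
  exact ((S.F_cont o).mono (by rwa [uIcc_of_le h01])).intervalIntegrable

end Sys
end Crest.Agent.R106.A
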