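import Crest.Agent.R106.A.IdCut
import Crest.Agent.R106.A.Hyp
import Crest.Agent.R106.A.Ret

/-! # R106/A/Cut: cone integrals of the kernels and the interfaces of the a priori bound (helper44; FROZEN).
Pointwise kernels: `A/IdCut`; `lev`, `Var`, `Hyp`, `S_IMP`: `A/Hyp`; `act`: `A/Ret`. -/

set_option autoImplicit false

open MeasureTheory Set Crest.AnalysisR.VecCalc3 Crest.AnalysisR.PDE.RVM
open scoped ENNReal RealInnerProductSpace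

noncomputable section
namespace Crest.Agent.R106.A

namespace Sys
variable {Ω : Type} [MeasurableSpace Ω] {C : ℝ} (S : Sys Ω C)

/-- the electric field at the source -/
def Es (o : Ω) (s : ℝ) (ω : Ω) : R3 := S.E (S.rt o s ω) (S.Y (S.rt o s ω) ω)
/-- the magnetic field at the source -/
def Bs (o : Ω) (s : ℝ) (ω : Ω) : R3 := S.B (S.rt o s ω) (S.Y (S.rt o s ω) ω)
/-- Glassey–Strauss kernel size -/
def kII (o : Ω) (s : ℝ) (ω : Ω) : ℝ :=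
  kT (S.z o s ω) (S.W s o) (S.w o s ω) + kSg (S.z o s ω) (S.W s o) (S.w o s ω) (S.Es o s ω) (S.Bs o s ω) +
    kSb (S.z o s ω) (S.W s o) (S.w o s ω) (S.Es o s ω) (S.Bs o s ω)
/-- the cut-off along the pair -/
def ch (P γ : ℝ) (o : Ω) (s : ℝ) (ω : Ω) : ℝ := chi P γ (S.z o s ω) (S.W s o) (S.w o s ω)
open Classical in
/-- size of the remainder of identity (III), without the test acceleration -/
def rm (P γ : ℝ) (o : Ω) (s : ℝ) (ω : Ω) : ℝ :=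
  (if S.ch P γ o s ω ≠ 1 then S.kII o s ω else 0) + (if S.ch P γ o s ω ≠ 0 then kRev (S.z o s ω) (S.W s o) else 0) +
    (if S.ch P γ o s ω ≠ 0 ∧ S.ch P γ o s ω ≠ 1 then kGeo (S.z o s ω) (S.W s o) (S.w o s ω) else 0)
open Classical in
/-- size of the boundary term and of the coefficient of the test acceleration -/
def hk (P γ : ℝ) (o : Ω) (s : ℝ) (ω : Ω) : ℝ :=
  if S.ch P γ o s ω ≠ 0 then kH (S.z o s ω) (S.W s o) (S.w o s ω) else 0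
/-- cone integral `∫ k f dv dy` -/
def J (o : Ω) (s : ℝ) (k : Ω → ℝ) : ℝ≥0∞ := ∫⁻ ω in S.act o s, ENNReal.ofReal (k ω * (S.b o s ω)⁻¹) ∂S.μ
/-- all energies are at most `P` -/
def Bd (P : ℝ) : Prop := ∀ s ω, s ≤ S.T → en (S.W s ω) ≤ P
/-- the majorant of the non-oscillating part of the force -/
def D (K P γ : ℝ) (o : Ω) (s : ℝ) : ℝ≥0∞ :=
  ENNReal.ofReal (2 * C) + ENNReal.ofReal K * S.J o s (S.rm P γ o s) +
    ENNReal.ofReal K * S.J o s (S.hk P γ o s) * ENNReal.ofReal (‖S.F s o‖ / en (S.W s o))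
/-- the standing situation: a test interval under the weak bootstrap hypothesis -/
structure Tst (e P t : ℝ) (o : Ω) (s₀ s₁ : ℝ) : Prop where
  bd : S.Bd P
  tT : t ≤ S.T
  hyp : S.Hyp e P (2 / 1000) t
  h0 : 0 ≤ s₀
  h01 : s₀ ≤ s₁
  h1 : s₁ ≤ t
  low : P ^ (56 / 100 : ℝ) ≤ en (S.W s₀ o)
  len : s₁ - s₀ ≤ lev e P (en (S.W s₀ o))
end Sys

/-- representation (II) in absolute value (`force_le`, `norm_pair_le`) -/
def S_FORCE : Prop := ∃ K : ℝ, 1 ≤ K ∧ ∀ (C : ℝ) (Ω : Type) [MeasurableSpace Ω] (S : Sys Ω C) (o : Ω), ∀ s ∈ Icc 0 S.T,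
  ENNReal.ofReal ‖S.F s o‖ ≤ ENNReal.ofReal (2 * C) + ENNReal.ofReal K * S.J o s (S.kII o s)

/-- identity (III) integrated in time (`pair_main`, `pair_cut`, `norm_chi_Gam_le`) -/
def S_PAIR : Prop := ∃ K : ℝ, 1 ≤ K ∧ ∀ C : ℝ, ∃ P₀ : ℝ, ∀ P, P₀ ≤ P → ∀ (Ω : Type) [MeasurableSpace Ω] (S : Sys Ω C) (o : Ω)
  (γ s s' : ℝ), 0 ≤ s → s ≤ s' → s' ≤ S.T →
    ENNReal.ofReal ‖S.W s' o - S.W s o‖ ≤ (∫⁻ r in Icc s s', S.D K P γ o r) +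
      ENNReal.ofReal K * (S.J o s (S.hk P γ o s) + S.J o s' (S.hk P γ o s'))

/-- the pass count -/
def S_PASS : Prop := ∀ C : ℝ, ∃ K : ℝ, 1 ≤ K ∧ ∀ e : ℝ, 0 < e → e ≤ 1 → ∃ P₀ : ℝ, ∀ P, P₀ ≤ P →
  ∀ (Ω : Type) [MeasurableSpace Ω] (S : Sys Ω C) (t : ℝ) (o : Ω) (s₀ s₁ : ℝ), S.Tst e P t o s₀ s₁ →
    ∀ A Bb Cc R M : ℝ, 0 < A → 0 < Bb → 0 < Cc → 0 < R → P ^ (58 / 100 : ℝ) ≤ M → M ≤ P →
      en (S.W s₀ o) ^ (-(104 / 100) : ℝ) ≤ Cc → M ^ (-(104 / 100) : ℝ) ≤ Cc →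
      S.I o A Bb Cc R M s₀ s₁ ≤
        ENNReal.ofReal (K * (1 + lev e P (en (S.W s₀ o)) / lev e P M) * R / (M * Cc * √Cc))

/-- the sums over all boxes; `K` does not depend on `e` -/
def S_SUM : Prop := ∀ C : ℝ, ∃ K : ℝ, 1 ≤ K ∧ ∀ e : ℝ, 0 < e → e ≤ 1 → ∃ P₀ : ℝ, ∀ P, P₀ ≤ P →
  ∀ (Ω : Type) [MeasurableSpace Ω] (S : Sys Ω C) (t : ℝ) (o : Ω) (s₀ s₁ : ℝ), S.Tst e P t o s₀ s₁ →
    (∫⁻ s in Icc s₀ s₁, S.J o s (S.rm P (en (S.W s₀ o)) o s)) ≤ ENNReal.ofReal (K * e * en (S.W s₀ o)) ∧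
    (∫⁻ s in Icc s₀ s₁, S.J o s (S.kII o s)) ≤ ENNReal.ofReal (en (S.W s₀ o) ^ (151 / 100 : ℝ)) ∧
    ∀ s ∈ Icc s₀ s₁, S.J o s (S.hk P (en (S.W s₀ o)) o s) ≤ ENNReal.ofReal (en (S.W s₀ o) ^ (46 / 100 : ℝ))

end Crest.Agent.R106.A
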