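import Crest.Prelude.Def_VlasovMaxwell

/-! # R106/A: the Lagrangian frame of the a priori bound (helper44; FROZEN).

`Sys Ω C` is a Vlasov–Maxwell solution on `[0, T]` seen through its characteristics `(Y t ω, W t ω)` (continued to `t < 0` by
free motion), the particle measure `μ` (`= f₀ dy dv`) and the fields.  All data constants are bounded by the single number `C`. -/

set_option autoImplicit false

open MeasureTheory Set Crest.AnalysisR.VecCalc3 Crest.AnalysisR.PDE.RVM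
open scoped ENNReal RealInnerProductSpace

noncomputable section
namespace Crest.Agent.R106.A

/-- the energy `⟨v⟩` -/
def en (v : R3) : ℝ := Real.sqrt (1 + ‖v‖ ^ 2)
/-- the direction `n = z / |z|` (`0` for `z = 0`) -/
def dir (z : R3) : R3 := ‖z‖⁻¹ • z
/-- `1 - n · v̂` (this is `a` for the test momentum, `b` for the source momentum; also used with `n = V̂`, giving `c`) -/
def ang (n v : R3) : ℝ := 1 - ⟪n, relVel v⟫
/-- the Lorentz force -/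
def force (E B v : R3) : R3 := E + cross3 (relVel v) B
/-- `d v̂ / dt` for the momentum `w` under the force `F` -/
def acc (w F : R3) : R3 := (en w)⁻¹ • (F - ⟪relVel w, F⟫ • relVel w)
/-- velocity part of the Liénard–Wiechert field; `z = x - y`, `w` the source momentum -/
def ET (z w : R3) : R3 := (en w ^ 2 * ang (dir z) w ^ 3 * ‖z‖ ^ 2)⁻¹ • (dir z - relVel w)
/-- acceleration part `n × ((n - β) × β') / (b³ R)` of the Liénard–Wiechert field; `F` the force on the source -/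
def ES (z w F : R3) : R3 :=
  (ang (dir z) w ^ 3 * ‖z‖)⁻¹ • (⟪dir z, acc w F⟫ • (dir z - relVel w) - ang (dir z) w • acc w F)
/-- the field energy flux through a backward cone (`n` points to the vertex) -/
def gd (n E B : R3) : ℝ := (‖E‖ ^ 2 + ‖B‖ ^ 2) / 2 - ⟪n, cross3 E B⟫

/-- the Lagrangian frame -/
structure Sys (Ω : Type) [MeasurableSpace Ω] (C : ℝ) where
  T : ℝ
  μ : Measure Ω
  Y : ℝ → Ω → R3
  W : ℝ → Ω → R3
  E : ℝ → R3 → R3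
  B : ℝ → R3 → R3
  /-- the retarded time of the source `ω` seen from `(s, x)` -/
  τ : ℝ → R3 → Ω → ℝ
  one_le : 1 ≤ C
  T_nonneg : 0 ≤ T
  T_le : T ≤ C
  fin : IsFiniteMeasure μ
  mY : Measurable fun p : ℝ × Ω => Y p.1 p.2
  mW : Measurable fun p : ℝ × Ω => W p.1 p.2
  mτ : Measurable fun p : (ℝ × R3) × Ω => τ p.1.1 p.1.2 p.2
  cE : Continuous fun p : ℝ × R3 => E p.1 p.2
  cB : Continuous fun p : ℝ × R3 => B p.1 p.2
  Y0 : ∀ ω, ‖Y 0 ω‖ ≤ C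
  W0 : ∀ ω, ‖W 0 ω‖ ≤ C
  /-- a finite, NOT quantitative, bound -/
  bdd : ∃ P, ∀ t ω, t ≤ T → ‖W t ω‖ ≤ P
  dY : ∀ ω t, t ≤ T → HasDerivAt (fun t => Y t ω) (relVel (W t ω)) t
  dW : ∀ ω t, 0 < t → t ≤ T → HasDerivAt (fun t => W t ω) (force (E t (Y t ω)) (B t (Y t ω)) (W t ω)) t
  cW : ∀ ω, ContinuousOn (fun t => W t ω) (Iic T)
  Wneg : ∀ ω t, t ≤ 0 → W t ω = W 0 ω
  ret : ∀ s x ω, s ≤ T → s - τ s x ω = ‖x - Y (τ s x ω) ω‖
  /-- (H1) phase-space volume on the cone -/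
  vol : ∀ s ∈ Icc 0 T, ∀ x, ∀ g : R3 × R3 → ℝ≥0∞, Measurable g →
    ∫⁻ ω in {ω | 0 ≤ τ s x ω}, g (Y (τ s x ω) ω, W (τ s x ω) ω) *
        ENNReal.ofReal (ang (dir (x - Y (τ s x ω) ω)) (W (τ s x ω) ω))⁻¹ ∂μ ≤ ENNReal.ofReal C * ∫⁻ p, g p
  /-- (H2) particle energy flux through the cone -/
  coneP : ∀ s ∈ Icc 0 T, ∀ x, ∫⁻ ω in {ω | 0 ≤ τ s x ω}, ENNReal.ofReal (en (W (τ s x ω) ω)) ∂μ ≤ ENNReal.ofReal C
  /-- (H2) field energy flux through the cone -/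
  coneF : ∀ s ∈ Icc 0 T, ∀ x, ∫⁻ y in Metric.closedBall x s,
    ENNReal.ofReal (gd (dir (x - y)) (E (s - ‖x - y‖) y) (B (s - ‖x - y‖) y)) ≤ ENNReal.ofReal C
  /-- (H3) particle energy -/
  enP : ∀ t ∈ Icc 0 T, ∫⁻ ω, ENNReal.ofReal (en (W t ω)) ∂μ ≤ ENNReal.ofReal C
  /-- (H3) field energy -/
  enF : ∀ t ∈ Icc 0 T, ∫⁻ y, ENNReal.ofReal (‖E t y‖ ^ 2 + ‖B t y‖ ^ 2) ≤ ENNReal.ofReal C
  /-- (H4) the Liénard–Wiechert field is integrable -/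
  lwInt : ∀ s ∈ Icc 0 T, ∀ x, IntegrableOn (fun ω => ET (x - Y (τ s x ω) ω) (W (τ s x ω) ω) +
    ES (x - Y (τ s x ω) ω) (W (τ s x ω) ω)
      (force (E (τ s x ω) (Y (τ s x ω) ω)) (B (τ s x ω) (Y (τ s x ω) ω)) (W (τ s x ω) ω))) {ω | 0 ≤ τ s x ω} μ
  /-- (H4) the electric field up to the data term -/
  lwE : ∀ s ∈ Icc 0 T, ∀ x, ‖E s x - (4 * Real.pi)⁻¹ • ∫ ω in {ω | 0 ≤ τ s x ω}, (ET (x - Y (τ s x ω) ω) (W (τ s x ω) ω) +
    ES (x - Y (τ s x ω) ω) (W (τ s x ω) ω)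
      (force (E (τ s x ω) (Y (τ s x ω) ω)) (B (τ s x ω) (Y (τ s x ω) ω)) (W (τ s x ω) ω))) ∂μ‖ ≤ C
  /-- (H4) the magnetic field up to the data term -/
  lwB : ∀ s ∈ Icc 0 T, ∀ x, ‖B s x - (4 * Real.pi)⁻¹ • ∫ ω in {ω | 0 ≤ τ s x ω}, cross3 (dir (x - Y (τ s x ω) ω))
    (ET (x - Y (τ s x ω) ω) (W (τ s x ω) ω) + ES (x - Y (τ s x ω) ω) (W (τ s x ω) ω)
      (force (E (τ s x ω) (Y (τ s x ω) ω)) (B (τ s x ω) (Y (τ s x ω) ω)) (W (τ s x ω) ω))) ∂μ‖ ≤ C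

/-- THE A PRIORI BOUND in the Lagrangian frame -/
def S_APL : Prop :=
  ∀ C : ℝ, ∃ P : ℝ, ∀ (Ω : Type) [MeasurableSpace Ω] (S : Sys Ω C) (t : ℝ) (ω : Ω), t ≤ S.T → ‖S.W t ω‖ ≤ P

namespace Sys
variable {Ω : Type} [MeasurableSpace Ω] {C : ℝ} (S : Sys Ω C)

/-! The pair (test particle `o` at time `s`, source `ω` at the retarded time). -/

/-- retarded time along the test particle `o` -/
def rt (o : Ω) (s : ℝ) (ω : Ω) : ℝ := S.τ s (S.Y s o) ω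
/-- `z = X(s) - Y(τ)` -/
def z (o : Ω) (s : ℝ) (ω : Ω) : R3 := S.Y s o - S.Y (S.rt o s ω) ω
/-- the source momentum -/
def w (o : Ω) (s : ℝ) (ω : Ω) : R3 := S.W (S.rt o s ω) ω
/-- `a = 1 - n · V̂` -/
def a (o : Ω) (s : ℝ) (ω : Ω) : ℝ := ang (dir (S.z o s ω)) (S.W s o)
/-- `b = 1 - n · β` -/
def b (o : Ω) (s : ℝ) (ω : Ω) : ℝ := ang (dir (S.z o s ω)) (S.w o s ω)
/-- `c = 1 - V̂ · β` -/
def c (o : Ω) (s : ℝ) (ω : Ω) : ℝ := ang (relVel (S.W s o)) (S.w o s ω)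
/-- the force on the particle `ω` at time `t` -/
def F (t : ℝ) (ω : Ω) : R3 := force (S.E t (S.Y t ω)) (S.B t (S.Y t ω)) (S.W t ω)

/-- the box `a ~ A, b ~ Bb, c ~ Cc, R ~ R, ⟨w⟩ ~ M` (each between the number and twice the number) of ACTIVE sources at time `s` -/
def box (o : Ω) (A Bb Cc R M : ℝ) (s : ℝ) : Set Ω :=
  {ω | 0 ≤ S.rt o s ω ∧ S.a o s ω ∈ Icc A (2 * A) ∧ S.b o s ω ∈ Icc Bb (2 * Bb) ∧ S.c o s ω ∈ Icc Cc (2 * Cc) ∧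
    ‖S.z o s ω‖ ∈ Icc R (2 * R) ∧ en (S.w o s ω) ∈ Icc M (2 * M)}

/-- `∫_box f dv dy` on the cone at time `s` -/
def Is (o : Ω) (A Bb Cc R M : ℝ) (s : ℝ) : ℝ≥0∞ :=
  ∫⁻ ω in S.box o A Bb Cc R M s, ENNReal.ofReal (S.b o s ω)⁻¹ ∂S.μ

/-- `I` = the time integral of `Is` over `[s₀, s₁]` -/
def I (o : Ω) (A Bb Cc R M : ℝ) (s₀ s₁ : ℝ) : ℝ≥0∞ := ∫⁻ s in Icc s₀ s₁, S.Is o A Bb Cc R M s

end Sys

end Crest.Agent.R106.A
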