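import Mathlib

/-! # R106/A/Lp (helper44): the exponent inequalities.  All variables are logarithms: `p = log P`, `g = log γ`, `m = log M`,
`X = -log A`, `Y = -log Bb`, `W = -log Cc`, `r = -log R`, `l = log ℓ`, `ν = log N`, `i = log I`, `k` = logarithm of the constants. -/

set_option autoImplicit false

namespace Crest.Agent.R106.A

structure LP0 (p g m X Y W r k : ℝ) : Prop where
  k0 : 0 ≤ k
  p0 : 0 ≤ p
  g0 : 56 / 100 * p ≤ g
  g1 : g ≤ p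
  m0 : 0 ≤ m
  m1 : m ≤ p
  X0 : -k ≤ X
  Y0 : -k ≤ Y
  W0 : -k ≤ W
  r0 : -k ≤ r
  X1 : X ≤ 2 * g + k
  Y1 : Y ≤ 2 * m + k
  W1 : W ≤ 2 * g + k
  W2 : W ≤ 2 * m + k
  t1 : Y ≤ X + k ∨ W ≤ X + k
  t2 : X ≤ Y + k ∨ W ≤ Y + k
  t3 : X ≤ W + k ∨ Y ≤ W + k

structure LP (p g m X Y W r l ν i k : ℝ) : Prop extends LP0 p g m X Y W r k where
  l1 : l ≤ 2 * g - 2 * p
  l0 : 2 * g - 2 * p - p / 1000 ≤ l
  n0 : 0 ≤ ν
  n1 : ν ≤ p / 1000 ∨ ν ≤ 2 * g - 2 * m + p / 1000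
  ivY : i ≤ l + 3 * m - Y - X - 3 * r + k
  ivW : i ≤ l + 3 * m - W - X - 3 * r + k
  ic : i ≤ l - m + Y + k
  ie : i ≤ l - m + X + k ∨ i ≤ -r - m + X + k
  ip : m ≤ 58 / 100 * p ∨ 104 / 100 * g ≤ W ∨ 104 / 100 * m ≤ W ∨ i ≤ ν - r - m + 3 / 2 * W + k

/-- the critical bound -/
noncomputable def crit (m X Y W r l ν : ℝ) : ℝ :=
  m + (l + ν) / 2 - (X + Y + W) / 10000 - |r - (2 * m - (ν - l) / 2)| / 10000
/-- the decay in all dyadic parameters -/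
noncomputable def dec (m X Y W r : ℝ) : ℝ := (X + Y + W + m + r) / 10000
/-- the box meets `{χ ≠ 1}` -/
def Out (p g m X Y r k : ℝ) : Prop :=
  Y ≤ X + k ∨ 9 / 20 * g - (3 * m - 3 / 2 * Y - 2 * r) ≤ k ∨ 20 * m - r - 5 * p ≤ k
/-- the box meets `{χ ≠ 0}` -/
def Inn (p g m X Y W r k : ℝ) : Prop :=
  X ≤ Y + k ∧ W ≤ X + k ∧ 3 * m - 3 / 2 * Y - 2 * r ≤ 9 / 20 * g + k ∧ -k ≤ 20 * m - r - 5 * p
/-- the conclusion for a term of logarithm `t` -/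
def Good (p g m X Y W r l ν k t : ℝ) : Prop :=
  t ≤ 100 * k + crit m X Y W r l ν ∨ t ≤ 100 * k + g - p / 10000 - dec m X Y W r

noncomputable def tT (m X Y r i : ℝ) : ℝ := -(min X Y) / 2 - 2 * m + 3 / 2 * Y + 2 * r + i
noncomputable def tG (m X Y W r l i : ℝ) : ℝ := -X / 2 - m + Y + r + (3 * m - max Y W + l + i) / 2
noncomputable def tB (m Y W r l i : ℝ) : ℝ := -m + r + (3 * m - max Y W + max l (-r) + i) / 2
noncomputable def tR (g X r i : ℝ) : ℝ := -2 * g + X + 2 * r + i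
noncomputable def tE (X Y r i : ℝ) : ℝ := -X / 2 + Y / 2 + 2 * r + i

variable {p g m X Y W r l ν i k : ℝ}

theorem good_of {t : ℝ} (h : ∀ d, (d = r - (2 * m - (ν - l) / 2) ∧ 0 ≤ d ∨ d = -(r - (2 * m - (ν - l) / 2)) ∧ 0 ≤ d) →
    100 * k + (m + (l + ν) / 2 - (X + Y + W) / 10000 - d / 10000) < t →
    100 * k + g - p / 10000 - (X + Y + W + m + r) / 10000 < t → False) : Good p g m X Y W r l ν k t := by
  by_contra hc
  simp only [Good, crit, dec, not_or, not_le] at hc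
  refine h _ ?_ hc.1 hc.2
  rcases le_total 0 (r - (2 * m - (ν - l) / 2)) with h0 | h0
  · exact Or.inl ⟨abs_of_nonneg h0, abs_nonneg _⟩
  · exact Or.inr ⟨abs_of_nonpos h0, abs_nonneg _⟩

theorem lpR (h : LP p g m X Y W r l ν i k) (hi : Inn p g m X Y W r k) : Good p g m X Y W r l ν k (tR g X r i) := by
  obtain ⟨⟨k0, p0, g0, g1, m0, m1, X0, Y0, W0, r0, X1, Y1, W1, W2, t1, t2, t3⟩, l1, l0, n0, n1, ivY, ivW, ic, ie, ip⟩ := h
  obtain ⟨i1, i2, i3, i4⟩ := hi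
  refine good_of fun d hd h1 h2 => ?_
  unfold tR at h1 h2
  rcases ie with ie | ie <;> rcases t3 with t3 | t3 <;> linarith

end Crest.Agent.R106.A
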