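import Crest.Agent.R106.A.Box
import Crest.Agent.R106.A.Lp

/-! # R106/A/Dy (helper44): dyadic boxes, geometry and kernel sizes on a box. -/

set_option autoImplicit false

open MeasureTheory Set Crest.AnalysisR.VecCalc3 Crest.AnalysisR.PDE.RVM
open scoped ENNReal RealInnerProductSpace

noncomputable section
namespace Crest.Agent.R106.A

/-- indices `(a, b, c, R, M)` -/
abbrev Ix : Type := ℕ × ℕ × ℕ × ℕ × ℕ
def lx (j : ℕ) : ℝ := j * Real.log 2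
def jX (j : Ix) : ℝ := lx j.1
def jY (j : Ix) : ℝ := lx j.2.1
def jW (j : Ix) : ℝ := lx j.2.2.1
def jr (C : ℝ) (j : Ix) : ℝ := lx j.2.2.2.1 - Real.log C
def jm (j : Ix) : ℝ := lx j.2.2.2.2
def L0 (C p g k : ℝ) (j : Ix) : Prop := LP0 p g (jm j) (jX j) (jY j) (jW j) (jr C j) k
def OutJ (C p g k : ℝ) (j : Ix) : Prop := Out p g (jm j) (jX j) (jY j) (jr C j) k
def InnJ (C p g k : ℝ) (j : Ix) : Prop := Inn p g (jm j) (jX j) (jY j) (jW j) (jr C j) k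
/-- `log N` for the source level `M = exp m` -/
def nu (e P γ m : ℝ) : ℝ := Real.log (1 + lev e P γ / lev e P (Real.exp m))

/-- Dy-a -/
theorem exp_lx (j : ℕ) : Real.exp (lx j) = 2 ^ j := by
  unfold lx
  rw [Real.exp_nat_mul, Real.exp_log two_pos]
/-- Dy-a: every `x ∈ (0, 2]` lies in a dyadic interval (`exists_nat_pow_near_of_lt_one` or `Nat.find`) -/
theorem exists_dy {x : ℝ} (h0 : 0 < x) (h2 : x ≤ 2) : ∃ j : ℕ, x ∈ Icc (Real.exp (-lx j)) (2 * Real.exp (-lx j)) := by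
  rcases lt_or_ge x 1 with h1 | h1
  · obtain ⟨n, hn, hn'⟩ := exists_nat_pow_near_of_lt_one h0 h1.le (y := (1 / 2 : ℝ)) (by norm_num) (by norm_num)
    refine ⟨n + 1, ?_⟩
    rw [Real.exp_neg, exp_lx]
    rw [one_div, inv_pow] at hn hn'
    refine ⟨hn.le, hn'.trans (le_of_eq ?_)⟩
    rw [pow_succ]; field_simp
  · exact ⟨0, by simpa [lx] using ⟨h1, h2⟩⟩
/-- Dy-a (`exists_nat_pow_near`) -/
theorem exists_dy' {x : ℝ} (h1 : 1 ≤ x) : ∃ j : ℕ, x ∈ Icc (Real.exp (lx j)) (2 * Real.exp (lx j)) := by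
  obtain ⟨n, hn, hn'⟩ := exists_nat_pow_near h1 (y := (2 : ℝ)) (by norm_num)
  refine ⟨n, ?_⟩
  rw [exp_lx]
  exact ⟨hn, by rw [pow_succ] at hn'; linarith⟩
theorem dya_en_le (V V' : R3) : en V ≤ en V' + ‖V - V'‖ := by
  have h1 : ‖V‖ ≤ ‖V'‖ + ‖V - V'‖ := by
    have := norm_add_le V' (V - V')
    rwa [add_sub_cancel] at this
  have h2 := norm_le_en V'
  have h3 := en_sq V'
  have h4 := en_pos V'
  have h5 := norm_nonneg (V - V')
  refine abs_le_of_sq_le_sq' ?_ (by positivity) |>.2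
  rw [en_sq V]
  nlinarith [mul_self_le_mul_self (norm_nonneg V) h1, mul_le_mul_of_nonneg_right h2 h5]

/-- Dy-a: `en` is `1`-Lipschitz -/
theorem abs_en_sub_le (V V' : R3) : |en V - en V'| ≤ ‖V - V'‖ := by
  have h1 := dya_en_le V V'
  have h2 := dya_en_le V' V
  rw [norm_sub_rev] at h2
  exact abs_le.2 ⟨by linarith, by linarith⟩
theorem dya_cc (V W : R3) : ‖relVel V - relVel W‖ ^ 2 = 2 * cc V W - (en V ^ 2)⁻¹ - (en W ^ 2)⁻¹ := by
  rw [norm_sub_sq_real, norm_relVel_sq, norm_relVel_sq]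
  unfold cc ang; ring
theorem dya_tri (x y w : R3) : ‖x - y‖ ^ 2 ≤ 2 * ‖x - w‖ ^ 2 + 2 * ‖w - y‖ ^ 2 := by
  have h := norm_sub_le_norm_sub_add_norm_sub x w y
  nlinarith [mul_self_le_mul_self (norm_nonneg _) h, sq_nonneg (‖x - w‖ - ‖w - y‖)]

/-- Dy-a: with `ang p v = ‖p - v̂‖ ^ 2 / 2 + (1 - ‖p‖ ^ 2) / 2 + (1 - ‖v̂‖ ^ 2) / 2`: the three triangle inequalities -/
theorem tri {z : R3} (hz : z ≠ 0) (V W : R3) :
    dd z V ≤ 2 * (dd z W + cc V W) ∧ dd z W ≤ 2 * (dd z V + cc V W) ∧ cc V W ≤ 2 * (dd z V + dd z W) := by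
  have hV : 0 < (en V ^ 2)⁻¹ := by have := en_pos V; positivity
  have hW : 0 < (en W ^ 2)⁻¹ := by have := en_pos W; positivity
  have h1 := dya_tri (dir z) (relVel V) (relVel W)
  have h2 := dya_tri (dir z) (relVel W) (relVel V)
  have h3 := dya_tri (relVel V) (relVel W) (dir z)
  rw [norm_sub_rev (relVel W) (relVel V)] at h1
  rw [norm_sub_rev (relVel V) (dir z)] at h3
  simp only [dya_cc, norm_dir_sub_sq hz] at h1 h2 h3
  exact ⟨by linarith, by linarith, by linarith⟩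
/-- Dy-a -/
theorem cc_bd (V W : R3) : (en V ^ 2)⁻¹ ≤ 2 * cc V W ∧ (en W ^ 2)⁻¹ ≤ 2 * cc V W ∧ 0 < cc V W ∧ cc V W ≤ 2 := by
  have hV : 0 < (en V ^ 2)⁻¹ := by have := en_pos V; positivity
  have hW : 0 < (en W ^ 2)⁻¹ := by have := en_pos W; positivity
  have h1 := dya_cc V W
  have h2 := sq_nonneg ‖relVel V - relVel W‖
  refine ⟨by linarith, by linarith, by linarith, ?_⟩
  have h3 := abs_real_inner_le_norm (relVel V) (relVel W)
  have h4 := mul_le_mul (norm_relVel_lt_one V).le (norm_relVel_lt_one W).le (norm_nonneg _) zero_le_one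
  have h5 := neg_abs_le ⟪relVel V, relVel W⟫
  unfold cc ang
  linarith

theorem dyb_log {x t : ℝ} (h : x ∈ Icc (Real.exp t) (2 * Real.exp t)) :
    0 < x ∧ t ≤ Real.log x ∧ Real.log x ≤ t + 7 / 10 := by
  have h0 : 0 < x := lt_of_lt_of_le (Real.exp_pos t) h.1
  refine ⟨h0, (Real.le_log_iff_exp_le h0).2 h.1, ?_⟩
  have h1 := Real.log_le_log h0 h.2
  rw [Real.log_mul (by norm_num) (Real.exp_pos t).ne', Real.log_exp] at h1
  linarith [Real.log_two_lt_d9]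

theorem dyb_mul {x y : ℝ} (hx : 0 < x) (h : x ≤ 4 * y) : Real.log x ≤ Real.log y + 2 := by
  have hy : 0 < y := by linarith
  have h1 := Real.log_le_log hx h
  rw [Real.log_mul (by norm_num) hy.ne'] at h1
  have h2 : Real.log 4 ≤ 2 := by
    have : Real.log 4 = 2 * Real.log 2 := by
      rw [show (4 : ℝ) = 2 ^ 2 by norm_num, Real.log_pow]; norm_num
    linarith [Real.log_two_lt_d9]
  linarith

theorem dyb_inv {V : R3} {y : ℝ} (h : (en V ^ 2)⁻¹ ≤ 2 * y) : -(2 * Real.log (en V)) ≤ Real.log y + 2 := by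
  have h0 : 0 < (en V ^ 2)⁻¹ := by have := en_pos V; positivity
  have h1 := dyb_mul h0 (y := y) (by linarith)
  rw [Real.log_inv, Real.log_pow] at h1
  exact_mod_cast h1

theorem dyb_tri {a b c : ℝ} (ha : 0 < a) (h : a ≤ 2 * (b + c)) :
    Real.log a ≤ Real.log b + 2 ∨ Real.log a ≤ Real.log c + 2 := by
  rcases le_total b c with h1 | h1
  · exact Or.inr (dyb_mul ha (by linarith))
  · exact Or.inl (dyb_mul ha (by linarith))

theorem dyb_400 : 0 ≤ Real.log 400 ∧ Real.log 400 ≤ 9 := by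
  refine ⟨Real.log_nonneg (by norm_num), ?_⟩
  have h1 : Real.log 400 ≤ Real.log (2 ^ 9) := Real.log_le_log (by norm_num) (by norm_num)
  rw [Real.log_pow] at h1
  have := Real.log_two_lt_d9
  push_cast at h1
  linarith

/-- the pointwise content of `ω ∈ box` -/
structure InBox (γ X Y Wc r m : ℝ) (z V W : R3) : Prop where
  a : dd z V ∈ Icc (Real.exp (-X)) (2 * Real.exp (-X))
  b : dd z W ∈ Icc (Real.exp (-Y)) (2 * Real.exp (-Y))
  c : cc V W ∈ Icc (Real.exp (-Wc)) (2 * Real.exp (-Wc))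
  R : ‖z‖ ∈ Icc (Real.exp (-r)) (2 * Real.exp (-r))
  M : en W ∈ Icc (Real.exp m) (2 * Real.exp m)
  g : en V ∈ Icc (γ / 2) (2 * γ)
  g0 : 0 < γ

theorem dyc_up {a X : ℝ} (h : a ≤ 2 * Real.exp (-X)) : √a ≤ 2 * Real.exp (-X / 2) := by
  have e : Real.exp (-X) = Real.exp (-X / 2) * Real.exp (-X / 2) := by
    rw [← Real.exp_add]; congr 1; ring
  have hp := Real.exp_pos (-X / 2)
  rw [Real.sqrt_le_iff]
  refine ⟨by positivity, ?_⟩
  nlinarith [mul_pos hp hp]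

theorem dyc_lo {a X : ℝ} (h : Real.exp (-X) ≤ a) : Real.exp (-X / 2) ≤ √a := by
  have e : Real.exp (-X) = Real.exp (-X / 2) * Real.exp (-X / 2) := by
    rw [← Real.exp_add]; congr 1; ring
  apply Real.le_sqrt_of_sq_le
  nlinarith

theorem dyc_mul {a b A B : ℝ} (ha : Real.exp A ≤ a) (hb : Real.exp B ≤ b) : Real.exp (A + B) ≤ a * b := by
  rw [Real.exp_add]
  exact mul_le_mul ha hb (Real.exp_pos _).le ((Real.exp_pos _).le.trans ha)

theorem dyc_sq {a A : ℝ} (ha : Real.exp A ≤ a) : Real.exp (A + A) ≤ a ^ 2 := by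
  rw [sq]; exact dyc_mul ha ha

theorem dyc_div {n d N D T u : ℝ} (hu : 0 ≤ u) (hn : n ≤ 25 * Real.exp N * u) (hd : Real.exp D ≤ 4 * d) (hT : T = N - D) :
    n / d ≤ 100 * Real.exp T * u := by
  have hD := Real.exp_pos D
  have hd0 : 0 < d := by linarith
  rw [div_le_iff₀ hd0]
  have e : Real.exp N = Real.exp T * Real.exp D := by
    rw [← Real.exp_add, hT]; congr 1; ring
  have hTp := Real.exp_pos T
  have h1 : Real.exp T * u * Real.exp D ≤ Real.exp T * u * (4 * d) :=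
    mul_le_mul_of_nonneg_left hd (by positivity)
  rw [e] at hn
  nlinarith

theorem dyc_four {d D : ℝ} (hd : Real.exp D ≤ d) : Real.exp D ≤ 4 * d := by
  have hD := Real.exp_pos D
  linarith

namespace InBox
variable {γ X Y Wc r m k P : ℝ} {z V W : R3} (h : InBox γ X Y Wc r m z V W)
include h

/-- Dy-b: `inv_en_sq_le`, `cc_bd`, `tri`; take logarithms (`log 2 ≤ 1`) -/
theorem geo (hk : 20 ≤ k) : X ≤ 2 * Real.log γ + k ∧ Y ≤ 2 * m + k ∧ Wc ≤ 2 * Real.log γ + k ∧ Wc ≤ 2 * m + k ∧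
    (Y ≤ X + k ∨ Wc ≤ X + k) ∧ (X ≤ Y + k ∨ Wc ≤ Y + k) ∧ (X ≤ Wc + k ∨ Y ≤ Wc + k) := by
  obtain ⟨a0, a1, a2⟩ := dyb_log h.a
  obtain ⟨b0, b1, b2⟩ := dyb_log h.b
  obtain ⟨c0, c1, c2⟩ := dyb_log h.c
  obtain ⟨R0, R1, R2⟩ := dyb_log h.R
  obtain ⟨M0, M1, M2⟩ := dyb_log h.M
  have hz : z ≠ 0 := norm_pos_iff.1 R0
  have hg : Real.log (en V) ≤ Real.log γ + 2 := dyb_mul (en_pos V) (by linarith [h.g.2, h.g0])
  obtain ⟨t1, t2, t3⟩ := tri hz V W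
  obtain ⟨d1, d2, -, -⟩ := cc_bd V W
  have e1 := dyb_inv (inv_en_sq_le hz V)
  have e2 := dyb_inv (inv_en_sq_le hz W)
  have e3 := dyb_inv d1
  have e4 := dyb_inv d2
  refine ⟨by linarith, by linarith, by linarith, by linarith, ?_, ?_, ?_⟩
  · rcases dyb_tri a0 t1 with u | u
    · left; linarith
    · right; linarith
  · rcases dyb_tri b0 t2 with u | u
    · left; linarith
    · right; linarith
  · rcases dyb_tri c0 t3 with u | u
    · left; linarith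
    · right; linarith
/-- Dy-b: `chi_ne_one` (`log 400 ≤ 6`) -/
theorem out (hk : 20 ≤ k) (hc : chi P γ z V W ≠ 1) : Out (Real.log P) (Real.log γ) m X Y r k := by
  obtain ⟨a0, a1, a2⟩ := dyb_log h.a
  obtain ⟨b0, b1, b2⟩ := dyb_log h.b
  obtain ⟨c0, c1, c2⟩ := dyb_log h.c
  obtain ⟨R0, R1, R2⟩ := dyb_log h.R
  obtain ⟨M0, M1, M2⟩ := dyb_log h.M
  have hz : z ≠ 0 := norm_pos_iff.1 R0
  obtain ⟨l0, l1⟩ := dyb_400
  unfold Out
  rcases chi_ne_one hc with u | u | u | u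
  · exact absurd u hz
  · left; unfold u1 at u; linarith
  · right; left; unfold u2 at u; linarith
  · right; right; unfold u3 at u; linarith
/-- Dy-b: `chi_ne_zero`, `le_of_chi_ne_zero` and `tri` (`400 b < a ≤ 2 (b + c)` gives `a ≤ 4 c`) -/
theorem inn (hk : 20 ≤ k) (hc : chi P γ z V W ≠ 0) : Inn (Real.log P) (Real.log γ) m X Y Wc r k := by
  obtain ⟨a0, a1, a2⟩ := dyb_log h.a
  obtain ⟨b0, b1, b2⟩ := dyb_log h.b
  obtain ⟨c0, c1, c2⟩ := dyb_log h.c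
  obtain ⟨R0, R1, R2⟩ := dyb_log h.R
  obtain ⟨M0, M1, M2⟩ := dyb_log h.M
  have hz : z ≠ 0 := norm_pos_iff.1 R0
  obtain ⟨l0, l1⟩ := dyb_400
  obtain ⟨-, u1', u2', u3'⟩ := chi_ne_zero hc
  have h4 := le_of_chi_ne_zero hc
  obtain ⟨t1, -, -⟩ := tri hz V W
  have e := dyb_mul a0 (y := cc V W) (by linarith)
  unfold u2 at u2'
  unfold u3 at u3'
  have e' := dyb_mul b0 (y := dd z V) (by linarith)
  unfold Inn
  refine ⟨by linarith, by linarith, by linarith, ?_⟩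
  linarith
/-- Dy-c -/
theorem kT_le : kT z V W ≤ 100 * Real.exp (tT m X Y r 0) := by
  have h1 := dyc_up h.a.2
  have h2 := dyc_up h.b.2
  have h3 : Real.exp (-X / 2) ≤ Real.exp (-(min X Y) / 2) :=
    Real.exp_le_exp.2 (by have := min_le_left X Y; linarith)
  have h4 : Real.exp (-Y / 2) ≤ Real.exp (-(min X Y) / 2) :=
    Real.exp_le_exp.2 (by have := min_le_right X Y; linarith)
  have h5 := Real.exp_pos (-(min X Y) / 2)
  have hd := dyc_four (dyc_mul (dyc_mul (dyc_mul (dyc_sq h.M.1) h.b.1) (dyc_lo h.b.1)) (dyc_sq h.R.1))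
  have := dyc_div (n := √(dd z V) + √(dd z W)) (N := -(min X Y) / 2) (T := tT m X Y r 0) zero_le_one
    (by linarith) hd (by unfold tT; ring)
  unfold kT
  linarith
/-- Dy-c -/
theorem kSg_le (E B : R3) : kSg z V W E B ≤ 100 * Real.exp (-X / 2 - m + Y + r) * √(gd (dir z) E B) := by
  have h1 := dyc_up h.a.2
  have h5 := Real.exp_pos (-X / 2)
  have hu := Real.sqrt_nonneg (gd (dir z) E B)
  have hd := dyc_four (dyc_mul (dyc_mul h.M.1 h.b.1) h.R.1)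
  exact dyc_div (N := -X / 2) hu (mul_le_mul_of_nonneg_right (by linarith) hu) hd (by ring)
/-- Dy-c -/
theorem kSb_le (E B : R3) : kSb z V W E B ≤ 100 * Real.exp (-X / 2 - m + r) * (‖E‖ + ‖B‖) := by
  have h1 := dyc_up h.a.2
  have h5 := Real.exp_pos (-X / 2)
  have hu : 0 ≤ ‖E‖ + ‖B‖ := by positivity
  have hd := dyc_four (dyc_mul h.M.1 h.R.1)
  exact dyc_div (N := -X / 2) hu (mul_le_mul_of_nonneg_right (by linarith) hu) hd (by ring)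
/-- Dy-c -/
theorem kRev_le : kRev z V ≤ 100 * Real.exp (tR (Real.log γ) X r 0) := by
  have hg : Real.exp (Real.log γ) ≤ 2 * en V := by
    rw [Real.exp_log h.g0]; linarith [h.g.1]
  have hd0 := dyc_mul (dyc_mul (dyc_sq hg) h.a.1) (dyc_sq h.R.1)
  have hd : Real.exp (Real.log γ + Real.log γ + -X + (-r + -r)) ≤ 4 * (en V ^ 2 * dd z V * ‖z‖ ^ 2) := by
    refine hd0.trans (le_of_eq ?_); ring
  have := dyc_div (n := 1) (N := 0) (T := tR (Real.log γ) X r 0) zero_le_one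
    (by rw [Real.exp_zero]; norm_num) hd (by unfold tR; ring)
  unfold kRev
  linarith
/-- Dy-c -/
theorem kGeo_le : kGeo z V W ≤ 100 * Real.exp (tE X Y r 0) := by
  have h1 := dyc_up h.a.2
  have h5 := Real.exp_pos (-X / 2)
  have hd := dyc_four (dyc_mul (dyc_lo h.b.1) (dyc_sq h.R.1))
  have := dyc_div (n := √(dd z V)) (N := -X / 2) (T := tE X Y r 0) zero_le_one
    (by linarith) hd (by unfold tE; ring)
  unfold kGeo
  linarith
/-- Dy-c -/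
theorem kH_le : kH z V W ≤ 100 * Real.exp (-Y / 2 + X + r) := by
  have h1 := dyc_up h.b.2
  have h5 := Real.exp_pos (-Y / 2)
  have hd := dyc_four (dyc_mul h.a.1 h.R.1)
  have := dyc_div (n := √(dd z W)) (N := -Y / 2) (T := -Y / 2 + X + r) zero_le_one
    (by linarith) hd (by ring)
  unfold kH
  linarith
end InBox

namespace Sys
variable {Ω : Type} [MeasurableSpace Ω] {C : ℝ} (S : Sys Ω C)

/-- the dyadic box -/
def bx (o : Ω) (j : Ix) (s : ℝ) : Set Ω :=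
  S.box o (Real.exp (-jX j)) (Real.exp (-jY j)) (Real.exp (-jW j)) (Real.exp (-jr C j)) (Real.exp (jm j)) s
def bI (o : Ω) (j : Ix) (s₀ s₁ : ℝ) : ℝ≥0∞ := ∫⁻ s in Icc s₀ s₁, ∫⁻ ω in S.bx o j s, ENNReal.ofReal (S.b o s ω)⁻¹ ∂S.μ
def bG (o : Ω) (j : Ix) (s₀ s₁ : ℝ) : ℝ≥0∞ := ∫⁻ s in Icc s₀ s₁, ∫⁻ ω in S.bx o j s,
  ENNReal.ofReal √(gd (dir (S.z o s ω)) (S.Es o s ω) (S.Bs o s ω)) * ENNReal.ofReal (S.b o s ω)⁻¹ ∂S.μ
def bB (o : Ω) (j : Ix) (s₀ s₁ : ℝ) : ℝ≥0∞ := ∫⁻ s in Icc s₀ s₁, ∫⁻ ω in S.bx o j s,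
  ENNReal.ofReal (‖S.Es o s ω‖ + ‖S.Bs o s ω‖) * ENNReal.ofReal (S.b o s ω)⁻¹ ∂S.μ

/-- Dy-d: `exists_dy` for `a, b, c` and `‖z‖ / C` (`‖z‖ = s - rt ≤ T ≤ C`), `exists_dy'` for `en w` -/
theorem exists_bx (o : Ω) {s : ℝ} (hs : s ∈ Icc 0 S.T) {ω : Ω} (hω : ω ∈ S.act o s) (hz : S.z o s ω ≠ 0) : ∃ j, ω ∈ S.bx o j s := by
  have hC : 0 < C := zero_lt_one.trans_le S.one_le
  obtain ⟨j1, h1⟩ := exists_dy (S.a_bounds o s ω).2.1 (S.a_bounds o s ω).2.2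
  obtain ⟨j2, h2⟩ := exists_dy (S.b_bounds o s ω).2.1 (S.b_bounds o s ω).2.2
  obtain ⟨j3, h3⟩ := exists_dy (S.c_bounds o s ω).2.1 (S.c_bounds o s ω).2.2
  have hzp : 0 < ‖S.z o s ω‖ := norm_pos_iff.2 hz
  have hzC : ‖S.z o s ω‖ ≤ C := by
    have := S.norm_z o ω hs.2
    have h0 : 0 ≤ S.rt o s ω := hω
    linarith [hs.2, S.T_le]
  obtain ⟨j4, h4⟩ := exists_dy (x := ‖S.z o s ω‖ / C) (by positivity)
    (by rw [div_le_iff₀ hC]; linarith)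
  obtain ⟨j5, h5⟩ := exists_dy' (one_le_en (S.w o s ω))
  have e : Real.exp (-(lx j4 - Real.log C)) = Real.exp (-lx j4) * C := by
    rw [neg_sub, sub_eq_add_neg, Real.exp_add, Real.exp_log hC, mul_comm]
  refine ⟨(j1, j2, j3, j4, j5), hω, h1, h2, h3, ?_, h5⟩
  show ‖S.z o s ω‖ ∈ Icc (Real.exp (-(lx j4 - Real.log C))) (2 * Real.exp (-(lx j4 - Real.log C)))
  rw [e]
  exact ⟨(le_div_iff₀ hC).1 h4.1, by have := (div_le_iff₀ hC).1 h4.2; linarith⟩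

/-- Dy-d: `act ⊆ {z = 0} ∪ ⋃ j, bx j`, `lintegral_iUnion_le` -/
theorem cover_s (o : Ω) {s : ℝ} (hs : s ∈ Icc 0 S.T) {k : Ω → ℝ} (hk0 : ∀ ω, S.z o s ω = 0 → k ω = 0) :
    S.J o s k ≤ ∑' j : Ix, ∫⁻ ω in S.bx o j s, ENNReal.ofReal (k ω * (S.b o s ω)⁻¹) ∂S.μ := by
  have hsub : S.act o s ⊆ {ω | S.z o s ω = 0} ∪ ⋃ j : Ix, S.bx o j s := by
    intro ω hω
    by_cases hz : S.z o s ω = 0
    · exact Or.inl hz
    · exact Or.inr (mem_iUnion.2 (S.exists_bx o hs hω hz))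
  have hm : MeasurableSet {ω | S.z o s ω = 0} :=
    measurableSet_eq_fun ((S.meas_z o).comp (f := fun ω : Ω => (s, ω)) measurable_prodMk_left) measurable_const
  have h0 : ∫⁻ ω in {ω | S.z o s ω = 0}, ENNReal.ofReal (k ω * (S.b o s ω)⁻¹) ∂S.μ = 0 := by
    refine le_antisymm ((setLIntegral_mono' (g := fun _ => 0) hm fun ω hω => ?_).trans (by simp)) zero_le
    rw [hk0 ω hω, zero_mul, ENNReal.ofReal_zero]
  refine (lintegral_mono_set hsub).trans ((lintegral_union_le _ _ _).trans ?_)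
  rw [h0, zero_add]
  exact lintegral_iUnion_le _ _

/-- Dy-d: `cover_s`, the pointwise majorant (`setLIntegral_mono'`, `meas_box`), `lintegral_tsum` (`meas_lbox`), `lintegral_add_left` -/
theorem cover (o : Ω) {s₀ s₁ : ℝ} (h0 : 0 ≤ s₀) (h1 : s₁ ≤ S.T) {k : ℝ → Ω → ℝ} (hk0 : ∀ s ω, S.z o s ω = 0 → k s ω = 0)
    {c₁ c₂ c₃ : Ix → ℝ} (h₁ : ∀ j, 0 ≤ c₁ j) (h₂ : ∀ j, 0 ≤ c₂ j) (h₃ : ∀ j, 0 ≤ c₃ j)
    (hk : ∀ j, ∀ s ∈ Icc s₀ s₁, ∀ ω ∈ S.bx o j s, k s ω ≤ c₁ j + c₂ j * √(gd (dir (S.z o s ω)) (S.Es o s ω) (S.Bs o s ω)) +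
      c₃ j * (‖S.Es o s ω‖ + ‖S.Bs o s ω‖)) :
    ∫⁻ s in Icc s₀ s₁, S.J o s (k s) ≤ ∑' j : Ix, (ENNReal.ofReal (c₁ j) * S.bI o j s₀ s₁ + ENNReal.ofReal (c₂ j) * S.bG o j s₀ s₁ +
      ENNReal.ofReal (c₃ j) * S.bB o j s₀ s₁) := by
  have mb : Measurable fun p : ℝ × Ω => ENNReal.ofReal (S.b o p.1 p.2)⁻¹ := (S.meas_b o).inv.ennreal_ofReal
  have mg : Measurable fun p : ℝ × Ω =>
      ENNReal.ofReal √(gd (dir (S.z o p.1 p.2)) (S.Es o p.1 p.2) (S.Bs o p.1 p.2)) * ENNReal.ofReal (S.b o p.1 p.2)⁻¹ :=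
    (meas_gd.comp (f := fun p : ℝ × Ω => (dir (S.z o p.1 p.2), S.Es o p.1 p.2, S.Bs o p.1 p.2))
      ((meas_dir.comp (S.meas_z o)).prodMk ((S.meas_Es o).prodMk (S.meas_Bs o)))).sqrt.ennreal_ofReal.mul mb
  have mB : Measurable fun p : ℝ × Ω =>
      ENNReal.ofReal (‖S.Es o p.1 p.2‖ + ‖S.Bs o p.1 p.2‖) * ENNReal.ofReal (S.b o p.1 p.2)⁻¹ :=
    ((S.meas_Es o).norm.add (S.meas_Bs o).norm).ennreal_ofReal.mul mb
  obtain ⟨I1, hI1⟩ : ∃ I1 : Ix → ℝ → ℝ≥0∞, I1 = fun j s => ∫⁻ ω in S.bx o j s, ENNReal.ofReal (S.b o s ω)⁻¹ ∂S.μ :=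
    ⟨_, rfl⟩
  obtain ⟨I2, hI2⟩ : ∃ I2 : Ix → ℝ → ℝ≥0∞, I2 = fun j s => ∫⁻ ω in S.bx o j s,
      ENNReal.ofReal √(gd (dir (S.z o s ω)) (S.Es o s ω) (S.Bs o s ω)) * ENNReal.ofReal (S.b o s ω)⁻¹ ∂S.μ := ⟨_, rfl⟩
  obtain ⟨I3, hI3⟩ : ∃ I3 : Ix → ℝ → ℝ≥0∞, I3 = fun j s => ∫⁻ ω in S.bx o j s,
      ENNReal.ofReal (‖S.Es o s ω‖ + ‖S.Bs o s ω‖) * ENNReal.ofReal (S.b o s ω)⁻¹ ∂S.μ := ⟨_, rfl⟩
  have m1 : ∀ j, Measurable (I1 j) := fun j => hI1 ▸ S.meas_lbox o _ _ _ _ _ mb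
  have m2 : ∀ j, Measurable (I2 j) := fun j => hI2 ▸ S.meas_lbox o _ _ _ _ _ mg
  have m3 : ∀ j, Measurable (I3 j) := fun j => hI3 ▸ S.meas_lbox o _ _ _ _ _ mB
  have hpt : ∀ s ∈ Icc s₀ s₁, S.J o s (k s) ≤ ∑' j : Ix, (ENNReal.ofReal (c₁ j) * I1 j s + ENNReal.ofReal (c₂ j) * I2 j s +
      ENNReal.ofReal (c₃ j) * I3 j s) := by
    intro s hs
    refine (S.cover_s o ⟨h0.trans hs.1, hs.2.trans h1⟩ (hk0 s)).trans (ENNReal.tsum_le_tsum fun j => ?_)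
    have n1 : Measurable fun ω => ENNReal.ofReal (S.b o s ω)⁻¹ := mb.comp (f := fun ω : Ω => (s, ω)) measurable_prodMk_left
    have n2 : Measurable fun ω =>
        ENNReal.ofReal √(gd (dir (S.z o s ω)) (S.Es o s ω) (S.Bs o s ω)) * ENNReal.ofReal (S.b o s ω)⁻¹ :=
      mg.comp (f := fun ω : Ω => (s, ω)) measurable_prodMk_left
    have n3 : Measurable fun ω => ENNReal.ofReal (‖S.Es o s ω‖ + ‖S.Bs o s ω‖) * ENNReal.ofReal (S.b o s ω)⁻¹ :=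
      mB.comp (f := fun ω : Ω => (s, ω)) measurable_prodMk_left
    rw [hI1, hI2, hI3]
    simp only []
    rw [← lintegral_const_mul _ n1, ← lintegral_const_mul _ n2, ← lintegral_const_mul _ n3,
      ← lintegral_add_left (n1.const_mul _), ← lintegral_add_left ((n1.const_mul _).fun_add (n2.const_mul _))]
    refine setLIntegral_mono' (S.meas_box o _ _ _ _ _ s) fun ω hω => ?_
    have hb : 0 ≤ (S.b o s ω)⁻¹ := inv_nonneg.2 (S.b_bounds o s ω).2.1.le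
    have hg0 := Real.sqrt_nonneg (gd (dir (S.z o s ω)) (S.Es o s ω) (S.Bs o s ω))
    have hB0 : 0 ≤ ‖S.Es o s ω‖ + ‖S.Bs o s ω‖ := by positivity
    have a1 := h₁ j
    have a2 := h₂ j
    have a3 := h₃ j
    rw [← ENNReal.ofReal_mul hg0, ← ENNReal.ofReal_mul hB0, ← ENNReal.ofReal_mul a1, ← ENNReal.ofReal_mul a2,
      ← ENNReal.ofReal_mul a3, ← ENNReal.ofReal_add (by positivity) (by positivity),
      ← ENNReal.ofReal_add (by positivity) (by positivity)]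
    refine ENNReal.ofReal_le_ofReal ((mul_le_mul_of_nonneg_right (hk j s hs ω hω) hb).trans (le_of_eq ?_))
    ring
  refine (setLIntegral_mono' measurableSet_Icc hpt).trans (le_of_eq ?_)
  rw [lintegral_tsum fun j =>
    ((((m1 j).const_mul _).fun_add ((m2 j).const_mul _)).fun_add ((m3 j).const_mul _)).aemeasurable]
  refine tsum_congr fun j => ?_
  rw [lintegral_add_left (((m1 j).const_mul _).fun_add ((m2 j).const_mul _)), lintegral_add_left ((m1 j).const_mul _),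
    lintegral_const_mul _ (m1 j), lintegral_const_mul _ (m2 j), lintegral_const_mul _ (m3 j), hI1, hI2, hI3]
  rfl

end Sys

theorem dye_small {γ : ℝ} (h : 64 ≤ γ) : 2 * γ ^ (47 / 100 : ℝ) ≤ γ / 4 := by
  have h1 : γ ^ (47 / 100 : ℝ) ≤ γ ^ (1 / 2 : ℝ) := Real.rpow_le_rpow_of_exponent_le (by linarith) (by norm_num)
  rw [← Real.sqrt_eq_rpow] at h1
  have h2 : (8 : ℝ) ≤ √γ := Real.le_sqrt_of_sq_le (by linarith)
  have h3 : √γ * √γ = γ := Real.mul_self_sqrt (by linarith)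
  nlinarith

theorem dye_big {P : ℝ} (h : 4096 ≤ P) : 64 ≤ P ^ (56 / 100 : ℝ) := by
  have h1 : P ^ (1 / 2 : ℝ) ≤ P ^ (56 / 100 : ℝ) := Real.rpow_le_rpow_of_exponent_le (by linarith) (by norm_num)
  rw [← Real.sqrt_eq_rpow] at h1
  have h2 : (64 : ℝ) ≤ √P := Real.le_sqrt_of_sq_le (by linarith)
  linarith

/-- Dy-e: the test energy stays at the level `γ` (`Tst.hyp` on `[s₀, s₁]`, `abs_en_sub_le`, `2 γ ^ 0.47 ≤ γ / 4` for `γ ≥ P₀ ^ 0.56`) -/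
theorem tst_en : ∃ P₀ : ℝ, 3 ≤ P₀ ∧ ∀ P, P₀ ≤ P → ∀ (C e : ℝ) (Ω : Type) [MeasurableSpace Ω] (S : Sys Ω C) (t : ℝ) (o : Ω) (s₀ s₁ : ℝ),
    S.Tst e P t o s₀ s₁ → ∀ s ∈ Icc s₀ s₁, en (S.W s o) ∈ Icc (en (S.W s₀ o) / 2) (2 * en (S.W s₀ o)) := by
  refine ⟨4096, by norm_num, fun P hP C e Ω _ S t o s₀ s₁ h s hs => ?_⟩
  obtain ⟨v, hv, hv1, hv2⟩ := h.hyp o s₀ s₁ h.h0 h.h01 h.h1 h.low h.len
  have h1 := hv2 s₀ s le_rfl hs.1 hs.2
  have h2 := hv hs.2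
  have h3 := (dye_big hP).trans h.low
  have h4 := dye_small h3
  have h5 := abs_le.1 ((abs_en_sub_le (S.W s o) (S.W s₀ o)).trans h1)
  constructor <;> linarith [h5.1, h5.2]

theorem dye_lx (j : ℕ) : 0 ≤ lx j := mul_nonneg (Nat.cast_nonneg j) (Real.log_nonneg one_le_two)

/-- Dy-e: a point of a box gives `InBox` and `L0` (`InBox.geo`, `Tst.low`, `Tst.bd` at the times `s₀` and `rt ≤ s`) -/
theorem bx_in {C e P t s₀ s₁ s k : ℝ} {Ω : Type} [MeasurableSpace Ω] {S : Sys Ω C} {o ω : Ω} {j : Ix} (h : S.Tst e P t o s₀ s₁)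
    (hP : 1 ≤ P) (hs : s ∈ Icc s₀ s₁) (hen : en (S.W s o) ∈ Icc (en (S.W s₀ o) / 2) (2 * en (S.W s₀ o))) (hω : ω ∈ S.bx o j s)
    (hk : 20 + Real.log C ≤ k) :
    InBox (en (S.W s₀ o)) (jX j) (jY j) (jW j) (jr C j) (jm j) (S.z o s ω) (S.W s o) (S.w o s ω) ∧
      L0 C (Real.log P) (Real.log (en (S.W s₀ o))) k j := by
  obtain ⟨-, ha, hb, hc, hR, hM⟩ := hω
  have hI : InBox (en (S.W s₀ o)) (jX j) (jY j) (jW j) (jr C j) (jm j) (S.z o s ω) (S.W s o) (S.w o s ω) :=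
    ⟨ha, hb, hc, hR, hM, hen, en_pos _⟩
  have hC : 0 ≤ Real.log C := Real.log_nonneg S.one_le
  have hk' : 20 ≤ k := by linarith
  obtain ⟨g1, g2, g3, g4, g5, g6, g7⟩ := hI.geo hk'
  have hsT : s ≤ S.T := hs.2.trans (h.h1.trans h.tT)
  have hs0 : s₀ ≤ S.T := hs.1.trans hsT
  have hP0 : 0 < P := by linarith
  have hlow : 56 / 100 * Real.log P ≤ Real.log (en (S.W s₀ o)) := by
    rw [← Real.log_rpow hP0]
    exact Real.log_le_log (Real.rpow_pos_of_pos hP0 _) h.low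
  have hm1 : jm j ≤ Real.log P := by
    rw [Real.le_log_iff_exp_le hP0]
    exact hM.1.trans (h.bd _ ω ((S.rt_le o ω hsT).trans hsT))
  have e1 := dye_lx j.1
  have e2 := dye_lx j.2.1
  have e3 := dye_lx j.2.2.1
  have e4 := dye_lx j.2.2.2.1
  refine ⟨hI, ⟨by linarith, Real.log_nonneg hP, hlow, Real.log_le_log (en_pos _) (h.bd _ o hs0), dye_lx _, hm1,
    ?_, ?_, ?_, ?_, g1, g2, g3, g4, g5, g6, g7⟩⟩
  · unfold jX; linarith
  · unfold jY; linarith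
  · unfold jW; linarith
  · unfold jr; linarith

end Crest.Agent.R106.A
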