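import Crest.Agent.R106.A.Box

/-! # R106/A/HkVol (helper63): dyadic cover of the cone and the volume bound of `J hk` (third part of `S_SUM`). -/

set_option autoImplicit false

open MeasureTheory Set Crest.AnalysisR.VecCalc3 Crest.AnalysisR.PDE.RVM
open scoped ENNReal RealInnerProductSpace

noncomputable section
namespace Crest.Agent.R106.A

/-- every number in `[lo, lo 2^N]` lies in one of `N + 1` dyadic intervals -/
theorem hv_dyad {lo : ℝ} (hlo : 0 < lo) (N : ℕ) {x : ℝ} (h1 : lo ≤ x) (h2 : x ≤ lo * 2 ^ N) :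
    ∃ j : Fin (N + 1), x ∈ Icc (lo * 2 ^ (j : ℕ)) (2 * (lo * 2 ^ (j : ℕ))) := by
  induction N with
  | zero => exact ⟨0, by simpa using h1, by simp at h2 ⊢; linarith⟩
  | succ N ih =>
    by_cases h : x ≤ lo * 2 ^ N
    · obtain ⟨j, hj⟩ := ih h
      exact ⟨j.castSucc, by simpa using hj⟩
    · refine ⟨(Fin.last N).castSucc, ?_, ?_⟩
      · simpa using (not_le.1 h).le
      · simp only [Fin.val_castSucc, Fin.val_last]
        rw [pow_succ] at h2; linarith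

namespace Sys
variable {Ω : Type} [MeasurableSpace Ω] {C : ℝ} (S : Sys Ω C)

/-- the dyadic box number `j` -/
def dbox (o : Ω) (lo : ℝ) {N : ℕ} (j : Fin 5 → Fin (N + 1)) (s : ℝ) : Set Ω :=
  S.box o (lo * 2 ^ (j 0 : ℕ)) (lo * 2 ^ (j 1 : ℕ)) (lo * 2 ^ (j 2 : ℕ)) (lo * 2 ^ (j 3 : ℕ)) (lo * 2 ^ (j 4 : ℕ)) s

/-- cover of the support of a kernel by dyadic boxes -/
theorem hv_cover_sum (o : Ω) (s : ℝ) {lo : ℝ} (hlo : 0 < lo) (N : ℕ) (k : Ω → ℝ)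
    (hin : ∀ ω ∈ S.act o s, 0 < k ω → S.a o s ω ∈ Icc lo (lo * 2 ^ N) ∧ S.b o s ω ∈ Icc lo (lo * 2 ^ N) ∧
      S.c o s ω ∈ Icc lo (lo * 2 ^ N) ∧ ‖S.z o s ω‖ ∈ Icc lo (lo * 2 ^ N) ∧ en (S.w o s ω) ∈ Icc lo (lo * 2 ^ N)) :
    S.J o s k ≤ ∑ j : Fin 5 → Fin (N + 1),
      ∫⁻ ω in S.dbox o lo j s, ENNReal.ofReal (k ω * (S.b o s ω)⁻¹) ∂S.μ := by
  have hU : MeasurableSet (⋃ j : Fin 5 → Fin (N + 1), S.dbox o lo j s) :=
    MeasurableSet.iUnion fun j => S.meas_box o _ _ _ _ _ s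
  rw [← tsum_fintype (L := SummationFilter.unconditional _)]
  refine le_trans ?_ (lintegral_iUnion_le _ _)
  unfold J
  rw [← lintegral_indicator (S.meas_act o s), ← lintegral_indicator hU]
  refine lintegral_mono fun ω => ?_
  by_cases hω : ω ∈ S.act o s
  · rw [indicator_of_mem hω]
    by_cases hk : 0 < k ω
    · obtain ⟨h0, h1, h2, h3, h4⟩ := hin ω hω hk
      obtain ⟨j0, hj0⟩ := hv_dyad hlo N h0.1 h0.2
      obtain ⟨j1, hj1⟩ := hv_dyad hlo N h1.1 h1.2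
      obtain ⟨j2, hj2⟩ := hv_dyad hlo N h2.1 h2.2
      obtain ⟨j3, hj3⟩ := hv_dyad hlo N h3.1 h3.2
      obtain ⟨j4, hj4⟩ := hv_dyad hlo N h4.1 h4.2
      have hm : ω ∈ S.dbox o lo ![j0, j1, j2, j3, j4] s := ⟨hω, hj0, hj1, hj2, hj3, hj4⟩
      have hm' : ω ∈ ⋃ j : Fin 5 → Fin (N + 1), S.dbox o lo j s := mem_iUnion.2 ⟨_, hm⟩
      rw [indicator_of_mem hm']
    · rw [ENNReal.ofReal_of_nonpos (mul_nonpos_of_nonpos_of_nonneg (not_lt.1 hk) (inv_nonneg.2 (S.b_bounds o s ω).2.1.le))]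
      exact zero_le
  · rw [indicator_of_notMem hω]; exact zero_le

/-- cover of the support of a kernel by dyadic boxes, with a uniform bound per box -/
theorem hv_cover (o : Ω) (s : ℝ) {lo : ℝ} (hlo : 0 < lo) (N : ℕ) (k : Ω → ℝ) (X : ℝ≥0∞)
    (hin : ∀ ω ∈ S.act o s, 0 < k ω → S.a o s ω ∈ Icc lo (lo * 2 ^ N) ∧ S.b o s ω ∈ Icc lo (lo * 2 ^ N) ∧
      S.c o s ω ∈ Icc lo (lo * 2 ^ N) ∧ ‖S.z o s ω‖ ∈ Icc lo (lo * 2 ^ N) ∧ en (S.w o s ω) ∈ Icc lo (lo * 2 ^ N))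
    (hbox : ∀ A Bb Cc R M : ℝ, 0 < A → 0 < Bb → 0 < Cc → 0 < R → 0 < M → ∀ ω₀ ∈ S.box o A Bb Cc R M s, 0 < k ω₀ →
      ∫⁻ ω in S.box o A Bb Cc R M s, ENNReal.ofReal (k ω * (S.b o s ω)⁻¹) ∂S.μ ≤ X) :
    S.J o s k ≤ ((N + 1) ^ 5 : ℕ) * X := by
  refine (S.hv_cover_sum o s hlo N k hin).trans ?_
  have h : ∀ j : Fin 5 → Fin (N + 1), ∫⁻ ω in S.dbox o lo j s, ENNReal.ofReal (k ω * (S.b o s ω)⁻¹) ∂S.μ ≤ X := by
    intro j
    by_cases hex : ∃ ω₀ ∈ S.dbox o lo j s, 0 < k ω₀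
    · obtain ⟨ω₀, h0, h1⟩ := hex
      exact hbox _ _ _ _ _ (by positivity) (by positivity) (by positivity) (by positivity) (by positivity) ω₀ h0 h1
    · push Not at hex
      have hm : MeasurableSet (S.dbox o lo j s) := S.meas_box o _ _ _ _ _ s
      rw [setLIntegral_congr_fun hm (g := fun _ => 0) fun ω hω =>
        ENNReal.ofReal_of_nonpos (mul_nonpos_of_nonpos_of_nonneg (hex ω hω) (inv_nonneg.2 (S.b_bounds o s ω).2.1.le))]
      simp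
  refine (Finset.sum_le_card_nsmul _ _ X fun j _ => h j).trans ?_
  simp [nsmul_eq_mul]

/-- a kernel bounded by `κ` on a box -/
theorem hv_box_le (o : Ω) (s A Bb Cc R M : ℝ) (k : Ω → ℝ) {κ : ℝ} (hκ : 0 ≤ κ)
    (h : ∀ ω ∈ S.box o A Bb Cc R M s, k ω ≤ κ) :
    ∫⁻ ω in S.box o A Bb Cc R M s, ENNReal.ofReal (k ω * (S.b o s ω)⁻¹) ∂S.μ ≤ ENNReal.ofReal κ * S.Is o A Bb Cc R M s := by
  unfold Is
  rw [← lintegral_const_mul' _ _ ENNReal.ofReal_ne_top]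
  refine setLIntegral_mono' (S.meas_box o _ _ _ _ _ s) fun ω hω => ?_
  rw [← ENNReal.ofReal_mul hκ]
  exact ENNReal.ofReal_le_ofReal (mul_le_mul_of_nonneg_right (h ω hω) (inv_nonneg.2 (S.b_bounds o s ω).2.1.le))

/-- the ranges of `a, b, c, M` and the upper range of `R` -/
theorem hv_range {P : ℝ} (hP : 2 ≤ P) (hC : C ≤ P) (hB : S.Bd P) (o : Ω) {s : ℝ} (hs : s ∈ Icc 0 S.T) {ω : Ω} (hω : ω ∈ S.act o s) :
    S.a o s ω ∈ Icc (P ^ 15)⁻¹ P ∧ S.b o s ω ∈ Icc (P ^ 15)⁻¹ P ∧ S.c o s ω ∈ Icc (P ^ 15)⁻¹ P ∧ ‖S.z o s ω‖ ≤ P ∧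
      en (S.w o s ω) ∈ Icc (P ^ 15)⁻¹ P := by
  have hV : en (S.W s o) ≤ P := hB s o hs.2
  have hW : en (S.w o s ω) ≤ P := hB _ ω ((S.rt_le o ω hs.2).trans hs.2)
  have h1P : 1 ≤ P := by linarith
  have key : ∀ v : R3, en v ≤ P → (P ^ 15)⁻¹ ≤ (2 * en v ^ 2)⁻¹ := by
    intro v hv
    have h0 := en_pos v
    refine inv_anti₀ (by positivity) ?_
    calc 2 * en v ^ 2 ≤ P * P ^ 2 := by gcongr
      _ = P ^ 3 := by ring
      _ ≤ P ^ 15 := pow_le_pow_right₀ h1P (by norm_num)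
  have hr : 0 ≤ S.rt o s ω := hω
  refine ⟨⟨(key _ hV).trans (S.a_bounds o s ω).1, (S.a_bounds o s ω).2.2.trans hP⟩,
    ⟨(key _ hW).trans (S.b_bounds o s ω).1, (S.b_bounds o s ω).2.2.trans hP⟩,
    ⟨(key _ hW).trans (S.c_bounds o s ω).1, (S.c_bounds o s ω).2.2.trans hP⟩, ?_, ?_, hW⟩
  · rw [S.norm_z o ω hs.2]; linarith [hs.2, S.T_le]
  · exact (inv_le_one_of_one_le₀ (one_le_pow₀ h1P)).trans (one_le_en _)

end Sys

/-- `u₃ > 0` bounds `R` from below -/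
theorem hv_u3 {P : ℝ} (hP : 1 ≤ P) {z W : R3} (hz : z ≠ 0) (hW : en W ≤ P) (h : 0 < u3 P z W) : (P ^ 15)⁻¹ ≤ ‖z‖ := by
  have hz' : 0 < ‖z‖ := norm_pos_iff.2 hz
  have hP0 : 0 < P := by linarith
  have h1 : Real.log (en W) ≤ Real.log P := Real.log_le_log (en_pos W) hW
  rw [← Real.log_le_log_iff (by positivity) hz', Real.log_inv, Real.log_pow]
  unfold u3 at h
  push_cast
  linarith

/-- `u₂ > 0` in product form -/
theorem hv_u2 {γ : ℝ} (hγ : 0 < γ) {z W : R3} (hz : z ≠ 0) (h : 0 < u2 γ z W) :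
    en W ^ 3 * (dd z W * √(dd z W)) * ‖z‖ ^ 2 ≤ γ ^ (9 / 20 : ℝ) := by
  have hz' : 0 < ‖z‖ := norm_pos_iff.2 hz
  have hb := dd_pos hz W
  have he := en_pos W
  have hs : 0 < √(dd z W) := Real.sqrt_pos.2 hb
  rw [← Real.log_le_log_iff (by positivity) (by positivity), Real.log_rpow hγ, Real.log_mul (by positivity) (by positivity),
    Real.log_mul (by positivity) (by positivity), Real.log_mul hb.ne' hs.ne', Real.log_pow, Real.log_pow, Real.log_sqrt hb.le]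
  unfold u2 at h
  push_cast
  linarith

/-- the number of dyadic scales in `[P⁻¹⁵, P]` is at most `P ^ δ` -/
theorem hv_count (K : ℝ) {δ : ℝ} (hδ : 0 < δ) : ∃ P₀ : ℝ, ∀ P, P₀ ≤ P →
    ∃ N : ℕ, P ≤ (P ^ 15)⁻¹ * 2 ^ N ∧ K * ((N + 1) ^ 5 : ℕ) ≤ P ^ δ := by
  have h1 := (isLittleO_log_rpow_rpow_atTop (5 : ℝ) hδ).bound (c := (|K| * 50 ^ 5 + 1)⁻¹) (by positivity)
  obtain ⟨P₀, hP₀⟩ := Filter.eventually_atTop.1 h1
  refine ⟨max P₀ 3, fun P hP => ?_⟩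
  have h3 : 3 ≤ P := (le_max_right _ _).trans hP
  have hP0 : 0 < P := by linarith
  have hl : 1 ≤ Real.log P := by
    rw [Real.le_log_iff_exp_le hP0]; linarith [Real.exp_one_lt_d9]
  have h2 := hP₀ P ((le_max_left _ _).trans hP)
  rw [Real.norm_of_nonneg (by positivity), Real.norm_of_nonneg (by positivity)] at h2
  refine ⟨⌈32 * Real.log P⌉₊, ?_, ?_⟩
  · rw [le_inv_mul_iff₀ (by positivity), ← Real.log_le_log_iff (by positivity) (by positivity), ← pow_succ, Real.log_pow,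
      Real.log_pow]
    have h4 := Nat.le_ceil (32 * Real.log P)
    have h5 := Real.log_two_gt_d9
    push_cast
    nlinarith
  · have h4 := (Nat.ceil_lt_add_one (show 0 ≤ 32 * Real.log P by positivity)).le
    have h5 : ((⌈32 * Real.log P⌉₊ : ℝ) + 1) ^ 5 ≤ (50 * Real.log P) ^ 5 := by
      gcongr; linarith
    have h6 : Real.log P ^ (5 : ℝ) = Real.log P ^ 5 := by exact_mod_cast Real.rpow_natCast _ 5
    rw [h6, le_inv_mul_iff₀ (by positivity)] at h2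
    push_cast
    calc K * ((⌈32 * Real.log P⌉₊ : ℝ) + 1) ^ 5 ≤ |K| * (50 * Real.log P) ^ 5 :=
          mul_le_mul (le_abs_self K) h5 (by positivity) (abs_nonneg K)
      _ ≤ (|K| * 50 ^ 5 + 1) * Real.log P ^ 5 := by
          rw [mul_pow, add_mul, one_mul, ← mul_assoc]; exact le_add_of_nonneg_right (by positivity)
      _ ≤ _ := h2

/-- third part of `S_SUM` -/
theorem hk_vol (C : ℝ) : ∃ P₀ : ℝ, ∀ P, P₀ ≤ P → ∀ (Ω : Type) [MeasurableSpace Ω] (S : Sys Ω C) (o : Ω) (s γ : ℝ),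
    S.Bd P → s ∈ Icc 0 S.T → P ^ (56 / 100 : ℝ) ≤ γ → S.J o s (S.hk P γ o s) ≤ ENNReal.ofReal (γ ^ (46 / 100 : ℝ)) := by
  obtain ⟨P₀, hP₀⟩ := hv_count (72000000 * C) (δ := 56 / 100 * (1 / 100)) (by norm_num)
  refine ⟨max P₀ (max 2 C), fun P hP Ω _ S o s γ hB hs hγ => ?_⟩
  have hP2 : 2 ≤ P := ((le_max_left _ _).trans (le_max_right _ _)).trans hP
  have hPC : C ≤ P := ((le_max_right _ _).trans (le_max_right _ _)).trans hP
  have hP0 : 0 < P := by linarith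
  have hC : 0 < C := by linarith [S.one_le]
  have hγ0 : 0 < γ := lt_of_lt_of_le (by positivity) hγ
  obtain ⟨N, hN1, hN2⟩ := hP₀ P ((le_max_left _ _).trans hP)
  have hch : ∀ ω, 0 < S.hk P γ o s ω → S.ch P γ o s ω ≠ 0 := by
    intro ω h hc
    simp [Sys.hk, hc] at h
  refine (S.hv_cover o s (lo := (P ^ 15)⁻¹) (by positivity) N _ (ENNReal.ofReal (72000000 * C * γ ^ (9 / 20 : ℝ))) ?_ ?_).trans ?_
  · intro ω hω hk
    obtain ⟨h0, h1, h2, h3, h4⟩ := S.hv_range hP2 hPC hB o hs hω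
    obtain ⟨hz, -, -, hu⟩ := chi_ne_zero (hch ω hk)
    exact ⟨⟨h0.1, h0.2.trans hN1⟩, ⟨h1.1, h1.2.trans hN1⟩, ⟨h2.1, h2.2.trans hN1⟩,
      ⟨hv_u3 (by linarith) hz h4.2 hu, h3.trans hN1⟩, ⟨h4.1, h4.2.trans hN1⟩⟩
  · intro A Bb Cc R M hA hBb hCc hR hM ω₀ h₀ hk
    obtain ⟨hz, -, hu, -⟩ := chi_ne_zero (hch ω₀ hk)
    have h2 := hv_u2 hγ0 hz hu
    obtain ⟨-, ha, hb, hc, hr, hm⟩ := h₀
    have h3 : M ^ 3 * (Bb * √Bb) * R ^ 2 ≤ γ ^ (9 / 20 : ℝ) := by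
      refine le_trans ?_ h2
      have hb1 : Bb ≤ dd (S.z o s ω₀) (S.w o s ω₀) := hb.1
      have hb0 := dd_pos hz (S.w o s ω₀)
      have he0 := en_pos (S.w o s ω₀)
      have hm1 := hm.1
      have hr1 := hr.1
      gcongr
    refine (S.hv_box_le o s A Bb Cc R M _ (κ := 2 * √Bb / (A * R)) (by positivity) ?_).trans ?_
    · intro ω hω
      obtain ⟨-, ha, hb, -, hr, -⟩ := hω
      unfold Sys.hk
      split_ifs
      · unfold kH
        have ha1 : A ≤ dd (S.z o s ω) (S.W s o) := ha.1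
        have hb1 : dd (S.z o s ω) (S.w o s ω) ≤ 2 * Bb := hb.2
        have hb2 : √(dd (S.z o s ω) (S.w o s ω)) ≤ 2 * √Bb := by
          rw [Real.sqrt_le_iff]
          refine ⟨by positivity, ?_⟩
          rw [mul_pow, Real.sq_sqrt hBb.le]; linarith
        have ha0 : 0 < dd (S.z o s ω) (S.W s o) := hA.trans_le ha1
        have hr1 := hr.1
        gcongr
      · positivity
    · refine (mul_le_mul_right (S.Is_vol o hs hM hBb (hb.1.trans (S.b_bounds o s ω₀).2.2) hCc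
        (hc.1.trans (S.c_bounds o s ω₀).2.2) hA (ha.1.trans (S.a_bounds o s ω₀).2.2) hR) _).trans ?_
      rw [← ENNReal.ofReal_mul (by positivity)]
      refine ENNReal.ofReal_le_ofReal ?_
      calc 2 * √Bb / (A * R) * (36000000 * C * M ^ 3 * min Bb Cc * A * R ^ 3)
          ≤ 2 * √Bb / (A * R) * (36000000 * C * M ^ 3 * Bb * A * R ^ 3) := by gcongr; exact min_le_left _ _
        _ = 72000000 * C * (M ^ 3 * (Bb * √Bb) * R ^ 2) := by field_simp; norm_num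
        _ ≤ _ := by gcongr
  · rw [← ENNReal.ofReal_natCast, ← ENNReal.ofReal_mul (by positivity)]
    refine ENNReal.ofReal_le_ofReal ?_
    have h1 : P ^ (56 / 100 * (1 / 100) : ℝ) ≤ γ ^ (1 / 100 : ℝ) := by
      rw [Real.rpow_mul hP0.le]; gcongr
    calc (((N + 1) ^ 5 : ℕ) : ℝ) * (72000000 * C * γ ^ (9 / 20 : ℝ))
        = 72000000 * C * ((N + 1) ^ 5 : ℕ) * γ ^ (9 / 20 : ℝ) := by ring
      _ ≤ γ ^ (1 / 100 : ℝ) * γ ^ (9 / 20 : ℝ) := by gcongr; exact hN2.trans h1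
      _ = _ := by rw [← Real.rpow_add hγ0]; norm_num

end Crest.Agent.R106.A
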