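import Crest.Agent.R106.A.KerB

/-! Identity (III) along a pair path and the logarithmic derivatives of `R, a, b, M` (helper37).
State `z = X - Y(τ)`, `V` test momentum, `W` source momentum at the retarded time; `dτ/ds = a/b`. -/

set_option autoImplicit false

namespace Crest.Agent.R106.A
open Crest.AnalysisR.VecCalc3 Crest.AnalysisR.PDE.RVM
open scoped RealInnerProductSpace

/-- the differential system of a pair at time `s` (`F` force on the test particle, `G` force on the source). -/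
structure PairAt (z V W : ℝ → R3) (F G : R3) (s : ℝ) : Prop where
  ne : z s ≠ 0
  dz : HasDerivAt z (relVel (V s) - (dd (z s) (V s) / dd (z s) (W s)) • relVel (W s)) s
  dV : HasDerivAt V F s
  dW : HasDerivAt W ((dd (z s) (V s) / dd (z s) (W s)) • G) s

/-- the remainder of identity (III): test acceleration term and reversed `T` term. -/
noncomputable def rem (z V W F : R3) : R3 :=
  (dd z V / dd z W) • (lor z W (ES z V F) - lor z W (ET z V))

/-- Id-a helper: `⟪U_⊥, Ŵ⟫ = ⟪U_⊥, W_⊥⟫`. -/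
theorem inner_pp_relVel {z : R3} (hz : z ≠ 0) (U W : R3) : ⟪pp z U, relVel W⟫ = ⟪pp z U, pp z W⟫ := by
  conv_lhs => rw [relVel_decomp z W]
  rw [inner_add_right, inner_smul_right, real_inner_comm, inner_dir_pp hz, mul_zero, zero_add]

namespace PairAt
variable {z V W : ℝ → R3} {F G : R3} {s : ℝ}

/-- Id-a: `R' = 1 - a/b`. -/
theorem dR (h : PairAt z V W F G s) :
    HasDerivAt (fun t => ‖z t‖) (1 - dd (z s) (V s) / dd (z s) (W s)) s := by
  refine HasDerivAt.congr_deriv (hasDerivAt_norm_of_ne h.dz h.ne) ?_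
  have hb := (dd_pos h.ne (W s)).ne'
  rw [inner_sub_right, inner_smul_right, inner_dir_relVel, inner_dir_relVel]
  field_simp
  ring

/-- Id-a: `n' = (V̂_⊥ - (a/b) β_⊥)/R`. -/
theorem dn (h : PairAt z V W F G s) :
    HasDerivAt (fun t => dir (z t))
      (‖z s‖⁻¹ • (pp (z s) (V s) - (dd (z s) (V s) / dd (z s) (W s)) • pp (z s) (W s))) s := by
  refine HasDerivAt.congr_deriv (hasDerivAt_dir h.dz h.ne) ?_
  congr 1
  rw [inner_sub_right, inner_smul_right, inner_dir_relVel, inner_dir_relVel]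
  unfold pp
  generalize dd (z s) (V s) / dd (z s) (W s) = k
  module

/-- Id-a: `a'`. -/
theorem da (h : PairAt z V W F G s) :
    HasDerivAt (fun t => dd (z t) (V t))
      (-(‖z s‖⁻¹ * (‖pp (z s) (V s)‖ ^ 2
        - (dd (z s) (V s) / dd (z s) (W s)) * ⟪pp (z s) (V s), pp (z s) (W s)⟫))
        - ⟪dir (z s), acc (V s) F⟫) s := by
  have h1 := (h.dn.inner ℝ (hasDerivAt_relVel h.dV)).const_sub 1
  refine HasDerivAt.congr_deriv h1 ?_
  rw [inner_smul_left, inner_sub_left, inner_smul_left, inner_pp_relVel h.ne, inner_pp_relVel h.ne,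
    real_inner_self_eq_norm_sq, real_inner_comm (pp (z s) (V s)) (pp (z s) (W s))]
  simp only [conj_trivial]
  ring

/-- Id-a: `b'`. -/
theorem db (h : PairAt z V W F G s) :
    HasDerivAt (fun t => dd (z t) (W t))
      (-(‖z s‖⁻¹ * (⟪pp (z s) (V s), pp (z s) (W s)⟫
        - (dd (z s) (V s) / dd (z s) (W s)) * ‖pp (z s) (W s)‖ ^ 2))
        - (dd (z s) (V s) / dd (z s) (W s)) * ⟪dir (z s), acc (W s) G⟫) s := by
  have h1 := (h.dn.inner ℝ (hasDerivAt_relVel h.dW)).const_sub 1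
  refine HasDerivAt.congr_deriv h1 ?_
  rw [acc_smul, inner_smul_right, inner_smul_left, inner_sub_left, inner_smul_left, inner_pp_relVel h.ne,
    inner_pp_relVel h.ne, real_inner_self_eq_norm_sq]
  simp only [conj_trivial]
  ring

/-- Id-a: `c'`. -/
theorem dc (h : PairAt z V W F G s) :
    HasDerivAt (fun t => cc (V t) (W t))
      (-⟪acc (V s) F, relVel (W s)⟫
        - (dd (z s) (V s) / dd (z s) (W s)) * ⟪relVel (V s), acc (W s) G⟫) s := by
  have h1 := ((hasDerivAt_relVel h.dV).inner ℝ (hasDerivAt_relVel h.dW)).const_sub 1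
  refine HasDerivAt.congr_deriv h1 ?_
  rw [acc_smul, inner_smul_right]
  ring

/-- Id-a: `M'`. -/
theorem dM (h : PairAt z V W F G s) :
    HasDerivAt (fun t => en (W t))
      ((dd (z s) (V s) / dd (z s) (W s)) * ⟪relVel (W s), G⟫) s := by
  refine HasDerivAt.congr_deriv (hasDerivAt_en h.dW) ?_
  rw [inner_smul_right]

/-- the algebra behind identity (III) -/
theorem idb_alg (n u be ud bd : R3) (a b c R eV eW : ℝ) (ha : a ≠ 0) (hb : b ≠ 0) (hR : R ≠ 0) (heV : eV ≠ 0) (heW : eW ≠ 0)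
    (hnn : ⟪n, n⟫ = 1) (hnu : ⟪n, u⟫ = 1 - a) (hnb : ⟪n, be⟫ = 1 - b) (hub : ⟪u, be⟫ = 1 - c) (p : ℝ)
    (hp : c = a + b - a * b - p) (R' a' b' c' : ℝ) (n' : R3) (hR' : R' = 1 - a / b)
    (hn' : n' = R⁻¹ • ((u - (1 - a) • n) - (a / b) • (be - (1 - b) • n)))
    (ha' : a' = -(R⁻¹ * ((2 * a - a ^ 2 - (eV ^ 2)⁻¹) - (a / b) * p)) - ⟪n, ud⟫)
    (hb' : b' = -(R⁻¹ * (p - (a / b) * (2 * b - b ^ 2 - (eW ^ 2)⁻¹))) - (a / b) * ⟪n, bd⟫)
    (hc' : c' = -⟪ud, be⟫ - (a / b) * ⟪u, bd⟫) :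
    ((c / (a * b * R)) • n' + ((c' * (a * b * R) - c * ((a' * b + a * b') * R + a * b * R')) / (a * b * R) ^ 2) • n)
      - ((b * R)⁻¹ • ((a / b) • bd) + (-(b' * R + b * R') / (b * R) ^ 2) • be)
      - ((a * R)⁻¹ • ud + (-(a' * R + a * R') / (a * R) ^ 2) • u) =
    (a • ((eW ^ 2 * b ^ 3 * R ^ 2)⁻¹ • (n - be) + (b ^ 3 * R)⁻¹ • (⟪n, bd⟫ • (n - be) - b • bd)) +
      ⟪u, (eW ^ 2 * b ^ 3 * R ^ 2)⁻¹ • (n - be) + (b ^ 3 * R)⁻¹ • (⟪n, bd⟫ • (n - be) - b • bd)⟫ • n) +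
    (a / b) • ((b • ((a ^ 3 * R)⁻¹ • (⟪n, ud⟫ • (n - u) - a • ud)) +
        ⟪be, (a ^ 3 * R)⁻¹ • (⟪n, ud⟫ • (n - u) - a • ud)⟫ • n) -
      (b • ((eV ^ 2 * a ^ 3 * R ^ 2)⁻¹ • (n - u)) + ⟪be, (eV ^ 2 * a ^ 3 * R ^ 2)⁻¹ • (n - u)⟫ • n)) := by
  have hun : ⟪u, n⟫ = 1 - a := by rw [real_inner_comm, hnu]
  have hbn : ⟪be, n⟫ = 1 - b := by rw [real_inner_comm, hnb]
  have hbu : ⟪be, u⟫ = 1 - c := by rw [real_inner_comm, hub]
  have hbud : ⟪be, ud⟫ = ⟪ud, be⟫ := real_inner_comm _ _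
  simp only [inner_add_right, inner_sub_right, inner_smul_right, hun, hbn, hbu, hub, hbud]
  obtain rfl : p = a + b - a * b - c := by linarith
  subst hR' hn' ha' hb' hc'
  generalize ⟪n, ud⟫ = x1
  generalize ⟪n, bd⟫ = x2
  generalize ⟪ud, be⟫ = x3
  generalize ⟪u, bd⟫ = x4
  match_scalars <;> field_simp <;> ring

/-- Id-b: IDENTITY (III) (checked numerically). -/
theorem dGam (h : PairAt z V W F G s) :
    HasDerivAt (fun t => Gam (z t) (V t) (W t))
      (lor (z s) (V s) (ET (z s) (W s) + ES (z s) (W s) G) + rem (z s) (V s) (W s) F) s := by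
  have ha := (dd_pos h.ne (V s)).ne'
  have hb := (dd_pos h.ne (W s)).ne'
  have hR : ‖z s‖ ≠ 0 := norm_ne_zero_iff.2 h.ne
  have h1 := ((h.dc.div ((h.da.mul h.db).mul h.dR) (mul_ne_zero (mul_ne_zero ha hb) hR)).smul h.dn).sub
    (((h.db.mul h.dR).inv (mul_ne_zero hb hR)).smul (hasDerivAt_relVel h.dW))
  have h2 := h1.sub (((h.da.mul h.dR).inv (mul_ne_zero ha hR)).smul (hasDerivAt_relVel h.dV))
  refine h2.congr_deriv ?_
  have e1 : ∀ U : R3, pp (z s) U = relVel U - (1 - dd (z s) U) • dir (z s) := fun U => by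
    rw [relVel_decomp (z s) U, add_sub_cancel_left]
  have hub : ⟪relVel (V s), relVel (W s)⟫ = 1 - cc (V s) (W s) := by simp [ang]
  have key := idb_alg (dir (z s)) (relVel (V s)) (relVel (W s)) (acc (V s) F) (acc (W s) G) (dd (z s) (V s)) (dd (z s) (W s))
    (cc (V s) (W s)) ‖z s‖ (en (V s)) (en (W s)) ha hb hR (en_pos _).ne' (en_pos _).ne' (inner_dir_self h.ne)
    (inner_dir_relVel _ _) (inner_dir_relVel _ _) hub _ (cc_eq h.ne (V s) (W s)) _ _ _ _ _ rfl rfl rfl rfl rfl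
  rw [acc_smul, norm_pp_sq h.ne, norm_pp_sq h.ne]
  conv_lhs => enter [1, 1, 1, 2]; rw [e1, e1]
  exact key

theorem idc_effB {z : R3} (hz : z ≠ 0) (W F : R3) :
    |⟪dir z, acc W F⟫| ≤ dd z W * (effB z W F / Real.sqrt (dd z W)) := by
  have h0 := Real.sqrt_pos.2 (dd_pos hz W)
  have h1 : |⟪dir z, acc W F⟫| / Real.sqrt (dd z W) ≤ effB z W F := le_add_of_nonneg_left (norm_nonneg _)
  rw [div_le_iff₀ h0] at h1
  rwa [mul_div_left_comm, Real.div_sqrt]

theorem idc_effA (z W F : R3) : effB z W F ≤ effA z W F :=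
  le_add_of_nonneg_right (div_nonneg (by positivity) (en_pos W).le)

theorem idc_inner {z : R3} (hz : z ≠ 0) (V W : R3) : |⟪pp z V, pp z W⟫| ≤ dd z V + dd z W := by
  have h := abs_inner_pp_le hz V W
  nlinarith [Real.sq_sqrt (dd_pos hz V).le, Real.sq_sqrt (dd_pos hz W).le, sq_nonneg (Real.sqrt (dd z V) - Real.sqrt (dd z W))]

theorem idc_abs {R x y X Y : ℝ} (hR : 0 < R) (hx : |x| ≤ X) (hy : |y| ≤ Y) : |-(R⁻¹ * x) - y| ≤ X / R + Y := by
  refine (abs_sub _ _).trans (add_le_add ?_ hy)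
  rw [abs_neg, abs_mul, abs_of_pos (inv_pos.2 hR), inv_mul_eq_div]
  exact div_le_div_of_nonneg_right hx hR.le

/-- Id-c: logarithmic derivative of `R`. -/
theorem logR (h : PairAt z V W F G s) :
    ∃ d, HasDerivAt (fun t => ‖z t‖) d s ∧
      |d| ≤ ‖z s‖ * ((1 + dd (z s) (V s) / dd (z s) (W s)) / ‖z s‖) := by
  refine ⟨_, h.dR, ?_⟩
  have h0 := div_pos (dd_pos h.ne (V s)) (dd_pos h.ne (W s))
  rw [mul_div_cancel₀ _ (norm_pos_iff.2 h.ne).ne', abs_le]
  constructor <;> linarith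

/-- Id-c: logarithmic derivative of `a`. -/
theorem loga (h : PairAt z V W F G s) :
    ∃ d, HasDerivAt (fun t => dd (z t) (V t)) d s ∧
      |d| ≤ dd (z s) (V s) * (3 * (1 + dd (z s) (V s) / dd (z s) (W s)) / ‖z s‖
        + effB (z s) (V s) F / Real.sqrt (dd (z s) (V s))) := by
  refine ⟨_, h.da, ?_⟩
  have ha := dd_pos h.ne (V s)
  have hb := dd_pos h.ne (W s)
  have h0 := div_pos ha hb
  have h1 := norm_pp_sq_le h.ne (V s)
  have h2 := mul_le_mul_of_nonneg_left (idc_inner h.ne (V s) (W s)) h0.le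
  rw [mul_add, div_mul_cancel₀ _ hb.ne'] at h2
  rw [mul_add, ← mul_div_assoc]
  refine idc_abs (norm_pos_iff.2 h.ne) ((abs_sub _ _).trans ?_) (idc_effB h.ne _ _)
  rw [abs_mul, abs_of_pos h0, abs_of_nonneg (sq_nonneg _)]
  nlinarith [mul_pos ha h0]

/-- Id-c: logarithmic derivative of `b`. -/
theorem logb (h : PairAt z V W F G s) :
    ∃ d, HasDerivAt (fun t => dd (z t) (W t)) d s ∧
      |d| ≤ dd (z s) (W s) * (3 * (1 + dd (z s) (V s) / dd (z s) (W s)) / ‖z s‖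
        + (dd (z s) (V s) / dd (z s) (W s)) * effA (z s) (W s) G / Real.sqrt (dd (z s) (W s))) := by
  refine ⟨_, h.db, ?_⟩
  have ha := dd_pos h.ne (V s)
  have hb := dd_pos h.ne (W s)
  have h0 := div_pos ha hb
  have h1 := mul_le_mul_of_nonneg_left (norm_pp_sq_le h.ne (W s)) h0.le
  have h2 := idc_inner h.ne (V s) (W s)
  have h3 := div_mul_cancel₀ (dd (z s) (V s)) hb.ne'
  rw [mul_add, ← mul_div_assoc]
  refine idc_abs (norm_pos_iff.2 h.ne) ((abs_sub _ _).trans ?_) ?_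
  · rw [abs_mul, abs_of_pos h0, abs_of_nonneg (sq_nonneg ‖pp (z s) (W s)‖)]
    nlinarith
  · rw [abs_mul, abs_of_pos h0, mul_div_assoc, mul_left_comm]
    refine mul_le_mul_of_nonneg_left ((idc_effB h.ne _ _).trans ?_) h0.le
    exact mul_le_mul_of_nonneg_left (div_le_div_of_nonneg_right (idc_effA _ _ _) (Real.sqrt_nonneg _)) hb.le

/-- Id-c: logarithmic derivative of `M`. -/
theorem logM (h : PairAt z V W F G s) :
    ∃ d, HasDerivAt (fun t => en (W t)) d s ∧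
      |d| ≤ en (W s) *
        ((dd (z s) (V s) / dd (z s) (W s)) * effA (z s) (W s) G / Real.sqrt (dd (z s) (W s))) := by
  refine ⟨_, h.dM, ?_⟩
  have hb := dd_pos h.ne (W s)
  have h0 := div_pos (dd_pos h.ne (V s)) hb
  have h1 := Real.sqrt_pos.2 hb
  have h2 : Real.sqrt (dd (z s) (W s)) * |⟪relVel (W s), G⟫| / en (W s) ≤ effA (z s) (W s) G :=
    le_add_of_nonneg_left (add_nonneg (norm_nonneg _) (by positivity))
  rw [abs_mul, abs_of_pos h0, mul_div_assoc, mul_left_comm, ← mul_div_assoc]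
  refine mul_le_mul_of_nonneg_left ?_ h0.le
  rw [div_le_iff₀ (en_pos _)] at h2
  rw [le_div_iff₀ h1]
  linarith

end PairAt

end Crest.Agent.R106.A
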