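import Crest.Agent.R106.A.Id
import Crest.Agent.R106.A.Bnd

/-! Identity (III) with the cut-off `χ` and the pointwise kernel bound (helper37).
All kernels `k…` are per `dμ / b`. -/

set_option autoImplicit false

namespace Crest.Agent.R106.A
open Crest.AnalysisR.VecCalc3 Crest.AnalysisR.PDE.RVM
open scoped RealInnerProductSpace

noncomputable def u1 (z V W : R3) : ℝ := Real.log (dd z V) - Real.log (dd z W) - Real.log 400
noncomputable def u2 (γ : ℝ) (z W : R3) : ℝ :=
  9 / 20 * Real.log γ - (3 * Real.log (en W) + 3 / 2 * Real.log (dd z W) + 2 * Real.log ‖z‖)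
noncomputable def u3 (P : ℝ) (z W : R3) : ℝ :=
  20 * Real.log (en W) + Real.log ‖z‖ - 5 * Real.log P

open Classical in
/-- the cut-off (zero at `z = 0`). -/
noncomputable def chi (P γ : ℝ) (z V W : R3) : ℝ :=
  if z = 0 then 0 else
    Real.smoothTransition (u1 z V W) * Real.smoothTransition (u2 γ z W)
      * Real.smoothTransition (u3 P z W)

/-- `(α + θ)/(M² θ³ R²)` -/
noncomputable def kT (z V W : R3) : ℝ :=
  (Real.sqrt (dd z V) + Real.sqrt (dd z W)) / (en W ^ 2 * dd z W * Real.sqrt (dd z W) * ‖z‖ ^ 2)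
/-- `α K_good/(M θ² R)` -/
noncomputable def kSg (z V W E B : R3) : ℝ :=
  Real.sqrt (dd z V) * Real.sqrt (gd (dir z) E B) / (en W * dd z W * ‖z‖)
/-- `α |K|/(M R)` -/
noncomputable def kSb (z V W E B : R3) : ℝ :=
  Real.sqrt (dd z V) * (‖E‖ + ‖B‖) / (en W * ‖z‖)
/-- `1/(γ² α² R²)` -/
noncomputable def kRev (z V : R3) : ℝ := 1 / (en V ^ 2 * dd z V * ‖z‖ ^ 2)
/-- `α/(θ R²)` -/
noncomputable def kGeo (z V W : R3) : ℝ := Real.sqrt (dd z V) / (Real.sqrt (dd z W) * ‖z‖ ^ 2)
/-- `θ/(α² R)` -/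
noncomputable def kH (z V W : R3) : ℝ := Real.sqrt (dd z W) / (dd z V * ‖z‖)

theorem chi_nonneg (P γ : ℝ) (z V W : R3) : 0 ≤ chi P γ z V W := by
  unfold chi; split_ifs
  · exact le_rfl
  · have := Real.smoothTransition.nonneg
    exact mul_nonneg (mul_nonneg (this _) (this _)) (this _)

theorem chi_le_one (P γ : ℝ) (z V W : R3) : chi P γ z V W ≤ 1 := by
  unfold chi; split_ifs
  · exact zero_le_one
  · have h0 := Real.smoothTransition.nonneg
    have h1 := Real.smoothTransition.le_one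
    exact mul_le_one₀ (mul_le_one₀ (h1 _) (h0 _) (h1 _)) (h0 _) (h1 _)

/-- the support of `χ`. -/
theorem chi_ne_zero {P γ : ℝ} {z V W : R3} (h : chi P γ z V W ≠ 0) :
    z ≠ 0 ∧ 0 < u1 z V W ∧ 0 < u2 γ z W ∧ 0 < u3 P z W := by
  unfold chi at h
  split_ifs at h with hz
  · exact absurd rfl h
  · refine ⟨hz, ?_, ?_, ?_⟩ <;> by_contra hc <;> apply h <;>
      simp [Real.smoothTransition.zero_of_nonpos (not_lt.1 hc)]

/-- outside `{χ = 1}`. -/
theorem chi_ne_one {P γ : ℝ} {z V W : R3} (h : chi P γ z V W ≠ 1) :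
    z = 0 ∨ u1 z V W < 1 ∨ u2 γ z W < 1 ∨ u3 P z W < 1 := by
  by_contra hc
  push Not at hc
  obtain ⟨hz, h1, h2, h3⟩ := hc
  apply h
  unfold chi
  rw [if_neg hz, Real.smoothTransition.one_of_one_le h1, Real.smoothTransition.one_of_one_le h2,
    Real.smoothTransition.one_of_one_le h3]; norm_num

theorem le_of_chi_ne_zero {P γ : ℝ} {z V W : R3} (h : chi P γ z V W ≠ 0) :
    400 * dd z W < dd z V := by
  obtain ⟨hz, h1, -, -⟩ := chi_ne_zero h
  have ha := dd_pos hz V
  have hb := dd_pos hz W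
  unfold u1 at h1
  have : Real.log (400 * dd z W) < Real.log (dd z V) := by
    rw [Real.log_mul (by norm_num) hb.ne']; linarith
  exact (Real.log_lt_log_iff (by positivity) ha).1 this

theorem lor_add (z V E E' : R3) : lor z V (E + E') = lor z V E + lor z V E' := by
  unfold lor
  rw [smul_add, inner_add_right, add_smul]; abel

theorem kT_nonneg (z V W : R3) (hz : z ≠ 0) : 0 ≤ kT z V W := by
  have := dd_pos hz W
  unfold kT; positivity

theorem kSg_nonneg (z V W E B : R3) (hz : z ≠ 0) : 0 ≤ kSg z V W E B := by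
  have := dd_pos hz W
  have := en_pos W
  unfold kSg; positivity

theorem kSb_nonneg (z V W E B : R3) : 0 ≤ kSb z V W E B := by
  have := en_pos W
  unfold kSb; positivity

theorem kRev_nonneg (z V : R3) (hz : z ≠ 0) : 0 ≤ kRev z V := by
  have := dd_pos hz V
  unfold kRev; positivity

theorem kGeo_nonneg (z V W : R3) : 0 ≤ kGeo z V W := by
  unfold kGeo; positivity

theorem kH_nonneg (z V W : R3) (hz : z ≠ 0) : 0 ≤ kH z V W := by
  have := dd_pos hz V
  unfold kH; positivity

theorem norm_lor_ET_le' {z : R3} (hz : z ≠ 0) (V W : R3) :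
    ‖lor z V (ET z W)‖ ≤ 4 * kT z V W / dd z W := by
  refine (norm_lor_ET_le hz V W).trans (le_of_eq ?_)
  have hb := dd_pos hz W
  have hM := en_pos W
  have hR : 0 < ‖z‖ := norm_pos_iff.2 hz
  have hy : 0 < Real.sqrt (dd z W) := Real.sqrt_pos.2 hb
  have e : dd z W = Real.sqrt (dd z W) ^ 2 := (Real.sq_sqrt hb.le).symm
  unfold kT
  generalize Real.sqrt (dd z W) = y at *
  rw [e]; field_simp

theorem sqrt_mul_effA_le {z : R3} (hz : z ≠ 0) (V W E B : R3) :
    Real.sqrt (dd z V) * effA z W (force E B W) / (dd z W ^ 2 * ‖z‖) ≤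
      20 * (kSg z V W E B + kSb z V W E B) / dd z W := by
  have hb := dd_pos hz W
  have hM := en_pos W
  have hR : 0 < ‖z‖ := norm_pos_iff.2 hz
  have h := effA_force_le hz W E B
  calc _ ≤ Real.sqrt (dd z V) *
        (20 * (Real.sqrt (gd (dir z) E B) + dd z W * (‖E‖ + ‖B‖)) / en W) / (dd z W ^ 2 * ‖z‖) := by
        gcongr
    _ = _ := by unfold kSg kSb; field_simp

theorem norm_lor_ES_le' {z : R3} (hz : z ≠ 0) (V W E B : R3) :
    ‖lor z V (ES z W (force E B W))‖ ≤ 80 * (kSg z V W E B + kSb z V W E B) / dd z W := by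
  have hb := dd_pos hz W
  have hR : 0 < ‖z‖ := norm_pos_iff.2 hz
  have h1 := norm_lor_ES_le hz V W (force E B W)
  have h2 := sqrt_mul_effA_le hz V W E B
  have h3 := effB_le_effA z W (force E B W)
  calc _ ≤ _ := h1
    _ ≤ 4 * Real.sqrt (dd z V) * effA z W (force E B W) / (dd z W ^ 2 * ‖z‖) := by gcongr
    _ = 4 * (Real.sqrt (dd z V) * effA z W (force E B W) / (dd z W ^ 2 * ‖z‖)) := by ring
    _ ≤ 4 * (20 * (kSg z V W E B + kSb z V W E B) / dd z W) := by gcongr
    _ = _ := by ring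

/-- the Glassey–Strauss representation (II): size of the pair force. -/
theorem norm_pair_le {z : R3} (hz : z ≠ 0) (V W E B : R3) :
    ‖lor z V (ET z W + ES z W (force E B W))‖ ≤
      80 * (kT z V W + kSg z V W E B + kSb z V W E B) / dd z W := by
  have hb := dd_pos hz W
  have h1 := norm_lor_ET_le' hz V W
  have h2 := norm_lor_ES_le' hz V W E B
  have h3 := kT_nonneg z V W hz
  rw [lor_add]
  refine (norm_add_le _ _).trans ?_
  have : 4 * kT z V W / dd z W ≤ 80 * kT z V W / dd z W := by gcongr; norm_num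
  calc _ ≤ 80 * kT z V W / dd z W + 80 * (kSg z V W E B + kSb z V W E B) / dd z W := by linarith
    _ = _ := by ring

theorem norm_Gam_le' {z : R3} (hz : z ≠ 0) (V W : R3) :
    ‖Gam z V W‖ ≤ 12 * kH z V W / dd z W := by
  have ha := dd_pos hz V
  have ha2 := dd_le_two hz V
  have hb := dd_pos hz W
  have hR : 0 < ‖z‖ := norm_pos_iff.2 hz
  have hx : 0 < Real.sqrt (dd z V) := Real.sqrt_pos.2 ha
  have hy : 0 < Real.sqrt (dd z W) := Real.sqrt_pos.2 hb
  have ea : dd z V = Real.sqrt (dd z V) ^ 2 := (Real.sq_sqrt ha.le).symm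
  have eb : dd z W = Real.sqrt (dd z W) ^ 2 := (Real.sq_sqrt hb.le).symm
  refine (norm_Gam_le hz V W).trans ?_
  unfold kH
  generalize Real.sqrt (dd z W) = y at *
  generalize Real.sqrt (dd z V) = x at *
  rw [ea] at ha2
  rw [ea, eb]
  have hx2 : x ≤ 3 / 2 := by nlinarith
  have e1 : 8 / (x * y * ‖z‖) = (8 * x) / (x ^ 2 * y * ‖z‖) := by field_simp
  have e2 : 12 * (y / (x ^ 2 * ‖z‖)) / y ^ 2 = 12 / (x ^ 2 * y * ‖z‖) := by field_simp
  rw [e1, e2]
  gcongr; linarith

/-- the boundary term. -/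
theorem norm_chi_Gam_le (P γ : ℝ) (z V W : R3) :
    ‖chi P γ z V W • Gam z V W‖ ≤
      (if chi P γ z V W ≠ 0 then 12 * kH z V W else 0) / dd z W := by
  split_ifs with h
  · have hz := (chi_ne_zero h).1
    rw [norm_smul, Real.norm_of_nonneg (chi_nonneg _ _ _ _ _)]
    calc _ ≤ 1 * ‖Gam z V W‖ := by gcongr; exact chi_le_one _ _ _ _ _
      _ ≤ _ := by rw [one_mul]; exact norm_Gam_le' hz V W
  · push Not at h; simp [h]

/-- the derivative of the smooth transition is bounded. -/
theorem exists_deriv_st : ∃ L : ℝ, 1 ≤ L ∧ ∀ x, |deriv Real.smoothTransition x| ≤ L := by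
  have hc : Continuous (deriv Real.smoothTransition) :=
    (Real.smoothTransition.contDiff (n := 1)).continuous_deriv le_rfl
  obtain ⟨C, hC⟩ := (isCompact_Icc (a := (0 : ℝ)) (b := 1)).exists_bound_of_continuousOn
    hc.continuousOn
  refine ⟨max C 1, le_max_right _ _, fun x => ?_⟩
  by_cases hx : x ∈ Set.Icc (0 : ℝ) 1
  · exact (hC x hx).trans (le_max_left _ _)
  · have : deriv Real.smoothTransition x = 0 := by
      rcases not_and_or.1 hx with h | h
      · apply IsLocalMin.deriv_eq_zero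
        refine Filter.Eventually.of_forall fun y => ?_
        rw [Real.smoothTransition.zero_of_nonpos (not_le.1 h).le]
        exact Real.smoothTransition.nonneg y
      · apply IsLocalMax.deriv_eq_zero
        refine Filter.Eventually.of_forall fun y => ?_
        rw [Real.smoothTransition.one_of_one_le (not_le.1 h).le]
        exact Real.smoothTransition.le_one y
    rw [this, abs_zero]; exact le_trans zero_le_one (le_max_right _ _)

theorem hasDerivAt_st {u : ℝ → ℝ} {d s : ℝ} (h : HasDerivAt u d s) :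
    HasDerivAt (fun t => Real.smoothTransition (u t)) (deriv Real.smoothTransition (u s) * d) s :=
  (((Real.smoothTransition.contDiff (n := 1)).differentiable one_ne_zero _).hasDerivAt).comp s h

theorem log_deriv_bound {u : ℝ → ℝ} {s q : ℝ} (hu : 0 < u s)
    (h : ∃ d, HasDerivAt u d s ∧ |d| ≤ u s * q) :
    ∃ d, HasDerivAt (fun t => Real.log (u t)) d s ∧ |d| ≤ q := by
  obtain ⟨d, h1, h2⟩ := h
  refine ⟨d / u s, h1.log hu.ne', ?_⟩
  rw [abs_div, abs_of_pos hu, div_le_iff₀ hu]; linarith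

/-- derivative of the cut-off along a pair path. -/
theorem chi_deriv : ∃ L : ℝ, 1 ≤ L ∧ ∀ (P γ : ℝ) (z V W : ℝ → R3) (F G : R3) (s : ℝ),
    PairAt z V W F G s →
    ∃ d : ℝ, HasDerivAt (fun t => chi P γ (z t) (V t) (W t)) d s ∧
      |d| ≤ L * (14 * (1 + dd (z s) (V s) / dd (z s) (W s)) / ‖z s‖
        + effB (z s) (V s) F / Real.sqrt (dd (z s) (V s))
        + 26 * ((dd (z s) (V s) / dd (z s) (W s)) * effA (z s) (W s) G
            / Real.sqrt (dd (z s) (W s)))) := by
  obtain ⟨L, hL1, hL⟩ := exists_deriv_st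
  refine ⟨L, hL1, fun P γ z V W F G s h => ?_⟩
  have hz := h.ne
  have ha := dd_pos hz (V s)
  have hb := dd_pos hz (W s)
  have hR : 0 < ‖z s‖ := norm_pos_iff.2 hz
  obtain ⟨dR, hR1, hR2⟩ := log_deriv_bound (u := fun t => ‖z t‖) hR h.logR
  obtain ⟨da, ha1, ha2⟩ := log_deriv_bound (u := fun t => dd (z t) (V t)) ha h.loga
  obtain ⟨db, hb1, hb2⟩ := log_deriv_bound (u := fun t => dd (z t) (W t)) hb h.logb
  obtain ⟨dM, hM1, hM2⟩ := log_deriv_bound (u := fun t => en (W t)) (en_pos _) h.logM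
  have d1 : HasDerivAt (fun t => u1 (z t) (V t) (W t)) (da - db) s :=
    (ha1.sub hb1).sub_const _
  have d2 : HasDerivAt (fun t => u2 γ (z t) (W t)) (-(3 * dM + 3 / 2 * db + 2 * dR)) s :=
    (((hM1.const_mul 3).add (hb1.const_mul (3 / 2))).add (hR1.const_mul 2)).const_sub _
  have d3 : HasDerivAt (fun t => u3 P (z t) (W t)) (20 * dM + dR) s :=
    ((hM1.const_mul 20).add hR1).sub_const _
  have dd' := ((hasDerivAt_st d1).mul (hasDerivAt_st d2)).mul (hasDerivAt_st d3)
  have hev : ∀ᶠ t in nhds s, z t ≠ 0 := h.dz.continuousAt.eventually_ne hz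
  refine ⟨_, dd'.congr_of_eventuallyEq (hev.mono fun t ht => by simp [chi, ht]), ?_⟩
  simp only [Pi.mul_apply]
  set p1 := Real.smoothTransition (u1 (z s) (V s) (W s))
  set p2 := Real.smoothTransition (u2 γ (z s) (W s))
  set p3 := Real.smoothTransition (u3 P (z s) (W s))
  set q1 := deriv Real.smoothTransition (u1 (z s) (V s) (W s))
  set q2 := deriv Real.smoothTransition (u2 γ (z s) (W s))
  set q3 := deriv Real.smoothTransition (u3 P (z s) (W s))
  have hp : ∀ x, |Real.smoothTransition x| ≤ 1 := fun x => by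
    rw [abs_of_nonneg (Real.smoothTransition.nonneg x)]; exact Real.smoothTransition.le_one x
  have hp1 : |p1| ≤ 1 := hp _
  have hp2 : |p2| ≤ 1 := hp _
  have hp3 : |p3| ≤ 1 := hp _
  have hq1 : |q1| ≤ L := hL _
  have hq2 : |q2| ≤ L := hL _
  have hq3 : |q3| ≤ L := hL _
  set g := (1 + dd (z s) (V s) / dd (z s) (W s)) / ‖z s‖ with hg
  set e1 := effB (z s) (V s) F / Real.sqrt (dd (z s) (V s)) with he1
  set e2 := (dd (z s) (V s) / dd (z s) (W s)) * effA (z s) (W s) G
            / Real.sqrt (dd (z s) (W s)) with he2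
  have ha3 : |da| ≤ 3 * g + e1 := by rw [hg, ← mul_div_assoc]; exact ha2
  have hb3 : |db| ≤ 3 * g + e2 := by rw [hg, ← mul_div_assoc]; exact hb2
  have t1 : |da - db| ≤ 6 * g + e1 + e2 := by
    have := abs_sub da db; linarith
  have t2 : |-(3 * dM + 3 / 2 * db + 2 * dR)| ≤ 13 / 2 * g + 9 / 2 * e2 := by
    rw [abs_le] at *; constructor <;> linarith [hM2.1, hM2.2, hb3.1, hb3.2, hR2.1, hR2.2]
  have t3 : |20 * dM + dR| ≤ g + 20 * e2 := by
    rw [abs_le] at *; constructor <;> linarith [hM2.1, hM2.2, hR2.1, hR2.2]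
  have hL0 : 0 ≤ L := by linarith
  have k : ∀ q d p p' c : ℝ, |q| ≤ L → |d| ≤ c → |p| ≤ 1 → |p'| ≤ 1 →
      |q * d * p * p'| ≤ L * c := by
    intro q d p p' c h1 h2 h3 h4
    rw [abs_mul, abs_mul, abs_mul]
    have hc : 0 ≤ c := (abs_nonneg _).trans h2
    calc |q| * |d| * |p| * |p'| ≤ L * c * 1 * 1 := by gcongr
      _ = L * c := by ring
  have k1 := k q1 _ p2 p3 _ hq1 t1 hp2 hp3
  have k2 := k q2 _ p1 p3 _ hq2 t2 hp1 hp3
  have k3 := k q3 _ p1 p2 _ hq3 t3 hp1 hp2
  have hg0 : 0 ≤ g := (abs_nonneg _).trans hR2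
  have he0 : 0 ≤ e2 := (abs_nonneg _).trans hM2
  have eq1 : (q1 * (da - db) * p2 + p1 * (q2 * -(3 * dM + 3 / 2 * db + 2 * dR))) * p3
      + p1 * p2 * (q3 * (20 * dM + dR))
      = q1 * (da - db) * p2 * p3 + q2 * -(3 * dM + 3 / 2 * db + 2 * dR) * p1 * p3
        + q3 * (20 * dM + dR) * p1 * p2 := by ring
  rw [eq1]
  have eq2 : 14 * (1 + dd (z s) (V s) / dd (z s) (W s)) / ‖z s‖ = 14 * g := by
    rw [hg, mul_div_assoc]
  rw [eq2]
  refine (abs_add_three _ _ _).trans ?_
  nlinarith [mul_nonneg hL0 hg0, mul_nonneg hL0 he0]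

theorem norm_rem_le {z : R3} (hz : z ≠ 0) (V W F : R3) (hab : dd z W ≤ dd z V) :
    ‖rem z V W F‖ ≤ 20 * (kRev z V + kH z V W * (‖F‖ / en V)) / dd z W := by
  have ha := dd_pos hz V
  have hb := dd_pos hz W
  have hR : 0 < ‖z‖ := norm_pos_iff.2 hz
  have hγ := en_pos V
  have hγ1 := one_le_en V
  have h1 := norm_lor_ET_le hz W V
  have h2 := norm_lor_ES_le hz W V F
  have h3 : effB z V F ≤ 5 * (‖F‖ / en V) := by
    have a1 := effB_le_test hz V F
    have a2 := norm_acc_le V F
    have a3 : 2 * ‖F‖ / en V ^ 2 ≤ 2 * (‖F‖ / en V) := by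
      rw [← mul_div_assoc]; gcongr; nlinarith
    linarith
  have hxy : Real.sqrt (dd z W) ≤ Real.sqrt (dd z V) := Real.sqrt_le_sqrt hab
  have hx : 0 < Real.sqrt (dd z V) := Real.sqrt_pos.2 ha
  have ea : dd z V = Real.sqrt (dd z V) ^ 2 := (Real.sq_sqrt ha.le).symm
  have b1 : dd z V / dd z W * ‖lor z W (ET z V)‖ ≤ 8 * kRev z V / dd z W := by
    calc _ ≤ dd z V / dd z W * (4 * (Real.sqrt (dd z V) + Real.sqrt (dd z V)) * Real.sqrt (dd z V)
          / (en V ^ 2 * dd z V ^ 3 * ‖z‖ ^ 2)) := by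
          gcongr
          refine h1.trans ?_
          gcongr
      _ = _ := by
          unfold kRev
          generalize Real.sqrt (dd z V) = x at *
          rw [ea]; field_simp; norm_num
  have b2 : dd z V / dd z W * ‖lor z W (ES z V F)‖ ≤ 20 * (kH z V W * (‖F‖ / en V)) / dd z W := by
    calc _ ≤ dd z V / dd z W * (4 * Real.sqrt (dd z W) * (5 * (‖F‖ / en V)) / (dd z V ^ 2 * ‖z‖)) := by
          gcongr
          refine h2.trans ?_
          gcongr
      _ = _ := by unfold kH; field_simp; ring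
  have b0 : 8 * kRev z V / dd z W ≤ 20 * kRev z V / dd z W := by
    have := kRev_nonneg z V hz
    gcongr; norm_num
  unfold rem
  rw [norm_smul, Real.norm_of_nonneg (by positivity)]
  calc _ ≤ dd z V / dd z W * (‖lor z W (ES z V F)‖ + ‖lor z W (ET z V)‖) := by
        gcongr; exact norm_sub_le _ _
    _ = dd z V / dd z W * ‖lor z W (ES z V F)‖ + dd z V / dd z W * ‖lor z W (ET z V)‖ := by ring
    _ ≤ 20 * (kH z V W * (‖F‖ / en V)) / dd z W + 20 * kRev z V / dd z W := by linarith
    _ = _ := by ring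

theorem cut_term_le {z : R3} (hz : z ≠ 0) (V W F E B : R3) (hab : dd z W ≤ dd z V) :
    (14 * (1 + dd z V / dd z W) / ‖z‖ + effB z V F / Real.sqrt (dd z V)
        + 26 * ((dd z V / dd z W) * effA z W (force E B W) / Real.sqrt (dd z W))) * ‖Gam z V W‖ ≤
      4160 * (kGeo z V W + kH z V W * (‖F‖ / en V) + (kSg z V W E B + kSb z V W E B)) / dd z W := by
  have ha := dd_pos hz V
  have hb := dd_pos hz W
  have hR : 0 < ‖z‖ := norm_pos_iff.2 hz
  have hγ := en_pos V
  have hγ1 := one_le_en V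
  have h3 : effB z V F ≤ 5 * (‖F‖ / en V) := by
    have a1 := effB_le_test hz V F
    have a2 := norm_acc_le V F
    have a3 : 2 * ‖F‖ / en V ^ 2 ≤ 2 * (‖F‖ / en V) := by
      rw [← mul_div_assoc]; gcongr; nlinarith
    linarith
  have hG := norm_Gam_le hz V W
  have hS := sqrt_mul_effA_le hz V W E B
  have hx : 0 < Real.sqrt (dd z V) := Real.sqrt_pos.2 ha
  have hy : 0 < Real.sqrt (dd z W) := Real.sqrt_pos.2 hb
  have ea : dd z V = Real.sqrt (dd z V) ^ 2 := (Real.sq_sqrt ha.le).symm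
  have eb : dd z W = Real.sqrt (dd z W) ^ 2 := (Real.sq_sqrt hb.le).symm
  have hA0 : 0 ≤ effA z W (force E B W) := (effB_nonneg _ _ _).trans (effB_le_effA _ _ _)
  have h1 : 1 ≤ dd z V / dd z W := (one_le_div hb).2 hab
  have c1 : 14 * (1 + dd z V / dd z W) / ‖z‖ * ‖Gam z V W‖ ≤ 224 * kGeo z V W / dd z W := by
    calc _ ≤ 14 * (dd z V / dd z W + dd z V / dd z W) / ‖z‖
          * (8 / (Real.sqrt (dd z V) * Real.sqrt (dd z W) * ‖z‖)) := by gcongr
      _ = _ := by
          unfold kGeo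
          generalize Real.sqrt (dd z V) = x at *
          rw [ea]; field_simp; norm_num
  have c2 : effB z V F / Real.sqrt (dd z V) * ‖Gam z V W‖
      ≤ 40 * (kH z V W * (‖F‖ / en V)) / dd z W := by
    calc _ ≤ 5 * (‖F‖ / en V) / Real.sqrt (dd z V)
          * (8 / (Real.sqrt (dd z V) * Real.sqrt (dd z W) * ‖z‖)) := by gcongr
      _ = _ := by
          unfold kH
          generalize Real.sqrt (dd z V) = x at *
          generalize Real.sqrt (dd z W) = y at *
          rw [ea, eb]; field_simp; ring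
  have c3 : 26 * ((dd z V / dd z W) * effA z W (force E B W) / Real.sqrt (dd z W)) * ‖Gam z V W‖
      ≤ 4160 * (kSg z V W E B + kSb z V W E B) / dd z W := by
    calc _ ≤ 26 * ((dd z V / dd z W) * effA z W (force E B W) / Real.sqrt (dd z W))
          * (8 / (Real.sqrt (dd z V) * Real.sqrt (dd z W) * ‖z‖)) := by gcongr
      _ = 208 * (Real.sqrt (dd z V) * effA z W (force E B W) / (dd z W ^ 2 * ‖z‖)) := by
          generalize effA z W (force E B W) = A at *
          generalize Real.sqrt (dd z V) = x at *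
          generalize Real.sqrt (dd z W) = y at *
          rw [ea, eb]; field_simp; ring
      _ ≤ 208 * (20 * (kSg z V W E B + kSb z V W E B) / dd z W) := by gcongr
      _ = _ := by ring
  have n1 := kGeo_nonneg z V W
  have n2 : 0 ≤ kH z V W * (‖F‖ / en V) := mul_nonneg (kH_nonneg z V W hz) (by positivity)
  have d1 : 224 * kGeo z V W / dd z W ≤ 4160 * kGeo z V W / dd z W := by gcongr; norm_num
  have d2 : 40 * (kH z V W * (‖F‖ / en V)) / dd z W
      ≤ 4160 * (kH z V W * (‖F‖ / en V)) / dd z W := by gcongr; norm_num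
  calc _ = 14 * (1 + dd z V / dd z W) / ‖z‖ * ‖Gam z V W‖
        + effB z V F / Real.sqrt (dd z V) * ‖Gam z V W‖
        + 26 * ((dd z V / dd z W) * effA z W (force E B W) / Real.sqrt (dd z W)) * ‖Gam z V W‖ := by
        ring
    _ ≤ 4160 * kGeo z V W / dd z W + 4160 * (kH z V W * (‖F‖ / en V)) / dd z W
        + 4160 * (kSg z V W E B + kSb z V W E B) / dd z W := by linarith
    _ = _ := by ring

/-- identity (III) with cut-off: the pair force is a total derivative up to the kernels. -/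
theorem pair_cut : ∃ K : ℝ, 1 ≤ K ∧ ∀ (P γ : ℝ) (z V W : ℝ → R3) (F E B : R3) (s : ℝ),
    PairAt z V W F (force E B (W s)) s →
    ∃ D : R3, HasDerivAt (fun t => chi P γ (z t) (V t) (W t) • Gam (z t) (V t) (W t)) D s ∧
      ‖lor (z s) (V s) (ET (z s) (W s) + ES (z s) (W s) (force E B (W s))) - D‖ ≤
        K * ((if chi P γ (z s) (V s) (W s) ≠ 1 then
                kT (z s) (V s) (W s) + kSg (z s) (V s) (W s) E B + kSb (z s) (V s) (W s) E B else 0)
            + (if chi P γ (z s) (V s) (W s) ≠ 0 then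
                kRev (z s) (V s) + kH (z s) (V s) (W s) * (‖F‖ / en (V s)) else 0)
            + (if chi P γ (z s) (V s) (W s) ≠ 0 ∧ chi P γ (z s) (V s) (W s) ≠ 1 then
                kGeo (z s) (V s) (W s) else 0)) / dd (z s) (W s) := by
  obtain ⟨L, hL1, hL⟩ := chi_deriv
  refine ⟨4160 * L + 100, by linarith, fun P γ z V W F E B s h => ?_⟩
  obtain ⟨d, hd1, hd2⟩ := hL P γ z V W F _ s h
  have hz := h.ne
  have hb := dd_pos hz (W s)
  refine ⟨_, hd1.smul h.dGam, ?_⟩
  set χ := chi P γ (z s) (V s) (W s) with hχ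
  set A := lor (z s) (V s) (ET (z s) (W s) + ES (z s) (W s) (force E B (W s))) with hA
  have hχ0 : 0 ≤ χ := chi_nonneg _ _ _ _ _
  have hχ1 : χ ≤ 1 := chi_le_one _ _ _ _ _
  have hA1 : ‖A‖ ≤ _ := norm_pair_le hz (V s) (W s) E B
  have n1 := kT_nonneg (z s) (V s) (W s) hz
  have n2 := kSg_nonneg (z s) (V s) (W s) E B hz
  have n3 := kSb_nonneg (z s) (V s) (W s) E B
  have n4 := kRev_nonneg (z s) (V s) hz
  have n5 := kGeo_nonneg (z s) (V s) (W s)
  have n6 : 0 ≤ kH (z s) (V s) (W s) * (‖F‖ / en (V s)) :=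
    mul_nonneg (kH_nonneg _ _ _ hz) (div_nonneg (norm_nonneg _) (en_pos _).le)
  have e : A - (χ • (A + rem (z s) (V s) (W s) F) + d • Gam (z s) (V s) (W s))
      = (1 - χ) • A - χ • rem (z s) (V s) (W s) F - d • Gam (z s) (V s) (W s) := by
    rw [smul_add, sub_smul, one_smul]; abel
  rw [e]
  by_cases h0 : χ = 0
  · have hd0 : d = 0 := by
      refine IsLocalMin.hasDerivAt_eq_zero ?_ hd1
      refine Filter.Eventually.of_forall fun t => ?_
      change χ ≤ _
      rw [h0]; exact chi_nonneg _ _ _ _ _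
    simp only [h0, hd0, sub_zero, one_smul, zero_smul, ne_eq, zero_ne_one, not_false_eq_true,
      if_true, not_true_eq_false, false_and, if_false, add_zero]
    refine hA1.trans ?_
    gcongr; linarith
  · have hab : dd (z s) (W s) ≤ dd (z s) (V s) := by
      have := le_of_chi_ne_zero h0; linarith
    have hr := norm_rem_le hz (V s) (W s) F hab
    by_cases h1 : χ = 1
    · have hd0 : d = 0 := by
        refine IsLocalMax.hasDerivAt_eq_zero ?_ hd1
        refine Filter.Eventually.of_forall fun t => ?_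
        change _ ≤ χ
        rw [h1]; exact chi_le_one _ _ _ _ _
      simp only [h1, hd0, sub_self, sub_zero, one_smul, zero_smul, ne_eq, one_ne_zero,
        not_false_eq_true, if_true, not_true_eq_false, and_false, if_false, add_zero, zero_sub,
        norm_neg, zero_add]
      refine hr.trans ?_
      gcongr; linarith
    · have hc := cut_term_le hz (V s) (W s) F E B hab
      simp only [ne_eq, h0, h1, not_false_eq_true, if_true, and_self]
      have t1 : ‖(1 - χ) • A‖ ≤ ‖A‖ := by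
        rw [norm_smul, Real.norm_of_nonneg (by linarith)]
        exact mul_le_of_le_one_left (norm_nonneg _) (by linarith)
      have t2 : ‖χ • rem (z s) (V s) (W s) F‖ ≤ ‖rem (z s) (V s) (W s) F‖ := by
        rw [norm_smul, Real.norm_of_nonneg hχ0]
        exact mul_le_of_le_one_left (norm_nonneg _) hχ1
      have t3 : ‖d • Gam (z s) (V s) (W s)‖ ≤ L * (4160 * (kGeo (z s) (V s) (W s)
          + kH (z s) (V s) (W s) * (‖F‖ / en (V s))
          + (kSg (z s) (V s) (W s) E B + kSb (z s) (V s) (W s) E B)) / dd (z s) (W s)) := by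
        rw [norm_smul, Real.norm_eq_abs]
        refine (mul_le_mul_of_nonneg_right hd2 (norm_nonneg _)).trans ?_
        rw [mul_assoc]
        exact mul_le_mul_of_nonneg_left hc (by linarith)
      have t4 := (norm_sub_le ((1 - χ) • A - χ • rem (z s) (V s) (W s) F)
        (d • Gam (z s) (V s) (W s)))
      have t5 := norm_sub_le ((1 - χ) • A) (χ • rem (z s) (V s) (W s) F)
      refine (t4.trans (add_le_add (t5.trans (add_le_add (t1.trans hA1) (t2.trans hr))) t3)).trans ?_
      rw [← mul_div_assoc L, ← add_div, ← add_div]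
      gcongr
      have hL0 : 0 ≤ L := by linarith
      nlinarith [mul_nonneg hL0 n1, mul_nonneg hL0 n4]

/-- keeps `open IC` valid -/
theorem IC.ph : True := trivial

end Crest.Agent.R106.A
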