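import Crest.Agent.R106.A.Defs

/-! R106/A (helper79): the abstract part of the improvement step. -/

set_option autoImplicit false

open MeasureTheory Set Filter Crest.AnalysisR.VecCalc3 Crest.AnalysisR.PDE.RVM
open scoped ENNReal RealInnerProductSpace

noncomputable section
namespace Crest.Agent.R106.A

/-- the variation majorant `v s = ∫_{[s₀, s]} D` -/
theorem imp_var (w : ℝ → R3) (D : ℝ → ℝ≥0∞) (s₀ s₁ V G : ℝ) (hV : 0 ≤ V) (hG : 0 ≤ G)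
    (hint : (∫⁻ r in Icc s₀ s₁, D r) ≤ ENNReal.ofReal V)
    (hp : ∀ s s', s₀ ≤ s → s ≤ s' → s' ≤ s₁ →
      ENNReal.ofReal ‖w s' - w s‖ ≤ (∫⁻ r in Icc s s', D r) + ENNReal.ofReal G) :
    ∃ v : ℝ → ℝ, Monotone v ∧ v s₁ - v s₀ ≤ V ∧
      ∀ s s', s₀ ≤ s → s ≤ s' → s' ≤ s₁ → ‖w s' - w s‖ ≤ v s' - v s + G := by
  have hle : ∀ s, (∫⁻ r in Icc s₀ (min s s₁), D r) ≤ ENNReal.ofReal V := fun s =>
    (lintegral_mono_set (Icc_subset_Icc_right (min_le_right _ _))).trans hint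
  have hfin : ∀ s, (∫⁻ r in Icc s₀ (min s s₁), D r) ≠ ∞ := fun s =>
    ne_top_of_le_ne_top ENNReal.ofReal_ne_top (hle s)
  refine ⟨fun s => (∫⁻ r in Icc s₀ (min s s₁), D r).toReal, ?_, ?_, ?_⟩
  · intro s s' h
    exact ENNReal.toReal_mono (hfin s') (lintegral_mono_set (Icc_subset_Icc_right (min_le_min_right _ h)))
  · have h1 : (∫⁻ r in Icc s₀ (min s₁ s₁), D r).toReal ≤ V := ENNReal.toReal_le_of_le_ofReal hV (hle s₁)
    have h2 : 0 ≤ (∫⁻ r in Icc s₀ (min s₀ s₁), D r).toReal := ENNReal.toReal_nonneg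
    show (∫⁻ r in Icc s₀ (min s₁ s₁), D r).toReal - (∫⁻ r in Icc s₀ (min s₀ s₁), D r).toReal ≤ V
    linarith
  · intro s s' h0 h1 h2
    show _ ≤ (∫⁻ r in Icc s₀ (min s' s₁), D r).toReal - (∫⁻ r in Icc s₀ (min s s₁), D r).toReal + G
    have f1 := hfin s'
    have f2 := hfin s
    rw [min_eq_left h2] at f1 ⊢
    rw [min_eq_left (h1.trans h2)] at f2 ⊢
    have hsplit : (∫⁻ r in Icc s₀ s', D r) = (∫⁻ r in Icc s₀ s, D r) + ∫⁻ r in Icc s s', D r := by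
      rw [← Icc_union_Ioc_eq_Icc h0 h1, lintegral_union measurableSet_Ioc, setLIntegral_congr Ioc_ae_eq_Icc]
      rw [Set.disjoint_left]
      intro x hx hx'
      exact absurd hx.2 (not_le.2 hx'.1)
    have f3 : (∫⁻ r in Icc s s', D r) ≠ ∞ := by
      refine ne_top_of_le_ne_top f1 ?_
      rw [hsplit]; exact le_add_self
    rw [hsplit, ENNReal.toReal_add f2 f3]
    have h := hp s s' h0 h1 h2
    have h' := ENNReal.toReal_mono (ENNReal.add_ne_top.2 ⟨f3, ENNReal.ofReal_ne_top⟩) h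
    rw [ENNReal.toReal_ofReal (norm_nonneg _), ENNReal.toReal_add f3 ENNReal.ofReal_ne_top,
      ENNReal.toReal_ofReal hG] at h'
    linarith

/-- the integral of the majorant -/
theorem imp_int (F q : ℝ → ℝ) (hF : Measurable F) (Jr Jk Jh : ℝ → ℝ≥0∞) (s₀ s₁ c K₁ K₂ γ A B H L : ℝ)
    (hq : ∀ s ∈ Icc s₀ s₁, q s ≤ F s / γ)
    (hc : 0 ≤ c) (hK₁ : 0 ≤ K₁) (hK₂ : 0 ≤ K₂) (hγ : 0 < γ) (hA : 0 ≤ A) (hB : 0 ≤ B) (hH : 0 ≤ H)
    (hL : s₁ - s₀ ≤ L) (hL0 : 0 ≤ L)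
    (hf : ∀ s ∈ Icc s₀ s₁, ENNReal.ofReal (F s) ≤ ENNReal.ofReal c + ENNReal.ofReal K₁ * Jk s)
    (hr : (∫⁻ s in Icc s₀ s₁, Jr s) ≤ ENNReal.ofReal A) (hk : (∫⁻ s in Icc s₀ s₁, Jk s) ≤ ENNReal.ofReal B)
    (hh : ∀ s ∈ Icc s₀ s₁, Jh s ≤ ENNReal.ofReal H) :
    (∫⁻ s in Icc s₀ s₁, (ENNReal.ofReal c + ENNReal.ofReal K₂ * Jr s +
      ENNReal.ofReal K₂ * Jh s * ENNReal.ofReal (q s))) ≤
      ENNReal.ofReal (c * L + K₂ * A + K₂ * H / γ * (c * L + K₁ * B)) := by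
  have hvol : (∫⁻ _ in Icc s₀ s₁, ENNReal.ofReal c) ≤ ENNReal.ofReal (c * L) := by
    rw [setLIntegral_const, Real.volume_Icc, ← ENNReal.ofReal_mul hc]
    exact ENNReal.ofReal_le_ofReal (mul_le_mul_of_nonneg_left hL hc)
  have h1 : (∫⁻ s in Icc s₀ s₁, ENNReal.ofReal (F s)) ≤ ENNReal.ofReal (c * L + K₁ * B) := by
    calc _ ≤ ∫⁻ s in Icc s₀ s₁, (ENNReal.ofReal c + ENNReal.ofReal K₁ * Jk s) :=
          setLIntegral_mono' measurableSet_Icc hf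
      _ = (∫⁻ _ in Icc s₀ s₁, ENNReal.ofReal c) + ENNReal.ofReal K₁ * ∫⁻ s in Icc s₀ s₁, Jk s := by
          rw [lintegral_add_left measurable_const, lintegral_const_mul' _ _ ENNReal.ofReal_ne_top]
      _ ≤ ENNReal.ofReal (c * L) + ENNReal.ofReal K₁ * ENNReal.ofReal B := by gcongr
      _ = _ := by rw [← ENNReal.ofReal_mul hK₁, ← ENNReal.ofReal_add (by positivity) (by positivity)]
  have hm : Measurable fun s => ENNReal.ofReal (K₂ * H / γ) * ENNReal.ofReal (F s) :=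
    (ENNReal.measurable_ofReal.comp hF).const_mul _
  calc _ ≤ ∫⁻ s in Icc s₀ s₁, (ENNReal.ofReal c + ENNReal.ofReal K₂ * Jr s +
          ENNReal.ofReal (K₂ * H / γ) * ENNReal.ofReal (F s)) := by
        refine setLIntegral_mono' measurableSet_Icc fun s hs => ?_
        refine add_le_add le_rfl ?_
        calc _ ≤ ENNReal.ofReal K₂ * ENNReal.ofReal H * ENNReal.ofReal (F s / γ) := by
              gcongr
              · exact hh s hs
              · exact hq s hs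
          _ = _ := by
              rw [← ENNReal.ofReal_mul hK₂, ← ENNReal.ofReal_mul (by positivity),
                ← ENNReal.ofReal_mul (by positivity)]
              congr 1; ring
    _ = (∫⁻ _ in Icc s₀ s₁, ENNReal.ofReal c) + ENNReal.ofReal K₂ * (∫⁻ s in Icc s₀ s₁, Jr s) +
          ENNReal.ofReal (K₂ * H / γ) * ∫⁻ s in Icc s₀ s₁, ENNReal.ofReal (F s) := by
        rw [lintegral_add_right _ hm, lintegral_add_left measurable_const,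
          lintegral_const_mul' _ _ ENNReal.ofReal_ne_top, lintegral_const_mul' _ _ ENNReal.ofReal_ne_top]
    _ ≤ ENNReal.ofReal (c * L) + ENNReal.ofReal K₂ * ENNReal.ofReal A +
          ENNReal.ofReal (K₂ * H / γ) * ENNReal.ofReal (c * L + K₁ * B) := by gcongr
    _ = _ := by
        rw [← ENNReal.ofReal_mul hK₂, ← ENNReal.ofReal_mul (by positivity),
          ← ENNReal.ofReal_add (by positivity) (by positivity), ← ENNReal.ofReal_add (by positivity) (by positivity)]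

theorem imp_ev (K a b : ℝ) (hab : a < b) : ∀ᶠ γ : ℝ in atTop, K * γ ^ a ≤ γ ^ b := by
  have h := (tendsto_rpow_atTop (sub_pos.2 hab)).eventually_ge_atTop K
  filter_upwards [h, eventually_gt_atTop 0] with γ h1 h2
  have e : γ ^ b = γ ^ (b - a) * γ ^ a := by rw [← Real.rpow_add h2]; congr 1; ring
  rw [e]
  exact mul_le_mul_of_nonneg_right h1 (Real.rpow_nonneg h2.le _)

theorem imp_en_lip (v w : R3) : en v ≤ en w + ‖v - w‖ := by
  have hw : ‖w‖ ≤ en w := by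
    unfold en; apply Real.le_sqrt_of_sq_le; linarith
  have hw2 : en w ^ 2 = 1 + ‖w‖ ^ 2 := by
    unfold en; rw [Real.sq_sqrt]; positivity
  have h0 : 0 ≤ en w := Real.sqrt_nonneg _
  have h1 : ‖v‖ ≤ ‖w‖ + ‖v - w‖ := by
    calc ‖v‖ = ‖w + (v - w)‖ := by congr 1; abel
      _ ≤ _ := norm_add_le _ _
  unfold en at *
  apply Real.sqrt_le_iff.2
  refine ⟨by positivity, ?_⟩
  have h2 : ‖v‖ ^ 2 ≤ (‖w‖ + ‖v - w‖) ^ 2 := pow_le_pow_left₀ (norm_nonneg _) h1 2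
  nlinarith [norm_nonneg (v - w), mul_le_mul_of_nonneg_right hw (norm_nonneg (v - w))]

theorem imp_measF {Ω : Type} [MeasurableSpace Ω] {C : ℝ} (S : Sys Ω C) (o : Ω) :
    Measurable fun s => ‖S.F s o‖ := by
  have hY : Measurable fun s : ℝ => S.Y s o := S.mY.comp (measurable_id.prodMk measurable_const)
  have hW : Measurable fun s : ℝ => S.W s o := S.mW.comp (measurable_id.prodMk measurable_const)
  have hE : Measurable fun s : ℝ => S.E s (S.Y s o) := S.cE.measurable.comp (measurable_id.prodMk hY)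
  have hB : Measurable fun s : ℝ => S.B s (S.Y s o) := S.cB.measurable.comp (measurable_id.prodMk hY)
  have hc : Continuous fun p : R3 × R3 × R3 => force p.1 p.2.1 p.2.2 := by
    have hr : Continuous fun v : R3 => relVel v := by
      unfold relVel
      have h1 : Continuous fun v : R3 => Real.sqrt (1 + ‖v‖ ^ 2) := by fun_prop
      exact (h1.inv₀ fun v => (Real.sqrt_pos.2 (by positivity)).ne').smul continuous_id
    unfold force
    refine continuous_fst.add ?_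
    have h2 : Continuous fun q : R3 × R3 => cross3 q.1 q.2 := by
      unfold cross3
      fun_prop
    exact h2.comp ((hr.comp (continuous_snd.comp continuous_snd)).prodMk (continuous_fst.comp continuous_snd))
  exact (hc.measurable.comp (hE.prodMk (hB.prodMk hW))).norm

/-- the improvement step with abstract cone integrals -/
theorem imp_mid (C K₁ K₂ K₃ ε : ℝ) (hC : 0 ≤ C) (hK₁ : 0 ≤ K₁) (hK₂ : 0 ≤ K₂) (hK₃ : 0 ≤ K₃) (hε : 0 < ε) :
    ∃ e : ℝ, 0 < e ∧ e ≤ 1 ∧ ∀ᶠ γ : ℝ in atTop, ∀ (w : ℝ → R3) (F q : ℝ → ℝ) (Jr Jk Jh : ℝ → ℝ≥0∞) (s₀ s₁ : ℝ),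
      Measurable F → s₁ - s₀ ≤ C → (∀ s ∈ Icc s₀ s₁, q s ≤ F s / (γ / 2)) →
      (∀ s ∈ Icc s₀ s₁, ENNReal.ofReal (F s) ≤ ENNReal.ofReal (2 * C) + ENNReal.ofReal K₁ * Jk s) →
      (∫⁻ s in Icc s₀ s₁, Jr s) ≤ ENNReal.ofReal (K₃ * e * γ) →
      (∫⁻ s in Icc s₀ s₁, Jk s) ≤ ENNReal.ofReal (γ ^ (151 / 100 : ℝ)) →
      (∀ s ∈ Icc s₀ s₁, Jh s ≤ ENNReal.ofReal (γ ^ (46 / 100 : ℝ))) →
      (∀ s s', s₀ ≤ s → s ≤ s' → s' ≤ s₁ → ENNReal.ofReal ‖w s' - w s‖ ≤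
        (∫⁻ r in Icc s s', (ENNReal.ofReal (2 * C) + ENNReal.ofReal K₂ * Jr r +
          ENNReal.ofReal K₂ * Jh r * ENNReal.ofReal (q r))) + ENNReal.ofReal K₂ * (Jh s + Jh s')) →
      ∃ v : ℝ → ℝ, Monotone v ∧ v s₁ - v s₀ ≤ ε * γ ∧
        ∀ s s', s₀ ≤ s → s ≤ s' → s' ≤ s₁ → ‖w s' - w s‖ ≤ v s' - v s + γ ^ (47 / 100 : ℝ) := by
  have hd : 0 < K₂ * K₃ + 1 := by positivity
  refine ⟨min 1 (ε / 4 / (K₂ * K₃ + 1)), by positivity, min_le_left _ _, ?_⟩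
  set e := min 1 (ε / 4 / (K₂ * K₃ + 1)) with he
  have he0 : 0 < e := by positivity
  have he1 : K₂ * K₃ * e ≤ ε / 4 := by
    have h1 : e ≤ ε / 4 / (K₂ * K₃ + 1) := min_le_right _ _
    rw [le_div_iff₀ hd] at h1
    nlinarith
  filter_upwards [imp_ev (2 * C * C * 4 / ε) 0 1 one_pos, imp_ev (2 * K₂) (46 / 100) (47 / 100) (by norm_num),
    imp_ev (K₂ * 2 * (2 * C * C) * 4 / ε) (46 / 100) 2 (by norm_num),
    imp_ev (K₂ * 2 * K₁ * 4 / ε) (197 / 100) 2 (by norm_num), eventually_gt_atTop 0]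
    with γ e1 e2 e3 e4 hγ w F q Jr Jk Jh s₀ s₁ hF hL hq hf hr hk hh hp
  have hH : 0 ≤ γ ^ (46 / 100 : ℝ) := Real.rpow_nonneg hγ.le _
  have hB : 0 ≤ γ ^ (151 / 100 : ℝ) := Real.rpow_nonneg hγ.le _
  have hI := imp_int F q hF Jr Jk Jh s₀ s₁ (2 * C) K₁ K₂ (γ / 2) (K₃ * e * γ) (γ ^ (151 / 100 : ℝ))
    (γ ^ (46 / 100 : ℝ)) C hq (by positivity) hK₁ hK₂ (by positivity) (by positivity) hB hH hL hC hf hr hk hh
  refine imp_var w _ s₀ s₁ (ε * γ) (γ ^ (47 / 100 : ℝ)) (by positivity) (Real.rpow_nonneg hγ.le _)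
    (hI.trans (ENNReal.ofReal_le_ofReal ?_)) ?_
  · rw [Real.rpow_zero, Real.rpow_one, mul_one, div_le_iff₀ hε] at e1
    have e5 : γ ^ (197 / 100 : ℝ) = γ ^ (46 / 100 : ℝ) * γ ^ (151 / 100 : ℝ) := by
      rw [← Real.rpow_add hγ]; norm_num
    have e6 : γ ^ (2 : ℝ) = γ * γ := by rw [Real.rpow_two]; ring
    rw [e6, div_mul_eq_mul_div, div_le_iff₀ hε] at e3 e4
    rw [e5] at e4
    have h3 : K₂ * γ ^ (46 / 100 : ℝ) / (γ / 2) * (2 * C * C + K₁ * γ ^ (151 / 100 : ℝ)) ≤ ε * γ / 2 := by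
      rw [div_mul_eq_mul_div, div_le_iff₀ (by positivity)]
      nlinarith
    have h4 : K₂ * (K₃ * e * γ) ≤ ε / 4 * γ := by
      calc K₂ * (K₃ * e * γ) = K₂ * K₃ * e * γ := by ring
        _ ≤ _ := mul_le_mul_of_nonneg_right he1 hγ.le
    linarith
  · intro s s' h0 h1 h2
    refine (hp s s' h0 h1 h2).trans (add_le_add le_rfl ?_)
    calc _ ≤ ENNReal.ofReal K₂ * (ENNReal.ofReal (γ ^ (46 / 100 : ℝ)) + ENNReal.ofReal (γ ^ (46 / 100 : ℝ))) := by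
          gcongr
          · exact hh s ⟨h0, h1.trans h2⟩
          · exact hh s' ⟨h0.trans h1, h2⟩
      _ ≤ _ := by
          rw [← ENNReal.ofReal_add hH hH, ← ENNReal.ofReal_mul hK₂]
          exact ENNReal.ofReal_le_ofReal (by linarith)

/-- the energy stays in `[γ / 2, 2 γ]` -/
theorem imp_range : ∀ᶠ γ : ℝ in atTop, ∀ (w : ℝ → R3) (v : ℝ → ℝ) (s₀ s₁ : ℝ), en (w s₀) = γ → Monotone v →
    v s₁ - v s₀ ≤ 1 / 4 * γ → (∀ s s', s₀ ≤ s → s ≤ s' → s' ≤ s₁ →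
      ‖w s' - w s‖ ≤ v s' - v s + 2 * γ ^ (47 / 100 : ℝ)) → ∀ r ∈ Icc s₀ s₁, en (w r) ∈ Icc (γ / 2) (2 * γ) := by
  filter_upwards [imp_ev 8 (47 / 100) 1 (by norm_num), eventually_gt_atTop 0] with γ e1 hγ w v s₀ s₁ h0 hv h1 h2 r hr
  rw [Real.rpow_one] at e1
  have h3 := h2 s₀ r le_rfl hr.1 hr.2
  have h4 := hv hr.2
  have h5 := imp_en_lip (w r) (w s₀)
  have h6 := imp_en_lip (w s₀) (w r)
  rw [norm_sub_rev] at h6
  constructor <;> linarith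

theorem imp_P {p : ℝ → Prop} (h : ∀ᶠ γ : ℝ in atTop, p γ) {a : ℝ} (ha : 0 < a) :
    ∃ P₀ : ℝ, ∀ P, P₀ ≤ P → ∀ γ, P ^ a ≤ γ → p γ := by
  obtain ⟨g, hg⟩ := eventually_atTop.1 h
  obtain ⟨P₀, hP⟩ := eventually_atTop.1 ((tendsto_rpow_atTop ha).eventually_ge_atTop g)
  exact ⟨P₀, fun P h1 γ h2 => hg γ ((hP P h1).trans h2)⟩

end Crest.Agent.R106.A
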