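import Crest.Agent.R106.A.Cut
import Crest.Agent.R106.A.ImpCore

/-! R106/A (helper79): the improvement step `S_FORCE → S_PAIR → S_SUM → S_IMP`. -/

set_option autoImplicit false

open MeasureTheory Set Filter Crest.AnalysisR.VecCalc3 Crest.AnalysisR.PDE.RVM
open scoped ENNReal RealInnerProductSpace

noncomputable section
namespace Crest.Agent.R106.A

theorem imp_of (hF : S_FORCE) (hP : S_PAIR) (hS : S_SUM) : S_IMP := by
  intro C
  obtain ⟨K₁, hK₁, hF⟩ := hF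
  obtain ⟨K₂, hK₂, hP⟩ := hP
  obtain ⟨P₂, hP⟩ := hP C
  obtain ⟨K₃, hK₃, hS⟩ := hS C
  by_cases hC : 0 ≤ C
  swap
  · exact ⟨1, 0, one_pos, le_rfl, fun Ω _ S => absurd (zero_le_one.trans S.one_le) hC⟩
  obtain ⟨e, he0, he1, hmid⟩ := imp_mid C K₁ K₂ K₃ (1 / 1000) hC (by linarith) (by linarith) (by linarith)
    (by norm_num)
  obtain ⟨P₃, hS⟩ := hS e he0 he1
  obtain ⟨P₄, h4⟩ := imp_P ((hmid.and imp_range).and (eventually_gt_atTop 0)) (a := 56 / 100) (by norm_num)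
  refine ⟨e, max P₂ (max P₃ P₄), he0, he1, ?_⟩
  intro Ω _ S P t hP0 hbd ht0 htT hyp o s₀ s₁ h0 h01 h1 hlow hlen
  have hP2 : P₂ ≤ P := (le_max_left _ _).trans hP0
  have hP3 : P₃ ≤ P := ((le_max_left _ _).trans (le_max_right _ _)).trans hP0
  have hP4 : P₄ ≤ P := ((le_max_right _ _).trans (le_max_right _ _)).trans hP0
  obtain ⟨⟨hm, hr⟩, hγ⟩ := h4 P hP4 _ hlow
  obtain ⟨r1, r2, r3⟩ := hS P hP3 Ω S t o s₀ s₁ ⟨hbd, htT, hyp, h0, h01, h1, hlow, hlen⟩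
  obtain ⟨v₀, v1, v2, v3⟩ := hyp o s₀ s₁ h0 h01 h1 hlow hlen
  have hrange := hr (fun s => S.W s o) v₀ s₀ s₁ rfl v1 (by linarith) v3
  obtain ⟨v, w1, w2, w3⟩ := hm (fun s => S.W s o) (fun s => ‖S.F s o‖) (fun s => ‖S.F s o‖ / en (S.W s o))
    (fun s => S.J o s (S.rm P (en (S.W s₀ o)) o s)) (fun s => S.J o s (S.kII o s))
    (fun s => S.J o s (S.hk P (en (S.W s₀ o)) o s)) s₀ s₁ (imp_measF S o)
    (by linarith [S.T_le])
    (fun s hs => div_le_div_of_nonneg_left (norm_nonneg _) (by positivity) (hrange s hs).1)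
    (fun s hs => hF C Ω S o s ⟨h0.trans hs.1, hs.2.trans (h1.trans htT)⟩) r1 r2 r3
    (fun s s' a1 a2 a3 => hP P hP2 Ω S o (en (S.W s₀ o)) s s' (h0.trans a1) a2 (a3.trans (h1.trans htT)))
  refine ⟨v, w1, w2, fun s s' a1 a2 a3 => (w3 s s' a1 a2 a3).trans ?_⟩
  have := Real.rpow_nonneg hγ.le (47 / 100 : ℝ)
  linarith

end Crest.Agent.R106.A
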