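import Mathlib
import Crest.Agent.R106.A.Defs

/-! Pair kernels of the retarded interaction (helper37): definitions on top of `A/Defs`. -/

set_option autoImplicit false

namespace Crest.Agent.R106.A
open Crest.AnalysisR.VecCalc3 Crest.AnalysisR.PDE.RVM
open scoped RealInnerProductSpace

/-- `1 - n·Ŵ` (this is `a = α²` for the test momentum, `b = θ²` for the source momentum). -/
noncomputable abbrev dd (z W : R3) : ℝ := ang (dir z) W
/-- `c = 1 - V̂·Ŵ`. -/
noncomputable abbrev cc (V W : R3) : ℝ := ang (relVel V) W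
/-- Lorentz force on momentum `V` of the field `(E, n × E)`. -/
noncomputable def lor (z V E : R3) : R3 := dd z V • E + ⟪relVel V, E⟫ • dir z
/-- the boundary kernel `Γ` of identity (III). -/
noncomputable def Gam (z V W : R3) : R3 :=
  (cc V W / (dd z V * dd z W * ‖z‖)) • dir z - (dd z W * ‖z‖)⁻¹ • relVel W
    - (dd z V * ‖z‖)⁻¹ • relVel V
/-- effective size of a force `F` on `W` seen in direction `n`: `|Ŵ'_⊥| + |n·Ŵ'|/θ`. -/
noncomputable def effB (z W F : R3) : ℝ :=
  ‖acc W F - ⟪dir z, acc W F⟫ • dir z‖ + |⟪dir z, acc W F⟫| / Real.sqrt (dd z W)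
/-- same with the energy rate `θ|Ŵ·F|/⟨W⟩`. -/
noncomputable def effA (z W F : R3) : ℝ :=
  effB z W F + Real.sqrt (dd z W) * |⟪relVel W, F⟫| / en W

end Crest.Agent.R106.A
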