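import Crest.Agent.R106.A.Ker

/-! Basic facts on the pair kernels. -/

set_option autoImplicit false

namespace Crest.Agent.R106.A
open Crest.AnalysisR.VecCalc3 Crest.AnalysisR.PDE.RVM
open scoped RealInnerProductSpace

theorem en_sq (W : R3) : en W ^ 2 = 1 + ‖W‖ ^ 2 := by
  unfold en; rw [Real.sq_sqrt]; positivity

theorem one_le_en (W : R3) : 1 ≤ en W := by
  unfold en; rw [Real.one_le_sqrt]; nlinarith [sq_nonneg ‖W‖]

theorem en_pos (W : R3) : 0 < en W := lt_of_lt_of_le one_pos (one_le_en W)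

theorem norm_le_en (W : R3) : ‖W‖ ≤ en W := by
  unfold en; apply Real.le_sqrt_of_sq_le; linarith

theorem relVel_eq (W : R3) : relVel W = (en W)⁻¹ • W := rfl

theorem norm_relVel_sq (W : R3) : ‖relVel W‖ ^ 2 = 1 - (en W ^ 2)⁻¹ := by
  have h := en_pos W
  have h2 := en_sq W
  rw [relVel_eq, norm_smul, mul_pow, Real.norm_eq_abs, sq_abs]
  have : ‖W‖ ^ 2 = en W ^ 2 - 1 := by linarith
  rw [this]; field_simp

theorem norm_relVel_lt_one (W : R3) : ‖relVel W‖ < 1 := by
  have h := norm_relVel_sq W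
  have h1 : 0 < (en W ^ 2)⁻¹ := by have := en_pos W; positivity
  nlinarith [norm_nonneg (relVel W)]

theorem inner_relVel_self (W : R3) : ⟪relVel W, relVel W⟫ = 1 - (en W ^ 2)⁻¹ := by
  rw [real_inner_self_eq_norm_sq, norm_relVel_sq]

theorem norm_dir {z : R3} (hz : z ≠ 0) : ‖dir z‖ = 1 := by
  unfold dir
  rw [norm_smul, norm_inv, norm_norm]
  exact inv_mul_cancel₀ (norm_ne_zero_iff.2 hz)

theorem inner_dir_self {z : R3} (hz : z ≠ 0) : ⟪dir z, dir z⟫ = 1 := by
  rw [real_inner_self_eq_norm_sq, norm_dir hz]; norm_num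

theorem norm_smul_dir (z : R3) : ‖z‖ • dir z = z := by
  unfold dir
  by_cases hz : z = 0
  · simp [hz]
  · rw [smul_smul, mul_inv_cancel₀ (norm_ne_zero_iff.2 hz), one_smul]

theorem inner_dir_relVel (z W : R3) : ⟪dir z, relVel W⟫ = 1 - dd z W := by
  unfold dd ang; ring

theorem norm_dir_sub_sq {z : R3} (hz : z ≠ 0) (W : R3) :
    ‖dir z - relVel W‖ ^ 2 = 2 * dd z W - (en W ^ 2)⁻¹ := by
  rw [norm_sub_sq_real, norm_dir hz, norm_relVel_sq, inner_dir_relVel]; ring

theorem inv_en_sq_le {z : R3} (hz : z ≠ 0) (W : R3) : (en W ^ 2)⁻¹ ≤ 2 * dd z W := by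
  have := norm_dir_sub_sq hz W
  nlinarith [sq_nonneg ‖dir z - relVel W‖]

theorem dd_pos {z : R3} (hz : z ≠ 0) (W : R3) : 0 < dd z W := by
  have h := inv_en_sq_le hz W
  have h1 : 0 < (en W ^ 2)⁻¹ := by have := en_pos W; positivity
  linarith

theorem dd_le_two {z : R3} (hz : z ≠ 0) (W : R3) : dd z W ≤ 2 := by
  have h := abs_real_inner_le_norm (dir z) (relVel W)
  rw [norm_dir hz, one_mul, inner_dir_relVel] at h
  have := norm_relVel_lt_one W
  have := neg_abs_le (1 - dd z W)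
  linarith

theorem norm_dir_sub_sq_le {z : R3} (hz : z ≠ 0) (W : R3) :
    ‖dir z - relVel W‖ ^ 2 ≤ 2 * dd z W := by
  rw [norm_dir_sub_sq hz]
  have h1 : 0 < (en W ^ 2)⁻¹ := by have := en_pos W; positivity
  linarith

/-- the component of `Ŵ` orthogonal to `n`. -/
noncomputable def pp (z W : R3) : R3 := relVel W - (1 - dd z W) • dir z

theorem relVel_decomp (z W : R3) : relVel W = (1 - dd z W) • dir z + pp z W := by
  unfold pp; abel

theorem inner_dir_pp {z : R3} (hz : z ≠ 0) (W : R3) : ⟪dir z, pp z W⟫ = 0 := by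
  unfold pp
  rw [inner_sub_right, inner_smul_right, inner_dir_self hz, inner_dir_relVel]; ring

theorem norm_pp_sq {z : R3} (hz : z ≠ 0) (W : R3) :
    ‖pp z W‖ ^ 2 = 2 * dd z W - dd z W ^ 2 - (en W ^ 2)⁻¹ := by
  unfold pp
  rw [norm_sub_sq_real, norm_smul, norm_dir hz, norm_relVel_sq, inner_smul_right,
    real_inner_comm, inner_dir_relVel, Real.norm_eq_abs, mul_one, sq_abs]; ring

theorem norm_pp_sq_le {z : R3} (hz : z ≠ 0) (W : R3) : ‖pp z W‖ ^ 2 ≤ 2 * dd z W := by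
  rw [norm_pp_sq hz]
  have h1 : 0 < (en W ^ 2)⁻¹ := by have := en_pos W; positivity
  nlinarith [sq_nonneg (dd z W)]

theorem norm_pp_le {z : R3} (hz : z ≠ 0) (W : R3) :
    ‖pp z W‖ ≤ Real.sqrt 2 * Real.sqrt (dd z W) := by
  rw [← Real.sqrt_mul (by norm_num)]
  exact Real.le_sqrt_of_sq_le (norm_pp_sq_le hz W)

theorem norm_dir_sub_le {z : R3} (hz : z ≠ 0) (W : R3) :
    ‖dir z - relVel W‖ ≤ Real.sqrt 2 * Real.sqrt (dd z W) := by
  rw [← Real.sqrt_mul (by norm_num)]
  exact Real.le_sqrt_of_sq_le (norm_dir_sub_sq_le hz W)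

theorem cc_eq {z : R3} (hz : z ≠ 0) (V W : R3) :
    cc V W = dd z V + dd z W - dd z V * dd z W - ⟪pp z V, pp z W⟫ := by
  unfold cc ang
  conv_lhs => rw [relVel_decomp z V, relVel_decomp z W]
  rw [inner_add_left, inner_add_right, inner_add_right, inner_smul_left, inner_smul_right,
    inner_smul_left, inner_smul_right, inner_dir_self hz, inner_dir_pp hz,
    real_inner_comm, inner_dir_pp hz]
  simp only [conj_trivial]; ring

theorem cc_comm (V W : R3) : cc V W = cc W V := by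
  unfold cc ang; rw [real_inner_comm]

theorem abs_inner_pp_le {z : R3} (hz : z ≠ 0) (V W : R3) :
    |⟪pp z V, pp z W⟫| ≤ 2 * (Real.sqrt (dd z V) * Real.sqrt (dd z W)) := by
  have h := abs_real_inner_le_norm (pp z V) (pp z W)
  have h1 := norm_pp_le hz V
  have h2 := norm_pp_le hz W
  have h3 : Real.sqrt 2 * Real.sqrt 2 = 2 := Real.mul_self_sqrt (by norm_num)
  calc _ ≤ _ := h
    _ ≤ (Real.sqrt 2 * Real.sqrt (dd z V)) * (Real.sqrt 2 * Real.sqrt (dd z W)) :=
        mul_le_mul h1 h2 (norm_nonneg _) (by positivity)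
    _ = (Real.sqrt 2 * Real.sqrt 2) * (Real.sqrt (dd z V) * Real.sqrt (dd z W)) := by ring
    _ = _ := by rw [h3]

theorem hasDerivAt_norm_of_ne {z : ℝ → R3} {z' : R3} {s : ℝ} (h : HasDerivAt z z' s)
    (hz : z s ≠ 0) : HasDerivAt (fun t => ‖z t‖) ⟪dir (z s), z'⟫ s := by
  have h1 : HasDerivAt (fun t => ‖z t‖ ^ 2) (2 * ⟪z s, z'⟫) s := by
    simpa using h.norm_sq
  have hp : 0 < ‖z s‖ := norm_pos_iff.2 hz
  have h2 := h1.sqrt (by positivity)
  simp only [Real.sqrt_sq (norm_nonneg _)] at h2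
  convert h2 using 1
  unfold dir
  rw [inner_smul_left]; simp only [conj_trivial]; field_simp

theorem hasDerivAt_dir {z : ℝ → R3} {z' : R3} {s : ℝ} (h : HasDerivAt z z' s)
    (hz : z s ≠ 0) :
    HasDerivAt (fun t => dir (z t)) (‖z s‖⁻¹ • (z' - ⟪dir (z s), z'⟫ • dir (z s))) s := by
  have hp : 0 < ‖z s‖ := norm_pos_iff.2 hz
  have h1 := (hasDerivAt_norm_of_ne h hz).inv hp.ne'
  have h2 := h1.smul h
  refine HasDerivAt.congr_deriv h2 (Eq.symm ?_)
  have e : z s = ‖z s‖ • dir (z s) := (norm_smul_dir _).symm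
  have e2 : (-⟪dir (z s), z'⟫ / ‖z s‖ ^ 2) • z s
      = (-(‖z s‖⁻¹ * ⟪dir (z s), z'⟫)) • dir (z s) := by
    conv_lhs => rw [e]
    rw [smul_smul]; congr 1
    rw [← e]; field_simp
  simp only [Pi.inv_apply]
  rw [e2, smul_sub, smul_smul, neg_smul]; abel

theorem hasDerivAt_en {W : ℝ → R3} {F : R3} {s : ℝ} (h : HasDerivAt W F s) :
    HasDerivAt (fun t => en (W t)) ⟪relVel (W s), F⟫ s := by
  have h1 : HasDerivAt (fun t => 1 + ‖W t‖ ^ 2) (2 * ⟪W s, F⟫) s := by
    simpa using h.norm_sq.const_add 1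
  have h2 := h1.sqrt (by positivity)
  refine HasDerivAt.congr_deriv h2 (Eq.symm ?_)
  have := en_pos (W s)
  rw [relVel_eq, inner_smul_left]; simp only [conj_trivial]
  change _ = 2 * ⟪W s, F⟫ / (2 * en (W s))
  field_simp

theorem hasDerivAt_relVel {W : ℝ → R3} {F : R3} {s : ℝ} (h : HasDerivAt W F s) :
    HasDerivAt (fun t => relVel (W t)) (acc (W s) F) s := by
  have hp := en_pos (W s)
  have h1 := (hasDerivAt_en h).inv hp.ne'
  have h2 := h1.smul h
  refine HasDerivAt.congr_deriv h2 (Eq.symm ?_)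
  unfold acc
  simp only [Pi.inv_apply]
  have e : W s = en (W s) • relVel (W s) := by
    rw [relVel_eq, smul_smul, mul_inv_cancel₀ hp.ne', one_smul]
  have e2 : (-⟪relVel (W s), F⟫ / en (W s) ^ 2) • W s
      = (-((en (W s))⁻¹ * ⟪relVel (W s), F⟫)) • relVel (W s) := by
    conv_lhs => rw [e]
    rw [smul_smul]; congr 1
    rw [← e]; field_simp
  rw [e2, smul_sub, smul_smul, neg_smul]; abel

theorem acc_smul (W F : R3) (k : ℝ) : acc W (k • F) = k • acc W F := by
  unfold acc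
  rw [inner_smul_right, smul_comm k, smul_sub k, smul_smul k]

theorem acc_add (W F G : R3) : acc W (F + G) = acc W F + acc W G := by
  unfold acc
  rw [inner_add_right, add_smul, ← smul_add]; congr 1; abel

/-- Lorentz force of `(E, n × E)`. -/
theorem force_cross (z V E : R3) : force E (cross3 (dir z) E) V = lor z V E := by
  unfold force lor dd ang
  generalize dir z = n
  generalize relVel V = u
  ext i
  fin_cases i <;>
    simp [cross3, PiLp.inner_apply, Fin.sum_univ_three] <;> ring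

end Crest.Agent.R106.A
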