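import Mathlib

/-! # R106/A/LpCore (helper69): the log-linear inequalities behind the sum over boxes.
`p = log P`, `q = log K`, `g = log γ`, `m = log M`, `a = log A`, `b = log Bb`, `c = log Cc`, `r = log R`, `l = log ℓ`, `n = log N`,
`i = log I`, `t` = logarithm of the contribution of the box. -/

set_option autoImplicit false
set_option linter.unusedVariables false

namespace Crest.Agent.R106.A

/-- the constraints satisfied by a nonempty box and the bounds of `I` -/
structure Lg (p q g m a b c r l n i : ℝ) : Prop where
  p0 : 0 ≤ p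
  q0 : 0 ≤ q
  g1 : 56 / 100 * p ≤ g
  g2' : g ≤ p
  m1 : -q ≤ m
  m2 : m ≤ p
  a2 : a ≤ q
  b2 : b ≤ q
  c2 : c ≤ q
  a1 : -2 * g - q ≤ a
  b1 : -2 * m - q ≤ b
  c1 : -2 * g - q ≤ c
  c1' : -2 * m - q ≤ c
  r2 : r ≤ q
  l2 : l ≤ 2 * g - 2 * p
  l1 : 2 * g - 2 * p - 1 / 1000 * p ≤ l
  n0 : 0 ≤ n
  nu : n ≤ q ∨ n ≤ q + 2 * g - 2 * m
  ta : a ≤ q + b ∨ a ≤ q + c
  tb : b ≤ q + a ∨ b ≤ q + c
  tc : c ≤ q + a ∨ c ≤ q + b
  iv : i ≤ q + l + 3 * m + b + a + 3 * r
  iv' : i ≤ q + l + 3 * m + c + a + 3 * r
  ic : i ≤ q + l - m - b
  ie : i ≤ q + l - m - a ∨ i ≤ q + r - m - a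
  pa : m ≤ 58 / 100 * p ∨ c ≤ -(104 / 100) * g ∨ c ≤ -(104 / 100) * m ∨ i ≤ q + n + r - m - 3 / 2 * c

/-- outside `{χ = 1}` -/
def LgNo (p q g m a b r : ℝ) : Prop :=
  a ≤ q + b ∨ 9 / 20 * g ≤ q + 3 * m + 3 / 2 * b + 2 * r ∨ 20 * m + r ≤ q + 5 * p

/-- on the support of `χ` -/
def LgSupp (p q g m a b c r : ℝ) : Prop :=
  b ≤ q + a ∧ a ≤ q + c ∧ 3 * m + 3 / 2 * b + 2 * r ≤ q + 9 / 20 * g ∧ 5 * p ≤ q + 20 * m + r

/-- the critical bound -/
def LgCrit (q m a b c r l n t : ℝ) : Prop :=
  t ≤ 10 * q + m + (l + n) / 2 + 1 / 400 * (a + b + c) - 1 / 200 * (r - ((n - l) / 2 - 2 * m)) ∧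
  t ≤ 10 * q + m + (l + n) / 2 + 1 / 400 * (a + b + c) + 1 / 200 * (r - ((n - l) / 2 - 2 * m))

/-- the subcritical bound with main term `x` -/
def LgSub (p q x r t : ℝ) : Prop :=
  t ≤ 10 * q + x - 1 / 200 * p ∧ t ≤ 10 * q + x - 1 / 200 * p + 1 / 200 * (r + 10 * p)

variable {p q g m a b c r l n i t : ℝ}

theorem lg_T (h : Lg p q g m a b c r l n i) (no : LgNo p q g m a b r)
    (tt : t ≤ q + a / 2 - 2 * m - 3 / 2 * b - 2 * r + i ∨ t ≤ q + b / 2 - 2 * m - 3 / 2 * b - 2 * r + i) :
    LgCrit q m a b c r l n t ∨ LgSub p q g r t := by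
  obtain ⟨p0, q0, g1', g2', m1, m2, a2, b2, c2, a1, b1, c1, c1', r2, l2, l1, n0, nu, ta, tb, tc, iv, iv', ic, ie, pa⟩ := h
  unfold LgNo at no
  by_contra hg
  simp only [LgCrit, LgSub, not_or, not_and_or, not_le] at hg
  obtain ⟨g1, g2⟩ := hg
  rcases g2 with g2 | g2
  · rcases tt with tt | tt
    · rcases no with no | no | no
      · linarith
      · rcases ie with ie | ie
        · linarith
        · linarith
      · linarith
    · rcases ie with ie | ie
      · linarith
      · linarith
  · rcases tt with tt | tt
    · rcases no with no | no | no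
      · linarith
      · rcases ie with ie | ie
        · linarith
        · linarith
      · linarith
    · linarith

theorem lg_Sg (h : Lg p q g m a b c r l n i) (no : LgNo p q g m a b r)
    (t1 : t ≤ q + a / 2 - m - b - r + (3 * m + b + l + i) / 2)
    (t2 : t ≤ q + a / 2 - m - b - r + (3 * m + c + l + i) / 2) :
    LgCrit q m a b c r l n t ∨ LgSub p q g r t := by
  obtain ⟨p0, q0, g1', g2', m1, m2, a2, b2, c2, a1, b1, c1, c1', r2, l2, l1, n0, nu, ta, tb, tc, iv, iv', ic, ie, pa⟩ := h
  unfold LgNo at no
  by_contra hg
  simp only [LgCrit, LgSub, not_or, not_and_or, not_le] at hg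
  obtain ⟨g1, g2⟩ := hg
  rcases g2 with g2 | g2
  · rcases no with no | no | no
    · rcases ie with ie | ie
      · rcases pa with pa | pa | pa | pa
        · linarith
        · linarith
        · linarith
        · rcases g1 with g1 | g1
          · linarith
          · linarith
      · rcases g1 with g1 | g1
        · linarith
        · linarith
    · rcases ie with ie | ie
      · rcases pa with pa | pa | pa | pa
        · linarith
        · rcases ta with ta | ta
          · linarith
          · linarith
        · rcases ta with ta | ta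
          · linarith
          · linarith
        · rcases g1 with g1 | g1
          · rcases ta with ta | ta
            · linarith
            · linarith
          · rcases ta with ta | ta
            · linarith
            · linarith
      · linarith
    · linarith
  · rcases no with no | no | no
    · rcases ie with ie | ie
      · rcases pa with pa | pa | pa | pa
        · linarith
        · linarith
        · linarith
        · rcases nu with nu | nu
          · linarith
          · linarith
      · linarith
    · rcases ie with ie | ie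
      · rcases pa with pa | pa | pa | pa
        · linarith
        · linarith
        · linarith
        · rcases nu with nu | nu
          · rcases ta with ta | ta
            · linarith
            · linarith
          · rcases ta with ta | ta
            · linarith
            · linarith
      · linarith
    · linarith

theorem lg_Sb (h : Lg p q g m a b c r l n i) (no : LgNo p q g m a b r)
    (tt : (t ≤ q + a / 2 - m - r + (3 * m + b + l - a + i) / 2 ∧ t ≤ q + a / 2 - m - r + (3 * m + c + l - a + i) / 2) ∨
      (t ≤ q + a / 2 - m - r + (3 * m + b + r - a + i) / 2 ∧ t ≤ q + a / 2 - m - r + (3 * m + c + r - a + i) / 2)) :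
    LgCrit q m a b c r l n t ∨ LgSub p q g r t := by
  obtain ⟨p0, q0, g1', g2', m1, m2, a2, b2, c2, a1, b1, c1, c1', r2, l2, l1, n0, nu, ta, tb, tc, iv, iv', ic, ie, pa⟩ := h
  unfold LgNo at no
  by_contra hg
  simp only [LgCrit, LgSub, not_or, not_and_or, not_le] at hg
  obtain ⟨g1, g2⟩ := hg
  rcases g2 with g2 | g2
  · rcases tt with ⟨t1, t2⟩ | ⟨t1, t2⟩
    · rcases ie with ie | ie
      · rcases pa with pa | pa | pa | pa
        · linarith
        · linarith
        · linarith
        · rcases g1 with g1 | g1
          · linarith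
          · linarith
      · rcases g1 with g1 | g1
        · rcases pa with pa | pa | pa | pa
          · linarith
          · linarith
          · linarith
          · linarith
        · linarith
    · linarith
  · rcases tt with ⟨t1, t2⟩ | ⟨t1, t2⟩
    · rcases ie with ie | ie
      · rcases pa with pa | pa | pa | pa
        · linarith
        · linarith
        · linarith
        · rcases nu with nu | nu
          · linarith
          · linarith
      · linarith
    · linarith

theorem lg_Rev (h : Lg p q g m a b c r l n i) (su : LgSupp p q g m a b c r)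
    (t1 : t ≤ q - 2 * g - a - 2 * r + i) :
    LgCrit q m a b c r l n t ∨ LgSub p q g r t := by
  obtain ⟨p0, q0, g1', g2', m1, m2, a2, b2, c2, a1, b1, c1, c1', r2, l2, l1, n0, nu, ta, tb, tc, iv, iv', ic, ie, pa⟩ := h
  obtain ⟨s1, s2, s3, s4⟩ := su
  by_contra hg
  simp only [LgCrit, LgSub, not_or, not_and_or, not_le] at hg
  obtain ⟨g1, g2⟩ := hg
  rcases g1 with g1 | g1
  · linarith
  · linarith

theorem lg_Geo (h : Lg p q g m a b c r l n i) (no : LgNo p q g m a b r) (su : LgSupp p q g m a b c r)
    (t1 : t ≤ q + a / 2 - b / 2 - 2 * r + i) :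
    LgCrit q m a b c r l n t ∨ LgSub p q g r t := by
  obtain ⟨p0, q0, g1', g2', m1, m2, a2, b2, c2, a1, b1, c1, c1', r2, l2, l1, n0, nu, ta, tb, tc, iv, iv', ic, ie, pa⟩ := h
  unfold LgNo at no
  obtain ⟨s1, s2, s3, s4⟩ := su
  by_contra hg
  simp only [LgCrit, LgSub, not_or, not_and_or, not_le] at hg
  obtain ⟨g1, g2⟩ := hg
  rcases g2 with g2 | g2
  · rcases ie with ie | ie
    · rcases pa with pa | pa | pa | pa
      · linarith
      · linarith
      · linarith
      · rcases nu with nu | nu
        · rcases g1 with g1 | g1
          · rcases no with no | no | no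
            · linarith
            · linarith
            · linarith
          · linarith
        · rcases g1 with g1 | g1
          · rcases no with no | no | no
            · linarith
            · linarith
            · linarith
          · linarith
    · rcases g1 with g1 | g1
      · rcases no with no | no | no
        · linarith
        · linarith
        · linarith
      · linarith
  · rcases ie with ie | ie
    · rcases pa with pa | pa | pa | pa
      · linarith
      · linarith
      · linarith
      · rcases nu with nu | nu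
        · linarith
        · linarith
    · linarith

theorem lg_IIT (h : Lg p q g m a b c r l n i)
    (tt : t ≤ q + a / 2 - 2 * m - 3 / 2 * b - 2 * r + i ∨ t ≤ q + b / 2 - 2 * m - 3 / 2 * b - 2 * r + i) :
    LgSub p q (151 / 100 * g) r t := by
  obtain ⟨p0, q0, g1', g2', m1, m2, a2, b2, c2, a1, b1, c1, c1', r2, l2, l1, n0, nu, ta, tb, tc, iv, iv', ic, ie, pa⟩ := h
  by_contra g2
  simp only [LgSub, not_and_or, not_le] at g2
  rcases g2 with g2 | g2
  · rcases tt with tt | tt
    · rcases ie with ie | ie
      · linarith
      · linarith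
    · linarith
  · rcases tt with tt | tt
    · rcases ie with ie | ie
      · linarith
      · linarith
    · linarith

theorem lg_IISg (h : Lg p q g m a b c r l n i)
    (t1 : t ≤ q + a / 2 - m - b - r + (3 * m + b + l + i) / 2)
    (t2 : t ≤ q + a / 2 - m - b - r + (3 * m + c + l + i) / 2) :
    LgSub p q (151 / 100 * g) r t := by
  obtain ⟨p0, q0, g1', g2', m1, m2, a2, b2, c2, a1, b1, c1, c1', r2, l2, l1, n0, nu, ta, tb, tc, iv, iv', ic, ie, pa⟩ := h
  by_contra g2
  simp only [LgSub, not_and_or, not_le] at g2
  rcases g2 with g2 | g2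
  · rcases ie with ie | ie
    · rcases ta with ta | ta
      · linarith
      · rcases tc with tc | tc
        · rcases pa with pa | pa | pa | pa
          · linarith
          · linarith
          · linarith
          · rcases nu with nu | nu
            · linarith
            · linarith
        · linarith
    · linarith
  · rcases ie with ie | ie
    · rcases ta with ta | ta
      · linarith
      · rcases tc with tc | tc
        · rcases pa with pa | pa | pa | pa
          · linarith
          · linarith
          · linarith
          · rcases nu with nu | nu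
            · linarith
            · linarith
        · linarith
    · linarith

theorem lg_IISb (h : Lg p q g m a b c r l n i)
    (tt : (t ≤ q + a / 2 - m - r + (3 * m + b + l - a + i) / 2 ∧ t ≤ q + a / 2 - m - r + (3 * m + c + l - a + i) / 2) ∨
      (t ≤ q + a / 2 - m - r + (3 * m + b + r - a + i) / 2 ∧ t ≤ q + a / 2 - m - r + (3 * m + c + r - a + i) / 2)) :
    LgSub p q (151 / 100 * g) r t := by
  obtain ⟨p0, q0, g1', g2', m1, m2, a2, b2, c2, a1, b1, c1, c1', r2, l2, l1, n0, nu, ta, tb, tc, iv, iv', ic, ie, pa⟩ := h
  by_contra g2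
  simp only [LgSub, not_and_or, not_le] at g2
  rcases g2 with g2 | g2
  · rcases tt with ⟨t1, t2⟩ | ⟨t1, t2⟩
    · linarith
    · linarith
  · rcases tt with ⟨t1, t2⟩ | ⟨t1, t2⟩
    · linarith
    · linarith

end Crest.Agent.R106.A
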