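import Crest.Agent.R106.A.Lp

/-! # R106/A/LpG (helper44): exponent inequalities -/

set_option autoImplicit false

namespace Crest.Agent.R106.A

variable {p g m X Y W r l ν i k : ℝ}

set_option maxHeartbeats 0 in
theorem lpG (h : LP p g m X Y W r l ν i k) (ho : Out p g m X Y r k) : Good p g m X Y W r l ν k (tG m X Y W r l i) := by
  obtain ⟨⟨k0, p0, g0, g1, m0, m1, X0, Y0, W0, r0, X1, Y1, W1, W2, t1, t2, t3⟩, l1, l0, n0, n1, ivY, ivW, ic, ie, ip⟩ := h
  refine good_of fun d hd h1 h2 => ?_
  unfold tG at h1 h2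
  rcases le_total Y W with hxy | hxy <;> simp only [max_eq_left, max_eq_right, hxy] at h1 h2 <;>
  rcases ho with ho | ho | ho <;> (first | linarith | (rcases ip with ip | ip | ip | ip <;> (first | linarith | (rcases ie with ie | ie <;> (first | linarith | (rcases t3 with t3 | t3 <;> (first | linarith | (rcases n1 with n1 | n1 <;> (first | linarith | (rcases t1 with t1 | t1 <;> (first | linarith | (rcases t2 with t2 | t2 <;> (first | linarith | (rcases hd with ⟨hd, hd0⟩ | ⟨hd, hd0⟩ <;> (linarith)))))))))))))))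

set_option maxHeartbeats 0 in
theorem lpFG (h : LP p g m X Y W r l ν i k) : tG m X Y W r l i ≤ 100 * k + 1505 / 1000 * g - dec m X Y W r := by
  obtain ⟨⟨k0, p0, g0, g1, m0, m1, X0, Y0, W0, r0, X1, Y1, W1, W2, t1, t2, t3⟩, l1, l0, n0, n1, ivY, ivW, ic, ie, ip⟩ := h
  by_contra h1
  unfold tG dec at h1
  rw [not_le] at h1
  rcases le_total Y W with hxy | hxy <;> simp only [max_eq_left, max_eq_right, hxy] at h1 <;>
  rcases ip with ip | ip | ip | ip <;> (first | linarith | (rcases ie with ie | ie <;> (first | linarith | (rcases t3 with t3 | t3 <;> (first | linarith | (rcases n1 with n1 | n1 <;> (first | linarith | (rcases t1 with t1 | t1 <;> (first | linarith | (rcases t2 with t2 | t2 <;> (linarith)))))))))))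

end Crest.Agent.R106.A
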