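import Crest.Agent.R106.A.Cut

/-! R106/A (helper9): ranges and measurability of `a, b, c` and of the kernel sizes. -/

set_option autoImplicit false

open MeasureTheory Set Filter Topology Crest.AnalysisR.VecCalc3 Crest.AnalysisR.PDE.RVM
open scoped ENNReal RealInnerProductSpace

noncomputable section
namespace Crest.Agent.R106.A

theorem norm_dir_le (z : R3) : ‖dir z‖ ≤ 1 := by
  by_cases hz : z = 0
  · simp [hz, dir]
  · exact (norm_dir hz).le

theorem ang_bounds {n : R3} (hn : ‖n‖ ≤ 1) (v : R3) : (2 * en v ^ 2)⁻¹ ≤ ang n v ∧ 0 < ang n v ∧ ang n v ≤ 2 := by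
  have h1 := abs_real_inner_le_norm n (relVel v)
  have h2 := norm_relVel_sq v
  have h3 := norm_relVel_lt_one v
  have h4 := norm_nonneg (relVel v)
  have h5 : ‖n‖ * ‖relVel v‖ ≤ ‖relVel v‖ := by nlinarith
  have h6 := le_abs_self ⟪n, relVel v⟫
  have h7 := neg_abs_le ⟪n, relVel v⟫
  have h8 : (2 * en v ^ 2)⁻¹ = (en v ^ 2)⁻¹ / 2 := by rw [mul_inv]; ring
  unfold ang
  refine ⟨?_, by linarith, by linarith⟩
  rw [h8]; nlinarith [sq_nonneg (1 - ‖relVel v‖)]

theorem continuous_en : Continuous en := by unfold en; fun_prop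

theorem continuous_relVel' : Continuous relVel := by
  have : relVel = fun v => (en v)⁻¹ • v := rfl
  rw [this]
  exact (continuous_en.inv₀ fun v => (en_pos v).ne').smul continuous_id

theorem measurable_dir : Measurable dir := by
  unfold dir
  exact measurable_norm.inv.smul measurable_id

theorem measurable_ang {X : Type*} [MeasurableSpace X] {n v : X → R3} (hn : Measurable n) (hv : Measurable v) :
    Measurable fun x => ang (n x) (v x) := by
  unfold ang
  exact measurable_const.sub (hn.inner (continuous_relVel'.measurable.comp hv))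

namespace Sys
variable {Ω : Type} [MeasurableSpace Ω] {C : ℝ} (S : Sys Ω C)

theorem a_bounds (o : Ω) (s : ℝ) (ω : Ω) : (2 * en (S.W s o) ^ 2)⁻¹ ≤ S.a o s ω ∧ 0 < S.a o s ω ∧ S.a o s ω ≤ 2 :=
  ang_bounds (norm_dir_le _) _

theorem b_bounds (o : Ω) (s : ℝ) (ω : Ω) : (2 * en (S.w o s ω) ^ 2)⁻¹ ≤ S.b o s ω ∧ 0 < S.b o s ω ∧ S.b o s ω ≤ 2 :=
  ang_bounds (norm_dir_le _) _

theorem c_bounds (o : Ω) (s : ℝ) (ω : Ω) : (2 * en (S.w o s ω) ^ 2)⁻¹ ≤ S.c o s ω ∧ 0 < S.c o s ω ∧ S.c o s ω ≤ 2 :=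
  ang_bounds (norm_relVel_lt_one _).le _

theorem meas_Wo (o : Ω) : Measurable fun p : ℝ × Ω => S.W p.1 o :=
  S.mW.comp (measurable_fst.prodMk measurable_const)

theorem meas_a (o : Ω) : Measurable fun p : ℝ × Ω => S.a o p.1 p.2 :=
  measurable_ang (measurable_dir.comp (S.meas_z o)) (S.meas_Wo o)

theorem meas_b (o : Ω) : Measurable fun p : ℝ × Ω => S.b o p.1 p.2 :=
  measurable_ang (measurable_dir.comp (S.meas_z o)) (S.meas_w o)

theorem meas_c (o : Ω) : Measurable fun p : ℝ × Ω => S.c o p.1 p.2 :=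
  measurable_ang (continuous_relVel'.measurable.comp (S.meas_Wo o)) (S.meas_w o)

theorem meas_R (o : Ω) : Measurable fun p : ℝ × Ω => ‖S.z o p.1 p.2‖ := (S.meas_z o).norm

theorem meas_M (o : Ω) : Measurable fun p : ℝ × Ω => en (S.w o p.1 p.2) := continuous_en.measurable.comp (S.meas_w o)

theorem meas_ch (P γ : ℝ) (o : Ω) : Measurable fun p : ℝ × Ω => S.ch P γ o p.1 p.2 := by
  have ha : Measurable fun p : ℝ × Ω => dd (S.z o p.1 p.2) (S.W p.1 o) := S.meas_a o
  have hb : Measurable fun p : ℝ × Ω => dd (S.z o p.1 p.2) (S.w o p.1 p.2) := S.meas_b o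
  have hR := S.meas_R o
  have hM := S.meas_M o
  have hs : Measurable Real.smoothTransition := Real.smoothTransition.continuous.measurable
  unfold ch chi u1 u2 u3
  refine Measurable.ite ((S.meas_z o) (measurableSet_singleton 0)) measurable_const ?_
  refine ((hs.comp ?_).mul (hs.comp ?_)).mul (hs.comp ?_) <;> fun_prop

theorem meas_hk (P γ : ℝ) (o : Ω) : Measurable fun p : ℝ × Ω => S.hk P γ o p.1 p.2 := by
  have ha : Measurable fun p : ℝ × Ω => dd (S.z o p.1 p.2) (S.W p.1 o) := S.meas_a o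
  have hb : Measurable fun p : ℝ × Ω => dd (S.z o p.1 p.2) (S.w o p.1 p.2) := S.meas_b o
  have hR := S.meas_R o
  unfold hk kH
  refine Measurable.ite ((S.meas_ch P γ o) (measurableSet_singleton 0).compl) ?_ measurable_const
  fun_prop

end Sys
end Crest.Agent.R106.A
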