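import Crest.Agent.R106.A.Pair
import Crest.Agent.R106.A.Meas

/-! R106/A (helper9): `S_FORCE` and `S_PAIR`. -/

set_option autoImplicit false

open MeasureTheory Set Filter Topology Crest.AnalysisR.VecCalc3 Crest.AnalysisR.PDE.RVM
open scoped ENNReal RealInnerProductSpace

noncomputable section
namespace Crest.Agent.R106.A

/-- the cut-off boundary kernel -/
def PhiX (P γ : ℝ) (p : R3 × R3 × R3) : R3 := chi P γ p.1 p.2.1 p.2.2 • Gam p.1 p.2.1 p.2.2

theorem contDiff_en' : ContDiff ℝ 1 en := by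
  unfold en
  exact (contDiff_const.add (contDiff_norm_sq ℝ)).sqrt fun v => by positivity

theorem contDiff_relVel' : ContDiff ℝ 1 relVel := by
  have : relVel = fun v => (en v)⁻¹ • v := rfl
  rw [this]
  exact (contDiff_en'.inv fun v => (en_pos v).ne').smul contDiff_id

theorem phiX_smooth (P γ : ℝ) : ContDiffOn ℝ 1 (PhiX P γ) {p | p.1 ≠ 0} := by
  have hR : ContDiffOn ℝ 1 (fun p : R3 × R3 × R3 => ‖p.1‖) {p | p.1 ≠ 0} :=
    contDiffOn_fst.norm ℝ fun p hp => hp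
  have hR0 : ∀ p ∈ {p : R3 × R3 × R3 | p.1 ≠ 0}, ‖p.1‖ ≠ 0 := fun p hp => norm_ne_zero_iff.2 hp
  have hn : ContDiffOn ℝ 1 (fun p : R3 × R3 × R3 => dir p.1) {p | p.1 ≠ 0} := (hR.inv hR0).smul contDiffOn_fst
  have hV : ContDiffOn ℝ 1 (fun p : R3 × R3 × R3 => relVel p.2.1) {p | p.1 ≠ 0} :=
    (contDiff_relVel'.comp contDiff_snd.fst).contDiffOn
  have hW : ContDiffOn ℝ 1 (fun p : R3 × R3 × R3 => relVel p.2.2) {p | p.1 ≠ 0} :=
    (contDiff_relVel'.comp contDiff_snd.snd).contDiffOn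
  have hM : ContDiffOn ℝ 1 (fun p : R3 × R3 × R3 => en p.2.2) {p | p.1 ≠ 0} :=
    (contDiff_en'.comp contDiff_snd.snd).contDiffOn
  have ha : ContDiffOn ℝ 1 (fun p : R3 × R3 × R3 => dd p.1 p.2.1) {p | p.1 ≠ 0} := contDiffOn_const.sub (hn.inner ℝ hV)
  have hb : ContDiffOn ℝ 1 (fun p : R3 × R3 × R3 => dd p.1 p.2.2) {p | p.1 ≠ 0} := contDiffOn_const.sub (hn.inner ℝ hW)
  have hc : ContDiffOn ℝ 1 (fun p : R3 × R3 × R3 => cc p.2.1 p.2.2) {p | p.1 ≠ 0} := contDiffOn_const.sub (hV.inner ℝ hW)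
  have ha0 : ∀ p ∈ {p : R3 × R3 × R3 | p.1 ≠ 0}, dd p.1 p.2.1 ≠ 0 := fun p hp => (dd_pos hp _).ne'
  have hb0 : ∀ p ∈ {p : R3 × R3 × R3 | p.1 ≠ 0}, dd p.1 p.2.2 ≠ 0 := fun p hp => (dd_pos hp _).ne'
  have hM0 : ∀ p ∈ {p : R3 × R3 × R3 | p.1 ≠ 0}, en p.2.2 ≠ 0 := fun p _ => (en_pos _).ne'
  have hs : ContDiff ℝ 1 Real.smoothTransition := Real.smoothTransition.contDiff
  have h1 : ContDiffOn ℝ 1 (fun p : R3 × R3 × R3 => u1 p.1 p.2.1 p.2.2) {p | p.1 ≠ 0} :=
    ((ha.log ha0).sub (hb.log hb0)).sub contDiffOn_const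
  have h2 : ContDiffOn ℝ 1 (fun p : R3 × R3 × R3 => u2 γ p.1 p.2.2) {p | p.1 ≠ 0} :=
    contDiffOn_const.sub (((contDiffOn_const.mul (hM.log hM0)).add (contDiffOn_const.mul (hb.log hb0))).add
      (contDiffOn_const.mul (hR.log hR0)))
  have h3 : ContDiffOn ℝ 1 (fun p : R3 × R3 × R3 => u3 P p.1 p.2.2) {p | p.1 ≠ 0} :=
    ((contDiffOn_const.mul (hM.log hM0)).add (hR.log hR0)).sub contDiffOn_const
  have hchi : ContDiffOn ℝ 1 (fun p : R3 × R3 × R3 => chi P γ p.1 p.2.1 p.2.2) {p | p.1 ≠ 0} := by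
    refine (((hs.comp_contDiffOn h1).mul (hs.comp_contDiffOn h2)).mul (hs.comp_contDiffOn h3)).congr fun p hp => ?_
    unfold chi
    rw [if_neg hp]; rfl
  have hG : ContDiffOn ℝ 1 (fun p : R3 × R3 × R3 => Gam p.1 p.2.1 p.2.2) {p | p.1 ≠ 0} :=
    (((hc.div ((ha.mul hb).mul hR) fun p hp => mul_ne_zero (mul_ne_zero (ha0 p hp) (hb0 p hp)) (hR0 p hp)).smul hn).sub
      (((hb.mul hR).inv fun p hp => mul_ne_zero (hb0 p hp) (hR0 p hp)).smul hW)).sub
      (((ha.mul hR).inv fun p hp => mul_ne_zero (ha0 p hp) (hR0 p hp)).smul hV)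
  exact hchi.smul hG

theorem en_le_one_add (W : R3) : en W ≤ 1 + ‖W‖ := by
  unfold en
  exact Real.sqrt_le_iff.2 ⟨by positivity, by nlinarith [norm_nonneg W]⟩

theorem phiX_zero {P γ M R : ℝ} {z V W : R3} (hM : en W ≤ M) (hR : ‖z‖ ≤ R)
    (h : 20 * Real.log M + Real.log R ≤ 5 * Real.log P) : PhiX P γ (z, V, W) = 0 := by
  have : chi P γ z V W = 0 := by
    by_contra hc
    obtain ⟨hz, -, -, h3⟩ := chi_ne_zero hc
    have h1 := Real.log_le_log (en_pos W) hM
    have h2 := Real.log_le_log (norm_pos_iff.2 hz) hR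
    unfold u3 at h3
    linarith
  simp [PhiX, this]

theorem cut_phiX {C P : ℝ} (γ : ℝ) (hC : 1 ≤ C) (hP : (3 * C) ^ 20 * (13 * C ^ 3) ≤ P) : Cut C (PhiX P γ) := by
  refine ⟨phiX_smooth P γ, fun Q => ⟨Real.exp (5 * Real.log P - 20 * Real.log (1 + Q)), Real.exp_pos _,
    fun z V W hW hz => ?_⟩, fun z V W hz hW => ?_⟩
  · refine phiX_zero (M := 1 + Q) ((en_le_one_add W).trans (by linarith)) hz ?_
    rw [Real.log_exp]; linarith
  · refine phiX_zero (M := 3 * C) ((en_le_one_add W).trans (by linarith)) hz ?_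
    have h1 : 1 ≤ (3 * C) ^ 20 := one_le_pow₀ (by linarith)
    have h2 : 1 ≤ C ^ 3 := one_le_pow₀ hC
    have h3 : 0 < (3 * C) ^ 20 * (13 * C ^ 3) := by positivity
    have h4 := Real.log_le_log h3 hP
    rw [Real.log_mul (by positivity) (by positivity), Real.log_pow] at h4
    have h5 : 0 ≤ Real.log P := Real.log_nonneg (by nlinarith)
    push_cast at h4
    linarith

theorem pairAt_affine {z : R3} (hz : z ≠ 0) (V W F G : R3) :
    PairAt (fun t : ℝ => z + t • (vel z V W F G).1) (fun t : ℝ => V + t • (vel z V W F G).2.1)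
      (fun t : ℝ => W + t • (vel z V W F G).2.2) F G 0 := by
  have haff : ∀ x u : R3, HasDerivAt (fun t : ℝ => x + t • u) u 0 := fun x u => by
    simpa using ((hasDerivAt_id (0 : ℝ)).smul_const u).const_add x
  refine ⟨by simpa using hz, ?_, haff V _, ?_⟩
  · simp only [zero_smul, add_zero]
    exact haff z _
  · simp only [zero_smul, add_zero]
    exact haff W _

theorem PairAt.congrG {z V W : ℝ → R3} {F G G' : R3} {s : ℝ} (h : PairAt z V W F G s) (e : G = G') :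
    PairAt z V W F G' s := e ▸ h

theorem pf_zero (V W G : R3) : pf 0 V W G = 0 := by simp [pf, lor, ET, ES]

theorem meas_sl {Ω : Type} [MeasurableSpace Ω] {f : ℝ × Ω → ℝ} (hf : Measurable f) (r : ℝ) :
    Measurable fun ω => f (r, ω) := hf.comp measurable_prodMk_left

theorem s_force : S_FORCE := by
  refine ⟨80, by norm_num, fun C Ω _ S o s hs => ?_⟩
  rw [ofReal_norm]
  refine (S.force_le o hs).trans (add_le_add le_rfl ?_)
  unfold Sys.J
  rw [← lintegral_const_mul' _ _ ENNReal.ofReal_ne_top]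
  refine lintegral_mono fun ω => ?_
  by_cases hz : S.z o s ω = 0
  · simp only [hz, pf_zero, enorm_zero, zero_le]
  · rw [← ENNReal.ofReal_mul (by norm_num), ← ofReal_norm]
    refine ENNReal.ofReal_le_ofReal ((norm_pair_le hz (S.W s o) (S.w o s ω) (S.Es o s ω) (S.Bs o s ω)).trans (le_of_eq ?_))
    unfold Sys.kII Sys.b
    rw [div_eq_mul_inv, mul_assoc]

set_option maxHeartbeats 400000 in
theorem s_pair : S_PAIR := by
  obtain ⟨K, hK1, hK⟩ := pair_cut
  refine ⟨12 * K, by linarith, fun C => ⟨(3 * C) ^ 20 * (13 * C ^ 3), fun P hP Ω _ S o γ s s' h0 h01 h1 => ?_⟩⟩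
  have hcut : Cut C (PhiX P γ) := cut_phiX γ S.one_le hP
  have hk : KerBd (PhiX P γ) fun z V W F G => ‖pf z V W G - fderiv ℝ (PhiX P γ) (z, V, W) (vel z V W F G)‖ :=
    fun z V W F G s hp => ⟨_, hp.hasDerivAt hcut, le_rfl⟩
  have hK0 : 0 ≤ 12 * K := by linarith
  have hG : ∀ r, S.GG (PhiX P γ) o r ≤ ENNReal.ofReal (12 * K) * S.J o r (S.hk P γ o r) := by
    intro r
    unfold Sys.GG Sys.J
    rw [← lintegral_const_mul' _ _ ENNReal.ofReal_ne_top]
    refine lintegral_mono fun ω => ?_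
    rw [← ENNReal.ofReal_mul hK0, ← ofReal_norm]
    refine ENNReal.ofReal_le_ofReal ((norm_chi_Gam_le P γ (S.z o r ω) (S.W r o) (S.w o r ω)).trans ?_)
    have hb : 0 < (S.b o r ω)⁻¹ := inv_pos.2 (S.b_bounds o r ω).2.1
    have hH : 0 ≤ kH (S.z o r ω) (S.W r o) (S.w o r ω) := by
      have := (S.a_bounds o r ω).2.1
      unfold kH
      exact div_nonneg (Real.sqrt_nonneg _) (mul_nonneg this.le (norm_nonneg _))
    unfold Sys.hk Sys.ch
    change _ * (S.b o r ω)⁻¹ ≤ _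
    split_ifs
    · nlinarith [mul_nonneg hH hb.le]
    · simp
  have hD : ∀ r, S.DD (fun z V W F G => ‖pf z V W G - fderiv ℝ (PhiX P γ) (z, V, W) (vel z V W F G)‖) o r ≤
      S.D (12 * K) P γ o r := by
    intro r
    unfold Sys.DD Sys.D Sys.J
    rw [add_assoc]
    refine add_le_add le_rfl ?_
    have hm : Measurable fun ω => ENNReal.ofReal (12 * K) * ENNReal.ofReal (S.hk P γ o r ω * (S.b o r ω)⁻¹) *
        ENNReal.ofReal (‖S.F r o‖ / en (S.W r o)) := by
      have h1 := meas_sl (S.meas_hk P γ o) r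
      have h2 := meas_sl (S.meas_b o) r
      dsimp only at h1 h2
      exact ((h1.mul h2.inv).ennreal_ofReal.const_mul _).mul_const _
    rw [← lintegral_const_mul' _ _ ENNReal.ofReal_ne_top, ← lintegral_const_mul' _ _ ENNReal.ofReal_ne_top,
      ← lintegral_mul_const' _ _ ENNReal.ofReal_ne_top, ← lintegral_add_right _ hm]
    refine lintegral_mono fun ω => ?_
    by_cases hz : S.z o r ω = 0
    · simp only [hz, pf_zero, hcut.fderiv_zero, zero_apply, sub_zero, norm_zero, ENNReal.ofReal_zero, zero_le]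
    have hp := pairAt_affine hz (S.W r o) (S.w o r ω) (S.F r o) (S.Fs o r ω)
    have hFs : S.Fs o r ω = force (S.Es o r ω) (S.Bs o r ω) ((fun t : ℝ => S.w o r ω +
        t • (vel (S.z o r ω) (S.W r o) (S.w o r ω) (S.F r o) (S.Fs o r ω)).2.2) 0) := by
      simp only [zero_smul, add_zero]; rfl
    obtain ⟨d, hd, hle⟩ := hK P γ _ _ _ (S.F r o) (S.Es o r ω) (S.Bs o r ω) 0 (hp.congrG hFs)
    have he := hd.unique (hp.hasDerivAt hcut)
    simp only [zero_smul, add_zero] at he hle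
    rw [he] at hle
    have hb : 0 < (S.b o r ω)⁻¹ := inv_pos.2 (S.b_bounds o r ω).2.1
    have ha := (S.a_bounds o r ω).2.1
    have hF : 0 ≤ ‖S.F r o‖ / en (S.W r o) := div_nonneg (norm_nonneg _) (en_pos _).le
    have hH : 0 ≤ S.hk P γ o r ω := by
      unfold Sys.hk kH
      split_ifs
      · exact div_nonneg (Real.sqrt_nonneg _) (mul_nonneg ha.le (norm_nonneg _))
      · exact le_rfl
    have hsum : ‖pf (S.z o r ω) (S.W r o) (S.w o r ω) (S.Fs o r ω) - fderiv ℝ (PhiX P γ) (S.z o r ω, S.W r o, S.w o r ω)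
        (vel (S.z o r ω) (S.W r o) (S.w o r ω) (S.F r o) (S.Fs o r ω))‖ ≤
        K * (S.rm P γ o r ω * (S.b o r ω)⁻¹) + K * (S.hk P γ o r ω * (S.b o r ω)⁻¹) * (‖S.F r o‖ / en (S.W r o)) := by
      refine hle.trans (le_of_eq ?_)
      unfold Sys.rm Sys.hk Sys.ch Sys.kII
      change _ * (S.b o r ω)⁻¹ = _
      split_ifs <;> ring
    refine (ENNReal.ofReal_le_ofReal hsum).trans (ENNReal.ofReal_add_le.trans (add_le_add ?_ ?_))
    · rw [ENNReal.ofReal_mul (by linarith)]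
      exact mul_le_mul_left (ENNReal.ofReal_le_ofReal (by linarith)) _
    · rw [ENNReal.ofReal_mul (mul_nonneg (by linarith) (mul_nonneg hH hb.le)), ENNReal.ofReal_mul (by linarith)]
      exact mul_le_mul_left (mul_le_mul_left (ENNReal.ofReal_le_ofReal (by linarith)) _) _
  rw [ofReal_norm]
  refine (S.pair_main hcut hk o h0 h01 h1).trans ?_
  rw [add_assoc, mul_add, add_comm (ENNReal.ofReal (12 * K) * S.J o s _)]
  exact add_le_add (lintegral_mono hD) (add_le_add (hG s') (hG s))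

end Crest.Agent.R106.A
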