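import Crest.Agent.R106.A.Boot
import Crest.Agent.R106.A.Imp
import Crest.Agent.R106.A.PairX

/-! # R106/A: the a priori bound from the sums over boxes (helper62). -/

set_option autoImplicit false

namespace Crest.Agent.R106.A

theorem s_apl_of (hS : S_SUM) : S_APL := s_apl_of_imp (imp_of s_force s_pair hS)

end Crest.Agent.R106.A
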