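import Crest.Agent.R106.A.Ret

/-! R106/A (helper9): time integration of the pair identity for a cut-off boundary kernel `Φ`. -/

set_option autoImplicit false

open MeasureTheory Set Filter Topology Crest.AnalysisR.VecCalc3 Crest.AnalysisR.PDE.RVM
open scoped ENNReal RealInnerProductSpace

noncomputable section
namespace Crest.Agent.R106.A

/-- the velocity of the pair state `(z, V, W)` -/
def vel (z V W F G : R3) : R3 × R3 × R3 := (relVel V - (dd z V / dd z W) • relVel W, F, (dd z V / dd z W) • G)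

/-- the pair force -/
def pf (z V W G : R3) : R3 := lor z V (ET z W + ES z W G)

/-- an admissible boundary kernel: `C¹` off `z = 0`, zero near `z = 0` and for slow sources -/
structure Cut (C : ℝ) (Φ : R3 × R3 × R3 → R3) : Prop where
  smooth : ContDiffOn ℝ 1 Φ {p | p.1 ≠ 0}
  near : ∀ P : ℝ, ∃ R : ℝ, 0 < R ∧ ∀ z V W : R3, ‖W‖ ≤ P → ‖z‖ ≤ R → Φ (z, V, W) = 0
  init : ∀ z V W : R3, ‖z‖ ≤ 13 * C ^ 3 → ‖W‖ ≤ 2 * C → Φ (z, V, W) = 0

/-- the pointwise kernel bound along pair paths -/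
def KerBd (Φ : R3 × R3 × R3 → R3) (k : R3 → R3 → R3 → R3 → R3 → ℝ) : Prop :=
  ∀ (z V W : ℝ → R3) (F G : R3) (s : ℝ), PairAt z V W F G s →
    ∃ d, HasDerivAt (fun t => Φ (z t, V t, W t)) d s ∧ ‖pf (z s) (V s) (W s) G - d‖ ≤ k (z s) (V s) (W s) F G

variable {C : ℝ} {Φ : R3 × R3 × R3 → R3}

/-- near `z = 0` the kernel vanishes -/
theorem Cut.ev_zero (h : Cut C Φ) {p : R3 × R3 × R3} (hp : p.1 = 0) : Φ =ᶠ[𝓝 p] fun _ => 0 := by
  obtain ⟨R, hR, hz⟩ := h.near (‖p.2.2‖ + 1)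
  have h1 : ∀ᶠ q : R3 × R3 × R3 in 𝓝 p, ‖q.1‖ < R :=
    (continuous_fst.norm.tendsto p).eventually (gt_mem_nhds (by simpa [hp] using hR))
  have h2 : ∀ᶠ q : R3 × R3 × R3 in 𝓝 p, ‖q.2.2‖ < ‖p.2.2‖ + 1 :=
    (continuous_snd.snd.norm.tendsto p).eventually (gt_mem_nhds (by simp))
  filter_upwards [h1, h2] with q hq1 hq2
  exact hz q.1 q.2.1 q.2.2 hq2.le hq1.le

/-- Pair-a -/
theorem Cut.contDiff (h : Cut C Φ) : ContDiff ℝ 1 Φ := by
  rw [contDiff_iff_contDiffAt]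
  intro p
  by_cases hp : p.1 = 0
  · exact (contDiffAt_const (c := (0 : R3))).congr_of_eventuallyEq (h.ev_zero hp)
  · exact h.smooth.contDiffAt ((isOpen_ne_fun continuous_fst continuous_const).mem_nhds hp)

/-- Pair-a -/
theorem Cut.fderiv_zero (h : Cut C Φ) (V W : R3) : fderiv ℝ Φ (0, V, W) = 0 := by
  rw [(h.ev_zero (p := (0, V, W)) rfl).fderiv_eq]
  simp

/-- Pair-a -/
theorem Cut.fderiv_init (h : Cut C Φ) {z V W : R3} (hz : ‖z‖ < 13 * C ^ 3) (hW : ‖W‖ < 2 * C) : fderiv ℝ Φ (z, V, W) = 0 := by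
  have h1 : ∀ᶠ q : R3 × R3 × R3 in 𝓝 (z, V, W), ‖q.1‖ < 13 * C ^ 3 :=
    (continuous_fst.norm.tendsto (z, V, W)).eventually (gt_mem_nhds hz)
  have h2 : ∀ᶠ q : R3 × R3 × R3 in 𝓝 (z, V, W), ‖q.2.2‖ < 2 * C :=
    (continuous_snd.snd.norm.tendsto (z, V, W)).eventually (gt_mem_nhds hW)
  have h3 : Φ =ᶠ[𝓝 (z, V, W)] fun _ => 0 := by
    filter_upwards [h1, h2] with q hq1 hq2
    exact h.init q.1 q.2.1 q.2.2 hq1.le hq2.le
  rw [h3.fderiv_eq]
  simp

/-- Pair-a: `fderiv ℝ Φ (vel ..)` is bounded on bounded sets (it vanishes for `‖z‖ < R`; otherwise `dd z V ≤ 2`,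
`dd z W ≥ 1 / (2 en W ^ 2)`) -/
theorem Cut.bdd (h : Cut C Φ) (P : ℝ) : ∃ K : ℝ, ∀ z V W F G : R3, ‖z‖ ≤ P → ‖V‖ ≤ P → ‖W‖ ≤ P → ‖F‖ ≤ P → ‖G‖ ≤ P →
    ‖fderiv ℝ Φ (z, V, W) (vel z V W F G)‖ ≤ K ∧ ‖Φ (z, V, W)‖ ≤ K := by
  have hc := h.contDiff
  obtain ⟨K1, hK1⟩ := (isCompact_closedBall (0 : R3 × R3 × R3) P).exists_bound_of_continuousOn
    (hc.continuous_fderiv one_ne_zero).continuousOn
  obtain ⟨K2, hK2⟩ := (isCompact_closedBall (0 : R3 × R3 × R3) P).exists_bound_of_continuousOn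
    hc.continuous.continuousOn
  refine ⟨max (|K1| * ((1 + 4 * (1 + P ^ 2)) * (1 + P))) K2, fun z V W F G hz hV hW hF hG => ?_⟩
  have hP : 0 ≤ P := (norm_nonneg z).trans hz
  have hm : (z, V, W) ∈ Metric.closedBall (0 : R3 × R3 × R3) P := by
    rw [mem_closedBall_zero_iff]
    exact max_le hz (max_le hV hW)
  refine ⟨le_max_of_le_left ?_, le_max_of_le_right (hK2 _ hm)⟩
  by_cases h0 : z = 0
  · subst h0
    rw [h.fderiv_zero]
    simp only [zero_apply, norm_zero]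
    positivity
  · have hb := dd_pos h0 W
    have ha := dd_pos h0 V
    have ha2 := dd_le_two h0 V
    have hi := inv_en_sq_le h0 W
    have he := en_sq W
    have hep : 0 < en W ^ 2 := by have := en_pos W; positivity
    have hW2 : ‖W‖ ^ 2 ≤ P ^ 2 := pow_le_pow_left₀ (norm_nonneg W) hW 2
    have h1 : 1 ≤ 2 * dd z W * en W ^ 2 := by
      have := mul_le_mul_of_nonneg_right hi hep.le
      rwa [inv_mul_cancel₀ hep.ne'] at this
    have hr : dd z V / dd z W ≤ 4 * (1 + P ^ 2) := by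
      rw [div_le_iff₀ hb]
      nlinarith [mul_le_mul_of_nonneg_left hW2 hb.le]
    have hr0 : 0 ≤ dd z V / dd z W := (div_pos ha hb).le
    have hv : ‖vel z V W F G‖ ≤ (1 + 4 * (1 + P ^ 2)) * (1 + P) := by
      have hP2 : 0 ≤ P ^ 2 := sq_nonneg P
      have hP3 : 0 ≤ P ^ 2 * P := mul_nonneg hP2 hP
      unfold vel
      refine max_le ?_ (max_le ?_ ?_)
      · refine (norm_sub_le _ _).trans ?_
        rw [norm_smul, Real.norm_of_nonneg hr0]
        have := norm_relVel_lt_one V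
        have h5 := mul_le_mul hr (norm_relVel_lt_one W).le (norm_nonneg _) (by positivity)
        nlinarith
      · refine hF.trans ?_
        nlinarith
      · show ‖(dd z V / dd z W) • G‖ ≤ _
        rw [norm_smul, Real.norm_of_nonneg hr0]
        have h5 := mul_le_mul hr hG (norm_nonneg _) (by positivity)
        nlinarith
    refine ((fderiv ℝ Φ (z, V, W)).le_opNorm _).trans ?_
    exact mul_le_mul ((hK1 _ hm).trans (le_abs_self _)) hv (norm_nonneg _) (abs_nonneg _)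

/-- Pair-a -/
theorem PairAt.hasDerivAt {z V W : ℝ → R3} {F G : R3} {s : ℝ} (hp : PairAt z V W F G s) (h : Cut C Φ) :
    HasDerivAt (fun t => Φ (z t, V t, W t)) (fderiv ℝ Φ (z s, V s, W s) (vel (z s) (V s) (W s) F G)) s := by
  have h1 : HasDerivAt (fun t => (z t, V t, W t)) (vel (z s) (V s) (W s) F G) s := hp.dz.prodMk (hp.dV.prodMk hp.dW)
  have h2 : HasFDerivAt Φ (fderiv ℝ Φ (z s, V s, W s)) (z s, V s, W s) :=
    (h.contDiff.differentiable one_ne_zero _).hasFDerivAt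
  exact h2.comp_hasDerivAt s h1

/-- Pair-a: use affine paths `t ↦ (z, V, W) + t • vel z V W F G` at `s = 0`; for `z = 0` the left side is `0` -/
theorem KerBd.pt {k : R3 → R3 → R3 → R3 → R3 → ℝ} (hk : KerBd Φ k) (h : Cut C Φ) (z V W F G : R3) :
    ‖pf z V W G - fderiv ℝ Φ (z, V, W) (vel z V W F G)‖ₑ ≤ ENNReal.ofReal (k z V W F G) := by
  by_cases hz : z = 0
  · subst hz
    have h1 : pf 0 V W G = 0 := by simp [pf, lor, ET, ES]
    rw [h1, h.fderiv_zero]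
    simp
  · have haff : ∀ x u : R3, HasDerivAt (fun t : ℝ => x + t • u) u 0 := fun x u => by
      simpa using ((hasDerivAt_id (0 : ℝ)).smul_const u).const_add x
    obtain ⟨u, hu⟩ : ∃ u, u = vel z V W F G := ⟨_, rfl⟩
    have hp : PairAt (fun t : ℝ => z + t • u.1) (fun t : ℝ => V + t • u.2.1) (fun t : ℝ => W + t • u.2.2) F G 0 := by
      refine ⟨by simpa using hz, ?_, ?_, ?_⟩
      · simp only [zero_smul, add_zero]
        have := haff z u.1
        rwa [hu] at this ⊢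
      · have := haff V u.2.1
        rwa [hu] at this ⊢
      · simp only [zero_smul, add_zero]
        have := haff W u.2.2
        rwa [hu] at this ⊢
    obtain ⟨d, hd, hle⟩ := hk _ _ _ F G 0 hp
    have he := hd.unique (hp.hasDerivAt h)
    simp only [zero_smul, add_zero] at he hle
    rw [← he, ← ofReal_norm]
    exact ENNReal.ofReal_le_ofReal hle

namespace Sys
variable {Ω : Type} [MeasurableSpace Ω] (S : Sys Ω C)

/-- the boundary kernel along the pair -/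
def hh (Φ : R3 × R3 × R3 → R3) (o : Ω) (s : ℝ) (ω : Ω) : R3 := Φ (S.z o s ω, S.W s o, S.w o s ω)
/-- its time derivative -/
def dh (Φ : R3 × R3 × R3 → R3) (o : Ω) (s : ℝ) (ω : Ω) : R3 :=
  fderiv ℝ Φ (S.z o s ω, S.W s o, S.w o s ω) (vel (S.z o s ω) (S.W s o) (S.w o s ω) (S.F s o) (S.Fs o s ω))
/-- the boundary term -/
def GG (Φ : R3 × R3 × R3 → R3) (o : Ω) (s : ℝ) : ℝ≥0∞ := ∫⁻ ω in S.act o s, ‖S.hh Φ o s ω‖ₑ ∂S.μ
/-- the density of the variation -/
def DD (k : R3 → R3 → R3 → R3 → R3 → ℝ) (o : Ω) (s : ℝ) : ℝ≥0∞ := ENNReal.ofReal (2 * C) +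
  ∫⁻ ω in S.act o s, ENNReal.ofReal (k (S.z o s ω) (S.W s o) (S.w o s ω) (S.F s o) (S.Fs o s ω)) ∂S.μ

/-- Pair-b: inactive sources do not contribute (`inact`, `Cut.init`, `Cut.fderiv_init`) -/
theorem hh_inact (h : Cut C Φ) (o ω : Ω) {s : ℝ} (hs : s ∈ Icc 0 S.T) (hr : S.rt o s ω ≤ 0) :
    S.hh Φ o s ω = 0 ∧ S.dh Φ o s ω = 0 := by
  obtain ⟨h1, h2⟩ := S.inact o ω hs hr
  have hC := S.one_le
  have h3 : 0 < C ^ 3 := by positivity
  refine ⟨h.init _ _ _ (by linarith) (by linarith), ?_⟩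
  unfold dh
  rw [h.fderiv_init (by linarith) (by linarith)]
  rfl

/-- Pair-b: if `rt ≤ 0` or `z = 0` then `hh` vanishes near `s` (continuity of `z, w`; `Cut.init`, `Cut.near`), otherwise `pairAt` -/
theorem hh_deriv (h : Cut C Φ) (o ω : Ω) {s : ℝ} (hs : s ∈ Ioo 0 S.T) :
    HasDerivAt (fun s => S.hh Φ o s ω) (S.dh Φ o s ω) s := by
  have hn : Iic S.T ∈ 𝓝 s := Iic_mem_nhds hs.2
  have hz : ContinuousAt (fun s => ‖S.z o s ω‖) s := ((S.z_cont o ω).continuousAt hn).norm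
  have hw : ContinuousAt (fun s => ‖S.w o s ω‖) s := ((S.w_cont o ω).continuousAt hn).norm
  by_cases hr : S.rt o s ω ≤ 0
  · have hs' : s ∈ Icc 0 S.T := ⟨hs.1.le, hs.2.le⟩
    obtain ⟨h1, h2⟩ := S.inact o ω hs' hr
    have hC := S.one_le
    have h3 : 0 < C ^ 3 := by positivity
    rw [(S.hh_inact h o ω hs' hr).2]
    refine (hasDerivAt_const s (0 : R3)).congr_of_eventuallyEq ?_
    filter_upwards [hz.eventually (gt_mem_nhds (show ‖S.z o s ω‖ < 13 * C ^ 3 by linarith)),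
      hw.eventually (gt_mem_nhds (show ‖S.w o s ω‖ < 2 * C by linarith))] with t ht1 ht2
    exact h.init _ _ _ ht1.le ht2.le
  · by_cases h0 : S.z o s ω = 0
    · obtain ⟨P, hP⟩ := S.bdd
      obtain ⟨R, hR, hR'⟩ := h.near P
      have e : S.dh Φ o s ω = 0 := by
        unfold dh
        rw [h0, h.fderiv_zero]
        rfl
      rw [e]
      refine (hasDerivAt_const s (0 : R3)).congr_of_eventuallyEq ?_
      filter_upwards [hz.eventually (gt_mem_nhds (show ‖S.z o s ω‖ < R by rw [h0, norm_zero]; exact hR)),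
        hn] with t ht1 ht2
      exact hR' _ _ _ (hP _ _ ((S.rt_le o ω ht2).trans ht2)) ht1.le
    · exact (S.pairAt o ω hs.1 hs.2 (not_le.1 hr) h0).hasDerivAt h

/-- Pair-b helper -/
theorem meas_st (o : Ω) : Measurable fun p : ℝ × Ω => (S.z o p.1 p.2, S.W p.1 o, S.w o p.1 p.2) :=
  (S.meas_z o).prodMk ((S.mW.comp (measurable_fst.prodMk measurable_const)).prodMk (S.meas_w o))

/-- Pair-b -/
theorem meas_hh (h : Cut C Φ) (o : Ω) : Measurable fun p : ℝ × Ω => S.hh Φ o p.1 p.2 := by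
  exact h.contDiff.continuous.measurable.comp (S.meas_st o)

/-- Pair-b -/
theorem meas_dh (h : Cut C Φ) (o : Ω) : Measurable fun p : ℝ × Ω => S.dh Φ o p.1 p.2 := by
  have hV : Measurable fun p : ℝ × Ω => S.W p.1 o := S.mW.comp (measurable_fst.prodMk measurable_const)
  have hF : Measurable fun p : ℝ × Ω => S.F p.1 o := S.meas_F.comp (measurable_fst.prodMk measurable_const)
  have hrv : Measurable (relVel : R3 → R3) := by
    have : Continuous (relVel : R3 → R3) := by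
      have h1 : Continuous fun v : R3 => Real.sqrt (1 + ‖v‖ ^ 2) := by fun_prop
      exact (h1.inv₀ fun v => (Real.sqrt_pos.2 (by positivity)).ne').smul continuous_id
    exact this.measurable
  have hdir : Measurable fun p : ℝ × Ω => dir (S.z o p.1 p.2) :=
    (S.meas_z o).norm.inv.smul (S.meas_z o)
  have hq : Measurable fun p : ℝ × Ω => dd (S.z o p.1 p.2) (S.W p.1 o) / dd (S.z o p.1 p.2) (S.w o p.1 p.2) :=
    (measurable_const.sub (hdir.inner (hrv.comp hV))).div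
      (measurable_const.sub (hdir.inner (hrv.comp (S.meas_w o))))
  have hv : Measurable fun p : ℝ × Ω =>
      vel (S.z o p.1 p.2) (S.W p.1 o) (S.w o p.1 p.2) (S.F p.1 o) (S.Fs o p.1 p.2) :=
    ((hrv.comp hV).sub (hq.smul (hrv.comp (S.meas_w o)))).prodMk (hF.prodMk (hq.smul (S.meas_Fs o)))
  exact (h.contDiff.continuous_fderiv_apply one_ne_zero).measurable.comp ((S.meas_st o).prodMk hv)

/-- Pair-b (`Cut.bdd`, `F_bdd`, `S.bdd`, `hh_inact`) -/
theorem dh_bdd (h : Cut C Φ) (o : Ω) : ∃ K : ℝ, ∀ s ∈ Icc 0 S.T, ∀ ω, ‖S.dh Φ o s ω‖ ≤ K ∧ ‖S.hh Φ o s ω‖ ≤ K := by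
  obtain ⟨P, hP⟩ := S.bdd
  obtain ⟨K, hK⟩ := S.F_bdd
  obtain ⟨K', hK'⟩ := h.bdd (max C (max P K))
  refine ⟨max K' 0, fun s hs ω => ?_⟩
  by_cases hr : S.rt o s ω ≤ 0
  · obtain ⟨h1, h2⟩ := S.hh_inact h o ω hs hr
    rw [h1, h2, norm_zero]
    exact ⟨le_max_right _ _, le_max_right _ _⟩
  · have hr' := (not_le.1 hr).le
    have hle := S.rt_le o ω hs.2
    have hP' : P ≤ max C (max P K) := (le_max_left _ _).trans (le_max_right _ _)
    have hK'' : K ≤ max C (max P K) := (le_max_right _ _).trans (le_max_right _ _)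
    have hz : ‖S.z o s ω‖ ≤ max C (max P K) := by
      rw [S.norm_z o ω hs.2]
      have := S.T_le
      have := hs.2
      exact le_trans (by linarith) (le_max_left _ _)
    obtain ⟨h1, h2⟩ := hK' (S.z o s ω) (S.W s o) (S.w o s ω) (S.F s o) (S.Fs o s ω) hz
      ((hP _ _ hs.2).trans hP') ((hP _ _ (hle.trans hs.2)).trans hP') ((hK s hs o).trans hK'')
      ((hK _ ⟨hr', hle.trans hs.2⟩ ω).trans hK'')
    exact ⟨h1.trans (le_max_left _ _), h2.trans (le_max_left _ _)⟩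

/-- Pair-c: FTC for each source, then Fubini -/
theorem dh_fubini (h : Cut C Φ) (o : Ω) {s₀ s₁ : ℝ} (h0 : 0 ≤ s₀) (h01 : s₀ ≤ s₁) (h1 : s₁ ≤ S.T) :
    IntervalIntegrable (fun s => ∫ ω in S.act o s, S.dh Φ o s ω ∂S.μ) volume s₀ s₁ ∧
    ∫ s in s₀..s₁, ∫ ω in S.act o s, S.dh Φ o s ω ∂S.μ =
      ∫ ω in S.act o s₁, S.hh Φ o s₁ ω ∂S.μ - ∫ ω in S.act o s₀, S.hh Φ o s₀ ω ∂S.μ := by
  haveI := S.fin
  obtain ⟨K, hK⟩ := S.dh_bdd h o
  have hI : ∀ s ∈ Icc s₀ s₁, s ∈ Icc 0 S.T := fun s hs => ⟨h0.trans hs.1, hs.2.trans h1⟩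
  have e1 : ∀ s ∈ Icc 0 S.T, ∫ ω in S.act o s, S.dh Φ o s ω ∂S.μ = ∫ ω, S.dh Φ o s ω ∂S.μ := fun s hs =>
    setIntegral_eq_integral_of_forall_compl_eq_zero fun ω hω => (S.hh_inact h o ω hs (not_le.1 hω).le).2
  have e2 : ∀ s ∈ Icc 0 S.T, ∫ ω in S.act o s, S.hh Φ o s ω ∂S.μ = ∫ ω, S.hh Φ o s ω ∂S.μ := fun s hs =>
    setIntegral_eq_integral_of_forall_compl_eq_zero fun ω hω => (S.hh_inact h o ω hs (not_le.1 hω).le).1
  have i1 : Integrable (Function.uncurry fun s ω => S.dh Φ o s ω) ((volume.restrict (Ioc s₀ s₁)).prod S.μ) := by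
    refine Integrable.of_bound (S.meas_dh h o).aestronglyMeasurable K ?_
    rw [Measure.restrict_prod_eq_prod_univ]
    filter_upwards [ae_restrict_mem (measurableSet_Ioc.prod MeasurableSet.univ)] with p hp
    exact (hK p.1 (hI _ (Ioc_subset_Icc_self hp.1)) p.2).1
  have i2 : ∀ s ∈ Icc 0 S.T, Integrable (fun ω => S.hh Φ o s ω) S.μ := fun s hs =>
    Integrable.of_bound ((S.meas_hh h o).comp measurable_prodMk_left).aestronglyMeasurable K
      (Eventually.of_forall fun ω => (hK s hs ω).2)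
  have ftc : ∀ ω, ∫ s in Ioc s₀ s₁, S.dh Φ o s ω = S.hh Φ o s₁ ω - S.hh Φ o s₀ ω := fun ω => by
    rw [← intervalIntegral.integral_of_le h01]
    refine intervalIntegral.integral_eq_sub_of_hasDerivAt_of_le h01 ?_
      (fun s hs => S.hh_deriv h o ω ⟨h0.trans_lt hs.1, hs.2.trans_le h1⟩) ?_
    · exact (h.contDiff.continuous.comp_continuousOn ((S.z_cont o ω).prodMk ((S.cW o).prodMk (S.w_cont o ω)))).mono
        fun s hs => hs.2.trans h1
    · rw [intervalIntegrable_iff_integrableOn_Ioc_of_le h01]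
      refine Integrable.of_bound ((S.meas_dh h o).comp measurable_prodMk_right).aestronglyMeasurable K ?_
      filter_upwards [ae_restrict_mem measurableSet_Ioc] with s hs
      exact (hK s (hI _ (Ioc_subset_Icc_self hs)) ω).1
  refine ⟨?_, ?_⟩
  · rw [intervalIntegrable_iff_integrableOn_Ioc_of_le h01]
    exact IntegrableOn.congr_fun i1.integral_prod_left (fun s hs => (e1 s (hI _ (Ioc_subset_Icc_self hs))).symm) measurableSet_Ioc
  · rw [intervalIntegral.integral_of_le h01,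
      setIntegral_congr_fun measurableSet_Ioc fun s hs => e1 s (hI _ (Ioc_subset_Icc_self hs)), integral_integral_swap i1,
      e2 _ (hI _ (right_mem_Icc.2 h01)), e2 _ (hI _ (left_mem_Icc.2 h01)),
      ← integral_sub (i2 _ (hI _ (right_mem_Icc.2 h01))) (i2 _ (hI _ (left_mem_Icc.2 h01)))]
    exact integral_congr_ae (Eventually.of_forall ftc)

theorem paird_norm (a b : R3) : ‖cross3 a b‖ ≤ ‖a‖ * ‖b‖ := by
  have h : ‖cross3 a b‖ ^ 2 ≤ (‖a‖ * ‖b‖) ^ 2 := by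
    rw [mul_pow, EuclideanSpace.real_norm_sq_eq, EuclideanSpace.real_norm_sq_eq, EuclideanSpace.real_norm_sq_eq]
    simp only [cross3, Fin.sum_univ_three, Matrix.cons_val_zero, Matrix.cons_val_one,
      Matrix.cons_val_two, Matrix.head_cons, Matrix.tail_cons]
    nlinarith [sq_nonneg (a 0 * b 0 + a 1 * b 1 + a 2 * b 2)]
  exact abs_le_of_sq_le_sq' h (by positivity) |>.2

theorem paird_L (u : R3) : ∃ L : R3 →L[ℝ] R3, ∀ b, cross3 u b = L b :=
  ⟨LinearMap.toContinuousLinearMap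
    { toFun := fun b => cross3 u b
      map_add' := fun b c => by ext i; fin_cases i <;> simp [cross3] <;> ring
      map_smul' := fun r b => by ext i; fin_cases i <;> simp [cross3] <;> ring }, fun _ => rfl⟩

theorem paird_cont : Continuous fun p : R3 × R3 => cross3 p.1 p.2 := by
  have h : ∀ i j, Continuous fun p : R3 × R3 => p.1 i * p.2 j := fun i j => by fun_prop
  refine (PiLp.continuous_toLp 2 _).comp (continuous_pi fun i => ?_)
  fin_cases i
  · exact (h 1 2).sub (h 2 1)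
  · exact (h 2 0).sub (h 0 2)
  · exact (h 0 1).sub (h 1 0)

theorem paird_dir (z : R3) : ‖dir z‖ ≤ 1 := by
  by_cases hz : z = 0
  · simp [hz, dir]
  · exact (norm_dir hz).le

/-- Pair-d: the force is the sum of the pair forces up to the data term (`lwInt`, `lwE`, `lwB`, `force_cross`) -/
theorem force_rep (o : Ω) {s : ℝ} (hs : s ∈ Icc 0 S.T) :
    IntegrableOn (fun ω => pf (S.z o s ω) (S.W s o) (S.w o s ω) (S.Fs o s ω)) (S.act o s) S.μ ∧
    ‖S.F s o - (4 * Real.pi)⁻¹ • ∫ ω in S.act o s, pf (S.z o s ω) (S.W s o) (S.w o s ω) (S.Fs o s ω) ∂S.μ‖ ≤ 2 * C := by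
  have hK : IntegrableOn (fun ω => ET (S.z o s ω) (S.w o s ω) + ES (S.z o s ω) (S.w o s ω) (S.Fs o s ω)) (S.act o s) S.μ :=
    S.lwInt s hs (S.Y s o)
  have hE : ‖S.E s (S.Y s o) - (4 * Real.pi)⁻¹ • ∫ ω in S.act o s,
      (ET (S.z o s ω) (S.w o s ω) + ES (S.z o s ω) (S.w o s ω) (S.Fs o s ω)) ∂S.μ‖ ≤ C := S.lwE s hs (S.Y s o)
  have hB : ‖S.B s (S.Y s o) - (4 * Real.pi)⁻¹ • ∫ ω in S.act o s, cross3 (dir (S.z o s ω))
      (ET (S.z o s ω) (S.w o s ω) + ES (S.z o s ω) (S.w o s ω) (S.Fs o s ω)) ∂S.μ‖ ≤ C := S.lwB s hs (S.Y s o)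
  have hz : Measurable fun ω => S.z o s ω := (S.meas_z o).comp (measurable_const.prodMk measurable_id)
  have hn : Measurable fun ω => dir (S.z o s ω) := hz.norm.inv.smul hz
  have hX : IntegrableOn (fun ω => cross3 (dir (S.z o s ω))
      (ET (S.z o s ω) (S.w o s ω) + ES (S.z o s ω) (S.w o s ω) (S.Fs o s ω))) (S.act o s) S.μ :=
    Integrable.mono' hK.norm (paird_cont.comp_aestronglyMeasurable (hn.aestronglyMeasurable.prodMk hK.1))
      (ae_of_all _ fun ω => (paird_norm _ _).trans (mul_le_of_le_one_left (norm_nonneg _) (paird_dir _)))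
  obtain ⟨L, hL⟩ := paird_L (relVel (S.W s o))
  simp only [pf, ← force_cross, F, force, hL]
  refine ⟨hK.add (L.integrable_comp hX), ?_⟩
  rw [integral_add hK (L.integrable_comp hX), L.integral_comp_comm hX, smul_add, add_sub_add_comm, ← map_smul, ← map_sub, ← hL]
  refine (norm_add_le _ _).trans ((add_le_add hE ((paird_norm _ _).trans
    ((mul_le_of_le_one_left (norm_nonneg _) (norm_relVel_lt_one _).le).trans hB))).trans_eq (by ring))

/-- Pair-d: representation (II) in absolute value -/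
theorem force_le (o : Ω) {s : ℝ} (hs : s ∈ Icc 0 S.T) :
    ‖S.F s o‖ₑ ≤ ENNReal.ofReal (2 * C) + ∫⁻ ω in S.act o s, ‖pf (S.z o s ω) (S.W s o) (S.w o s ω) (S.Fs o s ω)‖ₑ ∂S.μ := by
  have h := (S.force_rep o hs).2
  have h1 : ‖(4 * Real.pi)⁻¹‖ ≤ 1 := by
    rw [Real.norm_of_nonneg (by positivity)]
    exact inv_le_one_of_one_le₀ (by linarith [Real.pi_gt_three])
  have h2 : ‖S.F s o‖ ≤ 2 * C + ‖∫ ω in S.act o s, pf (S.z o s ω) (S.W s o) (S.w o s ω) (S.Fs o s ω) ∂S.μ‖ := by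
    refine (norm_le_norm_sub_add _ _).trans (add_le_add h ?_)
    rw [norm_smul]
    exact mul_le_of_le_one_left (norm_nonneg _) h1
  rw [← ofReal_norm]
  refine (ENNReal.ofReal_le_ofReal h2).trans (ENNReal.ofReal_add_le.trans (add_le_add le_rfl ?_))
  rw [ofReal_norm]
  exact enorm_integral_le_lintegral_enorm _

theorem paire_smul (v : R3) : ‖(4 * Real.pi)⁻¹ • v‖ₑ ≤ ‖v‖ₑ := by
  have h1 : (1 : ℝ) ≤ 4 * Real.pi := by linarith [Real.pi_gt_three]
  rw [← ofReal_norm, ← ofReal_norm, norm_smul]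
  refine ENNReal.ofReal_le_ofReal (mul_le_of_le_one_left (norm_nonneg _) ?_)
  rw [Real.norm_of_nonneg (by positivity)]
  exact inv_le_one_of_one_le₀ h1

theorem paire_pt (h : Cut C Φ) {k : R3 → R3 → R3 → R3 → R3 → ℝ} (hk : KerBd Φ k) (o : Ω) {s : ℝ} (hs : s ∈ Icc 0 S.T) :
    ‖S.F s o - (4 * Real.pi)⁻¹ • ∫ ω in S.act o s, S.dh Φ o s ω ∂S.μ‖ₑ ≤ S.DD k o s := by
  have := S.fin
  obtain ⟨K, hK⟩ := S.dh_bdd h o
  obtain ⟨hi, hb⟩ := S.force_rep o hs
  have hm : Measurable fun ω => S.dh Φ o s ω := (S.meas_dh h o).comp (measurable_const.prodMk measurable_id)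
  have hd : IntegrableOn (fun ω => S.dh Φ o s ω) (S.act o s) S.μ :=
    Integrable.integrableOn (Integrable.of_bound hm.aestronglyMeasurable K (Eventually.of_forall fun ω => (hK s hs ω).1))
  have e : S.F s o - (4 * Real.pi)⁻¹ • ∫ ω in S.act o s, S.dh Φ o s ω ∂S.μ =
      (S.F s o - (4 * Real.pi)⁻¹ • ∫ ω in S.act o s, pf (S.z o s ω) (S.W s o) (S.w o s ω) (S.Fs o s ω) ∂S.μ) +
        (4 * Real.pi)⁻¹ • ∫ ω in S.act o s, (pf (S.z o s ω) (S.W s o) (S.w o s ω) (S.Fs o s ω) - S.dh Φ o s ω) ∂S.μ := by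
    rw [integral_sub hi hd, smul_sub]
    abel
  rw [e, DD]
  refine (enorm_add_le _ _).trans (add_le_add ?_ ((paire_smul _).trans ((enorm_integral_le_lintegral_enorm _).trans
    (lintegral_mono fun ω => hk.pt h _ _ _ _ _))))
  rw [← ofReal_norm]
  exact ENNReal.ofReal_le_ofReal hb

/-- **Pair-e: the integrated identity** -/
theorem pair_main (h : Cut C Φ) {k : R3 → R3 → R3 → R3 → R3 → ℝ} (hk : KerBd Φ k) (o : Ω) {s₀ s₁ : ℝ} (h0 : 0 ≤ s₀)
    (h01 : s₀ ≤ s₁) (h1 : s₁ ≤ S.T) :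
    ‖S.W s₁ o - S.W s₀ o‖ₑ ≤ (∫⁻ s in Icc s₀ s₁, S.DD k o s) + S.GG Φ o s₁ + S.GG Φ o s₀ := by
  obtain ⟨hi, he⟩ := S.dh_fubini h o h0 h01 h1
  have hF : IntervalIntegrable (fun s => S.F s o) volume s₀ s₁ :=
    ((S.F_cont o).mono fun s hs => by
      rw [uIcc_of_le h01] at hs
      exact hs.2.trans h1).intervalIntegrable
  have e : S.W s₁ o - S.W s₀ o =
      (∫ s in s₀..s₁, (S.F s o - (4 * Real.pi)⁻¹ • ∫ ω in S.act o s, S.dh Φ o s ω ∂S.μ)) +
        (4 * Real.pi)⁻¹ • ∫ ω in S.act o s₁, S.hh Φ o s₁ ω ∂S.μ - (4 * Real.pi)⁻¹ • ∫ ω in S.act o s₀, S.hh Φ o s₀ ω ∂S.μ := by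
    have hi' : IntervalIntegrable (fun s => (4 * Real.pi)⁻¹ • ∫ ω in S.act o s, S.dh Φ o s ω ∂S.μ) volume s₀ s₁ :=
      hi.smul (4 * Real.pi)⁻¹
    rw [S.W_ftc o h0 h01 h1, intervalIntegral.integral_sub hF hi', intervalIntegral.integral_smul, he,
      smul_sub]
    abel
  rw [e]
  refine (enorm_sub_le).trans (add_le_add ((enorm_add_le _ _).trans (add_le_add ?_ ?_)) ?_)
  · rw [intervalIntegral.integral_of_le h01]
    refine (enorm_integral_le_lintegral_enorm _).trans ?_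
    refine le_trans (lintegral_mono_set Ioc_subset_Icc_self) ?_
    exact setLIntegral_mono' measurableSet_Icc fun s hs => S.paire_pt h hk o ⟨h0.trans hs.1, hs.2.trans h1⟩
  · exact (paire_smul _).trans (enorm_integral_le_lintegral_enorm _)
  · exact (paire_smul _).trans (enorm_integral_le_lintegral_enorm _)

end Sys
end Crest.Agent.R106.A
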