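import Crest.Agent.R106.A.Box

/-! # R106/A/PassFar: short test intervals need no pass count (helper30). -/

set_option autoImplicit false

open MeasureTheory Set Crest.AnalysisR.VecCalc3 Crest.AnalysisR.PDE.RVM
open scoped ENNReal RealInnerProductSpace

noncomputable section
namespace Crest.Agent.R106.A

theorem cc_le_two_mul {z : R3} (hz : z ≠ 0) (V W : R3) : cc V W ≤ 2 * (dd z V + dd z W) := by
  have ha := (dd_pos hz V).le
  have hb := (dd_pos hz W).le
  have h1 := (abs_le.1 (abs_inner_pp_le hz V W)).1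
  rw [cc_eq hz]
  nlinarith [mul_nonneg ha hb, sq_nonneg (√(dd z V) - √(dd z W)), Real.sq_sqrt ha, Real.sq_sqrt hb]

namespace Sys
variable {Ω : Type} [MeasurableSpace Ω] {C : ℝ}

/-- the triangle inequality of the angles in a box -/
theorem box_tri (S : Sys Ω C) {o ω : Ω} {s A Bb Cc R M : ℝ} (hR : 0 < R) (h : ω ∈ S.box o A Bb Cc R M s) :
    Cc ≤ 4 * A + 4 * Bb := by
  obtain ⟨-, ha, hb, hc, hz, -⟩ := h
  have hz0 : S.z o s ω ≠ 0 := norm_pos_iff.1 (hR.trans_le hz.1)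
  have := cc_le_two_mul hz0 (S.W s o) (S.w o s ω)
  have e1 : S.c o s ω ≤ 2 * (S.a o s ω + S.b o s ω) := this
  linarith [ha.2, hb.2, hc.1]

theorem I_far (S : Sys Ω C) (o : Ω) {s₀ s₁ A Bb Cc R M : ℝ} (h0 : 0 ≤ s₀) (h01 : s₀ ≤ s₁) (h1 : s₁ ≤ S.T) (hA : 0 < A)
    (hB : 0 < Bb) (hC : 0 < Cc) (hR : 0 < R) (hM : 0 < M) (h : s₁ - s₀ ≤ R) :
    S.I o A Bb Cc R M s₀ s₁ ≤ ENNReal.ofReal (24 * C * R / (M * Cc)) := by
  have hc : 0 < C := one_pos.trans_le S.one_le
  by_cases ht : Cc ≤ 4 * A + 4 * Bb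
  · rcases le_total A Bb with hab | hab
    · refine (S.I_cone (o := o) (A := A) (Cc := Cc) (R := R) h0 h01 h1 hM hB).trans (ENNReal.ofReal_le_ofReal ?_)
      rw [div_le_div_iff₀ (by positivity) (by positivity)]
      have e1 : (s₁ - s₀) * Cc ≤ R * (8 * Bb) := mul_le_mul h (by linarith) hC.le hR.le
      nlinarith [mul_le_mul_of_nonneg_left e1 (mul_pos hc hM).le, mul_pos (mul_pos hc hM) (mul_pos hR hB)]
    · refine (S.I_en (o := o) (Bb := Bb) (Cc := Cc) h0 h01 h1 hM hA hR).trans (ENNReal.ofReal_le_ofReal ?_)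
      rw [div_le_div_iff₀ (by positivity) (by positivity)]
      have e1 : (s₁ - s₀ + 2 * R) * Cc ≤ (3 * R) * (8 * A) :=
        mul_le_mul (by linarith) (by linarith) hC.le (by positivity)
      nlinarith [mul_le_mul_of_nonneg_left e1 (mul_pos hc hM).le]
  · have e : ∀ s, S.box o A Bb Cc R M s = ∅ := fun s => eq_empty_of_forall_notMem fun ω hω => ht (S.box_tri hR hω)
    simp [I, Is, e]

end Sys

end Crest.Agent.R106.A
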