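import Crest.Agent.R106.A.PassC
import Crest.Agent.R106.A.PassFar

/-! R106/A: the pass count (helper55, helper30). -/

set_option autoImplicit false
set_option maxHeartbeats 400000

open MeasureTheory Set Filter Crest.AnalysisR.VecCalc3 Crest.AnalysisR.PDE.RVM
open scoped ENNReal RealInnerProductSpace

namespace Crest.Agent.R106.A.Pass

variable {Ω : Type} [MeasurableSpace Ω] {C : ℝ}

theorem markov (S : Sys Ω C) {r m : ℝ} (hr : r ∈ Icc 0 S.T) (hm : 0 < m) :
    S.μ {ω | m ≤ en (S.W r ω)} ≤ ENNReal.ofReal (C / m) := by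
  have he : Measurable fun ω => ENNReal.ofReal (en (S.W r ω)) :=
    ((show Continuous en by unfold en; fun_prop).measurable.comp
      (S.mW.comp (f := fun ω : Ω => (r, ω)) measurable_prodMk_left)).ennreal_ofReal
  have h := meas_ge_le_lintegral_div (μ := S.μ) he.aemeasurable (ε := ENNReal.ofReal m)
    (by simpa using hm) ENNReal.ofReal_ne_top
  rw [ENNReal.ofReal_div_of_pos hm]
  refine (measure_mono fun ω hω => ?_).trans (h.trans (ENNReal.div_le_div_right (S.enP r hr) _))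
  exact ENNReal.ofReal_le_ofReal hω

theorem near (S : Sys Ω C) {e P t : ℝ} {o : Ω} {s₀ s₁ A Bb Cc R M : ℝ} (h : S.Tst e P t o s₀ s₁) (he : 0 < e) (hP : 1 < P)
    (hA : 0 < A) (hB : 0 < Bb) (hC : 0 < Cc) (hR : 0 < R) (hlow : (320 : ℝ) ^ (100 : ℕ) ≤ P ^ (56 / 100 : ℝ))
    (hM : P ^ (56 / 100 : ℝ) ≤ M / 2) (hC1 : en (S.W s₀ o) ^ (-(104 / 100) : ℝ) ≤ Cc)
    (hC2 : M ^ (-(104 / 100) : ℝ) ≤ Cc) (hRl : R ≤ s₁ - s₀) :
    S.I o A Bb Cc R M s₀ s₁ ≤
      ENNReal.ofReal ((3 * (s₁ - s₀) / lev e P (M / 2) + 1) * (4032 * R / (Cc * √Cc) * (C / (M / 2)))) := by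
  have := S.fin
  have hM0 : 0 < M / 2 := lt_of_lt_of_le (by positivity) hM
  have hM1 : (320 : ℝ) ^ (100 : ℕ) ≤ M := by linarith
  have hδ := lev_pos he hP hM0
  have h1 : s₁ ≤ S.T := h.h1.trans h.tT
  have hγ := en_pos (S.W s₀ o)
  have hV : Vel S o s₀ s₁ (√Cc / 10) := vel_of_var (h.hyp o s₀ s₁ h.h0 h.h01 h.h1 h.low h.len) (hlow.trans h.low)
    (by linarith) hC1
  set δ := lev e P (M / 2) with hδe
  set t0 := max 0 (s₀ - 2 * R) with ht0
  set n := ⌊3 * (s₁ - s₀) / δ⌋₊ + 1 with hn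
  set K := ENNReal.ofReal (4032 * R / (Cc * √Cc)) with hK
  have ht00 : 0 ≤ t0 := le_max_left _ _
  have hp0 : ∀ j : ℕ, 0 ≤ t0 + j * δ := fun j => by positivity
  let U : ℕ → Set Ω := fun j => {ω | t0 + j * δ ≤ s₁ ∧ M / 2 ≤ en (S.W (t0 + j * δ) ω)}
  have hUm : ∀ j, MeasurableSet (U j) := fun j => (MeasurableSet.const _).inter (measurableSet_le measurable_const
    ((show Continuous en by unfold en; fun_prop).measurable.comp
      (S.mW.comp (f := fun ω : Ω => (t0 + j * δ, ω)) measurable_prodMk_left)))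
  have hU : ∀ j, S.μ (U j) ≤ ENNReal.ofReal (C / (M / 2)) := fun j => by
    by_cases hj : t0 + j * δ ≤ s₁
    · exact (measure_mono fun ω hω => hω.2).trans (markov S ⟨hp0 j, hj.trans h1⟩ hM0)
    · rw [show U j = ∅ from eq_empty_of_forall_notMem fun ω hω => hj hω.1]; simp
  have hbm := meas_box S o A Bb Cc R M
  have hf : Measurable fun p : ℝ × Ω => ENNReal.ofReal (S.b o p.1 p.2)⁻¹ := (meas_b S o).inv.ennreal_ofReal
  have hω : ∀ ω, ∫⁻ s in Icc s₀ s₁, {p : ℝ × Ω | p.2 ∈ S.box o A Bb Cc R M p.1}.indicator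
      (fun p => ENNReal.ofReal (S.b o p.1 p.2)⁻¹) (s, ω) ≤ ∑ j ∈ Finset.range n, (U j).indicator (fun _ => K) ω := by
    intro ω
    let T : ℕ → Set ℝ := fun j => {s | s ∈ Icc s₀ s₁ ∧ ω ∈ S.box o A Bb Cc R M s ∧
      S.rt o s ω ∈ Icc (t0 + j * δ) (min (t0 + j * δ + δ) s₁)}
    have hTm : ∀ j, MeasurableSet (T j) := fun j => measurableSet_Icc.inter
      ((measurable_prodMk_right hbm).inter
        ((S.meas_rt o).comp (f := fun s : ℝ => (s, ω)) measurable_prodMk_right measurableSet_Icc))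
    have hg : Measurable fun s => ENNReal.ofReal (S.b o s ω)⁻¹ :=
      hf.comp (f := fun s : ℝ => (s, ω)) measurable_prodMk_right
    calc _ ≤ ∫⁻ s in Icc s₀ s₁, ∑ j ∈ Finset.range n, (T j).indicator (fun s => ENNReal.ofReal (S.b o s ω)⁻¹) s := by
          refine setLIntegral_mono' measurableSet_Icc fun s hs => ?_
          by_cases hb : ω ∈ S.box o A Bb Cc R M s
          · rw [indicator_of_mem (show (s, ω) ∈ {p : ℝ × Ω | p.2 ∈ S.box o A Bb Cc R M p.1} from hb)]
            have z1 := S.norm_z o ω (hs.2.trans h1)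
            have z2 := hb.2.2.2.2.1
            have r1 : t0 ≤ S.rt o s ω := max_le hb.1 (by linarith [z2.2, hs.1])
            have r2 : S.rt o s ω ≤ s₁ := (S.rt_le o ω (hs.2.trans h1)).trans hs.2
            have r3 : s₀ - 2 * R ≤ t0 := le_max_right _ _
            have h0 : 0 ≤ (S.rt o s ω - t0) / δ := div_nonneg (by linarith) hδ.le
            have k1 := (le_div_iff₀ hδ).1 (Nat.floor_le h0)
            have k2 := (div_le_iff₀ hδ).1 (Nat.lt_floor_add_one ((S.rt o s ω - t0) / δ)).le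
            have hj : ⌊(S.rt o s ω - t0) / δ⌋₊ ∈ Finset.range n := Finset.mem_range.2
              (Nat.lt_succ_of_le (Nat.floor_le_floor (div_le_div_of_nonneg_right (by linarith) hδ.le)))
            refine le_trans (le_of_eq ?_) (Finset.single_le_sum
              (f := fun j => (T j).indicator (fun s => ENNReal.ofReal (S.b o s ω)⁻¹) s) (fun _ _ => zero_le) hj)
            exact (indicator_of_mem (show s ∈ T _ from ⟨hs, hb, by linarith, le_min (by linarith) r2⟩)
              fun s => ENNReal.ofReal (S.b o s ω)⁻¹).symm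
          · rw [indicator_of_notMem (show (s, ω) ∉ {p : ℝ × Ω | p.2 ∈ S.box o A Bb Cc R M p.1} from hb)]
            exact zero_le
      _ = ∑ j ∈ Finset.range n, ∫⁻ s in Icc s₀ s₁, (T j).indicator (fun s => ENNReal.ofReal (S.b o s ω)⁻¹) s :=
          lintegral_finsetSum _ fun j _ => hg.indicator (hTm j)
      _ ≤ _ := Finset.sum_le_sum fun j _ => by
          refine (setLIntegral_le_lintegral _ _).trans ?_
          rw [lintegral_indicator (hTm j)]
          rcases (T j).eq_empty_or_nonempty with hE | ⟨s, hs⟩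
          · rw [hE]; simp
          have q1 : min (t0 + j * δ + δ) s₁ ≤ s₁ := min_le_right _ _
          have q2 : min (t0 + j * δ + δ) s₁ ≤ t0 + j * δ + δ := min_le_left _ _
          have hen := entry h.hyp h.tT (hp0 j) hs.2.2.1 (hs.2.2.2.trans (q1.trans h.h1))
            (by linarith [hs.2.2.2]) hM hM1 hs.2.1.2.2.2.2.2.1
          have hpq := hs.2.2.1.trans hs.2.2.2
          rw [indicator_of_mem (show ω ∈ U j from ⟨hpq.trans q1, hen⟩)]
          refine cell S h1 (q1.trans h1) hA hB hC hR hV (vel_of_var (h.hyp ω _ _ (hp0 j) hpq (q1.trans h.h1) (hM.trans hen) ?_)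
            hM1 (by linarith) hC2)
          linarith [lev_mono e hP.le hM0.le hen]
  have hC0 : 0 ≤ C := zero_le_one.trans S.one_le
  calc S.I o A Bb Cc R M s₀ s₁ = ∫⁻ s in Icc s₀ s₁, ∫⁻ ω, {p : ℝ × Ω | p.2 ∈ S.box o A Bb Cc R M p.1}.indicator
        (fun p => ENNReal.ofReal (S.b o p.1 p.2)⁻¹) (s, ω) ∂S.μ := by
        refine lintegral_congr fun s => ?_
        rw [Sys.Is, ← lintegral_indicator (show MeasurableSet (S.box o A Bb Cc R M s) from measurable_prodMk_left hbm)]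
        rfl
    _ = ∫⁻ ω, (∫⁻ s in Icc s₀ s₁, {p : ℝ × Ω | p.2 ∈ S.box o A Bb Cc R M p.1}.indicator
        (fun p => ENNReal.ofReal (S.b o p.1 p.2)⁻¹) (s, ω)) ∂S.μ := lintegral_lintegral_swap (hf.indicator hbm).aemeasurable
    _ ≤ ∫⁻ ω, ∑ j ∈ Finset.range n, (U j).indicator (fun _ => K) ω ∂S.μ := lintegral_mono hω
    _ = ∑ j ∈ Finset.range n, K * S.μ (U j) := by
        rw [lintegral_finsetSum _ fun j _ => measurable_const.indicator (hUm j)]
        exact Finset.sum_congr rfl fun j _ => lintegral_indicator_const (hUm j) K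
    _ ≤ ∑ _j ∈ Finset.range n, K * ENNReal.ofReal (C / (M / 2)) :=
        Finset.sum_le_sum fun j _ => mul_le_mul_right (hU j) _
    _ ≤ _ := by
        rw [Finset.sum_const, Finset.card_range, nsmul_eq_mul, hK, ← ENNReal.ofReal_mul (by positivity),
          ← ENNReal.ofReal_natCast, ← ENNReal.ofReal_mul (Nat.cast_nonneg _)]
        refine ENNReal.ofReal_le_ofReal (mul_le_mul_of_nonneg_right ?_ (by positivity))
        rw [hn]
        push_cast
        linarith [Nat.floor_le (div_nonneg (by linarith : 0 ≤ 3 * (s₁ - s₀)) hδ.le)]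

end Pass

open Pass in
/-- THE PASS COUNT -/
theorem s_pass : S_PASS := by
  intro C
  refine ⟨100000 * max C 1, by linarith [le_max_right C 1], fun e he _ => ?_⟩
  obtain ⟨P₀, hP₀⟩ := eventually_atTop.1 ((eventually_gt_atTop (1 : ℝ)).and
    (((tendsto_rpow_atTop (by norm_num : (0 : ℝ) < 56 / 100)).eventually_ge_atTop ((320 : ℝ) ^ (100 : ℕ))).and
      ((tendsto_rpow_atTop (by norm_num : (0 : ℝ) < 2 / 100)).eventually_ge_atTop 2)))
  refine ⟨P₀, fun P hP Ω _ S t o s₀ s₁ h A Bb Cc R M hA hB hC hR hM _ hC1 hC2 => ?_⟩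
  obtain ⟨p1, p2, p3⟩ := hP₀ P hP
  have hP0 : 0 < P := by linarith
  have hM2 : P ^ (56 / 100 : ℝ) ≤ M / 2 := by
    have e : P ^ (58 / 100 : ℝ) = P ^ (56 / 100 : ℝ) * P ^ (2 / 100 : ℝ) := by rw [← Real.rpow_add hP0]; norm_num
    have : 0 < P ^ (56 / 100 : ℝ) := by positivity
    nlinarith
  have hM0 : 0 < M := by
    have : 0 < P ^ (56 / 100 : ℝ) := by positivity
    linarith
  have hc1 := S.one_le
  rw [max_eq_left hc1]
  have l1 := lev_pos he p1 hM0
  have l2 := lev_pos he p1 (half_pos hM0)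
  have l3 := lev_half e p1.le hM0.le
  have l4 := lev_pos he p1 (en_pos (S.W s₀ o))
  have hs0 : 0 < √Cc := Real.sqrt_pos.2 hC
  have hN : 0 ≤ lev e P (en (S.W s₀ o)) / lev e P M := by positivity
  by_cases hC4 : Cc ≤ 2
  swap
  · have : ∀ s, S.Is o A Bb Cc R M s = 0 := fun s => by
      rw [Sys.Is, show S.box o A Bb Cc R M s = ∅ from
        eq_empty_of_forall_notMem fun ω hω => hC4 (hω.2.2.2.1.1.trans (cc_le_two _ _))]
      simp
    simp [Sys.I, this]
  have hs2 : √Cc ≤ 2 := Real.sqrt_le_iff.2 ⟨by norm_num, by linarith⟩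
  rcases le_total (s₁ - s₀) R with hl | hl
  · refine (S.I_far o h.h0 h.h01 (h.h1.trans h.tT) hA hB hC hR hM0 hl).trans (ENNReal.ofReal_le_ofReal ?_)
    rw [← mul_div_mul_right _ _ hs0.ne']
    refine div_le_div_of_nonneg_right ?_ (by positivity)
    have : 0 < C * R := by positivity
    nlinarith [mul_nonneg this.le hN]
  · refine (near S h he p1 hA hB hC hR p2 hM2 hC1 hC2 hl).trans (ENNReal.ofReal_le_ofReal ?_)
    have k1 : 3 * (s₁ - s₀) / lev e P (M / 2) ≤ 12 * (lev e P (en (S.W s₀ o)) / lev e P M) := by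
      rw [← mul_div_assoc, div_le_div_iff₀ l2 l1]
      nlinarith [mul_le_mul h.len l3 l1.le l4.le]
    have e1 : 4032 * R / (Cc * √Cc) * (C / (M / 2)) = 8064 * (C * R / (M * Cc * √Cc)) := by field_simp; ring
    have e2 : 100000 * C * (1 + lev e P (en (S.W s₀ o)) / lev e P M) * R / (M * Cc * √Cc) =
        (100000 * (1 + lev e P (en (S.W s₀ o)) / lev e P M)) * (C * R / (M * Cc * √Cc)) := by ring
    rw [e1, e2, ← mul_assoc]
    exact mul_le_mul_of_nonneg_right (by linarith) (by positivity)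

end Crest.Agent.R106.A
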