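import Crest.Agent.R106.A.PassFar
import Crest.Agent.R106.A.Dy

/-! # R106/A/Pass26: the pass count `S_PASS` (helper26). -/

set_option autoImplicit false

open MeasureTheory Set Crest.AnalysisR.VecCalc3 Crest.AnalysisR.PDE.RVM
open scoped ENNReal RealInnerProductSpace

noncomputable section
namespace Crest.Agent.R106.A.P26

theorem rv_sub (V V' : R3) : ‖relVel V' - relVel V‖ ≤ 2 * ‖V' - V‖ / en V := by
  have h1 := en_pos V
  have h2 := en_pos V'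
  have e : relVel V' - relVel V = (en V)⁻¹ • (V' - V) + ((en V - en V') / en V) • relVel V' := by
    rw [relVel_eq, relVel_eq, smul_sub, smul_smul]
    have : (en V - en V') / en V * (en V')⁻¹ = (en V')⁻¹ - (en V)⁻¹ := by field_simp
    rw [this, sub_smul]; abel
  have h3 := abs_en_sub_le V V'
  rw [norm_sub_rev] at h3
  have h4 := (norm_relVel_lt_one V').le
  rw [e]
  refine (norm_add_le _ _).trans ?_
  rw [norm_smul, norm_smul, Real.norm_eq_abs, Real.norm_eq_abs, abs_of_pos (inv_pos.2 h1), abs_div, abs_of_pos h1]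
  have h5 : |en V - en V'| / en V * ‖relVel V'‖ ≤ ‖V' - V‖ / en V :=
    (mul_le_of_le_one_right (by positivity) h4).trans (div_le_div_of_nonneg_right h3 h1.le)
  have h6 : (en V)⁻¹ * ‖V' - V‖ = ‖V' - V‖ / en V := inv_mul_eq_div _ _
  have h7 : 2 * ‖V' - V‖ / en V = ‖V' - V‖ / en V + ‖V' - V‖ / en V := by ring
  linarith

theorem mono_lo {f f' : ℝ → ℝ} {a b k : ℝ} (hab : a ≤ b) (h : ∀ x ∈ Icc a b, HasDerivAt f (f' x) x)
    (hk : ∀ x ∈ Icc a b, k ≤ f' x) : k * (b - a) ≤ f b - f a :=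
  (convex_Icc a b).mul_sub_le_image_sub_of_le_deriv (fun x hx => (h x hx).continuousAt.continuousWithinAt)
    (fun x hx => (h x (interior_subset hx)).differentiableAt.differentiableWithinAt)
    (fun x hx => by rw [(h x (interior_subset hx)).deriv]; exact hk x (interior_subset hx))
    a (left_mem_Icc.2 hab) b (right_mem_Icc.2 hab) hab

theorem mono_hi {f f' : ℝ → ℝ} {a b k : ℝ} (hab : a ≤ b) (h : ∀ x ∈ Icc a b, HasDerivAt f (f' x) x)
    (hk : ∀ x ∈ Icc a b, f' x ≤ k) : f b - f a ≤ k * (b - a) := by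
  have := mono_lo (f := fun x => -f x) (f' := fun x => -f' x) (k := -k) hab (fun x hx => (h x hx).neg)
    (fun x hx => neg_le_neg (hk x hx))
  linarith

theorem lint_cover {U : Set ℝ} (V : ℕ → Set ℝ) (n : ℕ) (hU : ∀ s ∈ U, ∃ k < n, s ∈ V k) (f : ℝ → ℝ≥0∞) :
    ∫⁻ s in U, f s ≤ ∑ k ∈ Finset.range n, ∫⁻ s in V k, f s := by
  have h : U ⊆ ⋃ k : Fin n, V k := fun s hs => by
    obtain ⟨k, hk, h⟩ := hU s hs
    exact mem_iUnion.2 ⟨⟨k, hk⟩, h⟩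
  refine (lintegral_mono_set h).trans ((lintegral_iUnion_le _ _).trans (le_of_eq ?_))
  rw [tsum_fintype, Fin.sum_univ_eq_sum_range (fun k => ∫⁻ s in V k, f s)]

variable {Ω : Type} [MeasurableSpace Ω] {C : ℝ}

theorem dG (S : Sys Ω C) (p : R3) (ω : Ω) {t : ℝ} (ht : t ≤ S.T) :
    HasDerivAt (fun t => t - ⟪p, S.Y t ω⟫) (ang p (S.W t ω)) t := by
  have h := (hasDerivAt_id' t).fun_sub ((hasDerivAt_const t p).inner ℝ (S.dY ω t ht))
  refine h.congr_deriv ?_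
  simp [ang]

/-- one pass -/
theorem two_pt (S : Sys Ω C) {o ω : Ω} {s s' A R φ : ℝ} (hss : s ≤ s') (hT : s' ≤ S.T) (hφ : 0 < φ) (hR : 0 < R)
    (ha : S.a o s ω ≤ 2 * A) (hc : φ ^ 2 ≤ S.c o s ω) (hz : ‖S.z o s ω‖ ∈ Icc R (2 * R))
    (hz' : ‖S.z o s' ω‖ ∈ Icc R (2 * R))
    (hV : ∀ r ∈ Icc s s', ‖relVel (S.W r o) - relVel (S.W s o)‖ ≤ 2 / 5 * φ ∧ (en (S.W r o) ^ 2)⁻¹ ≤ φ ^ 2 / 50)
    (hW : ∀ τ ∈ Icc (S.rt o s ω) (S.rt o s' ω), ‖relVel (S.W τ ω) - relVel (S.w o s ω)‖ ≤ 2 / 5 * φ)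
    (hw : (en (S.w o s ω) ^ 2)⁻¹ ≤ φ ^ 2 / 50) :
    S.rt o s' ω - S.rt o s ω ≤ 2 * R + 16 * R * A / φ ^ 2 ∧ s' - s ≤ 2 * R + 16 * R * A / φ ^ 2 := by
  have hsT : s ≤ S.T := hss.trans hT
  have hm : S.rt o s ω ≤ S.rt o s' ω := (S.rt_strictMonoOn o ω).monotoneOn hsT hT hss
  have hV0 := (hV s (left_mem_Icc.2 hss)).2
  have h0 : 7 / 5 * φ ≤ ‖relVel (S.W s o) - relVel (S.w o s ω)‖ := by
    have h := dya_cc (S.W s o) (S.w o s ω)
    have hc' : φ ^ 2 ≤ cc (S.W s o) (S.w o s ω) := hc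
    refine abs_le_of_sq_le_sq' ?_ (norm_nonneg _) |>.2
    nlinarith
  have hG := mono_lo (f := fun t => t - ⟪relVel (S.W s o), S.Y t ω⟫) (f' := fun t => ang (relVel (S.W s o)) (S.W t ω))
    (k := φ ^ 2 / 2) hm (fun x hx => dG S _ ω (hx.2.trans ((S.rt_le o ω hT).trans hT))) (fun x hx => by
      have h := dya_cc (S.W s o) (S.W x ω)
      have h1 := norm_sub_le_norm_sub_add_norm_sub (relVel (S.W s o)) (relVel (S.W x ω)) (relVel (S.w o s ω))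
      have h2 : φ ≤ ‖relVel (S.W s o) - relVel (S.W x ω)‖ := by linarith [hW x hx]
      have h3 : 0 < (en (S.W s o) ^ 2)⁻¹ := by have := en_pos (S.W s o); positivity
      have h4 : 0 < (en (S.W x ω) ^ 2)⁻¹ := by have := en_pos (S.W x ω); positivity
      have h5 := pow_le_pow_left₀ hφ.le h2 2
      show φ ^ 2 / 2 ≤ cc (S.W s o) (S.W x ω)
      linarith)
  have hH := mono_hi (f := fun t => t - ⟪relVel (S.W s o), S.Y t o⟫) (f' := fun t => ang (relVel (S.W s o)) (S.W t o))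
    (k := φ ^ 2 / 4) hss (fun x hx => dG S _ o (hx.2.trans hT)) (fun x hx => by
      have h := dya_cc (S.W s o) (S.W x o)
      have h1 := (hV x hx).1
      rw [norm_sub_rev] at h1
      have h5 := pow_le_pow_left₀ (norm_nonneg _) h1 2
      have h6 := (hV x hx).2
      show cc (S.W s o) (S.W x o) ≤ φ ^ 2 / 4
      nlinarith [sq_nonneg φ])
  have n1 := S.norm_z o ω hsT
  have n2 := S.norm_z o ω hT
  have i1 : ⟪relVel (S.W s o), S.z o s ω⟫ = ⟪relVel (S.W s o), S.Y s o⟫ - ⟪relVel (S.W s o), S.Y (S.rt o s ω) ω⟫ :=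
    inner_sub_right _ _ _
  have i2 : ⟪relVel (S.W s o), S.z o s' ω⟫ = ⟪relVel (S.W s o), S.Y s' o⟫ - ⟪relVel (S.W s o), S.Y (S.rt o s' ω) ω⟫ :=
    inner_sub_right _ _ _
  have j2 : ⟪relVel (S.W s o), S.z o s' ω⟫ ≤ ‖S.z o s' ω‖ :=
    (real_inner_le_norm _ _).trans (mul_le_of_le_one_left (norm_nonneg _) (norm_relVel_lt_one _).le)
  have hz0 : 0 < ‖S.z o s ω‖ := hR.trans_le hz.1
  have j1 : ‖S.z o s ω‖ - ⟪relVel (S.W s o), S.z o s ω⟫ = ‖S.z o s ω‖ * S.a o s ω := by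
    unfold Sys.a ang dir
    rw [real_inner_smul_left, real_inner_comm]
    field_simp
  have ha0 : 0 < S.a o s ω := dd_pos (norm_pos_iff.1 hz0) _
  have j3 : ‖S.z o s ω‖ * S.a o s ω ≤ (2 * R) * (2 * A) := mul_le_mul hz.2 ha ha0.le (by positivity)
  have k1 : s' - s ≤ S.rt o s' ω - S.rt o s ω + R := by linarith [hz.1, hz'.2]
  have hφ2 : 0 < φ ^ 2 := by positivity
  have k2 : φ ^ 2 * (S.rt o s' ω - S.rt o s ω - R) ≤ 16 * R * A := by
    nlinarith [mul_le_mul_of_nonneg_left k1 hφ2.le]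
  have k3 : S.rt o s' ω - S.rt o s ω - R ≤ 16 * R * A / φ ^ 2 := by
    rw [le_div_iff₀ hφ2]; linarith
  constructor <;> linarith

/-- the cost of one pass -/
theorem cost (S : Sys Ω C) {o ω : Ω} {A Bb φ R M : ℝ} (hA : 0 < A) (hB : 0 < Bb) (hφ : 0 < φ) (hR : 0 < R) {U : Set ℝ}
    (hU : ∀ s ∈ U, s ≤ S.T ∧ ω ∈ S.box o A Bb (φ ^ 2) R M s)
    (hd : ∀ s ∈ U, ∀ s' ∈ U, s ≤ s' →
      S.rt o s' ω - S.rt o s ω ≤ 2 * R + 16 * R * A / φ ^ 2 ∧ s' - s ≤ 2 * R + 16 * R * A / φ ^ 2) :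
    ∫⁻ s in U, ENNReal.ofReal (S.b o s ω)⁻¹ ≤ ENNReal.ofReal (64 * R / φ ^ 2) := by
  rcases U.eq_empty_or_nonempty with rfl | ⟨x, hx⟩
  · simp
  have hφ2 : 0 < φ ^ 2 := by positivity
  obtain ⟨D, hD⟩ : ∃ D, D = 2 * R + 16 * R * A / φ ^ 2 := ⟨_, rfl⟩
  have hD0 : 0 < D := by rw [hD]; positivity
  rw [← hD] at hd
  have hb : MeasurableSet {s : ℝ | ω ∈ S.box o A Bb (φ ^ 2) R M s} :=
    (S.meas_box₂ o A Bb (φ ^ 2) R M).preimage (f := fun s : ℝ => (s, ω)) measurable_prodMk_right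
  have hrt : Measurable fun s => S.rt o s ω := (S.meas_rt o).comp (f := fun s : ℝ => (s, ω)) measurable_prodMk_right
  obtain ⟨U', hU'⟩ : ∃ U' : Set ℝ, U' = ({s : ℝ | ω ∈ S.box o A Bb (φ ^ 2) R M s} ∩ Iic S.T) ∩
    (Icc (x - D) (x + D) ∩ (fun s => S.rt o s ω) ⁻¹' Icc (S.rt o x ω - D) (S.rt o x ω + D)) := ⟨_, rfl⟩
  have hm : MeasurableSet U' := by
    rw [hU']; exact (hb.inter measurableSet_Iic).inter (measurableSet_Icc.inter (hrt measurableSet_Icc))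
  have hsub : U ⊆ U' := fun s hs => by
    rw [hU']
    refine ⟨⟨(hU s hs).2, (hU s hs).1⟩, ?_⟩
    rcases le_total s x with h | h
    · have h1 := hd s hs x hx h
      have h2 : S.rt o s ω ≤ S.rt o x ω := (S.rt_strictMonoOn o ω).monotoneOn (hU s hs).1 (hU x hx).1 h
      exact ⟨⟨by linarith [h1.2], by linarith⟩, ⟨by linarith [h1.1], by linarith⟩⟩
    · have h1 := hd x hx s hs h
      have h2 : S.rt o x ω ≤ S.rt o s ω := (S.rt_strictMonoOn o ω).monotoneOn (hU x hx).1 (hU s hs).1 h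
      exact ⟨⟨by linarith, by linarith [h1.2]⟩, ⟨by linarith, by linarith [h1.1]⟩⟩
  have hP : ∀ s ∈ U', ω ∈ S.box o A Bb (φ ^ 2) R M s ∧ s ≤ S.T ∧ s ∈ Icc (x - D) (x + D) ∧
      S.rt o s ω ∈ Icc (S.rt o x ω - D) (S.rt o x ω + D) := fun s hs => by
    rw [hU'] at hs; exact ⟨hs.1.1, hs.1.2, hs.2.1, hs.2.2⟩
  refine (lintegral_mono_set hsub).trans ?_
  rcases le_total (φ ^ 2) (8 * A) with h8 | h8
  · have hc := S.cov_rt o ω (U := U') hm (fun s hs => (hP s hs).2.1)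
      (fun s hs => norm_pos_iff.1 (hR.trans_le (hP s hs).1.2.2.2.2.1.1))
      ((Icc (S.rt o x ω - D) (S.rt o x ω + D)).indicator fun _ => ENNReal.ofReal A⁻¹)
    rw [lintegral_indicator measurableSet_Icc, setLIntegral_const, Real.volume_Icc,
      ← ENNReal.ofReal_mul (by positivity)] at hc
    refine le_trans (setLIntegral_mono' hm fun s hs => ?_) (hc.trans (ENNReal.ofReal_le_ofReal ?_))
    · obtain ⟨⟨-, ha, hb', -⟩, -, -, h4⟩ := hP s hs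
      have hb0 : 0 < S.b o s ω := hB.trans_le hb'.1
      have ha0 : 0 < S.a o s ω := hA.trans_le ha.1
      rw [indicator_of_mem h4, ← ENNReal.ofReal_mul (by positivity)]
      refine ENNReal.ofReal_le_ofReal ?_
      have : S.a o s ω / S.b o s ω * A⁻¹ = (S.a o s ω / A) * (S.b o s ω)⁻¹ := by ring
      rw [this]
      exact le_mul_of_one_le_left (by positivity) ((one_le_div hA).2 ha.1)
    · have e1 : A⁻¹ * (S.rt o x ω + D - (S.rt o x ω - D)) = 4 * R / A + 32 * R / φ ^ 2 := by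
        rw [hD]; field_simp; ring
      have e2 : 4 * R / A ≤ 32 * R / φ ^ 2 := by
        rw [div_le_div_iff₀ hA hφ2]; nlinarith
      have e3 : 64 * R / φ ^ 2 = 32 * R / φ ^ 2 + 32 * R / φ ^ 2 := by ring
      linarith
  · have ht := S.box_tri hR (hU x hx).2
    have hD4 : D ≤ 4 * R := by
      have : 16 * R * A / φ ^ 2 ≤ 2 * R := by rw [div_le_iff₀ hφ2]; nlinarith
      linarith
    calc ∫⁻ s in U', ENNReal.ofReal (S.b o s ω)⁻¹ ≤ ∫⁻ _ in U', ENNReal.ofReal Bb⁻¹ :=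
          setLIntegral_mono' hm fun s hs => ENNReal.ofReal_le_ofReal (inv_anti₀ hB (hP s hs).1.2.2.1.1)
      _ ≤ ∫⁻ _ in Icc (x - D) (x + D), ENNReal.ofReal Bb⁻¹ := lintegral_mono_set fun s hs => (hP s hs).2.2.1
      _ ≤ _ := by
          rw [setLIntegral_const, Real.volume_Icc, ← ENNReal.ofReal_mul (by positivity)]
          refine ENNReal.ofReal_le_ofReal ?_
          rw [inv_mul_eq_div, div_le_div_iff₀ hB hφ2]
          have e1 : (x + D - (x - D)) * φ ^ 2 ≤ (8 * R) * (8 * Bb) :=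
            mul_le_mul (by linarith) (by linarith) hφ2.le (by positivity)
          linarith

theorem inv_sq_le {x y φ : ℝ} (hx : 0 < x) (hφ : 0 < φ) (h : 80 ≤ x * φ) (hy : x / 2 ≤ y) : (y ^ 2)⁻¹ ≤ φ ^ 2 / 50 := by
  have hy0 : 0 < y := by linarith
  have h1 : 40 ≤ y * φ := by nlinarith
  rw [inv_eq_one_div, div_le_div_iff₀ (by positivity) (by norm_num)]
  nlinarith

/-- one source in one time cell -/
theorem cell (S : Sys Ω C) {e P t s₀ s₁ : ℝ} {o : Ω} (h : S.Tst e P t o s₀ s₁) (ω : Ω) {A Bb φ R M τ₀ τ₁ : ℝ}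
    (hA : 0 < A) (hB : 0 < Bb) (hφ : 0 < φ) (hφ2 : φ ≤ 3 / 2) (hR : 0 < R) (hM1 : 1 ≤ M)
    (hγ : 80 * en (S.W s₀ o) ^ (47 / 100 : ℝ) ≤ en (S.W s₀ o) * φ) (hM : 80 * M ^ (47 / 100 : ℝ) ≤ M * φ)
    (hMP : P ^ (56 / 100 : ℝ) ≤ M) (hτ : τ₁ ≤ s₁) (hl : ∀ g, M ≤ g → τ₁ - τ₀ ≤ lev e P g) :
    ∫⁻ s in {s | s ∈ Icc s₀ s₁ ∧ ω ∈ S.box o A Bb (φ ^ 2) R M s ∧ S.rt o s ω ∈ Icc τ₀ τ₁}, ENNReal.ofReal (S.b o s ω)⁻¹ ≤
      ENNReal.ofReal (256 * R / (M * φ ^ 3)) * ENNReal.ofReal (en (S.W τ₁ ω)) := by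
  obtain ⟨U, hU⟩ : ∃ U : Set ℝ, U = {s | s ∈ Icc s₀ s₁ ∧ ω ∈ S.box o A Bb (φ ^ 2) R M s ∧ S.rt o s ω ∈ Icc τ₀ τ₁} := ⟨_, rfl⟩
  rw [← hU]
  rcases U.eq_empty_or_nonempty with rfl' | ⟨x, hx⟩
  · simp [rfl']
  have hP : ∀ s ∈ U, s ∈ Icc s₀ s₁ ∧ ω ∈ S.box o A Bb (φ ^ 2) R M s ∧ S.rt o s ω ∈ Icc τ₀ τ₁ := fun s hs => by
    rw [hU] at hs; exact hs
  have h1T : s₁ ≤ S.T := h.h1.trans h.tT
  have hM0 : 0 < M := by linarith
  have hsub : Icc s₀ s₁ ⊆ Iic S.T := fun r hr => hr.2.trans h1T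
  have hcen : Continuous en := by unfold en; fun_prop
  have hF : ContinuousOn (fun s => (en (S.w o s ω), S.rt o s ω)) (Icc s₀ s₁) :=
    (hcen.comp_continuousOn ((S.w_cont o ω).mono hsub)).prodMk ((S.rt_cont o ω).mono hsub)
  have hcl := hF.preimage_isClosed_of_isClosed isClosed_Icc
    (t := Icc M (2 * M) ×ˢ Icc (max 0 τ₀) τ₁) (isClosed_Icc.prod isClosed_Icc)
  have hin : ∀ s ∈ U, s ∈ Icc s₀ s₁ ∩ (fun s => (en (S.w o s ω), S.rt o s ω)) ⁻¹' (Icc M (2 * M) ×ˢ Icc (max 0 τ₀) τ₁) :=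
    fun s hs => ⟨(hP s hs).1, (hP s hs).2.1.2.2.2.2.2, max_le (hP s hs).2.1.1 (hP s hs).2.2.1, (hP s hs).2.2.2⟩
  obtain ⟨p, ⟨hp1, hp2, hp3⟩, hpl⟩ := (isCompact_Icc.of_isClosed_subset hcl inter_subset_left).exists_isLeast ⟨x, hin x hx⟩
  have hp2' : en (S.W (S.rt o p ω) ω) ∈ Icc M (2 * M) := hp2
  have hp3' : S.rt o p ω ∈ Icc (max 0 τ₀) τ₁ := hp3
  obtain ⟨v, hv, hv1, hv2⟩ := h.hyp ω (S.rt o p ω) τ₁ ((le_max_left _ _).trans hp3'.1) hp3'.2 (hτ.trans h.h1)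
    (hMP.trans hp2'.1) (by linarith [hl _ hp2'.1, (le_max_right _ _).trans hp3'.1])
  obtain ⟨u, hu, hu1, hu2⟩ := h.hyp o s₀ s₁ h.h0 h.h01 h.h1 h.low h.len
  obtain ⟨γ, hγe⟩ : ∃ γ, γ = en (S.W s₀ o) := ⟨_, rfl⟩
  obtain ⟨g, hge⟩ : ∃ g, g = en (S.W (S.rt o p ω) ω) := ⟨_, rfl⟩
  have hγ1 : 1 ≤ γ := hγe ▸ one_le_en _
  have hγ0 : 0 < γ := by linarith
  rw [← hγe] at hγ hu1 hu2
  rw [← hge] at hp2' hv1 hv2
  have r1 : 1 ≤ γ ^ (47 / 100 : ℝ) := Real.one_le_rpow hγ1 (by norm_num)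
  have r2 : 1 ≤ M ^ (47 / 100 : ℝ) := Real.one_le_rpow hM1 (by norm_num)
  have r3 : g ^ (47 / 100 : ℝ) ≤ 2 * M ^ (47 / 100 : ℝ) := by
    refine (Real.rpow_le_rpow (by linarith [hp2'.1]) hp2'.2 (by norm_num)).trans ?_
    rw [Real.mul_rpow (by norm_num) hM0.le]
    refine mul_le_mul_of_nonneg_right ?_ (by linarith)
    calc (2 : ℝ) ^ (47 / 100 : ℝ) ≤ 2 ^ (1 : ℝ) := Real.rpow_le_rpow_of_exponent_le (by norm_num) (by norm_num)
      _ = 2 := Real.rpow_one 2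
  have hγφ : γ * φ ≤ γ * (3 / 2) := mul_le_mul_of_nonneg_left hφ2 hγ0.le
  have hMφ : M * φ ≤ M * (3 / 2) := mul_le_mul_of_nonneg_left hφ2 hM0.le
  have hen : ∀ r ∈ Icc s₀ s₁, γ / 2 ≤ en (S.W r o) := fun r hr => by
    have a1 := hu2 s₀ r le_rfl hr.1 hr.2
    have a2 := (abs_le.1 (abs_en_sub_le (S.W r o) (S.W s₀ o))).1
    have a3 := hu hr.2
    rw [← hγe] at a2
    linarith
  have hend : M / 2 ≤ en (S.W τ₁ ω) := by
    have a1 := hv2 _ τ₁ le_rfl hp3'.2 le_rfl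
    have a2 := (abs_le.1 (abs_en_sub_le (S.W τ₁ ω) (S.W (S.rt o p ω) ω))).1
    rw [← hge] at a2
    linarith [hp2'.1, hp2'.2]
  have hmono : ∀ s s', s ≤ s' → s' ≤ s₁ → S.rt o s ω ≤ S.rt o s' ω := fun s s' a b =>
    (S.rt_strictMonoOn o ω).monotoneOn ((a.trans b).trans h1T) (b.trans h1T) a
  obtain ⟨f, hf⟩ : ∃ f : ℝ → ℝ, ∀ s, f s = ((v (S.rt o s ω) - v (S.rt o p ω)) / M + (u s - u s₀) / γ) / (φ / 20) :=
    ⟨_, fun _ => rfl⟩
  have hf0 : ∀ s ∈ U, 0 ≤ f s ∧ f s ≤ (6 / 1000) / (φ / 20) := fun s hs => by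
    have a1 := hv (hmono p s (hpl (hin s hs)) (hP s hs).1.2)
    have a2 := hv (hP s hs).2.2.2
    have a3 := hu (hP s hs).1.1
    have a4 := hu (hP s hs).1.2
    have b1 : (v (S.rt o s ω) - v (S.rt o p ω)) / M ≤ 4 / 1000 := by
      rw [div_le_iff₀ hM0]; linarith [hp2'.2]
    have b2 : (u s - u s₀) / γ ≤ 2 / 1000 := by
      rw [div_le_iff₀ hγ0]; linarith
    have b3 : 0 ≤ (v (S.rt o s ω) - v (S.rt o p ω)) / M := div_nonneg (by linarith) hM0.le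
    have b4 : 0 ≤ (u s - u s₀) / γ := div_nonneg (by linarith) hγ0.le
    rw [hf]
    exact ⟨by positivity, div_le_div_of_nonneg_right (by linarith) (by positivity)⟩
  refine (lint_cover (fun k => {s | s ∈ U ∧ ⌊f s⌋₊ = k}) (⌊(6 / 1000) / (φ / 20)⌋₊ + 1)
    (fun s hs => ⟨_, Nat.lt_succ_of_le (Nat.floor_mono (hf0 s hs).2), hs, rfl⟩) _).trans ?_
  refine (Finset.sum_le_card_nsmul _ _ (ENNReal.ofReal (64 * R / φ ^ 2)) fun k _ => ?_).trans ?_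
  · refine cost S hA hB hφ hR (fun s hs => ⟨(hP s hs.1).1.2.trans h1T, (hP s hs.1).2.1⟩) fun s hs s' hs' hss => ?_
    obtain ⟨q1, q2, q3⟩ := hP s hs.1
    obtain ⟨q1', q2', q3'⟩ := hP s' hs'.1
    have c1 : f s' ≤ f s + 1 := by
      have a1 := Nat.lt_floor_add_one (f s')
      have a2 := Nat.floor_le (hf0 s hs.1).1
      rw [hs.2] at a2
      rw [hs'.2] at a1
      linarith
    have c2 : (v (S.rt o s' ω) - v (S.rt o s ω)) / M + (u s' - u s) / γ ≤ φ / 20 := by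
      rw [hf, hf, div_add_one (by positivity), div_le_div_iff_of_pos_right (by positivity)] at c1
      have e1 : (v (S.rt o s' ω) - v (S.rt o s ω)) / M =
        (v (S.rt o s' ω) - v (S.rt o p ω)) / M - (v (S.rt o s ω) - v (S.rt o p ω)) / M := by ring
      have e2 : (u s' - u s) / γ = (u s' - u s₀) / γ - (u s - u s₀) / γ := by ring
      linarith
    have c3 : 0 ≤ (v (S.rt o s' ω) - v (S.rt o s ω)) / M := div_nonneg (by linarith [hv (hmono s s' hss q1'.2)]) hM0.le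
    have c4 : 0 ≤ (u s' - u s) / γ := div_nonneg (by linarith [hu hss]) hγ0.le
    have c5 : v (S.rt o s' ω) - v (S.rt o s ω) ≤ φ / 20 * M := (div_le_iff₀ hM0).1 (by linarith)
    have c6 : u s' - u s ≤ φ / 20 * γ := (div_le_iff₀ hγ0).1 (by linarith)
    have hw : M ≤ en (S.w o s ω) := q2.2.2.2.2.2.1
    refine two_pt S hss (q1'.2.trans h1T) hφ hR q2.2.1.2 q2.2.2.2.1.1 q2.2.2.2.2.1 q2'.2.2.2.2.1 (fun r hr => ⟨?_, ?_⟩)
      (fun τ hτ' => ?_) (inv_sq_le hM0 hφ (by linarith) (by linarith))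
    · refine (rv_sub _ _).trans ?_
      have a1 := hu2 s r q1.1 hr.1 (hr.2.trans q1'.2)
      have a2 := hu hr.2
      have a3 := hen s q1
      rw [div_le_iff₀ (en_pos _)]
      nlinarith [mul_le_mul_of_nonneg_left a3 hφ.le]
    · exact inv_sq_le hγ0 hφ (by linarith) (hen r ⟨q1.1.trans hr.1, hr.2.trans q1'.2⟩)
    · refine (rv_sub _ _).trans ?_
      have a1 : ‖S.W τ ω - S.w o s ω‖ ≤ _ :=
        hv2 _ τ (hmono p s (hpl (hin s hs.1)) q1.2) hτ'.1 (hτ'.2.trans q3'.2)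
      have a2 := hv hτ'.2
      rw [div_le_iff₀ (en_pos _)]
      nlinarith [mul_le_mul_of_nonneg_left hw hφ.le]
  · rw [Finset.card_range, nsmul_eq_mul, ← ENNReal.ofReal_natCast, ← ENNReal.ofReal_mul (Nat.cast_nonneg _),
      ← ENNReal.ofReal_mul (by positivity)]
    refine ENNReal.ofReal_le_ofReal ?_
    have a1 : ((⌊(6 / 1000) / (φ / 20)⌋₊ + 1 : ℕ) : ℝ) ≤ 2 / φ := by
      have b1 := Nat.floor_le (show 0 ≤ (6 / 1000) / (φ / 20) by positivity)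
      have b2 : (6 / 1000) / (φ / 20) + 1 ≤ 2 / φ := by
        rw [div_add_one (by positivity), div_le_div_iff₀ (by positivity) hφ]; nlinarith
      push_cast
      linarith
    calc _ ≤ 2 / φ * (64 * R / φ ^ 2) := mul_le_mul_of_nonneg_right a1 (by positivity)
      _ = 256 * R / (M * φ ^ 3) * (M / 2) := by field_simp; ring
      _ ≤ _ := mul_le_mul_of_nonneg_left hend (by positivity)

theorem lev_mono {e P g g' : ℝ} (hP : 1 ≤ P) (hg : 0 ≤ g) (h : g ≤ g') : lev e P g ≤ lev e P g' := by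
  have h1 := Real.log_nonneg hP
  unfold lev
  exact mul_le_mul_of_nonneg_left (min_le_min (div_le_div_of_nonneg_right (pow_le_pow_left₀ hg h 2) (by positivity))
    (div_le_div_of_nonneg_right h (by positivity))) (sq_nonneg e)

theorem lev_pos {e P g : ℝ} (he : 0 < e) (hP : 1 < P) (hg : 0 < g) : 0 < lev e P g := by
  have h1 := Real.log_pos hP
  have h2 : 0 < P := by linarith
  unfold lev
  exact mul_pos (by positivity) (lt_min (by positivity) (by positivity))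

/-- all cells -/
theorem near (S : Sys Ω C) {e P t s₀ s₁ : ℝ} {o : Ω} (h : S.Tst e P t o s₀ s₁) {A Bb φ R M : ℝ} (he : 0 < e) (hP : 1 < P)
    (hA : 0 < A) (hB : 0 < Bb) (hφ : 0 < φ) (hφ2 : φ ≤ 3 / 2) (hR : 0 < R) (hM1 : 1 ≤ M)
    (hγ : 80 * en (S.W s₀ o) ^ (47 / 100 : ℝ) ≤ en (S.W s₀ o) * φ) (hM : 80 * M ^ (47 / 100 : ℝ) ≤ M * φ)
    (hMP : P ^ (56 / 100 : ℝ) ≤ M) (hRs : R ≤ s₁ - s₀) :
    S.I o A Bb (φ ^ 2) R M s₀ s₁ ≤
      ENNReal.ofReal (768 * C * (1 + lev e P (en (S.W s₀ o)) / lev e P M) * R / (M * φ ^ 3)) := by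
  haveI := S.fin
  have hC0 : 0 ≤ C := zero_le_one.trans S.one_le
  have hM0 : 0 < M := by linarith
  have h1T : s₁ ≤ S.T := h.h1.trans h.tT
  have hl0 : 0 < lev e P M := lev_pos he hP hM0
  have hlen := h.len
  have hlm : ∀ g, M ≤ g → lev e P M ≤ lev e P g := fun g hg => lev_mono hP.le hM0.le hg
  obtain ⟨l, hl⟩ : ∃ l, l = lev e P M := ⟨_, rfl⟩
  obtain ⟨L, hL⟩ : ∃ L, L = lev e P (en (S.W s₀ o)) := ⟨_, rfl⟩
  rw [← hl] at hl0 hlm
  rw [← hL] at hlen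
  rw [← hl, ← hL]
  have hL0 : 0 ≤ L := by linarith
  obtain ⟨a, ha⟩ : ∃ a, a = max 0 (s₀ - 2 * R) := ⟨_, rfl⟩
  have ha0 : 0 ≤ a := ha ▸ le_max_left _ _
  have ha1 : s₀ - 2 * R ≤ a := ha ▸ le_max_right _ _
  have hF : Measurable fun p : ℝ × Ω => {p : ℝ × Ω | p.2 ∈ S.box o A Bb (φ ^ 2) R M p.1}.indicator
      (fun p => ENNReal.ofReal (S.b o p.1 p.2)⁻¹) p :=
    (ENNReal.measurable_ofReal.comp (S.meas_b o).inv).indicator (S.meas_box₂ o A Bb (φ ^ 2) R M)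
  have hG : ∀ τ, Measurable fun ω : Ω => ENNReal.ofReal (en (S.W τ ω)) := fun τ =>
    ENNReal.measurable_ofReal.comp (meas_en.comp (S.mW.comp (f := fun ω : Ω => (τ, ω)) measurable_prodMk_left))
  have h1' : ∀ ω, ∫⁻ s in Icc s₀ s₁, {p : ℝ × Ω | p.2 ∈ S.box o A Bb (φ ^ 2) R M p.1}.indicator
      (fun p => ENNReal.ofReal (S.b o p.1 p.2)⁻¹) (s, ω) ≤
      ∑ j ∈ Finset.range (⌊3 * L / l⌋₊ + 1), ENNReal.ofReal (256 * R / (M * φ ^ 3)) *
        ENNReal.ofReal (en (S.W (min (a + (j + 1) * l) s₁) ω)) := by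
    intro ω
    have hU : MeasurableSet {s : ℝ | ω ∈ S.box o A Bb (φ ^ 2) R M s} :=
      (S.meas_box₂ o A Bb (φ ^ 2) R M).preimage (f := fun s : ℝ => (s, ω)) measurable_prodMk_right
    have e1 : ∫⁻ s in Icc s₀ s₁, {p : ℝ × Ω | p.2 ∈ S.box o A Bb (φ ^ 2) R M p.1}.indicator
        (fun p => ENNReal.ofReal (S.b o p.1 p.2)⁻¹) (s, ω) =
        ∫⁻ s in {s : ℝ | ω ∈ S.box o A Bb (φ ^ 2) R M s} ∩ Icc s₀ s₁, ENNReal.ofReal (S.b o s ω)⁻¹ := by
      rw [← Measure.restrict_restrict hU, ← lintegral_indicator hU]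
      rfl
    rw [e1]
    refine (lint_cover (fun j => {s | s ∈ Icc s₀ s₁ ∧ ω ∈ S.box o A Bb (φ ^ 2) R M s ∧
      S.rt o s ω ∈ Icc (a + j * l) (min (a + (j + 1) * l) s₁)}) (⌊3 * L / l⌋₊ + 1) (fun s hs => ?_) _).trans
      (Finset.sum_le_sum fun j _ => cell S h ω hA hB hφ hφ2 hR hM1 hγ hM hMP (min_le_right _ _) fun g hg => ?_)
    · have hsT := hs.2.2.trans h1T
      have n1 := S.norm_z o ω hsT
      have n2 := S.rt_le o ω hsT
      have n3 : a ≤ S.rt o s ω := by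
        rw [ha]; exact max_le hs.1.1 (by linarith [hs.1.2.2.2.2.1.2, hs.2.1])
      have n4 : 0 ≤ (S.rt o s ω - a) / l := div_nonneg (by linarith) hl0.le
      refine ⟨⌊(S.rt o s ω - a) / l⌋₊, Nat.lt_succ_of_le (Nat.floor_mono (div_le_div_of_nonneg_right
        (by linarith [hs.2.2]) hl0.le)), hs.2, hs.1, ?_, le_min ?_ (n2.trans hs.2.2)⟩
      · have := (le_div_iff₀ hl0).1 (Nat.floor_le n4)
        linarith
      · have := (div_lt_iff₀ hl0).1 (Nat.lt_floor_add_one ((S.rt o s ω - a) / l))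
        linarith
    · linarith [min_le_left (a + (j + 1) * l) s₁, hlm g hg]
  calc S.I o A Bb (φ ^ 2) R M s₀ s₁
      = ∫⁻ s in Icc s₀ s₁, ∫⁻ ω, {p : ℝ × Ω | p.2 ∈ S.box o A Bb (φ ^ 2) R M p.1}.indicator
          (fun p => ENNReal.ofReal (S.b o p.1 p.2)⁻¹) (s, ω) ∂S.μ := by
        refine lintegral_congr fun s => ?_
        unfold Sys.Is
        rw [← lintegral_indicator (S.meas_box o A Bb (φ ^ 2) R M s)]
        rfl
    _ = ∫⁻ ω, (∫⁻ s in Icc s₀ s₁, {p : ℝ × Ω | p.2 ∈ S.box o A Bb (φ ^ 2) R M p.1}.indicator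
          (fun p => ENNReal.ofReal (S.b o p.1 p.2)⁻¹) (s, ω)) ∂S.μ :=
        lintegral_lintegral_swap hF.aemeasurable
    _ ≤ ∫⁻ ω, (∑ j ∈ Finset.range (⌊3 * L / l⌋₊ + 1), ENNReal.ofReal (256 * R / (M * φ ^ 3)) *
        ENNReal.ofReal (en (S.W (min (a + (j + 1) * l) s₁) ω))) ∂S.μ := lintegral_mono h1'
    _ = ∑ j ∈ Finset.range (⌊3 * L / l⌋₊ + 1), ENNReal.ofReal (256 * R / (M * φ ^ 3)) *
        ∫⁻ ω, ENNReal.ofReal (en (S.W (min (a + (j + 1) * l) s₁) ω)) ∂S.μ := by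
        rw [lintegral_finset_sum _ fun j _ => (hG _).const_mul _]
        exact Finset.sum_congr rfl fun j _ => lintegral_const_mul _ (hG _)
    _ ≤ (Finset.range (⌊3 * L / l⌋₊ + 1)).card • (ENNReal.ofReal (256 * R / (M * φ ^ 3)) * ENNReal.ofReal C) :=
        Finset.sum_le_card_nsmul _ _ _ fun j _ => mul_le_mul_right (S.enP _
          ⟨le_min (by positivity) (h.h0.trans h.h01), (min_le_right _ _).trans h1T⟩) _
    _ ≤ _ := by
        rw [Finset.card_range, nsmul_eq_mul, ← ENNReal.ofReal_natCast, ← ENNReal.ofReal_mul (by positivity),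
          ← ENNReal.ofReal_mul (Nat.cast_nonneg _)]
        refine ENNReal.ofReal_le_ofReal ?_
        have a1 : ((⌊3 * L / l⌋₊ + 1 : ℕ) : ℝ) ≤ 3 * (1 + L / l) := by
          have b1 := Nat.floor_le (show 0 ≤ 3 * L / l by positivity)
          have b2 : 3 * L / l = 3 * (L / l) := by ring
          push_cast
          linarith
        calc _ ≤ 3 * (1 + L / l) * (256 * R / (M * φ ^ 3) * C) := mul_le_mul_of_nonneg_right a1 (by positivity)
          _ = _ := by ring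

theorem num {x Cc : ℝ} (hx : (80 : ℝ) ^ 100 ≤ x) (h : x ^ (-(104 / 100) : ℝ) ≤ Cc) : 80 * x ^ (47 / 100 : ℝ) ≤ x * √Cc := by
  have hx0 : 0 < x := lt_of_lt_of_le (by positivity) hx
  have h1 : x ^ (-(52 / 100) : ℝ) ≤ √Cc := by
    refine Real.le_sqrt_of_sq_le ?_
    rw [← Real.rpow_natCast, ← Real.rpow_mul hx0.le]
    refine le_trans (le_of_eq ?_) h
    norm_num
  have h2 : (80 : ℝ) ≤ x ^ (1 / 100 : ℝ) := by
    have h3 := Real.rpow_le_rpow (by positivity) hx (show (0 : ℝ) ≤ 1 / 100 by norm_num)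
    rw [← Real.rpow_natCast, ← Real.rpow_mul (by norm_num)] at h3
    refine le_trans (le_of_eq ?_) h3
    norm_num
  calc 80 * x ^ (47 / 100 : ℝ) ≤ x ^ (1 / 100 : ℝ) * x ^ (47 / 100 : ℝ) :=
        mul_le_mul_of_nonneg_right h2 (by positivity)
    _ = x ^ (1 : ℝ) * x ^ (-(52 / 100) : ℝ) := by
        rw [← Real.rpow_add hx0, ← Real.rpow_add hx0]; norm_num
    _ ≤ x * √Cc := by rw [Real.rpow_one]; exact mul_le_mul_of_nonneg_left h1 hx0.le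

theorem s_pass : S_PASS := by
  intro C
  refine ⟨768 * max C 1, by linarith [le_max_right C 1], fun e he _ => ⟨((80 : ℝ) ^ 100) ^ 2, fun P hP Ω _ S t o s₀ s₁ h A Bb Cc R M
    hA hB hC hR hM _ hcγ hcM => ?_⟩⟩
  rw [max_eq_left S.one_le]
  have hC0 : 0 < C := one_pos.trans_le S.one_le
  have h80 : (2 : ℝ) ≤ 80 ^ 100 := by norm_num
  generalize hX : (80 : ℝ) ^ 100 = X at hP h80
  have hP1 : 1 < P := by nlinarith
  have hXP : X ≤ P ^ (56 / 100 : ℝ) := by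
    calc X ≤ √P := Real.le_sqrt_of_sq_le hP
      _ = P ^ (1 / 2 : ℝ) := Real.sqrt_eq_rpow P
      _ ≤ _ := Real.rpow_le_rpow_of_exponent_le hP1.le (by norm_num)
  have hMP : P ^ (56 / 100 : ℝ) ≤ M := (Real.rpow_le_rpow_of_exponent_le hP1.le (by norm_num)).trans hM
  have hM1 : 1 ≤ M := by linarith
  have hM0 : 0 < M := by linarith
  have hφ : 0 < √Cc := Real.sqrt_pos.2 hC
  have hq : 0 ≤ lev e P (en (S.W s₀ o)) / lev e P M := div_nonneg (lev_pos he hP1 (en_pos _)).le (lev_pos he hP1 hM0).le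
  by_cases hC2 : Cc ≤ 2
  · have hφ2 : √Cc ≤ 3 / 2 := Real.sqrt_le_iff.2 ⟨by norm_num, by linarith⟩
    rcases le_total (s₁ - s₀) R with hRs | hRs
    · refine (S.I_far o h.h0 h.h01 (h.h1.trans h.tT) hA hB hC hR hM0 hRs).trans (ENNReal.ofReal_le_ofReal ?_)
      rw [div_le_div_iff₀ (by positivity) (by positivity)]
      have a1 : 0 < C * R * (M * Cc) := by positivity
      nlinarith [mul_le_mul_of_nonneg_left hφ2 a1.le, mul_nonneg a1.le hq]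
    · have := near S h he hP1 hA hB hφ hφ2 hR hM1 (num (hX ▸ hXP.trans h.low) hcγ) (num (hX ▸ hXP.trans hMP) hcM) hMP hRs
      rw [Real.sq_sqrt hC.le] at this
      refine this.trans (le_of_eq ?_)
      rw [pow_succ, Real.sq_sqrt hC.le, mul_assoc M]
  · have e : ∀ s, S.box o A Bb Cc R M s = ∅ := fun s => eq_empty_of_forall_notMem fun ω hω =>
      hC2 (hω.2.2.2.1.1.trans (cc_bd _ _).2.2.2)
    simp [Sys.I, Sys.Is, e]

end Crest.Agent.R106.A.P26
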