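import Crest.Agent.R106.A.PassV

/-! R106/A: the pass count for one source in one time cell (helper55). -/

set_option autoImplicit false
set_option maxHeartbeats 400000

open MeasureTheory Set Crest.AnalysisR.VecCalc3 Crest.AnalysisR.PDE.RVM
open scoped ENNReal RealInnerProductSpace

namespace Crest.Agent.R106.A.Pass

variable {Ω : Type} [MeasurableSpace Ω] {C : ℝ}

theorem meas_ang {X : Type} [MeasurableSpace X] {f g : X → R3} (hf : Measurable f) (hg : Measurable g) :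
    Measurable fun x => ang (f x) (g x) :=
  measurable_const.sub (hf.inner (Sys.rc2_relVel.measurable.comp hg))

theorem meas_dir {X : Type} [MeasurableSpace X] {f : X → R3} (hf : Measurable f) : Measurable fun x => dir (f x) :=
  hf.norm.inv.smul hf

theorem meas_b (S : Sys Ω C) (o : Ω) : Measurable fun p : ℝ × Ω => S.b o p.1 p.2 :=
  meas_ang (meas_dir (S.meas_z o)) (S.meas_w o)

theorem meas_box (S : Sys Ω C) (o : Ω) (A Bb Cc R M : ℝ) :
    MeasurableSet {p : ℝ × Ω | p.2 ∈ S.box o A Bb Cc R M p.1} := by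
  have hW : Measurable fun p : ℝ × Ω => S.W p.1 o :=
    S.mW.comp (f := fun p : ℝ × Ω => (p.1, o)) (measurable_fst.prodMk measurable_const)
  have ha : Measurable fun p : ℝ × Ω => S.a o p.1 p.2 := meas_ang (meas_dir (S.meas_z o)) hW
  have hr : Measurable fun p : ℝ × Ω => relVel (S.W p.1 o) := Sys.rc2_relVel.measurable.comp hW
  have hc : Measurable fun p : ℝ × Ω => S.c o p.1 p.2 := meas_ang hr (S.meas_w o)
  have he : Measurable fun p : ℝ × Ω => en (S.w o p.1 p.2) :=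
    (show Continuous en by unfold en; fun_prop).measurable.comp (S.meas_w o)
  have hz : Measurable fun p : ℝ × Ω => ‖S.z o p.1 p.2‖ := (S.meas_z o).norm
  have I : ∀ {f : ℝ × Ω → ℝ}, Measurable f → ∀ x y : ℝ, MeasurableSet {p | f p ∈ Icc x y} :=
    fun hf _ _ => hf measurableSet_Icc
  exact (measurableSet_le measurable_const (S.meas_rt o)).inter ((I ha _ _).inter
    ((I (meas_b S o) _ _).inter ((I hc _ _).inter ((I hz _ _).inter (I he _ _)))))

theorem cc_le_two (V W : R3) : cc V W ≤ 2 := by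
  have := abs_real_inner_le_norm (relVel V) (relVel W)
  have h1 := mul_le_one₀ (norm_relVel_lt_one V).le (norm_nonneg _) (norm_relVel_lt_one W).le
  have := (abs_le.1 (this.trans h1)).1
  unfold cc ang
  linarith

theorem cc_le {z : R3} (hz : z ≠ 0) (V W : R3) : cc V W ≤ 2 * dd z V + 2 * dd z W := by
  have h1 := (abs_le.1 (abs_inner_pp_le hz V W)).1
  have ha := dd_pos hz V
  have hb := dd_pos hz W
  rw [cc_eq hz]
  nlinarith [sq_nonneg (√(dd z V) - √(dd z W)), Real.sq_sqrt ha.le, Real.sq_sqrt hb.le, mul_pos ha hb]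

theorem cell (S : Sys Ω C) {o ω : Ω} {s₀ s₁ p q A Bb Cc R M : ℝ} (h1 : s₁ ≤ S.T) (hq : q ≤ S.T) (hA : 0 < A) (hB : 0 < Bb)
    (hC : 0 < Cc) (hR : 0 < R) (hV : Vel S o s₀ s₁ (√Cc / 10)) (hW : Vel S ω p q (√Cc / 10)) :
    ∫⁻ s in {s | s ∈ Icc s₀ s₁ ∧ ω ∈ S.box o A Bb Cc R M s ∧ S.rt o s ω ∈ Icc p q}, ENNReal.ofReal (S.b o s ω)⁻¹ ≤
      ENNReal.ofReal (4032 * R / (Cc * √Cc)) := by
  set T := {s | s ∈ Icc s₀ s₁ ∧ ω ∈ S.box o A Bb Cc R M s ∧ S.rt o s ω ∈ Icc p q} with hT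
  have hTm : MeasurableSet T := measurableSet_Icc.inter
    ((measurable_prodMk_right (meas_box S o A Bb Cc R M)).inter
      ((S.meas_rt o).comp (f := fun s : ℝ => (s, ω)) measurable_prodMk_right measurableSet_Icc))
  rcases T.eq_empty_or_nonempty with he | ⟨s', hs'⟩
  · rw [he]; simp
  have hz : ∀ s ∈ T, S.z o s ω ≠ 0 := fun s hs => norm_pos_iff.1 (hR.trans_le hs.2.1.2.2.2.2.1.1)
  have hC2 : Cc ≤ 2 := hs'.2.1.2.2.2.1.1.trans (cc_le_two _ _)
  have hC4 : Cc ≤ 4 * A + 4 * Bb := by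
    have := hs'.2.1.2.2.2.1.1.trans (cc_le (hz s' hs') _ _)
    have a : dd (S.z o s' ω) (S.W s' o) ≤ 2 * A := hs'.2.1.2.1.2
    have b : dd (S.z o s' ω) (S.w o s' ω) ≤ 2 * Bb := hs'.2.1.2.2.1.2
    linarith
  have hs0 : 0 < √Cc := Real.sqrt_pos.2 hC
  have hs2 : √Cc ≤ 2 := Real.sqrt_le_iff.2 ⟨by norm_num, by linarith⟩
  obtain ⟨v, hv, v1, v2, v3⟩ := hV
  obtain ⟨u, hu, u1, u2, u3⟩ := hW
  have mono : ∀ s ∈ T, ∀ s' ∈ T, s ≤ s' → S.rt o s ω ≤ S.rt o s' ω := fun s hs s' hs' h =>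
    (S.rt_strictMonoOn o ω).monotoneOn (hs.1.2.trans h1) (hs'.1.2.trans h1) h
  have hw : ∀ s ∈ T, v s₀ + u p ≤ v s + u (S.rt o s ω) ∧ v s + u (S.rt o s ω) ≤ v s₀ + u p + 2 := fun s hs =>
    ⟨add_le_add (hv hs.1.1) (hu hs.2.2.1), by linarith [hv hs.1.2, hu hs.2.2.2]⟩
  have key : ∀ s ∈ T, ∀ s' ∈ T, s ≤ s' → |v s' + u (S.rt o s' ω) - (v s + u (S.rt o s ω))| ≤ √Cc / 10 / 2 →
      Cc * (s' - s) ≤ 8 * R * (4 * Bb + Cc) ∧ Cc * (S.rt o s' ω - S.rt o s ω) ≤ 8 * R * (4 * A + Cc) := by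
    intro s hs s' hs' hle hd
    have m := mono s hs s' hs' hle
    have d := (abs_le.1 hd).2
    have m1 := hv hle
    have m2 := hu m
    have := piece (X := fun r => S.Y r o) (Y := fun r => S.Y r ω) (V := fun r => relVel (S.W r o))
      (W := fun r => relVel (S.W r ω)) (η := √Cc / 10) (Cc := Cc) (R := 2 * R) hle m
      (fun r hr => S.dY o r (hr.2.trans (hs'.1.2.trans h1))) (fun r hr => S.dY ω r (hr.2.trans (hs'.2.2.2.trans hq)))
      (S.ret s _ ω (hs.1.2.trans h1)) (S.ret s' _ ω (hs'.1.2.trans h1)) (hz s hs) (hz s' hs')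
      hs.2.1.2.2.2.2.1.2 hs'.2.1.2.2.2.2.1.2
      (fun r hr => ⟨by linarith [v2 s r hs.1.1 hr.1 (hr.2.trans hs'.1.2), hv hr.2], (norm_relVel_lt_one _).le,
        v3 r ⟨hs.1.1.trans hr.1, hr.2.trans hs'.1.2⟩⟩)
      (fun r hr => ⟨by linarith [u2 _ r hs.2.2.1 hr.1 (hr.2.trans hs'.2.2.2), hu hr.2], (norm_relVel_lt_one _).le,
        u3 r ⟨hs.2.2.1.trans hr.1, hr.2.trans hs'.2.2.2⟩⟩)
      hs.2.1.2.2.2.1.1 (by rw [div_pow, Real.sq_sqrt hC.le]; linarith)
    have a : 1 - ⟪dir (S.Y s o - S.Y (S.rt o s ω) ω), relVel (S.W s o)⟫ ≤ 2 * A := hs.2.1.2.1.2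
    have b : 1 - ⟪dir (S.Y s' o - S.Y (S.rt o s' ω) ω), relVel (S.W (S.rt o s' ω) ω)⟫ ≤ 2 * Bb := hs'.2.1.2.2.1.2
    exact ⟨this.1.trans (by nlinarith), this.2.trans (by nlinarith)⟩
  have fin : ∀ X : ℝ, 0 < X → X⁻¹ * ((2 / (√Cc / 10 / 2) + 1) * (96 * R * X / Cc)) ≤ 4032 * R / (Cc * √Cc) := fun X hX => by
    have e : X⁻¹ * ((2 / (√Cc / 10 / 2) + 1) * (96 * R * X / Cc)) = (40 + √Cc) * 96 * R / (Cc * √Cc) := by
      field_simp; ring
    rw [e]
    refine div_le_div_of_nonneg_right ?_ (by positivity)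
    nlinarith
  rcases le_total A Bb with hAB | hAB
  · have hvol := vol_le_of_pieces (T := T) id (fun s => v s + u (S.rt o s ω)) (D := 2) (η := √Cc / 10 / 2)
      (L := 96 * R * Bb / Cc) (by positivity) (by norm_num) (by positivity) hw fun s hs s' hs' hle hd => by
        rw [id, id, abs_of_nonneg (sub_nonneg.2 hle), le_div_iff₀ hC]
        nlinarith [(key s hs s' hs' hle hd).1]
    rw [image_id] at hvol
    calc _ ≤ ∫⁻ _ in T, ENNReal.ofReal Bb⁻¹ := setLIntegral_mono' hTm fun s hs =>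
          ENNReal.ofReal_le_ofReal (inv_anti₀ hB hs.2.1.2.2.1.1)
      _ = ENNReal.ofReal Bb⁻¹ * volume T := by rw [setLIntegral_const]
      _ ≤ ENNReal.ofReal Bb⁻¹ * _ := mul_le_mul_right hvol _
      _ ≤ _ := by
        rw [← ENNReal.ofReal_mul (by positivity)]
        exact ENNReal.ofReal_le_ofReal (fin Bb hB)
  · have hvol := vol_le_of_pieces (T := T) (fun s => S.rt o s ω) (fun s => v s + u (S.rt o s ω)) (D := 2)
      (η := √Cc / 10 / 2) (L := 96 * R * A / Cc) (by positivity) (by norm_num) (by positivity) hw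
      fun s hs s' hs' hle hd => by
        rw [abs_of_nonneg (sub_nonneg.2 (mono s hs s' hs' hle)), le_div_iff₀ hC]
        nlinarith [(key s hs s' hs' hle hd).2]
    have hT' : MeasurableSet (T \ {S.T}) := hTm.diff (measurableSet_singleton _)
    have hcov := lintegral_image_eq_lintegral_abs_deriv_mul (f := fun s => S.rt o s ω)
      (f' := fun s => S.a o s ω / S.b o s ω) hT'
      (fun s hs => (S.rt_deriv o ω (lt_of_le_of_ne (hs.1.1.2.trans h1) hs.2) (hz s hs.1)).hasDerivWithinAt)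
      ((S.rt_strictMonoOn o ω).injOn.mono fun s hs => hs.1.1.2.trans h1) fun _ => 1
    simp only [mul_one, setLIntegral_const, one_mul] at hcov
    calc _ = ∫⁻ s in T \ {S.T}, ENNReal.ofReal (S.b o s ω)⁻¹ :=
          setLIntegral_congr (sdiff_null_ae_eq_self (measure_singleton _)).symm
      _ ≤ ∫⁻ s in T \ {S.T}, ENNReal.ofReal A⁻¹ * ENNReal.ofReal |S.a o s ω / S.b o s ω| :=
          setLIntegral_mono' hT' fun s hs => by
            have a : A ≤ S.a o s ω := hs.1.2.1.2.1.1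
            have b : 0 < S.b o s ω := hB.trans_le hs.1.2.1.2.2.1.1
            rw [← ENNReal.ofReal_mul (by positivity), abs_of_pos (div_pos (hA.trans_le a) b)]
            refine ENNReal.ofReal_le_ofReal ?_
            rw [div_eq_mul_inv, ← mul_assoc]
            exact le_mul_of_one_le_left (by positivity) (by rw [inv_mul_eq_div, one_le_div hA]; exact a)
      _ = ENNReal.ofReal A⁻¹ * volume ((fun s => S.rt o s ω) '' (T \ {S.T})) := by
          rw [lintegral_const_mul' _ _ ENNReal.ofReal_ne_top, hcov]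
      _ ≤ ENNReal.ofReal A⁻¹ * _ := mul_le_mul_right ((measure_mono (image_mono sdiff_subset)).trans hvol) _
      _ ≤ _ := by
        rw [← ENNReal.ofReal_mul (by positivity)]
        exact ENNReal.ofReal_le_ofReal (fin A hA)

end Crest.Agent.R106.A.Pass
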