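import Crest.Agent.R106.A.KerB

/-! R106/A: one piece of the pass count (helper55): null coordinates along nearly straight motion. -/

set_option autoImplicit false

open MeasureTheory Set Crest.AnalysisR.VecCalc3 Crest.AnalysisR.PDE.RVM
open scoped ENNReal RealInnerProductSpace

namespace Crest.Agent.R106.A

theorem null_lo {X V : ℝ → R3} {s1 s2 p : ℝ} (e : R3) (hs : s1 ≤ s2)
    (hX : ∀ s ∈ Icc s1 s2, HasDerivAt X (V s) s) (hp : ∀ s ∈ Icc s1 s2, p ≤ 1 - ⟪e, V s⟫) :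
    p * (s2 - s1) ≤ (s2 - ⟪e, X s2⟫) - (s1 - ⟪e, X s1⟫) := by
  have hd : ∀ s ∈ Icc s1 s2, HasDerivAt (fun s => s - ⟪e, X s⟫) (1 - ⟪e, V s⟫) s := fun s hs => by
    have := (hasDerivAt_id s).sub ((hasDerivAt_const s e).inner ℝ (hX s hs))
    simp only [inner_zero_left, add_zero] at this
    exact this
  exact (convex_Icc s1 s2).mul_sub_le_image_sub_of_le_deriv (fun s hs => (hd s hs).continuousAt.continuousWithinAt)
    (fun s hs => (hd s (interior_subset hs)).differentiableAt.differentiableWithinAt)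
    (fun s hs => by rw [(hd s (interior_subset hs)).deriv]; exact hp s (interior_subset hs))
    s1 (left_mem_Icc.2 hs) s2 (right_mem_Icc.2 hs) hs

theorem null_hi {X V : ℝ → R3} {s1 s2 q : ℝ} (e : R3) (hs : s1 ≤ s2)
    (hX : ∀ s ∈ Icc s1 s2, HasDerivAt X (V s) s) (hq : ∀ s ∈ Icc s1 s2, 1 - ⟪e, V s⟫ ≤ q) :
    (s2 - ⟪e, X s2⟫) - (s1 - ⟪e, X s1⟫) ≤ q * (s2 - s1) := by
  have hd : ∀ s ∈ Icc s1 s2, HasDerivAt (fun s => s - ⟪e, X s⟫) (1 - ⟪e, V s⟫) s := fun s hs => by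
    have := (hasDerivAt_id s).sub ((hasDerivAt_const s e).inner ℝ (hX s hs))
    simp only [inner_zero_left, add_zero] at this
    exact this
  exact (convex_Icc s1 s2).image_sub_le_mul_sub_of_deriv_le (fun s hs => (hd s hs).continuousAt.continuousWithinAt)
    (fun s hs => (hd s (interior_subset hs)).differentiableAt.differentiableWithinAt)
    (fun s hs => by rw [(hd s (interior_subset hs)).deriv]; exact hq s (interior_subset hs))
    s1 (left_mem_Icc.2 hs) s2 (right_mem_Icc.2 hs) hs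

theorem one_sub_inner (p q : R3) : 1 - ⟪p, q⟫ = ‖p - q‖ ^ 2 / 2 + (1 - ‖p‖ ^ 2) / 2 + (1 - ‖q‖ ^ 2) / 2 := by
  rw [norm_sub_sq_real]; ring

/-- `R (1 - e · n)` -/
theorem norm_sub_inner {z : R3} (hz : z ≠ 0) (e : R3) : ‖z‖ - ⟪e, z⟫ = ‖z‖ * (1 - ⟪e, dir z⟫) := by
  conv_lhs => rw [← norm_smul_dir z, real_inner_smul_right]
  rw [norm_smul_dir]; ring

theorem sq_le_of_tri {x y z : ℝ} (hx : 0 ≤ x) (h : x ≤ y + z) : x ^ 2 ≤ 2 * y ^ 2 + 2 * z ^ 2 := by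
  nlinarith [sq_nonneg (y - z), mul_self_le_mul_self hx h]

/-- ONE PIECE.  Test velocities `V` on `[s1, s2]`, source velocities `W` on `[t1, t2]` vary by at most `η`, both are `η`-close
to the light cone, and `c = 1 - V s1 · W t1 ≥ 100 η²`.  Then both time spans are bounded. -/
theorem piece {X Y V W : ℝ → R3} {s1 s2 t1 t2 η Cc R : ℝ} (hs : s1 ≤ s2) (ht : t1 ≤ t2)
    (hX : ∀ s ∈ Icc s1 s2, HasDerivAt X (V s) s) (hY : ∀ t ∈ Icc t1 t2, HasDerivAt Y (W t) t)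
    (h1 : s1 - t1 = ‖X s1 - Y t1‖) (h2 : s2 - t2 = ‖X s2 - Y t2‖) (hz1 : X s1 - Y t1 ≠ 0) (hz2 : X s2 - Y t2 ≠ 0)
    (hR1 : ‖X s1 - Y t1‖ ≤ R) (hR2 : ‖X s2 - Y t2‖ ≤ R)
    (hV : ∀ s ∈ Icc s1 s2, ‖V s - V s1‖ ≤ η ∧ ‖V s‖ ≤ 1 ∧ 1 - ‖V s‖ ^ 2 ≤ η ^ 2)
    (hW : ∀ t ∈ Icc t1 t2, ‖W t - W t1‖ ≤ η ∧ ‖W t‖ ≤ 1 ∧ 1 - ‖W t‖ ^ 2 ≤ η ^ 2)
    (hc : Cc ≤ 1 - ⟪V s1, W t1⟫) (hη : 100 * η ^ 2 ≤ Cc) :
    Cc * (s2 - s1) ≤ 4 * R * (2 * (1 - ⟪dir (X s2 - Y t2), W t2⟫) + Cc) ∧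
    Cc * (t2 - t1) ≤ 4 * R * (2 * (1 - ⟪dir (X s1 - Y t1), V s1⟫) + Cc) := by
  have m1 := left_mem_Icc.2 hs
  have n1 := left_mem_Icc.2 ht
  have n2 := right_mem_Icc.2 ht
  have hη0 : 0 ≤ η := (norm_nonneg _).trans (hV s1 m1).1
  have hη2 := sq_nonneg η
  have hR0 : 0 ≤ R := (norm_nonneg _).trans hR1
  have hd : 2 * Cc - 2 * η ^ 2 ≤ ‖V s1 - W t1‖ ^ 2 := by
    rw [one_sub_inner] at hc
    linarith [(hV s1 m1).2.2, (hW t1 n1).2.2]
  have sq1 : ∀ x : R3, ‖x‖ ≤ 1 → 0 ≤ 1 - ‖x‖ ^ 2 := fun x hx => by nlinarith [norm_nonneg x]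
  have sqη : ∀ x : R3, ‖x‖ ≤ η → ‖x‖ ^ 2 ≤ η ^ 2 := fun x hx => pow_le_pow_left₀ (norm_nonneg _) hx 2
  constructor
  · have a := null_lo (p := Cc / 2 - 2 * η ^ 2) (W t1) hs hX fun s hs => by
      have := sq_le_of_tri (norm_nonneg _) (norm_sub_le_norm_sub_add_norm_sub (V s1) (V s) (W t1))
      have h3 := sqη _ (hV s hs).1
      rw [norm_sub_rev] at h3
      rw [one_sub_inner, norm_sub_rev]
      linarith [sq1 _ (hV s hs).2.1, sq1 _ (hW t1 n1).2.1]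
    have b := null_hi (q := 2 * η ^ 2) (W t1) ht hY fun t ht => by
      have h3 := sqη _ (hW t ht).1
      rw [one_sub_inner, norm_sub_rev]
      linarith [(hW t ht).2.2, (hW t1 n1).2.2]
    have u1 : ⟪W t1, X s1 - Y t1⟫ ≤ ‖X s1 - Y t1‖ :=
      (real_inner_le_norm _ _).trans (mul_le_of_le_one_left (norm_nonneg _) (hW t1 n1).2.1)
    have u2 := norm_sub_inner hz2 (W t1)
    have u3 : 1 - ⟪W t1, dir (X s2 - Y t2)⟫ ≤ 2 * (1 - ⟪dir (X s2 - Y t2), W t2⟫) + 2 * η ^ 2 := by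
      have := sq_le_of_tri (norm_nonneg _) (norm_sub_le_norm_sub_add_norm_sub (W t1) (W t2) (dir (X s2 - Y t2)))
      have h3 := sqη _ (hW t2 n2).1
      rw [norm_sub_rev] at h3
      rw [one_sub_inner, one_sub_inner, norm_dir hz2, norm_sub_rev (dir _)]
      linarith [(hW t1 n1).2.2, sq1 _ (hW t2 n2).2.1]
    have u4 : 0 ≤ 1 - ⟪W t1, dir (X s2 - Y t2)⟫ := by
      have := (real_inner_le_norm (W t1) (dir (X s2 - Y t2)))
      rw [norm_dir hz2, mul_one] at this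
      linarith [(hW t1 n1).2.1]
    have u5 := mul_le_mul hR2 u3 u4 hR0
    rw [inner_sub_right] at u1 u2
    have u6 : t2 - t1 ≤ s2 - s1 + R := by linarith [norm_nonneg (X s2 - Y t2)]
    have u7 := mul_le_mul_of_nonneg_left u6 hη2
    have u8 := mul_le_mul_of_nonneg_right hη (sub_nonneg.2 hs)
    have u9 := mul_le_mul_of_nonneg_right hη hR0
    have u10 : 0 ≤ R * (1 - ⟪dir (X s2 - Y t2), W t2⟫) := by
      have := (real_inner_le_norm (dir (X s2 - Y t2)) (W t2))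
      rw [norm_dir hz2, one_mul] at this
      exact mul_nonneg hR0 (by linarith [(hW t2 n2).2.1])
    have u11 := mul_nonneg hη2 (sub_nonneg.2 hs)
    have u12 := mul_nonneg hη2 hR0
    nlinarith
  · have a := null_lo (p := Cc / 2 - 2 * η ^ 2) (V s1) ht hY fun t ht => by
      have := sq_le_of_tri (norm_nonneg _) (norm_sub_le_norm_sub_add_norm_sub (V s1) (W t) (W t1))
      have h3 := sqη _ (hW t ht).1
      rw [one_sub_inner]
      linarith [sq1 _ (hW t ht).2.1, sq1 _ (hV s1 m1).2.1]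
    have b := null_hi (q := 2 * η ^ 2) (V s1) hs hX fun s hs => by
      have h3 := sqη _ (hV s hs).1
      rw [one_sub_inner, norm_sub_rev]
      linarith [(hV s hs).2.2, (hV s1 m1).2.2]
    have u1 : ⟪V s1, X s2 - Y t2⟫ ≤ ‖X s2 - Y t2‖ :=
      (real_inner_le_norm _ _).trans (mul_le_of_le_one_left (norm_nonneg _) (hV s1 m1).2.1)
    have u2 := norm_sub_inner hz1 (V s1)
    have u4 : 0 ≤ 1 - ⟪V s1, dir (X s1 - Y t1)⟫ := by
      have := (real_inner_le_norm (V s1) (dir (X s1 - Y t1)))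
      rw [norm_dir hz1, mul_one] at this
      linarith [(hV s1 m1).2.1]
    have u5 := mul_le_mul_of_nonneg_right hR1 u4
    rw [inner_sub_right] at u1 u2
    rw [real_inner_comm]
    have u6 : s2 - s1 ≤ t2 - t1 + R := by linarith [norm_nonneg (X s1 - Y t1)]
    have u7 := mul_le_mul_of_nonneg_left u6 hη2
    have u8 := mul_le_mul_of_nonneg_right hη (sub_nonneg.2 ht)
    have u9 := mul_le_mul_of_nonneg_right hη hR0
    have u10 := mul_nonneg hR0 u4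
    have u11 := mul_nonneg hη2 (sub_nonneg.2 ht)
    have u12 := mul_nonneg hη2 hR0
    nlinarith

end Crest.Agent.R106.A
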