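import Crest.Agent.R106.A.Cut
import Crest.Agent.R106.A.Piece

/-! R106/A: velocity control from the bootstrap hypothesis, covering by pieces (helper55). -/

set_option autoImplicit false

open MeasureTheory Set Crest.AnalysisR.VecCalc3 Crest.AnalysisR.PDE.RVM
open scoped ENNReal RealInnerProductSpace

namespace Crest.Agent.R106.A.Pass

theorem abs_en_sub_le (x y : R3) : |en x - en y| ≤ ‖x - y‖ := by
  have hx := en_sq x
  have hy := en_sq y
  have h1 := norm_le_en x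
  have h2 := norm_le_en y
  have h3 := abs_norm_sub_norm_le x y
  have hp : 0 < en x + en y := add_pos (en_pos x) (en_pos y)
  have e : |en x - en y| * (en x + en y) = |‖x‖ - ‖y‖| * (‖x‖ + ‖y‖) := by
    rw [← abs_of_pos hp, ← abs_mul, ← abs_of_nonneg (add_nonneg (norm_nonneg x) (norm_nonneg y)), ← abs_mul]
    congr 1
    nlinarith
  refine le_of_mul_le_mul_right ?_ hp
  rw [e]
  exact mul_le_mul h3 (by linarith) (by positivity) (norm_nonneg _)

theorem norm_relVel_sub_le (x y : R3) : ‖relVel x - relVel y‖ ≤ 2 * ‖x - y‖ / en y := by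
  have hx := en_pos x
  have hy := en_pos y
  have e : relVel x - relVel y = (en y)⁻¹ • (x - y) + ((en y - en x) / en y) • relVel x := by
    rw [relVel_eq, relVel_eq, smul_smul, smul_sub]
    have : (en y - en x) / en y * (en x)⁻¹ = (en x)⁻¹ - (en y)⁻¹ := by field_simp
    rw [this, sub_smul]; abel
  have h1 : ‖((en y - en x) / en y) • relVel x‖ ≤ ‖x - y‖ / en y := by
    rw [norm_smul, Real.norm_eq_abs, abs_div, abs_of_pos hy, abs_sub_comm]
    exact (mul_le_of_le_one_right (by positivity) (norm_relVel_lt_one x).le).trans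
      (div_le_div_of_nonneg_right (abs_en_sub_le x y) hy.le)
  rw [e]
  refine (norm_add_le _ _).trans ?_
  rw [norm_smul, norm_inv, Real.norm_eq_abs, abs_of_pos hy]
  have : (en y)⁻¹ * ‖x - y‖ = ‖x - y‖ / en y := by ring
  rw [this, mul_div_assoc]
  linarith

theorem vol_le_of_pieces {T : Set ℝ} (g w : ℝ → ℝ) {w0 D η L : ℝ} (hη : 0 < η) (hD : 0 ≤ D) (hL : 0 ≤ L)
    (hw : ∀ s ∈ T, w0 ≤ w s ∧ w s ≤ w0 + D)
    (h : ∀ s ∈ T, ∀ s' ∈ T, s ≤ s' → |w s' - w s| ≤ η → |g s' - g s| ≤ L) :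
    volume (g '' T) ≤ ENNReal.ofReal ((D / η + 1) * L) := by
  have hc : g '' T ⊆ ⋃ k ∈ Finset.range (⌊D / η⌋₊ + 1), g '' {s ∈ T | ⌊(w s - w0) / η⌋₊ = k} := by
    rintro _ ⟨s, hs, rfl⟩
    simp only [mem_iUnion, Finset.mem_range]
    refine ⟨_, ?_, s, ⟨hs, rfl⟩, rfl⟩
    exact Nat.lt_succ_of_le (Nat.floor_le_floor (div_le_div_of_nonneg_right (by linarith [(hw s hs).2]) hη.le))
  have hk : ∀ k : ℕ, volume (g '' {s ∈ T | ⌊(w s - w0) / η⌋₊ = k}) ≤ ENNReal.ofReal L := fun k => by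
    refine (Real.volume_le_diam _).trans (Metric.ediam_le ?_)
    have key : ∀ s ∈ T, ⌊(w s - w0) / η⌋₊ = k → k * η ≤ w s - w0 ∧ w s - w0 ≤ (k + 1) * η := fun s hs e => by
      have h0 : 0 ≤ (w s - w0) / η := div_nonneg (by linarith [(hw s hs).1]) hη.le
      have h1 := Nat.floor_le h0
      have h2 := (Nat.lt_floor_add_one ((w s - w0) / η)).le
      rw [e] at h1 h2
      exact ⟨(le_div_iff₀ hη).1 h1, (div_le_iff₀ hη).1 h2⟩
    rintro _ ⟨s, ⟨hs, e⟩, rfl⟩ _ ⟨s', ⟨hs', e'⟩, rfl⟩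
    have a := key s hs e
    have b := key s' hs' e'
    rw [edist_dist, Real.dist_eq]
    refine ENNReal.ofReal_le_ofReal ?_
    rcases le_total s s' with hle | hle
    · rw [abs_sub_comm]; exact h s hs s' hs' hle (abs_le.2 ⟨by linarith [a.2, b.1], by linarith [a.1, b.2]⟩)
    · exact h s' hs' s hs hle (abs_le.2 ⟨by linarith [a.1, b.2], by linarith [a.2, b.1]⟩)
  refine (measure_mono hc).trans ((measure_biUnion_finset_le _ _).trans ((Finset.sum_le_sum fun k _ => hk k).trans ?_))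
  rw [Finset.sum_const, Finset.card_range, nsmul_eq_mul, ← ENNReal.ofReal_natCast, ← ENNReal.ofReal_mul (Nat.cast_nonneg _)]
  refine ENNReal.ofReal_le_ofReal (mul_le_mul_of_nonneg_right ?_ hL)
  push_cast
  linarith [Nat.floor_le (div_nonneg hD hη.le)]

theorem lev_mono (e : ℝ) {P g g' : ℝ} (hP : 1 ≤ P) (hg : 0 ≤ g) (h : g ≤ g') : lev e P g ≤ lev e P g' := by
  have := Real.log_nonneg hP
  unfold lev
  gcongr

theorem lev_pos {e P g : ℝ} (he : 0 < e) (hP : 1 < P) (hg : 0 < g) : 0 < lev e P g := by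
  have := Real.log_pos hP
  unfold lev
  positivity

theorem lev_half (e : ℝ) {P g : ℝ} (hP : 1 ≤ P) (hg : 0 ≤ g) : lev e P g ≤ 4 * lev e P (g / 2) := by
  have := Real.log_nonneg hP
  unfold lev
  rw [mul_left_comm, mul_min_of_nonneg _ _ (by norm_num : (0 : ℝ) ≤ 4)]
  refine mul_le_mul_of_nonneg_left (min_le_min (le_of_eq (by ring)) ?_) (sq_nonneg e)
  have : 0 ≤ g / (P * Real.log P) := by positivity
  have e : 4 * (g / 2 / (P * Real.log P)) = 2 * (g / (P * Real.log P)) := by ring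
  linarith

/-- the error of the hypothesis is small -/
theorem err_le {g m Cc : ℝ} (hm : (320 : ℝ) ^ (100 : ℕ) ≤ m) (hg : m ≤ 2 * g) (hC : m ^ (-(104 / 100) : ℝ) ≤ Cc) :
    160 * g ^ (47 / 100 : ℝ) ≤ g * √Cc ∧ 160 * g ^ (47 / 100 : ℝ) ≤ g ∧ 1 ≤ g ^ (47 / 100 : ℝ) := by
  have hm2 : (2 : ℝ) ≤ m := le_trans (by norm_num) hm
  have hm0 : 0 < m := by linarith
  have hg1 : 1 ≤ g := by linarith
  have hg0 : 0 < g := by linarith
  have h1 : (320 : ℝ) ≤ m ^ (1 / 100 : ℝ) := by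
    have := Real.rpow_le_rpow (by positivity) hm (by norm_num : (0 : ℝ) ≤ 1 / 100)
    rwa [← Real.rpow_natCast, ← Real.rpow_mul (by norm_num), show ((100 : ℕ) : ℝ) * (1 / 100) = 1 by norm_num,
      Real.rpow_one] at this
  have h2 : m ^ (-(52 / 100) : ℝ) ≤ √Cc := by
    refine Real.le_sqrt_of_sq_le ?_
    rwa [← Real.rpow_natCast, ← Real.rpow_mul hm0.le, show (-(52 / 100) : ℝ) * ((2 : ℕ) : ℝ) = -(104 / 100) by norm_num]
  have h3 : m ^ (-(52 / 100) : ℝ) ≤ 1 := Real.rpow_le_one_of_one_le_of_nonpos (by linarith) (by norm_num)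
  have h4 : m ^ (53 / 100 : ℝ) ≤ 2 * g ^ (53 / 100 : ℝ) := by
    refine (Real.rpow_le_rpow hm0.le hg (by norm_num)).trans ?_
    rw [Real.mul_rpow (by norm_num) hg0.le]
    refine mul_le_mul_of_nonneg_right ?_ (by positivity)
    exact (Real.rpow_le_rpow_of_exponent_le (by norm_num) (by norm_num : (53 / 100 : ℝ) ≤ 1)).trans_eq (Real.rpow_one 2)
  have h5 : m ^ (53 / 100 : ℝ) * m ^ (-(52 / 100) : ℝ) = m ^ (1 / 100 : ℝ) := by
    rw [← Real.rpow_add hm0]; norm_num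
  have h6 : g ^ (47 / 100 : ℝ) * g ^ (53 / 100 : ℝ) = g := by
    rw [← Real.rpow_add hg0]; norm_num
  have p1 : 0 < g ^ (47 / 100 : ℝ) := by positivity
  have p2 : 0 < m ^ (-(52 / 100) : ℝ) := by positivity
  have h7 : 160 ≤ g ^ (53 / 100 : ℝ) * m ^ (-(52 / 100) : ℝ) := by nlinarith [mul_le_mul_of_nonneg_right h4 p2.le]
  have h8 : 160 * g ^ (47 / 100 : ℝ) ≤ g * m ^ (-(52 / 100) : ℝ) := by
    have := mul_le_mul_of_nonneg_left h7 p1.le
    rw [← mul_assoc, h6] at this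
    linarith
  exact ⟨h8.trans (mul_le_mul_of_nonneg_left h2 hg0.le), h8.trans (mul_le_of_le_one_right hg0.le h3),
    Real.one_le_rpow hg1 (by norm_num)⟩

variable {Ω : Type} [MeasurableSpace Ω] {C : ℝ}

/-- the velocity of `ω` on `[p, q]` has variation `≤ 1` up to the error `η / 2` and is `η`-close to the light cone -/
def Vel (S : Sys Ω C) (ω : Ω) (p q η : ℝ) : Prop :=
  ∃ v : ℝ → ℝ, Monotone v ∧ v q - v p ≤ 1 ∧
    (∀ s s', p ≤ s → s ≤ s' → s' ≤ q → ‖relVel (S.W s' ω) - relVel (S.W s ω)‖ ≤ v s' - v s + η / 2) ∧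
    ∀ s ∈ Icc p q, 1 - ‖relVel (S.W s ω)‖ ^ 2 ≤ η ^ 2

theorem en_near {S : Sys Ω C} {ω : Ω} {p q : ℝ} (h : S.Var (2 / 1000) (en (S.W p ω)) ω p q)
    (h2 : 160 * en (S.W p ω) ^ (47 / 100 : ℝ) ≤ en (S.W p ω)) {s : ℝ} (hs : s ∈ Icc p q) :
    |en (S.W s ω) - en (S.W p ω)| ≤ en (S.W p ω) / 2 := by
  obtain ⟨v, hv, h1, h3⟩ := h
  have := h3 p s le_rfl hs.1 hs.2
  have := hv hs.2
  have := abs_en_sub_le (S.W s ω) (S.W p ω)
  have := en_pos (S.W p ω)
  linarith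

theorem vel_of_var {S : Sys Ω C} {ω : Ω} {p q m Cc : ℝ} (h : S.Var (2 / 1000) (en (S.W p ω)) ω p q)
    (hm : (320 : ℝ) ^ (100 : ℕ) ≤ m) (hg : m ≤ 2 * en (S.W p ω)) (hC : m ^ (-(104 / 100) : ℝ) ≤ Cc) :
    Vel S ω p q (√Cc / 10) := by
  obtain ⟨e1, e2, e3⟩ := err_le hm hg hC
  have hn := fun s (hs : s ∈ Icc p q) => (abs_le.1 (en_near h e2 hs)).1
  obtain ⟨v, hv, h1, h3⟩ := h
  have hg0 := en_pos (S.W p ω)
  generalize en (S.W p ω) = g at *
  generalize g ^ (47 / 100 : ℝ) = G at *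
  refine ⟨fun s => 4 * v s / g, fun a b hab => ?_, ?_, fun s s' a b c => ?_, fun s hs => ?_⟩
  · have := hv hab
    simp only
    gcongr
  · rw [← sub_div, div_le_one hg0]; linarith
  · have k1 := h3 s s' a b c
    have k2 := hn s ⟨a, b.trans c⟩
    have k3 := hv b
    refine (norm_relVel_sub_le _ _).trans ?_
    have k4 : 2 * ‖S.W s' ω - S.W s ω‖ / en (S.W s ω) ≤ 2 * (v s' - v s + 2 * G) / (g / 2) :=
      div_le_div₀ (by linarith) (by linarith) (by linarith) (by linarith)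
    have k5 : 2 * (v s' - v s + 2 * G) / (g / 2) = 4 * v s' / g - 4 * v s / g + 8 * G / g := by field_simp; ring
    have k6 : 8 * G / g ≤ √Cc / 10 / 2 := by rw [div_le_iff₀ hg0]; linarith
    linarith
  · rw [norm_relVel_sq, sub_sub_cancel, ← inv_pow]
    have k2 := hn s hs
    have k3 := en_pos (S.W s ω)
    refine pow_le_pow_left₀ (by positivity) ?_ 2
    rw [inv_eq_one_div, div_le_iff₀ k3]
    have : 0 ≤ √Cc := Real.sqrt_nonneg _
    nlinarith [mul_le_mul_of_nonneg_right k2 this]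

/-- a particle that has energy `≥ M` in a short cell has energy `≥ M / 2` at its left end -/
theorem entry {S : Sys Ω C} {e P t M : ℝ} (hyp : S.Hyp e P (2 / 1000) t) (ht : t ≤ S.T) {ω : Ω} {p τ : ℝ} (hp : 0 ≤ p)
    (hτ : p ≤ τ) (hτt : τ ≤ t) (hl : τ - p ≤ lev e P (M / 2)) (hP : P ^ (56 / 100 : ℝ) ≤ M / 2)
    (hM : (320 : ℝ) ^ (100 : ℕ) ≤ M) (h : M ≤ en (S.W τ ω)) : M / 2 ≤ en (S.W p ω) := by
  by_contra hlt
  have hM0 : 0 < M := lt_of_lt_of_le (by positivity) hM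
  have hc : ContinuousOn (fun r => en (S.W r ω)) (Icc p τ) :=
    (show Continuous en by unfold en; fun_prop).comp_continuousOn ((S.cW ω).mono fun r hr => hr.2.trans (hτt.trans ht))
  obtain ⟨r, hr, e⟩ := intermediate_value_Icc hτ hc (show M / 2 ∈ Icc _ _ from ⟨(not_le.1 hlt).le, by linarith⟩)
  simp only at e
  have hv := hyp ω r τ (hp.trans hr.1) hr.2 hτt (by rwa [e]) (by rw [e]; linarith [hr.1])
  have := (abs_le.1 (en_near hv (err_le hM (by rw [e]; linarith) le_rfl).2.1 (right_mem_Icc.2 hr.2))).2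
  rw [e] at this
  linarith

end Crest.Agent.R106.A.Pass
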