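import Crest.Agent.R106.A.Dy

/-! # R106/A/Ser (helper44): the scale `lev` and the dyadic series. -/

set_option autoImplicit false

open MeasureTheory Set
open scoped ENNReal

noncomputable section
namespace Crest.Agent.R106.A

/-- Ser-a -/
theorem ser_lev_pos {e P γ : ℝ} (he : 0 < e) (hP : 1 < P) (hγ : 0 < γ) : 0 < lev e P γ := by
  have h := Real.log_pos hP
  have hP0 : 0 < P := by linarith
  unfold lev
  exact mul_pos (by positivity) (lt_min (by positivity) (by positivity))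

theorem sera_log_ge {a P : ℝ} (h : Real.exp a ≤ P) : a ≤ Real.log P :=
  (Real.le_log_iff_exp_le ((Real.exp_pos a).trans_le h)).2 h

theorem sera_one_le_log {P : ℝ} (hP : 3 ≤ P) : 1 ≤ Real.log P :=
  sera_log_ge (by linarith [Real.exp_one_lt_d9])

/-- Ser-a: `e² γ² / (P² log P) ≤ lev ≤ γ² / P²` and `log P / e² ≤ P ^ (1 / 2000)` for large `P` (`Real.isLittleO_log_id_atTop`-type facts:
`log (log P) - 2 log e ≤ log P / 2000`) -/
theorem lev_log {e : ℝ} (he : 0 < e) (he1 : e ≤ 1) : ∃ P₀ : ℝ, 3 ≤ P₀ ∧ ∀ P, P₀ ≤ P → ∀ γ, 0 < γ → γ ≤ P →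
    Real.log (lev e P γ) ≤ 2 * Real.log γ - 2 * Real.log P ∧
      2 * Real.log γ - 2 * Real.log P - Real.log P / 2000 ≤ Real.log (lev e P γ) := by
  refine ⟨max 3 (Real.exp (8000 * |Real.log 8000 - 2 * Real.log e|)), le_max_left _ _, fun P hP γ hγ hγP => ?_⟩
  have hP3 : 3 ≤ P := (le_max_left _ _).trans hP
  have hP0 : 0 < P := by linarith
  have hL1 := sera_one_le_log hP3
  have hL := sera_log_ge ((le_max_right _ _).trans hP)
  have hpos : 0 < lev e P γ := ser_lev_pos he (by linarith) hγ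
  set L := Real.log P with hLdef
  have hL0 : 0 < L := by linarith
  constructor
  · have h1 : lev e P γ ≤ γ ^ 2 / P ^ 2 := by
      unfold lev
      calc _ ≤ 1 * (γ ^ 2 / P ^ 2) :=
            mul_le_mul (by nlinarith) (min_le_left _ _) (le_min (by positivity) (by positivity)) zero_le_one
        _ = _ := one_mul _
    have h2 := Real.log_le_log hpos h1
    rw [Real.log_div (by positivity) (by positivity), Real.log_pow, Real.log_pow] at h2
    exact_mod_cast h2
  · have h1 : e ^ 2 * (γ ^ 2 / (P ^ 2 * L)) ≤ lev e P γ := by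
      unfold lev
      refine mul_le_mul_of_nonneg_left (le_min ?_ ?_) (by positivity)
      · exact div_le_div_of_nonneg_left (by positivity) (by positivity) (by nlinarith [sq_nonneg P])
      · rw [div_le_div_iff₀ (by positivity) (by positivity)]
        have : 0 ≤ γ * P * L * (P - γ) := by
          have := sub_nonneg.2 hγP
          positivity
        nlinarith
    have h2 := Real.log_le_log (by positivity) h1
    rw [Real.log_mul (by positivity) (by positivity), Real.log_div (by positivity) (by positivity),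
      Real.log_mul (by positivity) (by positivity), Real.log_pow, Real.log_pow, Real.log_pow] at h2
    have h3 := Real.log_le_sub_one_of_pos (x := L / 8000) (by positivity)
    rw [Real.log_div (by positivity) (by norm_num)] at h3
    have h4 := le_abs_self (Real.log 8000 - 2 * Real.log e)
    push_cast at h2
    linarith

/-- Ser-a: `1 + x ≤ 2 max 1 x`, `lev_log` at both levels, `log 2 ≤ log P / 2000` -/
theorem nu_bd {e : ℝ} (he : 0 < e) (he1 : e ≤ 1) : ∃ P₀ : ℝ, 3 ≤ P₀ ∧ ∀ P, P₀ ≤ P → ∀ γ m, 0 < γ → γ ≤ P → m ≤ Real.log P →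
    0 ≤ nu e P γ m ∧ (nu e P γ m ≤ Real.log P / 1000 ∨ nu e P γ m ≤ 2 * Real.log γ - 2 * m + Real.log P / 1000) := by
  obtain ⟨P₁, h3, hP₁⟩ := lev_log he he1
  refine ⟨max P₁ (Real.exp 2000), h3.trans (le_max_left _ _), fun P hP γ m hγ hγP hm => ?_⟩
  have hP1 : P₁ ≤ P := (le_max_left _ _).trans hP
  have hL := sera_log_ge ((le_max_right _ _).trans hP)
  have hP0 : 0 < P := by linarith
  have hM : Real.exp m ≤ P := (Real.le_log_iff_exp_le hP0).1 hm
  have ha := ser_lev_pos he (show 1 < P by linarith) hγ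
  have hb := ser_lev_pos he (show 1 < P by linarith) (Real.exp_pos m)
  have h1 := (hP₁ P hP1 γ hγ hγP).1
  have h2 := (hP₁ P hP1 _ (Real.exp_pos m) hM).2
  rw [Real.log_exp] at h2
  have hx : 0 < lev e P γ / lev e P (Real.exp m) := div_pos ha hb
  have hl2 : Real.log 2 ≤ 1 := by linarith [Real.log_two_lt_d9]
  have hlx : Real.log (lev e P γ / lev e P (Real.exp m)) = Real.log (lev e P γ) - Real.log (lev e P (Real.exp m)) :=
    Real.log_div ha.ne' hb.ne'
  unfold nu
  set x := lev e P γ / lev e P (Real.exp m)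
  refine ⟨Real.log_nonneg (by linarith), ?_⟩
  rcases le_total x 1 with h | h
  · left
    have := Real.log_le_log (by linarith) (show 1 + x ≤ 2 by linarith)
    linarith
  · right
    have := Real.log_le_log (by linarith) (show 1 + x ≤ 2 * x by linarith)
    rw [Real.log_mul (by norm_num) hx.ne'] at this
    linarith

theorem serb_fin {S : ℝ≥0∞} (h : S ≠ ∞) : ∃ K : ℝ, 1 ≤ K ∧ S ≤ ENNReal.ofReal K :=
  ⟨max 1 S.toReal, le_max_left _ _, (ENNReal.ofReal_toReal h).ge.trans (ENNReal.ofReal_le_ofReal (le_max_right _ _))⟩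

theorem serb_ne : ∑' j : ℕ, ENNReal.ofReal (Real.exp (-lx j / 10000)) ≠ ∞ := by
  have h2 : 0 < Real.log 2 := Real.log_pos one_lt_two
  have h := summable_geometric_of_lt_one (r := Real.exp (-Real.log 2 / 10000)) (Real.exp_pos _).le
    (Real.exp_lt_one_iff.2 (by linarith))
  refine Summable.tsum_ofReal_ne_top (h.congr fun j => ?_)
  rw [← Real.exp_nat_mul, lx]
  congr 1; ring

/-- Ser-b: geometric series (`ENNReal.tsum_geometric` or `ENNReal.ofReal_tsum_of_nonneg`) -/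
theorem ser_geo : ∃ K : ℝ, 1 ≤ K ∧ ∑' j : ℕ, ENNReal.ofReal (Real.exp (-lx j / 10000)) ≤ ENNReal.ofReal K :=
  serb_fin serb_ne

/-- Ser-b: with `j₀ = ⌊c / log 2⌋₊`: `|lx j - c| ≥ lx (j - j₀) - log 2` and `≥ lx (j₀ - j)`; two geometric series -/
theorem ser_abs : ∃ K : ℝ, 1 ≤ K ∧ ∀ c : ℝ, ∑' j : ℕ, ENNReal.ofReal (Real.exp (-|lx j - c| / 10000)) ≤ ENNReal.ofReal K := by
  have h2 : 0 < Real.log 2 := Real.log_pos one_lt_two
  obtain ⟨K, hK, hS⟩ := serb_fin (S := ∑' p : Bool × ℕ, ENNReal.ofReal (Real.exp (-lx p.2 / 10000))) (by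
    rw [ENNReal.tsum_prod', tsum_bool]
    exact ENNReal.add_ne_top.2 ⟨serb_ne, serb_ne⟩)
  refine ⟨K, hK, fun c => le_trans ?_ hS⟩
  set j₀ := ⌊c / Real.log 2⌋₊ with hj
  have hinj : Function.Injective fun j : ℕ => if j ≤ j₀ then (true, j₀ - j) else (false, j - j₀ - 1) := by
    intro a b hab
    dsimp only at hab
    split_ifs at hab <;> simp only [Prod.mk.injEq, true_and, Bool.true_eq_false, Bool.false_eq_true, false_and] at hab <;> omega
  refine le_trans (ENNReal.tsum_le_tsum fun j => ?_) (ENNReal.tsum_comp_le_tsum_of_injective hinj _)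
  refine ENNReal.ofReal_le_ofReal (Real.exp_le_exp.2 (div_le_div_of_nonneg_right (neg_le_neg ?_) (by norm_num)))
  split_ifs with h
  · rcases le_total 0 c with hc | hc
    · have h1 : (j₀ : ℝ) ≤ c / Real.log 2 := Nat.floor_le (div_nonneg hc h2.le)
      rw [le_div_iff₀ h2] at h1
      have h3 := neg_le_abs (lx j - c)
      simp only [lx, Nat.cast_sub h] at h3 ⊢
      linarith
    · have h1 : j₀ = 0 := Nat.floor_of_nonpos (div_nonpos_of_nonpos_of_nonneg hc h2.le)
      simp [h1, lx]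
  · have h1 : c / Real.log 2 < j₀ + 1 := Nat.lt_floor_add_one _
    rw [div_lt_iff₀ h2] at h1
    have h3 := le_abs_self (lx j - c)
    have h4 : ((j - j₀ - 1 : ℕ) : ℝ) = j - j₀ - 1 := by
      rw [Nat.sub_sub, Nat.cast_sub (by omega)]; push_cast; ring
    simp only [lx, h4] at h3 ⊢
    linarith

/-- Ser-b: product of five geometric series (`ENNReal.tsum_prod'`, `ENNReal.tsum_mul_left`) -/
theorem ser_dec (C : ℝ) : ∃ K : ℝ, 1 ≤ K ∧
    ∑' j : Ix, ENNReal.ofReal (Real.exp (-dec (jm j) (jX j) (jY j) (jW j) (jr C j))) ≤ ENNReal.ofReal K := by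
  refine serb_fin ?_
  set G : ℕ → ℝ≥0∞ := fun j => ENNReal.ofReal (Real.exp (-lx j / 10000)) with hG
  have hG' : ∑' j, G j ≠ ∞ := serb_ne
  have h : ∀ j : Ix, ENNReal.ofReal (Real.exp (-dec (jm j) (jX j) (jY j) (jW j) (jr C j))) =
      ENNReal.ofReal (Real.exp (Real.log C / 10000)) * (G j.1 * (G j.2.1 * (G j.2.2.1 * (G j.2.2.2.1 * G j.2.2.2.2)))) := by
    intro j
    simp only [hG, ← ENNReal.ofReal_mul (Real.exp_pos _).le, ← Real.exp_add]
    congr 2
    simp only [dec, jm, jX, jY, jW, jr]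
    ring
  simp only [h, ENNReal.tsum_prod', ENNReal.tsum_mul_left, ENNReal.tsum_mul_right]
  exact ENNReal.mul_ne_top ENNReal.ofReal_ne_top (ENNReal.mul_ne_top hG' (ENNReal.mul_ne_top hG'
    (ENNReal.mul_ne_top hG' (ENNReal.mul_ne_top hG' hG'))))

theorem serc_sq {e P γ M : ℝ} (he : 0 < e) (hP : 3 ≤ P) (hγ : 0 < γ) (hM : 0 < M) (hMP : M ≤ P) :
    M ^ 2 * (lev e P γ * (1 + lev e P γ / lev e P M)) ≤ (e * γ) ^ 2 * ((Real.log P)⁻¹ ^ 2 + 2 * (M / P)) := by
  have hP0 : 0 < P := by linarith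
  have hL : 1 ≤ Real.log P := by
    rw [Real.le_log_iff_exp_le hP0]
    linarith [Real.exp_one_lt_d9]
  have hL0 : 0 < Real.log P := by linarith
  have h0 : 0 < lev e P γ := ser_lev_pos he (by linarith) hγ
  have hM0 : 0 < lev e P M := ser_lev_pos he (by linarith) hM
  have h1 : lev e P γ ≤ e ^ 2 * (γ ^ 2 / P ^ 2) := mul_le_mul_of_nonneg_left (min_le_left _ _) (by positivity)
  have h2 : lev e P γ ≤ e ^ 2 * (γ / (P * Real.log P)) := mul_le_mul_of_nonneg_left (min_le_right _ _) (by positivity)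
  have h3 : (lev e P M)⁻¹ ≤ (e ^ 2)⁻¹ * (P ^ 2 / M ^ 2 + P * Real.log P / M) := by
    unfold lev
    rw [mul_inv]
    refine mul_le_mul_of_nonneg_left ?_ (by positivity)
    have a1 : 0 < P ^ 2 / M ^ 2 := by positivity
    have a2 : 0 < P * Real.log P / M := by positivity
    rcases min_choice (M ^ 2 / P ^ 2) (M / (P * Real.log P)) with h | h <;> rw [h, inv_div] <;> linarith
  have hs : M / P ≤ 1 := (div_le_one hP0).2 hMP
  have hs0 : 0 < M / P := by positivity
  have a1 : M ^ 2 * lev e P γ ≤ (e * γ) ^ 2 * (M / P) := by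
    calc M ^ 2 * lev e P γ ≤ M ^ 2 * (e ^ 2 * (γ ^ 2 / P ^ 2)) := mul_le_mul_of_nonneg_left h1 (by positivity)
      _ = (e * γ) ^ 2 * (M / P) * (M / P) := by field_simp
      _ ≤ (e * γ) ^ 2 * (M / P) := mul_le_of_le_one_right (by positivity) hs
  have a2 : M ^ 2 * (lev e P γ ^ 2 * (lev e P M)⁻¹) ≤ (e * γ) ^ 2 * ((Real.log P)⁻¹ ^ 2 + M / P) := by
    calc M ^ 2 * (lev e P γ ^ 2 * (lev e P M)⁻¹)
        ≤ M ^ 2 * ((e ^ 2 * (γ / (P * Real.log P))) ^ 2 * ((e ^ 2)⁻¹ * (P ^ 2 / M ^ 2 + P * Real.log P / M))) := by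
          gcongr
      _ = (e * γ) ^ 2 * ((Real.log P)⁻¹ ^ 2 + M / P * (Real.log P)⁻¹) := by field_simp
      _ ≤ (e * γ) ^ 2 * ((Real.log P)⁻¹ ^ 2 + M / P) := by
          have := mul_le_of_le_one_right hs0.le (inv_le_one_of_one_le₀ hL)
          gcongr
  calc M ^ 2 * (lev e P γ * (1 + lev e P γ / lev e P M))
      = M ^ 2 * lev e P γ + M ^ 2 * (lev e P γ ^ 2 * (lev e P M)⁻¹) := by ring
    _ ≤ _ := by linarith

theorem serc_term {e P γ m : ℝ} (he : 0 < e) (hP : 3 ≤ P) (hγ : 0 < γ) (hm : m ≤ Real.log P) :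
    Real.exp (m + (Real.log (lev e P γ) + nu e P γ m) / 2) ≤
      e * γ * ((Real.log P)⁻¹ + 2 * Real.exp ((m - Real.log P) / 2)) := by
  have hP0 : 0 < P := by linarith
  have hL0 : 0 < Real.log P := Real.log_pos (by linarith)
  have h0 : 0 < lev e P γ := ser_lev_pos he (by linarith) hγ
  have hM0 : 0 < lev e P (Real.exp m) := ser_lev_pos he (by linarith) (Real.exp_pos m)
  have hMP : Real.exp m ≤ P := (Real.le_log_iff_exp_le hP0).1 hm
  have h1 := serc_sq he hP hγ (Real.exp_pos m) hMP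
  have e1 : Real.exp (m + (Real.log (lev e P γ) + nu e P γ m) / 2) ^ 2 =
      Real.exp m ^ 2 * (lev e P γ * (1 + lev e P γ / lev e P (Real.exp m))) := by
    rw [← Real.exp_nat_mul, ← Real.exp_nat_mul]
    have : ((2 : ℕ) : ℝ) * (m + (Real.log (lev e P γ) + nu e P γ m) / 2) =
        ((2 : ℕ) : ℝ) * m + (Real.log (lev e P γ) + nu e P γ m) := by push_cast; ring
    rw [this, Real.exp_add, Real.exp_add, Real.exp_log h0, nu, Real.exp_log (by positivity)]
  have e2 : Real.exp ((m - Real.log P) / 2) ^ 2 = Real.exp m / P := by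
    rw [← Real.exp_nat_mul]
    have : ((2 : ℕ) : ℝ) * ((m - Real.log P) / 2) = m - Real.log P := by push_cast; ring
    rw [this, Real.exp_sub, Real.exp_log hP0]
  refine abs_le_of_sq_le_sq' ?_ (by positivity) |>.2
  rw [e1, mul_pow (e * γ)]
  refine h1.trans (mul_le_mul_of_nonneg_left ?_ (by positivity))
  rw [← e2]
  have a1 : 0 < (Real.log P)⁻¹ := by positivity
  have a2 := Real.exp_pos ((m - Real.log P) / 2)
  nlinarith [mul_pos a1 a2]

theorem serc_sum (c : ℝ) (n : ℕ) : ∑ j ∈ Finset.range n, Real.exp ((lx j - c) / 2) ≤ 3 * Real.exp ((lx n - c) / 2) := by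
  induction n with
  | zero => simp; positivity
  | succ n ih =>
    rw [Finset.sum_range_succ]
    have e : (lx (n + 1) - c) / 2 = (lx n - c) / 2 + Real.log 2 / 2 := by
      unfold lx; push_cast; ring
    have h1 := Real.add_one_le_exp (Real.log 2 / 2)
    have h2 := Real.log_two_gt_d9
    have h3 := Real.exp_pos ((lx n - c) / 2)
    rw [e, Real.exp_add]
    nlinarith

/-- Ser-c: with `M = 2 ^ j ≤ P`, `ℓ = lev e P γ`: the term is `M √(ℓ (1 + ℓ / ℓ_M)) ≤ M √ℓ + ℓ M / √ℓ_M`, `√ℓ ≤ e γ / P`,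
`M / √ℓ_M ≤ (P + √(M P log P)) / e ≤ (P + P √(log P) (√(M / P))) / e`, `ℓ ≤ e² γ / (P log P)`; at most `2 log P + 1` indices, `∑ M ≤ 2 P`,
`∑ √(M / P) ≤ 4` -/
theorem ser_M : ∃ K : ℝ, 1 ≤ K ∧ ∀ e P γ : ℝ, 0 < e → 3 ≤ P → 0 < γ →
    ∑' j : ℕ, (if lx j ≤ Real.log P then ENNReal.ofReal (Real.exp (lx j + (Real.log (lev e P γ) + nu e P γ (lx j)) / 2)) else 0) ≤
      ENNReal.ofReal (K * e * γ) := by
  refine ⟨15, by norm_num, fun e P γ he hP hγ => ?_⟩
  have hP0 : 0 < P := by linarith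
  have hL : 1 ≤ Real.log P := by
    rw [Real.le_log_iff_exp_le hP0]
    linarith [Real.exp_one_lt_d9]
  have hL0 : 0 < Real.log P := by linarith
  have h2 := Real.log_two_gt_d9
  have h2' : 0 < Real.log 2 := by linarith
  set N := ⌊Real.log P / Real.log 2⌋₊ with hN
  have hN1 : (N : ℝ) ≤ Real.log P / Real.log 2 := Nat.floor_le (by positivity)
  have hN2 : (N : ℝ) * Real.log 2 ≤ Real.log P := (le_div_iff₀ h2').1 hN1
  have hN0 : (0 : ℝ) ≤ N := Nat.cast_nonneg N
  rw [tsum_eq_sum (s := Finset.range (N + 1))]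
  · calc _ ≤ ∑ j ∈ Finset.range (N + 1),
          ENNReal.ofReal (e * γ * ((Real.log P)⁻¹ + 2 * Real.exp ((lx j - Real.log P) / 2))) := by
          refine Finset.sum_le_sum fun j _ => ?_
          split_ifs with h
          · exact ENNReal.ofReal_le_ofReal (serc_term he hP hγ h)
          · exact zero_le
      _ = ENNReal.ofReal (∑ j ∈ Finset.range (N + 1), e * γ * ((Real.log P)⁻¹ + 2 * Real.exp ((lx j - Real.log P) / 2))) :=
          (ENNReal.ofReal_sum_of_nonneg fun j _ => by positivity).symm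
      _ ≤ _ := by
          refine ENNReal.ofReal_le_ofReal ?_
          rw [← Finset.mul_sum, Finset.sum_add_distrib, ← Finset.mul_sum, Finset.sum_const, Finset.card_range, nsmul_eq_mul]
          have a1 := serc_sum (Real.log P) (N + 1)
          have a2 : Real.exp ((lx (N + 1) - Real.log P) / 2) ≤ 2 := by
            rw [← Real.le_log_iff_exp_le two_pos]
            unfold lx; push_cast; linarith
          have a3 : ((N + 1 : ℕ) : ℝ) * (Real.log P)⁻¹ ≤ 3 := by
            rw [← div_eq_mul_inv, div_le_iff₀ hL0]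
            push_cast
            nlinarith
          have a4 : 0 < e * γ := by positivity
          nlinarith
  · intro j hj
    rw [if_neg]
    intro h
    refine hj (Finset.mem_range.2 (Nat.lt_succ_of_le (Nat.le_floor ?_)))
    exact (le_div_iff₀ h2').2 h

theorem serd_prod {α β : Type} (f : α → ℝ≥0∞) (F : β → ℝ≥0∞) :
    ∑' p : α × β, f p.1 * F p.2 = (∑' a, f a) * ∑' b, F b := by
  rw [ENNReal.tsum_prod']
  simp_rw [ENNReal.tsum_mul_left, ENNReal.tsum_mul_right]

theorem serd_exp (a b : ℝ) :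
    ENNReal.ofReal (Real.exp (a + b)) = ENNReal.ofReal (Real.exp a) * ENNReal.ofReal (Real.exp b) := by
  rw [Real.exp_add, ENNReal.ofReal_mul (Real.exp_pos a).le]

/-- Ser-d: `ser_geo` three times, `ser_abs` (sum over the `R` index for fixed `M` index; `ENNReal.tsum_comm`), `ser_M` -/
theorem ser_crit : ∃ K : ℝ, 1 ≤ K ∧ ∀ C e P γ : ℝ, 0 < e → 3 ≤ P → 0 < γ →
    ∑' j : Ix, (if jm j ≤ Real.log P then ENNReal.ofReal (Real.exp (crit (jm j) (jX j) (jY j) (jW j) (jr C j)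
      (Real.log (lev e P γ)) (nu e P γ (jm j)))) else 0) ≤ ENNReal.ofReal (K * e * γ) := by
  obtain ⟨K1, h1, H1⟩ := ser_geo
  obtain ⟨K2, h2, H2⟩ := ser_abs
  obtain ⟨K3, h3, H3⟩ := ser_M
  refine ⟨K1 * (K1 * (K1 * (K2 * K3))), ?_, fun C e P γ he hP hγ => ?_⟩
  · exact one_le_mul_of_one_le_of_one_le h1 (one_le_mul_of_one_le_of_one_le h1 (one_le_mul_of_one_le_of_one_le h1
      (one_le_mul_of_one_le_of_one_le h2 h3)))
  obtain ⟨g, hg⟩ : ∃ g : ℕ → ℝ≥0∞, g = fun j => ENNReal.ofReal (Real.exp (-lx j / 10000)) := ⟨_, rfl⟩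
  obtain ⟨M, hM⟩ : ∃ M : ℕ → ℝ≥0∞, M = fun j => if lx j ≤ Real.log P then
    ENNReal.ofReal (Real.exp (lx j + (Real.log (lev e P γ) + nu e P γ (lx j)) / 2)) else 0 := ⟨_, rfl⟩
  obtain ⟨h, hh⟩ : ∃ h : ℕ × ℕ → ℝ≥0∞, h = fun p => ENNReal.ofReal (Real.exp (-|lx p.1 - (Real.log C + (2 * lx p.2 -
    (nu e P γ (lx p.2) - Real.log (lev e P γ)) / 2))| / 10000)) * M p.2 := ⟨_, rfl⟩
  have e1 : ∀ j : Ix, (if jm j ≤ Real.log P then ENNReal.ofReal (Real.exp (crit (jm j) (jX j) (jY j) (jW j) (jr C j)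
      (Real.log (lev e P γ)) (nu e P γ (jm j)))) else 0) = g j.1 * (g j.2.1 * (g j.2.2.1 * h j.2.2.2)) := by
    intro j
    by_cases hj : jm j ≤ Real.log P
    · have hj' : lx j.2.2.2.2 ≤ Real.log P := hj
      simp only [hg, hh, hM, if_pos hj, if_pos hj', ← serd_exp]
      congr 2
      simp only [crit, jX, jY, jW, jr, jm, sub_sub]
      ring
    · have hj' : ¬ lx j.2.2.2.2 ≤ Real.log P := hj
      simp only [hh, hM, if_neg hj, if_neg hj', mul_zero]
  have e2 : ∑' p, h p ≤ ENNReal.ofReal K2 * ENNReal.ofReal (K3 * e * γ) := by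
    rw [ENNReal.tsum_prod', ENNReal.tsum_comm]
    have hM' : ∑' j, M j ≤ ENNReal.ofReal (K3 * e * γ) := hM ▸ H3 e P γ he hP hγ
    refine le_trans (ENNReal.tsum_le_tsum fun j => ?_) (ENNReal.tsum_mul_left.le.trans (mul_le_mul_right hM' _))
    simp only [hh]
    rw [ENNReal.tsum_mul_right]
    exact mul_le_mul_left (H2 _) _
  have e3 : ∑' j, g j ≤ ENNReal.ofReal K1 := hg ▸ H1
  simp only [e1]
  rw [serd_prod g fun q : ℕ × ℕ × ℕ × ℕ => g q.1 * (g q.2.1 * h q.2.2), serd_prod g fun q : ℕ × ℕ × ℕ => g q.1 * h q.2,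
    serd_prod g h]
  calc _ ≤ ENNReal.ofReal K1 * (ENNReal.ofReal K1 * (ENNReal.ofReal K1 * (ENNReal.ofReal K2 * ENNReal.ofReal (K3 * e * γ)))) := by
        gcongr
    _ = _ := by
      rw [← ENNReal.ofReal_mul (by linarith), ← ENNReal.ofReal_mul (by linarith), ← ENNReal.ofReal_mul (by linarith),
        ← ENNReal.ofReal_mul (by linarith)]
      congr 1; ring

/-- Ser-d: a family of terms whose logarithms are `Good` (`ser_crit`, `ser_dec`; `K P ^ (-1 / 10000) ≤ e` for large `P`) -/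
theorem ser_good (C k : ℝ) : ∃ K : ℝ, 1 ≤ K ∧ ∀ e : ℝ, 0 < e → ∃ P₀ : ℝ, ∀ P, P₀ ≤ P → ∀ γ : ℝ, 0 < γ → ∀ u : Ix → ℝ≥0∞,
    (∀ j, u j = 0 ∨ jm j ≤ Real.log P ∧ ∃ t, u j ≤ ENNReal.ofReal (Real.exp t) ∧ Good (Real.log P) (Real.log γ) (jm j) (jX j) (jY j) (jW j)
      (jr C j) (Real.log (lev e P γ)) (nu e P γ (jm j)) k t) → ∑' j, u j ≤ ENNReal.ofReal (K * e * γ) := by
  obtain ⟨K1, h1, H1⟩ := ser_crit
  obtain ⟨K2, h2, H2⟩ := ser_dec C
  have hk := Real.exp_pos (100 * k)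
  refine ⟨Real.exp (100 * k) * (K1 + 1) + 1, by nlinarith, fun e he => ⟨max 3 (Real.exp (10000 * Real.log (K2 / e))),
    fun P hP γ hγ u hu => ?_⟩⟩
  have hP3 : 3 ≤ P := (le_max_left _ _).trans hP
  have hl : 10000 * Real.log (K2 / e) ≤ Real.log P := (Real.le_log_iff_exp_le (by linarith)).2 ((le_max_right _ _).trans hP)
  have hq : Real.exp (100 * k + Real.log γ - Real.log P / 10000) * K2 ≤ Real.exp (100 * k) * e * γ := by
    have : Real.exp (-(Real.log P / 10000)) ≤ e / K2 := by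
      refine (Real.exp_le_exp.2 (show _ ≤ -Real.log (K2 / e) by linarith)).trans (le_of_eq ?_)
      rw [Real.exp_neg, Real.exp_log (by positivity), inv_div]
    rw [le_div_iff₀ (by linarith)] at this
    rw [sub_eq_add_neg, Real.exp_add, Real.exp_add, Real.exp_log hγ]
    calc _ = Real.exp (100 * k) * (Real.exp (-(Real.log P / 10000)) * K2) * γ := by ring
      _ ≤ _ := by gcongr
  have hpt : ∀ j : Ix, u j ≤ ENNReal.ofReal (Real.exp (100 * k)) * (if jm j ≤ Real.log P then ENNReal.ofReal (Real.exp (crit (jm j)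
      (jX j) (jY j) (jW j) (jr C j) (Real.log (lev e P γ)) (nu e P γ (jm j)))) else 0) +
      ENNReal.ofReal (Real.exp (100 * k + Real.log γ - Real.log P / 10000)) *
        ENNReal.ofReal (Real.exp (-dec (jm j) (jX j) (jY j) (jW j) (jr C j))) := by
    intro j
    rcases hu j with h0 | ⟨hm, t, ht, hG | hG⟩
    · rw [h0]; exact zero_le
    · rw [if_pos hm, ← serd_exp]
      exact ht.trans (le_add_right (ENNReal.ofReal_le_ofReal (Real.exp_le_exp.2 hG)))
    · rw [← serd_exp]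
      exact ht.trans (le_add_left (ENNReal.ofReal_le_ofReal (Real.exp_le_exp.2 (by linarith))))
  refine (ENNReal.tsum_le_tsum hpt).trans ?_
  rw [ENNReal.tsum_add, ENNReal.tsum_mul_left, ENNReal.tsum_mul_left]
  refine (add_le_add (mul_le_mul_right (H1 C e P γ he hP3 hγ) _) (mul_le_mul_right H2 _)).trans ?_
  rw [← ENNReal.ofReal_mul hk.le, ← ENNReal.ofReal_mul (Real.exp_pos _).le, ← ENNReal.ofReal_add (by positivity) (by positivity)]
  refine ENNReal.ofReal_le_ofReal ?_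
  nlinarith [mul_pos he hγ]

/-- Ser-d: the subcritical version (`ser_dec`; `K exp (100 k) ≤ γ ^ (1 / 200)` for large `γ`) -/
theorem ser_sub (C k K' : ℝ) : ∃ G₀ : ℝ, ∀ γ, G₀ ≤ γ → ∀ (θ : ℝ) (u : Ix → ℝ≥0∞),
    (∀ j, u j ≤ ENNReal.ofReal (K' * Real.exp (100 * k + θ * Real.log γ - dec (jm j) (jX j) (jY j) (jW j) (jr C j)))) →
      ∑' j, u j ≤ ENNReal.ofReal (γ ^ (θ + 1 / 200)) := by
  obtain ⟨K2, h2, H2⟩ := ser_dec C
  have hD : 0 < (|K'| + 1) * Real.exp (100 * k) * K2 := by positivity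
  refine ⟨Real.exp (200 * Real.log ((|K'| + 1) * Real.exp (100 * k) * K2)), fun γ hγ θ u hu => ?_⟩
  have h0 : 0 < γ := (Real.exp_pos _).trans_le hγ
  have hl := (Real.le_log_iff_exp_le h0).2 hγ
  have hpt : ∀ j : Ix, u j ≤ ENNReal.ofReal ((|K'| + 1) * Real.exp (100 * k + θ * Real.log γ)) *
      ENNReal.ofReal (Real.exp (-dec (jm j) (jX j) (jY j) (jW j) (jr C j))) := by
    intro j
    rw [← ENNReal.ofReal_mul (by positivity), mul_assoc, ← Real.exp_add, ← sub_eq_add_neg]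
    refine (hu j).trans (ENNReal.ofReal_le_ofReal ?_)
    gcongr
    linarith [le_abs_self K']
  refine (ENNReal.tsum_le_tsum hpt).trans ?_
  rw [ENNReal.tsum_mul_left]
  refine (mul_le_mul_right H2 _).trans ?_
  rw [← ENNReal.ofReal_mul (by positivity)]
  refine ENNReal.ofReal_le_ofReal ?_
  have h3 : (|K'| + 1) * Real.exp (100 * k) * K2 ≤ Real.exp (Real.log γ / 200) :=
    (Real.log_le_iff_le_exp hD).1 (by linarith)
  rw [Real.rpow_def_of_pos h0, mul_add, Real.exp_add, Real.exp_add, mul_comm (Real.log γ) θ, mul_one_div]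
  calc _ = Real.exp (θ * Real.log γ) * ((|K'| + 1) * Real.exp (100 * k) * K2) := by ring
    _ ≤ _ := by gcongr

end Crest.Agent.R106.A
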