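import Crest.Agent.R106.A.Term
import Crest.Agent.R106.A.LpE
import Crest.Agent.R106.A.LpT
import Crest.Agent.R106.A.LpG
import Crest.Agent.R106.A.LpB

/-! # R106/A/Sum (helper44): the sums over all boxes. -/

set_option autoImplicit false

open MeasureTheory Set Crest.AnalysisR.VecCalc3 Crest.AnalysisR.PDE.RVM
open scoped ENNReal RealInnerProductSpace

noncomputable section
namespace Crest.Agent.R106.A

theorem Good.mono {p g m X Y W r l ν k t : ℝ} (h : Good p g m X Y W r l ν k t) {k' t' : ℝ} (ht : t' - t ≤ 100 * (k' - k)) :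
    Good p g m X Y W r l ν k' t' := by
  rcases h with h | h
  · exact Or.inl (by linarith)
  · exact Or.inr (by linarith)

theorem suma_u {p g m X Y W r l ν k x : ℝ} {c : Prop} [Decidable c] {β : ℝ≥0∞}
    (h : c → m ≤ p ∧ ∃ y t, β ≤ ENNReal.ofReal (Real.exp y) ∧ Good p g m X Y W r l ν k t ∧ x + y ≤ t + k) :
    ENNReal.ofReal (if c then 100 * Real.exp x else 0) * β = 0 ∨ m ≤ p ∧ ∃ t,
      ENNReal.ofReal (if c then 100 * Real.exp x else 0) * β ≤ ENNReal.ofReal (Real.exp t) ∧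
        Good p g m X Y W r l ν (k + 1 + k / 100) t := by
  by_cases hc : c
  · obtain ⟨hm, y, t, hβ, hG, hx⟩ := h hc
    refine Or.inr ⟨hm, 99 + x + y, ?_, hG.mono (by linarith)⟩
    rw [if_pos hc]
    calc ENNReal.ofReal (100 * Real.exp x) * β ≤ ENNReal.ofReal (100 * Real.exp x) * ENNReal.ofReal (Real.exp y) := by gcongr
      _ = ENNReal.ofReal (100 * Real.exp x * Real.exp y) := (ENNReal.ofReal_mul (by positivity)).symm
      _ ≤ _ := by
        apply ENNReal.ofReal_le_ofReal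
        rw [Real.exp_add, Real.exp_add]
        have : (100 : ℝ) ≤ Real.exp 99 := by linarith [Real.add_one_le_exp (99 : ℝ)]
        gcongr
  · left
    rw [if_neg hc]; simp

theorem suma_nn {c : Prop} [Decidable c] (x : ℝ) : 0 ≤ (if c then 100 * Real.exp x else 0 : ℝ) := by
  split_ifs <;> positivity

/-- Sum-a: `cover` with `c₁ j = if L0 j then (if OutJ j then 100 exp (tT .. 0) else 0) + (if InnJ j then 100 exp (tR .. 0) else 0) +
(if InnJ j ∧ OutJ j then 100 exp (tE .. 0) else 0) else 0`, `c₂ j = if L0 j ∧ OutJ j then 100 exp (-X / 2 - m + Y + r) else 0`,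
`c₃ j = if L0 j then 100 exp (-X / 2 - m + r) else 0` (`tst_en`, `bx_in`, `InBox.out/inn/k*_le`; all kernels vanish for `z = 0`); split
the `tsum` into five series (`ENNReal.tsum_add`) and apply `ser_good C (k + 1 + k / 100)` to each (`exists_LP`, `bG_le`, `bB_le`, `lpT`, `lpR`,
`lpE`, `lpG`, `lpB`, `Good.mono`, `100 ≤ exp 5`) -/
theorem sum_rm (hp : S_PASS) (C : ℝ) : ∃ K : ℝ, 1 ≤ K ∧ ∀ e : ℝ, 0 < e → e ≤ 1 → ∃ P₀ : ℝ, ∀ P, P₀ ≤ P →
    ∀ (Ω : Type) [MeasurableSpace Ω] (S : Sys Ω C) (t : ℝ) (o : Ω) (s₀ s₁ : ℝ), S.Tst e P t o s₀ s₁ →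
      (∫⁻ s in Icc s₀ s₁, S.J o s (S.rm P (en (S.W s₀ o)) o s)) ≤ ENNReal.ofReal (K * e * en (S.W s₀ o)) := by
  classical
  obtain ⟨k, hk, hL⟩ := exists_LP hp C
  obtain ⟨K, hK, hG⟩ := ser_good C (k + 1 + k / 100)
  obtain ⟨P₁, hP₁, hE⟩ := tst_en
  refine ⟨5 * K, by linarith, fun e he he1 => ?_⟩
  obtain ⟨P₂, -, hL⟩ := hL e he he1
  obtain ⟨P₃, hG⟩ := hG e he
  refine ⟨max P₁ (max P₂ P₃), fun P hP Ω _ S t o s₀ s₁ ht => ?_⟩
  have q1 : P₁ ≤ P := (le_max_left _ _).trans hP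
  have q2 : P₂ ≤ P := ((le_max_left _ _).trans (le_max_right _ _)).trans hP
  have q3 : P₃ ≤ P := ((le_max_right _ _).trans (le_max_right _ _)).trans hP
  have hE := hE P q1 C e Ω S t o s₀ s₁ ht
  have hL := hL P q2 Ω S t o s₀ s₁ ht
  have hγ : 0 < en (S.W s₀ o) := en_pos _
  have hG := hG P q3 _ hγ
  have hk20 : 20 ≤ k := by linarith [Real.log_nonneg S.one_le]
  have hl : s₁ - s₀ ≤ Real.exp (Real.log (lev e P (en (S.W s₀ o)))) := by
    rw [Real.exp_log (ser_lev_pos he (by linarith) hγ)]; exact ht.len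
  have hin := fun (j : Ix) (s : ℝ) (hs : s ∈ Icc s₀ s₁) (ω : Ω) (hω : ω ∈ S.bx o j s) =>
    bx_in ht (by linarith) hs (hE s hs) hω hk
  generalize hγd : en (S.W s₀ o) = γ at *
  set a1 : Ix → ℝ := fun j => if L0 C (Real.log P) (Real.log γ) k j ∧ OutJ C (Real.log P) (Real.log γ) k j then
    100 * Real.exp (tT (jm j) (jX j) (jY j) (jr C j) 0) else 0 with ha1
  set a2 : Ix → ℝ := fun j => if L0 C (Real.log P) (Real.log γ) k j ∧ InnJ C (Real.log P) (Real.log γ) k j then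
    100 * Real.exp (tR (Real.log γ) (jX j) (jr C j) 0) else 0 with ha2
  set a3 : Ix → ℝ := fun j => if L0 C (Real.log P) (Real.log γ) k j ∧ InnJ C (Real.log P) (Real.log γ) k j ∧
    OutJ C (Real.log P) (Real.log γ) k j then 100 * Real.exp (tE (jX j) (jY j) (jr C j) 0) else 0 with ha3
  set a4 : Ix → ℝ := fun j => if L0 C (Real.log P) (Real.log γ) k j ∧ OutJ C (Real.log P) (Real.log γ) k j then
    100 * Real.exp (-jX j / 2 - jm j + jY j + jr C j) else 0 with ha4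
  set a5 : Ix → ℝ := fun j => if L0 C (Real.log P) (Real.log γ) k j then
    100 * Real.exp (-jX j / 2 - jm j + jr C j) else 0 with ha5
  have n1 : ∀ j, 0 ≤ a1 j := fun j => suma_nn _
  have n2 : ∀ j, 0 ≤ a2 j := fun j => suma_nn _
  have n3 : ∀ j, 0 ≤ a3 j := fun j => suma_nn _
  have n4 : ∀ j, 0 ≤ a4 j := fun j => suma_nn _
  have n5 : ∀ j, 0 ≤ a5 j := fun j => suma_nn _
  have hc := S.cover o ht.h0 (ht.h1.trans ht.tT) (k := fun s => S.rm P γ o s) (c₁ := fun j => a1 j + a2 j + a3 j) (c₂ := a4) (c₃ := a5)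
    (fun s ω hz => by simp [Sys.rm, Sys.kII, kT, kSg, kSb, kRev, kGeo, hz])
    (fun j => add_nonneg (add_nonneg (n1 j) (n2 j)) (n3 j)) n4 n5 (fun j s hs ω hω => by
      obtain ⟨hb, h0⟩ := hin j s hs ω hω
      have m4 := mul_nonneg (n4 j) (Real.sqrt_nonneg (gd (dir (S.z o s ω)) (S.Es o s ω) (S.Bs o s ω)))
      have m5 := mul_nonneg (n5 j) (add_nonneg (norm_nonneg (S.Es o s ω)) (norm_nonneg (S.Bs o s ω)))
      have b1 : (if S.ch P γ o s ω ≠ 1 then S.kII o s ω else 0) ≤ a1 j +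
          a4 j * √(gd (dir (S.z o s ω)) (S.Es o s ω) (S.Bs o s ω)) + a5 j * (‖S.Es o s ω‖ + ‖S.Bs o s ω‖) := by
        split_ifs with hch
        · have ho : OutJ C (Real.log P) (Real.log γ) k j := hb.out hk20 hch
          have e1 : a1 j = _ := if_pos ⟨h0, ho⟩
          have e4 : a4 j = _ := if_pos ⟨h0, ho⟩
          have e5 : a5 j = _ := if_pos h0
          rw [e1, e4, e5]
          exact add_le_add (add_le_add hb.kT_le (hb.kSg_le _ _)) (hb.kSb_le _ _)
        · linarith [n1 j]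
      have b2 : (if S.ch P γ o s ω ≠ 0 then kRev (S.z o s ω) (S.W s o) else 0) ≤ a2 j := by
        split_ifs with hch
        · have hi : InnJ C (Real.log P) (Real.log γ) k j := hb.inn hk20 hch
          have e2 : a2 j = _ := if_pos ⟨h0, hi⟩
          rw [e2]
          exact hb.kRev_le
        · exact n2 j
      have b3 : (if S.ch P γ o s ω ≠ 0 ∧ S.ch P γ o s ω ≠ 1 then kGeo (S.z o s ω) (S.W s o) (S.w o s ω) else 0) ≤ a3 j := by
        split_ifs with hch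
        · have hi : InnJ C (Real.log P) (Real.log γ) k j := hb.inn hk20 hch.1
          have ho : OutJ C (Real.log P) (Real.log γ) k j := hb.out hk20 hch.2
          have e3 : a3 j = _ := if_pos ⟨h0, hi, ho⟩
          rw [e3]
          exact hb.kGeo_le
        · exact n3 j
      unfold Sys.rm
      linarith)
  have s1 := hG (fun j => ENNReal.ofReal (a1 j) * S.bI o j s₀ s₁) fun j => suma_u fun hc => by
    obtain ⟨i, hi, hb⟩ := hL j hc.1
    exact ⟨hi.m1, i, _, hb, lpT hi hc.2, by unfold tT; linarith⟩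
  have s2 := hG (fun j => ENNReal.ofReal (a2 j) * S.bI o j s₀ s₁) fun j => suma_u fun hc => by
    obtain ⟨i, hi, hb⟩ := hL j hc.1
    exact ⟨hi.m1, i, _, hb, lpR hi hc.2, by unfold tR; linarith⟩
  have s3 := hG (fun j => ENNReal.ofReal (a3 j) * S.bI o j s₀ s₁) fun j => suma_u fun hc => by
    obtain ⟨i, hi, hb⟩ := hL j hc.1
    exact ⟨hi.m1, i, _, hb, lpE hi hc.2.1 hc.2.2, by unfold tE; linarith⟩
  have s4 := hG (fun j => ENNReal.ofReal (a4 j) * S.bG o j s₀ s₁) fun j => suma_u fun hc => by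
    obtain ⟨i, hi, hb⟩ := hL j hc.1
    exact ⟨hi.m1, _, _, bG_le ht hl hk j hb, lpG hi hc.2, by unfold tG; linarith⟩
  have s5 := hG (fun j => ENNReal.ofReal (a5 j) * S.bB o j s₀ s₁) fun j => suma_u fun hc => by
    obtain ⟨i, hi, hb⟩ := hL j hc
    exact ⟨hi.m1, _, _, bB_le ht hl hk j hb, lpB hi, by unfold tB; linarith⟩
  refine hc.trans ?_
  have hx : 0 ≤ K * e * γ := by positivity
  calc _ = ∑' j : Ix, ENNReal.ofReal (a1 j) * S.bI o j s₀ s₁ + ∑' j : Ix, ENNReal.ofReal (a2 j) * S.bI o j s₀ s₁ +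
        ∑' j : Ix, ENNReal.ofReal (a3 j) * S.bI o j s₀ s₁ + ∑' j : Ix, ENNReal.ofReal (a4 j) * S.bG o j s₀ s₁ +
        ∑' j : Ix, ENNReal.ofReal (a5 j) * S.bB o j s₀ s₁ := by
        rw [← ENNReal.tsum_add, ← ENNReal.tsum_add, ← ENNReal.tsum_add, ← ENNReal.tsum_add]
        refine tsum_congr fun j => ?_
        rw [ENNReal.ofReal_add (add_nonneg (n1 j) (n2 j)) (n3 j), ENNReal.ofReal_add (n1 j) (n2 j), add_mul, add_mul]
    _ ≤ ENNReal.ofReal (K * e * γ) + ENNReal.ofReal (K * e * γ) + ENNReal.ofReal (K * e * γ) + ENNReal.ofReal (K * e * γ) +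
        ENNReal.ofReal (K * e * γ) := by gcongr
    _ = ENNReal.ofReal (5 * K * e * γ) := by
        rw [← ENNReal.ofReal_add hx hx, ← ENNReal.ofReal_add (by linarith) hx, ← ENNReal.ofReal_add (by linarith) hx,
          ← ENNReal.ofReal_add (by linarith) hx]
        congr 1; ring

theorem sumb_mul {c x y Z : ℝ} {u : ℝ≥0∞} (hc : c = 100 * Real.exp x) (hu : u ≤ ENNReal.ofReal (Real.exp y)) (h : x + y ≤ Z) :
    ENNReal.ofReal c * u ≤ ENNReal.ofReal (100 * Real.exp Z) := by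
  subst hc
  refine (mul_le_mul_right hu _).trans ?_
  rw [← ENNReal.ofReal_mul (by positivity)]
  refine ENNReal.ofReal_le_ofReal ?_
  rw [mul_assoc, ← Real.exp_add]
  exact mul_le_mul_of_nonneg_left (Real.exp_le_exp.2 h) (by norm_num)

theorem sumb_pow {G P : ℝ} (h : (max G 1) ^ 2 ≤ P) : G ≤ P ^ (56 / 100 : ℝ) := by
  have h1 : (1 : ℝ) ≤ max G 1 := le_max_right _ _
  have h2 : (1 : ℝ) ≤ P := le_trans (one_le_pow₀ h1) h
  calc G ≤ max G 1 := le_max_left _ _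
    _ = ((max G 1) ^ 2) ^ (1 / 2 : ℝ) := by
        rw [← Real.sqrt_eq_rpow, Real.sqrt_sq (by linarith)]
    _ ≤ P ^ (1 / 2 : ℝ) := Real.rpow_le_rpow (by positivity) h (by norm_num)
    _ ≤ P ^ (56 / 100 : ℝ) := Real.rpow_le_rpow_of_exponent_le h2 (by norm_num)

/-- Sum-b: `cover` with the constants `if L0 j then 100 exp (..) else 0`; `lpFT`, `lpFG`, `lpFB`; `ser_sub C k (300 exp k)` with
`θ = 1505 / 1000`, `γ ≥ P ^ 0.56` -/
theorem sum_II (hp : S_PASS) (C : ℝ) (e : ℝ) (he : 0 < e) (he1 : e ≤ 1) : ∃ P₀ : ℝ, ∀ P, P₀ ≤ P →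
    ∀ (Ω : Type) [MeasurableSpace Ω] (S : Sys Ω C) (t : ℝ) (o : Ω) (s₀ s₁ : ℝ), S.Tst e P t o s₀ s₁ →
      (∫⁻ s in Icc s₀ s₁, S.J o s (S.kII o s)) ≤ ENNReal.ofReal (en (S.W s₀ o) ^ (151 / 100 : ℝ)) := by
  classical
  obtain ⟨k, hk, hLP⟩ := exists_LP hp C
  obtain ⟨P₁, hP₁, h₁⟩ := hLP e he he1
  obtain ⟨P₂, hP₂, h₂⟩ := tst_en
  obtain ⟨G₀, hG⟩ := ser_sub C k (300 * Real.exp k)
  refine ⟨max P₁ (max P₂ ((max G₀ 1) ^ 2)), fun P hP Ω _ S t o s₀ s₁ ht => ?_⟩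
  have hP1 : P₁ ≤ P := (le_max_left _ _).trans hP
  have hP2 : P₂ ≤ P := ((le_max_left _ _).trans (le_max_right _ _)).trans hP
  have hP3 : (max G₀ 1) ^ 2 ≤ P := ((le_max_right _ _).trans (le_max_right _ _)).trans hP
  have hC : 0 ≤ Real.log C := Real.log_nonneg S.one_le
  have hγ : 0 < en (S.W s₀ o) := en_pos _
  have hl : s₁ - s₀ ≤ Real.exp (Real.log (lev e P (en (S.W s₀ o)))) := by
    rw [Real.exp_log (ser_lev_pos he (by linarith) hγ)]; exact ht.len
  have hc := S.cover o (s₀ := s₀) (s₁ := s₁) ht.h0 (ht.h1.trans ht.tT) (k := fun s => S.kII o s)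
    (fun s ω hz => by simp [Sys.kII, kT, kSg, kSb, hz])
    (c₁ := fun j => if L0 C (Real.log P) (Real.log (en (S.W s₀ o))) k j then
      100 * Real.exp (tT (jm j) (jX j) (jY j) (jr C j) 0) else 0)
    (c₂ := fun j => if L0 C (Real.log P) (Real.log (en (S.W s₀ o))) k j then
      100 * Real.exp (-jX j / 2 - jm j + jY j + jr C j) else 0)
    (c₃ := fun j => if L0 C (Real.log P) (Real.log (en (S.W s₀ o))) k j then
      100 * Real.exp (-jX j / 2 - jm j + jr C j) else 0)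
    (fun j => by split_ifs <;> positivity) (fun j => by split_ifs <;> positivity) (fun j => by split_ifs <;> positivity)
    (fun j s hs ω hω => by
      obtain ⟨hb, hL⟩ := bx_in ht (by linarith) hs (h₂ P hP2 C e Ω S t o s₀ s₁ ht s hs) hω hk
      simp only [if_pos hL, Sys.kII]
      exact add_le_add (add_le_add hb.kT_le (hb.kSg_le _ _)) (hb.kSb_le _ _))
  refine hc.trans ((hG _ ((sumb_pow hP3).trans ht.low) (1505 / 1000) _ fun j => ?_).trans (by norm_num))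
  by_cases hL : L0 C (Real.log P) (Real.log (en (S.W s₀ o))) k j
  · obtain ⟨i, hi, hI⟩ := h₁ P hP1 Ω S t o s₀ s₁ ht j hL
    have e1 := lpFT hi
    have e2 := lpFG hi
    have e3 := lpFB hi
    simp only [if_pos hL]
    set Z := 100 * k + 1505 / 1000 * Real.log (en (S.W s₀ o)) - dec (jm j) (jX j) (jY j) (jW j) (jr C j) with hZ
    have a1 := sumb_mul (Z := k + Z) (x := tT (jm j) (jX j) (jY j) (jr C j) 0) rfl hI (by unfold tT at e1 ⊢; linarith)
    have a2 := sumb_mul (Z := k + Z) (x := -jX j / 2 - jm j + jY j + jr C j) rfl (bG_le ht hl hk j hI)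
      (by unfold tG at e2; linarith)
    have a3 := sumb_mul (Z := k + Z) (x := -jX j / 2 - jm j + jr C j) rfl (bB_le ht hl hk j hI)
      (by unfold tB at e3; linarith)
    refine (add_le_add (add_le_add a1 a2) a3).trans (le_of_eq ?_)
    rw [← ENNReal.ofReal_add (by positivity) (by positivity), ← ENNReal.ofReal_add (by positivity) (by positivity), Real.exp_add]
    congr 1; ring
  · simp [if_neg hL]

theorem sumc_low (G : ℝ) {P γ : ℝ} (hP : max G 1 ^ 2 ≤ P) (h : P ^ (56 / 100 : ℝ) ≤ γ) : G ≤ γ := by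
  have h1 : (1 : ℝ) ≤ max G 1 := le_max_right _ _
  have h2 : 1 ≤ P := (one_le_pow₀ h1).trans hP
  have h3 : P ^ (1 / 2 : ℝ) ≤ P ^ (56 / 100 : ℝ) := Real.rpow_le_rpow_of_exponent_le h2 (by norm_num)
  rw [← Real.sqrt_eq_rpow] at h3
  exact (le_max_left G 1).trans ((Real.le_sqrt_of_sq_le hP).trans (h3.trans h))

/-- Sum-c: `cover_s`; a box that meets `{χ ≠ 0}` satisfies `L0`, `InnJ`; `InBox.kH_le`, `bIs_le`, `lpH`; `ser_sub` with `θ = 455 / 1000` -/
theorem sum_hk (C : ℝ) : ∃ P₀ : ℝ, ∀ P, P₀ ≤ P → ∀ (e : ℝ) (Ω : Type) [MeasurableSpace Ω] (S : Sys Ω C) (t : ℝ) (o : Ω) (s₀ s₁ : ℝ),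
    S.Tst e P t o s₀ s₁ → ∀ s ∈ Icc s₀ s₁,
      S.J o s (S.hk P (en (S.W s₀ o)) o s) ≤ ENNReal.ofReal (en (S.W s₀ o) ^ (46 / 100 : ℝ)) := by
  obtain ⟨P₁, hP₁, hen⟩ := tst_en
  obtain ⟨G₀, hG⟩ := ser_sub C (20 + Real.log C) (100 * Real.exp (20 + Real.log C))
  refine ⟨max P₁ (max G₀ 1 ^ 2), fun P hP e Ω _ S t o s₀ s₁ h s hs => ?_⟩
  have hP1 : P₁ ≤ P := (le_max_left _ _).trans hP
  have hγ := sumc_low G₀ ((le_max_right _ _).trans hP) h.low
  have he := hen P hP1 C e Ω S t o s₀ s₁ h s hs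
  have hsT : s ∈ Icc 0 S.T := ⟨h.h0.trans hs.1, hs.2.trans (h.h1.trans h.tT)⟩
  have hk : (20 : ℝ) ≤ 20 + Real.log C := le_add_of_nonneg_right (Real.log_nonneg S.one_le)
  have h0 : ∀ ω, S.ch P (en (S.W s₀ o)) o s ω = 0 → S.hk P (en (S.W s₀ o)) o s ω = 0 := fun ω hω => by
    unfold Sys.hk
    rw [if_neg (not_not.2 hω)]
  refine (S.cover_s o hsT fun ω hz => h0 ω ?_).trans ?_
  · by_contra hc
    exact (chi_ne_zero hc).1 hz
  rw [show (46 / 100 : ℝ) = 455 / 1000 + 1 / 200 by norm_num]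
  refine hG _ hγ _ _ fun j => ?_
  by_cases hx : ∃ ω ∈ S.bx o j s, S.ch P (en (S.W s₀ o)) o s ω ≠ 0
  · obtain ⟨ω₀, hω₀, hc⟩ := hx
    obtain ⟨hb, hL⟩ := bx_in h (by linarith) hs he hω₀ le_rfl
    have hlp := lpH hL (hb.inn hk hc)
    have n1 : Measurable fun ω => ENNReal.ofReal (S.b o s ω)⁻¹ :=
      (S.meas_b o).inv.ennreal_ofReal.comp (f := fun ω : Ω => (s, ω)) measurable_prodMk_left
    calc _ ≤ ∫⁻ ω in S.bx o j s, ENNReal.ofReal (100 * Real.exp (-jY j / 2 + jX j + jr C j)) *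
          ENNReal.ofReal (S.b o s ω)⁻¹ ∂S.μ := by
          refine setLIntegral_mono' (S.meas_box o _ _ _ _ _ s) fun ω hω => ?_
          rw [← ENNReal.ofReal_mul (by positivity)]
          refine ENNReal.ofReal_le_ofReal (mul_le_mul_of_nonneg_right ?_ (inv_nonneg.2 (S.b_bounds o s ω).2.1.le))
          unfold Sys.hk
          split_ifs
          · exact (bx_in h (by linarith) hs he hω le_rfl).1.kH_le
          · positivity
      _ ≤ ENNReal.ofReal (100 * Real.exp (-jY j / 2 + jX j + jr C j)) *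
          ENNReal.ofReal (Real.exp (3 * jm j - jY j - jX j - 3 * jr C j + (20 + Real.log C))) := by
          rw [lintegral_const_mul _ n1]
          exact mul_le_mul_right (bIs_le hsT le_rfl j) _
      _ ≤ _ := by
          rw [← ENNReal.ofReal_mul (by positivity)]
          refine ENNReal.ofReal_le_ofReal ?_
          rw [mul_assoc, mul_assoc, ← Real.exp_add, ← Real.exp_add]
          refine mul_le_mul_of_nonneg_left (Real.exp_le_exp.2 ?_) (by norm_num)
          linarith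
  · push Not at hx
    refine le_trans (setLIntegral_mono' (g := fun _ => 0) (S.meas_box o _ _ _ _ _ s) fun ω hω => ?_) (by simp)
    rw [h0 ω (hx ω hω), zero_mul, ENNReal.ofReal_zero]

theorem s_sum_of (hp : S_PASS) : S_SUM := by
  intro C
  obtain ⟨K, hK, h⟩ := sum_rm hp C
  refine ⟨K, hK, fun e he he1 => ?_⟩
  obtain ⟨P₁, h₁⟩ := h e he he1
  obtain ⟨P₂, h₂⟩ := sum_II hp C e he he1
  obtain ⟨P₃, h₃⟩ := sum_hk C
  refine ⟨max P₁ (max P₂ P₃), fun P hP Ω _ S t o s₀ s₁ ht => ⟨h₁ P (le_trans (le_max_left _ _) hP) Ω S t o s₀ s₁ ht,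
    h₂ P (le_trans ((le_max_left _ _).trans (le_max_right _ _)) hP) Ω S t o s₀ s₁ ht,
    h₃ P (le_trans ((le_max_right _ _).trans (le_max_right _ _)) hP) e Ω S t o s₀ s₁ ht⟩⟩

end Crest.Agent.R106.A
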