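import Crest.Agent.R106.A.Ser

/-! # R106/A/Term (helper44): the bounds of one box in logarithmic form. -/

set_option autoImplicit false

open MeasureTheory Set Crest.AnalysisR.VecCalc3 Crest.AnalysisR.PDE.RVM
open scoped ENNReal RealInnerProductSpace

noncomputable section
namespace Crest.Agent.R106.A

variable {C e P t s₀ s₁ k : ℝ} {Ω : Type} [MeasurableSpace Ω] {S : Sys Ω C} {o : Ω}

theorem jX_nonneg (j : Ix) : 0 ≤ jX j := mul_nonneg (Nat.cast_nonneg _) (Real.log_nonneg one_le_two)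
theorem jY_nonneg (j : Ix) : 0 ≤ jY j := mul_nonneg (Nat.cast_nonneg _) (Real.log_nonneg one_le_two)
theorem jW_nonneg (j : Ix) : 0 ≤ jW j := mul_nonneg (Nat.cast_nonneg _) (Real.log_nonneg one_le_two)

theorem terma_const (hC : 1 ≤ C) (hk : 20 + Real.log C ≤ k) : 36000000 * C ≤ Real.exp k := by
  have hC0 : 0 < C := zero_lt_one.trans_le hC
  have h1 : Real.exp (20 + Real.log C) ≤ Real.exp k := Real.exp_le_exp.2 hk
  rw [Real.exp_add, Real.exp_log hC0] at h1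
  have h2 : (36000000 : ℝ) ≤ Real.exp 20 := by
    have h3 : Real.exp 20 = Real.exp 1 ^ 20 := by rw [← Real.exp_nat_mul]; norm_num
    have h4 : (5 / 2 : ℝ) ≤ Real.exp 1 := by linarith [Real.exp_one_gt_d9]
    rw [h3]
    exact le_trans (by norm_num) (pow_le_pow_left₀ (by norm_num) h4 20)
  nlinarith

theorem terma_le2 {x : ℝ} (hx : 0 ≤ x) : Real.exp (-x) ≤ 2 :=
  (Real.exp_le_one_iff.2 (by linarith)).trans one_le_two

theorem terma_min (Y W : ℝ) : min (Real.exp (-Y)) (Real.exp (-W)) = Real.exp (-max Y W) := by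
  rcases le_total Y W with h | h
  · rw [max_eq_right h, min_eq_right (Real.exp_le_exp.2 (by linarith))]
  · rw [max_eq_left h, min_eq_left (Real.exp_le_exp.2 (by linarith))]

theorem terma_cube (x : ℝ) : Real.exp x ^ 3 = Real.exp (3 * x) := by
  rw [← Real.exp_nat_mul]; norm_num

/-- Term-a: `I_vol`, `I_cone`, `I_en` with `s₁ - s₀ ≤ ℓ = exp l`; `36000000 C ≤ exp k`, `min (exp (-Y)) (exp (-W)) = exp (-max Y W)`,
`ℓ + 2 R ≤ 3 exp (max l (-r))` -/
theorem bI_le (h : S.Tst e P t o s₀ s₁) {l : ℝ} (hl : s₁ - s₀ ≤ Real.exp l) (hk : 20 + Real.log C ≤ k) (j : Ix) :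
    S.bI o j s₀ s₁ ≤ ENNReal.ofReal (Real.exp (l + 3 * jm j - max (jY j) (jW j) - jX j - 3 * jr C j + k)) ∧
    S.bI o j s₀ s₁ ≤ ENNReal.ofReal (Real.exp (l - jm j + jY j + k)) ∧
    S.bI o j s₀ s₁ ≤ ENNReal.ofReal (Real.exp (max l (-jr C j) - jm j + jX j + k)) := by
  have hc := terma_const S.one_le hk
  have hC0 : 0 < C := zero_lt_one.trans_le S.one_le
  have hT : s₁ ≤ S.T := h.h1.trans h.tT
  have hd : 0 ≤ s₁ - s₀ := sub_nonneg.2 h.h01
  refine ⟨(S.I_vol o h.h0 h.h01 hT (Real.exp_pos _) (Real.exp_pos _) (terma_le2 (jY_nonneg j)) (Real.exp_pos _)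
      (terma_le2 (jW_nonneg j)) (Real.exp_pos _) (terma_le2 (jX_nonneg j)) (Real.exp_pos _)).trans
      (ENNReal.ofReal_le_ofReal ?_),
    (S.I_cone o h.h0 h.h01 hT (Real.exp_pos _) (Real.exp_pos _)).trans (ENNReal.ofReal_le_ofReal ?_),
    (S.I_en o h.h0 h.h01 hT (Real.exp_pos _) (Real.exp_pos _) (Real.exp_pos _)).trans (ENNReal.ofReal_le_ofReal ?_)⟩
  · rw [terma_min, terma_cube, terma_cube]
    calc _ ≤ Real.exp k * Real.exp l * Real.exp (3 * jm j) * Real.exp (-max (jY j) (jW j)) * Real.exp (-jX j) *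
          Real.exp (3 * -jr C j) := by gcongr
      _ = _ := by simp only [← Real.exp_add]; congr 1; ring
  · rw [div_le_iff₀ (by positivity)]
    calc _ ≤ Real.exp k * Real.exp l := by gcongr; linarith
      _ = _ := by simp only [← Real.exp_add]; congr 1; ring
  · rw [div_le_iff₀ (by positivity)]
    have h1 : Real.exp l ≤ Real.exp (max l (-jr C j)) := Real.exp_le_exp.2 (le_max_left _ _)
    have h2 : Real.exp (-jr C j) ≤ Real.exp (max l (-jr C j)) := Real.exp_le_exp.2 (le_max_right _ _)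
    calc _ ≤ C * (3 * Real.exp (max l (-jr C j))) := by gcongr; linarith
      _ = 3 * C * Real.exp (max l (-jr C j)) := by ring
      _ ≤ Real.exp k * Real.exp (max l (-jr C j)) := by gcongr; linarith
      _ = _ := by simp only [← Real.exp_add]; congr 1; ring

/-- Term-a: `Is_vol` -/
theorem bIs_le {s : ℝ} (hs : s ∈ Icc 0 S.T) (hk : 20 + Real.log C ≤ k) (j : Ix) :
    ∫⁻ ω in S.bx o j s, ENNReal.ofReal (S.b o s ω)⁻¹ ∂S.μ ≤ ENNReal.ofReal (Real.exp (3 * jm j - jY j - jX j - 3 * jr C j + k)) := by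
  have hc := terma_const S.one_le hk
  have hC0 : 0 < C := zero_lt_one.trans_le S.one_le
  refine (S.Is_vol o hs (Real.exp_pos _) (Real.exp_pos _) (terma_le2 (jY_nonneg j)) (Real.exp_pos _)
    (terma_le2 (jW_nonneg j)) (Real.exp_pos _) (terma_le2 (jX_nonneg j)) (Real.exp_pos _)).trans (ENNReal.ofReal_le_ofReal ?_)
  rw [terma_cube, terma_cube]
  have h1 : min (Real.exp (-jY j)) (Real.exp (-jW j)) ≤ Real.exp (-jY j) := min_le_left _ _
  have h2 : 0 ≤ min (Real.exp (-jY j)) (Real.exp (-jW j)) := le_min (Real.exp_pos _).le (Real.exp_pos _).le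
  calc _ ≤ Real.exp k * Real.exp (3 * jm j) * Real.exp (-jY j) * Real.exp (-jX j) * Real.exp (3 * -jr C j) := by gcongr
    _ = _ := by simp only [← Real.exp_add]; congr 1; ring

theorem termb_C (hC : 1 ≤ C) (hk : 20 + Real.log C ≤ k) : 36000 * C ^ 2 ≤ Real.exp (2 * k) := by
  have hC0 : 0 < C := by linarith
  have h1 : Real.exp (2 * (20 + Real.log C)) ≤ Real.exp (2 * k) := Real.exp_le_exp.2 (by linarith)
  have h2 : Real.exp (2 * (20 + Real.log C)) = Real.exp 8 ^ 5 * C ^ 2 := by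
    rw [← Real.exp_nat_mul, show 2 * (20 + Real.log C) = ((5 : ℕ) : ℝ) * 8 + Real.log C + Real.log C by push_cast; ring,
      Real.exp_add, Real.exp_add, Real.exp_log hC0]; ring
  have h3 : (9 : ℝ) ≤ Real.exp 8 := by have := Real.add_one_le_exp (8 : ℝ); linarith
  have h4 : (9 : ℝ) ^ 5 ≤ Real.exp 8 ^ 5 := pow_le_pow_left₀ (by norm_num) h3 5
  have h5 : (36000 : ℝ) ≤ Real.exp 8 ^ 5 := le_trans (by norm_num) h4
  calc 36000 * C ^ 2 ≤ Real.exp 8 ^ 5 * C ^ 2 := mul_le_mul_of_nonneg_right h5 (by positivity)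
    _ ≤ _ := h2 ▸ h1

theorem termb_min (Y W : ℝ) : min (Real.exp (-Y)) (Real.exp (-W)) = Real.exp (-max Y W) := by
  rcases le_total Y W with h | h
  · rw [max_eq_right h, min_eq_right (Real.exp_le_exp.2 (by linarith))]
  · rw [max_eq_left h, min_eq_left (Real.exp_le_exp.2 (by linarith))]

theorem termb_two {x : ℝ} (hx : 0 ≤ x) : Real.exp (-x) ≤ 2 :=
  (Real.exp_le_one_iff.2 (by linarith)).trans one_le_two

theorem termb_sqrt (a i : ℝ) : √(Real.exp a * Real.exp i) = Real.exp ((a + i) / 2) := by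
  rw [← Real.exp_add, Real.exp_half]

/-- Term-b: `cs_box` with `sq_good` (`Real.sq_sqrt (gd_nonneg ..)`) -/
theorem bG_le (h : S.Tst e P t o s₀ s₁) {l i : ℝ} (hl : s₁ - s₀ ≤ Real.exp l) (hk : 20 + Real.log C ≤ k) (j : Ix)
    (hi : S.bI o j s₀ s₁ ≤ ENNReal.ofReal (Real.exp i)) :
    S.bG o j s₀ s₁ ≤ ENNReal.ofReal (Real.exp (k + (3 * jm j - max (jY j) (jW j) + l + i) / 2)) := by
  have hT : s₁ ≤ S.T := h.h1.trans h.tT
  have h2 := S.sq_good o (A := Real.exp (-jX j)) (R := Real.exp (-jr C j)) h.h0 h.h01 hT (Real.exp_pos (jm j))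
    (Real.exp_pos (-jY j)) (termb_two (jY_nonneg j)) (Real.exp_pos (-jW j)) (termb_two (jW_nonneg j))
  have hX : 6000 * C ^ 2 * Real.exp (jm j) ^ 3 * min (Real.exp (-jY j)) (Real.exp (-jW j)) * (s₁ - s₀) ≤
      Real.exp (2 * k + (3 * jm j - max (jY j) (jW j) + l)) := by
    have hC := termb_C S.one_le hk
    rw [termb_min, ← Real.exp_nat_mul, show 2 * k + (3 * jm j - max (jY j) (jW j) + l) =
      2 * k + ((3 : ℕ) : ℝ) * jm j + -max (jY j) (jW j) + l by push_cast; ring, Real.exp_add, Real.exp_add, Real.exp_add]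
    have h01 : 0 ≤ s₁ - s₀ := sub_nonneg.2 h.h01
    have hC' : 6000 * C ^ 2 ≤ Real.exp (2 * k) := by nlinarith [sq_nonneg C]
    gcongr
  have hm : Measurable fun p : ℝ × Ω => √(gd (dir (S.z o p.1 p.2)) (S.Es o p.1 p.2) (S.Bs o p.1 p.2)) :=
    (meas_gd.comp ((meas_dir.comp (S.meas_z o)).prodMk ((S.meas_Es o).prodMk (S.meas_Bs o)))).sqrt
  have := S.cs_box o (k := fun s ω => √(gd (dir (S.z o s ω)) (S.Es o s ω) (S.Bs o s ω))) hm (fun _ _ => Real.sqrt_nonneg _)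
    (Real.exp_pos (2 * k + (3 * jm j - max (jY j) (jW j) + l))).le (Real.exp_pos i).le
    (by simp only [Real.sq_sqrt (gd_nonneg _ _ _)]; exact h2.trans (ENNReal.ofReal_le_ofReal hX)) hi
  rw [termb_sqrt, show (2 * k + (3 * jm j - max (jY j) (jW j) + l) + i) / 2 =
    k + (3 * jm j - max (jY j) (jW j) + l + i) / 2 by ring] at this
  exact this

/-- Term-b: `cs_box` with `sq_bad` (`(‖E‖ + ‖B‖) ^ 2 ≤ 2 (‖E‖ ^ 2 + ‖B‖ ^ 2)`) -/
theorem bB_le (h : S.Tst e P t o s₀ s₁) {l i : ℝ} (hl : s₁ - s₀ ≤ Real.exp l) (hk : 20 + Real.log C ≤ k) (j : Ix)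
    (hi : S.bI o j s₀ s₁ ≤ ENNReal.ofReal (Real.exp i)) :
    S.bB o j s₀ s₁ ≤ ENNReal.ofReal (Real.exp (k + (3 * jm j - max (jY j) (jW j) + max l (-jr C j) + jX j + i) / 2)) := by
  have hT : s₁ ≤ S.T := h.h1.trans h.tT
  have h2 := S.sq_bad o h.h0 h.h01 hT (Real.exp_pos (jm j))
    (Real.exp_pos (-jY j)) (termb_two (jY_nonneg j)) (Real.exp_pos (-jW j)) (termb_two (jW_nonneg j))
    (Real.exp_pos (-jX j)) (Real.exp_pos (-jr C j))
  have hX : 2 * (6000 * C ^ 2 * Real.exp (jm j) ^ 3 * min (Real.exp (-jY j)) (Real.exp (-jW j)) *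
      (s₁ - s₀ + 2 * Real.exp (-jr C j)) / Real.exp (-jX j)) ≤
      Real.exp (2 * k + (3 * jm j - max (jY j) (jW j) + max l (-jr C j) + jX j)) := by
    have hC := termb_C S.one_le hk
    have h3 : s₁ - s₀ + 2 * Real.exp (-jr C j) ≤ 3 * Real.exp (max l (-jr C j)) := by
      have a1 : Real.exp l ≤ Real.exp (max l (-jr C j)) := Real.exp_le_exp.2 (le_max_left _ _)
      have a2 : Real.exp (-jr C j) ≤ Real.exp (max l (-jr C j)) := Real.exp_le_exp.2 (le_max_right _ _)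
      linarith
    rw [termb_min, ← Real.exp_nat_mul, show 2 * k + (3 * jm j - max (jY j) (jW j) + max l (-jr C j) + jX j) =
      2 * k + (((3 : ℕ) : ℝ) * jm j + -max (jY j) (jW j) + max l (-jr C j) + jX j) by push_cast; ring, Real.exp_add, Real.exp_add,
      Real.exp_add, Real.exp_add, Real.exp_neg (jX j), div_inv_eq_mul]
    calc _ = 12000 * C ^ 2 * (Real.exp (((3 : ℕ) : ℝ) * jm j) * Real.exp (-max (jY j) (jW j)) *
          (s₁ - s₀ + 2 * Real.exp (-jr C j)) * Real.exp (jX j)) := by ring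
      _ ≤ 12000 * C ^ 2 * (Real.exp (((3 : ℕ) : ℝ) * jm j) * Real.exp (-max (jY j) (jW j)) *
          (3 * Real.exp (max l (-jr C j))) * Real.exp (jX j)) := by gcongr
      _ = 36000 * C ^ 2 * (Real.exp (((3 : ℕ) : ℝ) * jm j) * Real.exp (-max (jY j) (jW j)) *
          Real.exp (max l (-jr C j)) * Real.exp (jX j)) := by ring
      _ ≤ _ := by gcongr
  have hm : Measurable fun p : ℝ × Ω => ‖S.Es o p.1 p.2‖ + ‖S.Bs o p.1 p.2‖ := (S.meas_Es o).norm.add (S.meas_Bs o).norm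
  have h4 : ∫⁻ s in Icc s₀ s₁, ∫⁻ ω in S.bx o j s,
      ENNReal.ofReal ((‖S.Es o s ω‖ + ‖S.Bs o s ω‖) ^ 2) * ENNReal.ofReal (S.b o s ω)⁻¹ ∂S.μ ≤
      ENNReal.ofReal (Real.exp (2 * k + (3 * jm j - max (jY j) (jW j) + max l (-jr C j) + jX j))) := by
    calc _ ≤ ∫⁻ s in Icc s₀ s₁, ENNReal.ofReal 2 * ∫⁻ ω in S.bx o j s,
          ENNReal.ofReal (‖S.Es o s ω‖ ^ 2 + ‖S.Bs o s ω‖ ^ 2) * ENNReal.ofReal (S.b o s ω)⁻¹ ∂S.μ := by
          refine lintegral_mono fun s => ?_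
          rw [← lintegral_const_mul' _ _ ENNReal.ofReal_ne_top]
          refine lintegral_mono fun ω => ?_
          rw [← mul_assoc, ← ENNReal.ofReal_mul (p := 2) (by norm_num)]
          have h5 : (‖S.Es o s ω‖ + ‖S.Bs o s ω‖) ^ 2 ≤ 2 * (‖S.Es o s ω‖ ^ 2 + ‖S.Bs o s ω‖ ^ 2) := by
            nlinarith [sq_nonneg (‖S.Es o s ω‖ - ‖S.Bs o s ω‖)]
          exact mul_le_mul_left (ENNReal.ofReal_le_ofReal h5) _
      _ = ENNReal.ofReal 2 * ∫⁻ s in Icc s₀ s₁, ∫⁻ ω in S.bx o j s,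
          ENNReal.ofReal (‖S.Es o s ω‖ ^ 2 + ‖S.Bs o s ω‖ ^ 2) * ENNReal.ofReal (S.b o s ω)⁻¹ ∂S.μ :=
          lintegral_const_mul' _ _ ENNReal.ofReal_ne_top
      _ ≤ ENNReal.ofReal 2 * ENNReal.ofReal (6000 * C ^ 2 * Real.exp (jm j) ^ 3 * min (Real.exp (-jY j)) (Real.exp (-jW j)) *
          (s₁ - s₀ + 2 * Real.exp (-jr C j)) / Real.exp (-jX j)) := mul_le_mul_right h2 _
      _ ≤ _ := by
          rw [← ENNReal.ofReal_mul (by norm_num)]; exact ENNReal.ofReal_le_ofReal hX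
  have := S.cs_box o (k := fun s ω => ‖S.Es o s ω‖ + ‖S.Bs o s ω‖) hm (fun _ _ => by positivity)
    (Real.exp_pos _).le (Real.exp_pos i).le h4 hi
  rw [termb_sqrt, show (2 * k + (3 * jm j - max (jY j) (jW j) + max l (-jr C j) + jX j) + i) / 2 =
    k + (3 * jm j - max (jY j) (jW j) + max l (-jr C j) + jX j + i) / 2 by ring] at this
  exact this

theorem termc_min {a : ℝ≥0∞} {x y : ℝ} (hx : a ≤ ENNReal.ofReal (Real.exp x)) (hy : a ≤ ENNReal.ofReal (Real.exp y)) :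
    a ≤ ENNReal.ofReal (Real.exp (min x y)) := by
  rcases le_total x y with u | u
  · rwa [min_eq_left u]
  · rwa [min_eq_right u]

/-- Term-c: `k = 20 + log C + log K_pass`; `i` = the minimum of the three exponents of `bI_le` and (if the three conditions of the pass
count hold, by cases) of `nu - r - m + 3 / 2 W + k`; `lev_log`, `nu_bd` -/
theorem exists_LP (hp : S_PASS) (C : ℝ) : ∃ k : ℝ, 20 + Real.log C ≤ k ∧ ∀ e : ℝ, 0 < e → e ≤ 1 → ∃ P₀ : ℝ, 3 ≤ P₀ ∧ ∀ P, P₀ ≤ P →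
    ∀ (Ω : Type) [MeasurableSpace Ω] (S : Sys Ω C) (t : ℝ) (o : Ω) (s₀ s₁ : ℝ), S.Tst e P t o s₀ s₁ → ∀ j : Ix,
      L0 C (Real.log P) (Real.log (en (S.W s₀ o))) k j →
      ∃ i, LP (Real.log P) (Real.log (en (S.W s₀ o))) (jm j) (jX j) (jY j) (jW j) (jr C j) (Real.log (lev e P (en (S.W s₀ o))))
          (nu e P (en (S.W s₀ o)) (jm j)) i k ∧ S.bI o j s₀ s₁ ≤ ENNReal.ofReal (Real.exp i) := by
  obtain ⟨K, hK1, hK⟩ := hp C
  have hK0 : 0 ≤ Real.log K := Real.log_nonneg hK1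
  refine ⟨20 + Real.log C + Real.log K, by linarith, fun e he he1 => ?_⟩
  obtain ⟨P1, hP1⟩ := hK e he he1
  obtain ⟨P2, h23, hP2⟩ := lev_log he he1
  obtain ⟨P3, -, hP3⟩ := nu_bd he he1
  refine ⟨max P2 (max P1 P3), h23.trans (le_max_left _ _), fun P hP Ω _ S t o s₀ s₁ h j hL => ?_⟩
  have q2 : P2 ≤ P := (le_max_left _ _).trans hP
  have q1 : P1 ≤ P := ((le_max_left _ _).trans (le_max_right _ _)).trans hP
  have q3 : P3 ≤ P := ((le_max_right _ _).trans (le_max_right _ _)).trans hP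
  have hP1' : 1 < P := by linarith
  have hP0 : 0 < P := by linarith
  have hC0 : 0 ≤ Real.log C := Real.log_nonneg S.one_le
  have hγ0 : 0 < en (S.W s₀ o) := en_pos _
  have hγP : en (S.W s₀ o) ≤ P := h.bd s₀ o (h.h01.trans (h.h1.trans h.tT))
  have hlev := ser_lev_pos he hP1' hγ0
  have hl : s₁ - s₀ ≤ Real.exp (Real.log (lev e P (en (S.W s₀ o)))) := by rw [Real.exp_log hlev]; exact h.len
  obtain ⟨b1, b2, b3⟩ := bI_le (k := 20 + Real.log C + Real.log K) h hl (by linarith) j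
  obtain ⟨l1, l0⟩ := hP2 P q2 _ hγ0 hγP
  obtain ⟨n0, n1⟩ := hP3 P q3 _ (jm j) hγ0 hγP hL.m1
  have hp0 : 0 ≤ Real.log P := hL.p0
  have key : ∀ i, i ≤ min (Real.log (lev e P (en (S.W s₀ o))) + 3 * jm j - max (jY j) (jW j) - jX j - 3 * jr C j +
        (20 + Real.log C + Real.log K)) (min (Real.log (lev e P (en (S.W s₀ o))) - jm j + jY j + (20 + Real.log C + Real.log K))
        (max (Real.log (lev e P (en (S.W s₀ o)))) (-jr C j) - jm j + jX j + (20 + Real.log C + Real.log K))) →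
      (jm j ≤ 58 / 100 * Real.log P ∨ 104 / 100 * Real.log (en (S.W s₀ o)) ≤ jW j ∨ 104 / 100 * jm j ≤ jW j ∨
        i ≤ nu e P (en (S.W s₀ o)) (jm j) - jr C j - jm j + 3 / 2 * jW j + (20 + Real.log C + Real.log K)) →
      LP (Real.log P) (Real.log (en (S.W s₀ o))) (jm j) (jX j) (jY j) (jW j) (jr C j) (Real.log (lev e P (en (S.W s₀ o))))
          (nu e P (en (S.W s₀ o)) (jm j)) i (20 + Real.log C + Real.log K) := by
    intro i hi hip
    rw [le_min_iff, le_min_iff] at hi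
    obtain ⟨i1, i2, i3⟩ := hi
    refine ⟨hL, l1, by linarith, n0, n1, by linarith [le_max_left (jY j) (jW j)], by linarith [le_max_right (jY j) (jW j)], i2, ?_, hip⟩
    rcases le_total (Real.log (lev e P (en (S.W s₀ o)))) (-jr C j) with u | u
    · rw [max_eq_right u] at i3
      exact Or.inr i3
    · rw [max_eq_left u] at i3
      exact Or.inl i3
  have b0 := termc_min b1 (termc_min b2 b3)
  by_cases hc : jm j ≤ 58 / 100 * Real.log P ∨ 104 / 100 * Real.log (en (S.W s₀ o)) ≤ jW j ∨ 104 / 100 * jm j ≤ jW j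
  · refine ⟨_, key _ le_rfl ?_, b0⟩
    rcases hc with u | u | u
    · exact Or.inl u
    · exact Or.inr (Or.inl u)
    · exact Or.inr (Or.inr (Or.inl u))
  · simp only [not_or, not_le] at hc
    obtain ⟨c1, c2, c3⟩ := hc
    have hM : Real.exp (jm j) ≤ P := (Real.le_log_iff_exp_le hP0).1 hL.m1
    have hpass := hP1 P q1 Ω S t o s₀ s₁ h (Real.exp (-jX j)) (Real.exp (-jY j)) (Real.exp (-jW j)) (Real.exp (-jr C j))
      (Real.exp (jm j)) (Real.exp_pos _) (Real.exp_pos _) (Real.exp_pos _) (Real.exp_pos _)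
      (by rw [Real.rpow_def_of_pos hP0]; exact Real.exp_le_exp.2 (by linarith)) hM
      (by rw [Real.rpow_def_of_pos hγ0]; exact Real.exp_le_exp.2 (by linarith))
      (by rw [← Real.exp_mul]; exact Real.exp_le_exp.2 (by linarith))
    have b4 : S.bI o j s₀ s₁ ≤ ENNReal.ofReal (Real.exp (nu e P (en (S.W s₀ o)) (jm j) - jr C j - jm j + 3 / 2 * jW j +
        (20 + Real.log C + Real.log K))) := by
      refine le_trans hpass (ENNReal.ofReal_le_ofReal ?_)
      have hlevM := ser_lev_pos he hP1' (Real.exp_pos (jm j))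
      have e1 : 1 + lev e P (en (S.W s₀ o)) / lev e P (Real.exp (jm j)) = Real.exp (nu e P (en (S.W s₀ o)) (jm j)) := by
        unfold nu
        rw [Real.exp_log (by positivity)]
      have e2 : √(Real.exp (-jW j)) = Real.exp (-jW j / 2) := (Real.exp_half _).symm
      have e3 : K = Real.exp (Real.log K) := (Real.exp_log (by linarith)).symm
      rw [e1, e2]
      conv_lhs => rw [e3]
      rw [← Real.exp_add, ← Real.exp_add, ← Real.exp_add, ← Real.exp_add, ← Real.exp_sub]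
      exact Real.exp_le_exp.2 (by linarith)
    exact ⟨_, key _ (min_le_left _ _) (Or.inr (Or.inr (Or.inr (min_le_right _ _)))), termc_min b0 b4⟩

end Crest.Agent.R106.A
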